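import Mathlib

namespace Vale.Agent.Lib.P080

open Filter Topology Set Metric

theorem exists_uniform_subseq {X : Type*} [PseudoMetricSpace X] {K : Set X} (hK : IsCompact K)
    (U : ℕ → X → ℝ) {L : ℝ} (hbd : ∀ n, ∀ x ∈ K, |U n x| ≤ 1)
    (hlip : ∀ n, ∀ x ∈ K, ∀ y ∈ K, |U n x - U n y| ≤ L * dist x y) :
    ∃ φ : ℕ → ℕ, StrictMono φ ∧ ∃ g : X → ℝ, ContinuousOn g K ∧
      TendstoUniformlyOn (fun n => U (φ n)) g atTop K := by
  classical
  have hcpt : CompactSpace K := isCompact_iff_compactSpace.mp hK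
  have hlip' : ∀ n, ∀ x y : K, |U n x - U n y| ≤ max L 0 * dist x y := by
    intro n x y
    refine (hlip n x x.2 y y.2).trans ?_
    exact mul_le_mul_of_nonneg_right (le_max_left _ _) dist_nonneg
  have hcont : ∀ n, Continuous (fun x : K => U n x) := by
    intro n
    have hL : LipschitzWith (Real.toNNReal (max L 0)) (fun x : K => U n x) := by
      apply LipschitzWith.of_dist_le_mul
      intro x y
      rw [Real.dist_eq, Real.coe_toNNReal _ (le_max_right _ _)]
      exact hlip' n x y
    exact hL.continuous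
  obtain ⟨f, hf⟩ : ∃ f : ℕ → BoundedContinuousFunction K ℝ, ∀ n, ∀ x : K, f n x = U n x :=
    ⟨fun n => BoundedContinuousFunction.mkOfCompact ⟨fun x : K => U n x, hcont n⟩,
      fun _ _ => rfl⟩
  obtain ⟨A, hA⟩ : ∃ A : Set (BoundedContinuousFunction K ℝ),
      A = {h | (∀ x, |h x| ≤ 1) ∧ ∀ x y, |h x - h y| ≤ max L 0 * dist x y} := ⟨_, rfl⟩
  have hmem : ∀ h : BoundedContinuousFunction K ℝ, h ∈ A →
      (∀ x, |h x| ≤ 1) ∧ ∀ x y, |h x - h y| ≤ max L 0 * dist x y := by
    intro h hh
    rw [hA] at hh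
    exact hh
  have hfA : ∀ n, f n ∈ A := by
    intro n
    rw [hA]
    refine ⟨fun x => ?_, fun x y => ?_⟩
    · rw [hf n x]
      exact hbd n x x.2
    · rw [hf n x, hf n y]
      exact hlip' n x y
  have hev : ∀ x : K, Continuous (fun h : BoundedContinuousFunction K ℝ => h x) :=
    fun x => (BoundedContinuousFunction.lipschitz_eval_const x).continuous
  have hclosed : IsClosed A := by
    have h1 : IsClosed {h : BoundedContinuousFunction K ℝ | ∀ x, |h x| ≤ 1} := by
      rw [Set.ofPred_forall]
      refine isClosed_iInter (fun x => ?_)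
      exact isClosed_le (continuous_abs.comp (hev x)) continuous_const
    have h2 : IsClosed {h : BoundedContinuousFunction K ℝ |
        ∀ x y, |h x - h y| ≤ max L 0 * dist x y} := by
      rw [Set.ofPred_forall]
      refine isClosed_iInter (fun x => ?_)
      rw [Set.ofPred_forall]
      refine isClosed_iInter (fun y => ?_)
      exact isClosed_le (continuous_abs.comp ((hev x).sub (hev y))) continuous_const
    rw [hA]
    exact h1.inter h2
  have hequi : Equicontinuous ((↑) : A → K → ℝ) := by
    have hb : Tendsto (fun d : ℝ => max L 0 * d) (𝓝 0) (𝓝 0) := by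
      have h0 := (continuous_const_mul (max L 0)).tendsto 0
      simpa using h0
    refine Metric.equicontinuous_of_continuity_modulus (fun d : ℝ => max L 0 * d) hb _ ?_
    intro x y h
    rw [Real.dist_eq]
    exact (hmem h.1 h.2).2 x y
  have hAc : IsCompact A := by
    refine BoundedContinuousFunction.arzela_ascoli₂ (Icc (-1) 1) isCompact_Icc A hclosed ?_ hequi
    intro h x hh
    exact abs_le.mp ((hmem h hh).1 x)
  obtain ⟨a, -, φ, hφ, hlim⟩ := hAc.tendsto_subseq hfA
  refine ⟨φ, hφ, fun x => if h : x ∈ K then a ⟨x, h⟩ else 0, ?_, ?_⟩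
  · rw [continuousOn_iff_continuous_domRestrict]
    have hr : K.domRestrict (fun x => if h : x ∈ K then a ⟨x, h⟩ else 0) = a := by
      ext x
      simp [Set.domRestrict]
    rw [hr]
    exact a.continuous
  · rw [Metric.tendstoUniformlyOn_iff]
    intro ε hε
    obtain ⟨N, hN⟩ := (Metric.tendsto_atTop.mp hlim) ε hε
    filter_upwards [eventually_ge_atTop N] with n hn x hx
    simp only [dif_pos hx]
    have h1 : U (φ n) x = f (φ n) ⟨x, hx⟩ := (hf (φ n) ⟨x, hx⟩).symm
    rw [h1]
    calc dist (a ⟨x, hx⟩) (f (φ n) ⟨x, hx⟩) ≤ dist a (f (φ n)) :=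
          BoundedContinuousFunction.dist_coe_le_dist _
      _ < ε := by
          rw [dist_comm]
          exact hN n hn

end Vale.Agent.Lib.P080
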