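import Mathlib

namespace Vale.Agent.Lib.P080

open Topology

/-- The infinity Laplacian `⟨D²φ(z) ∇φ(z), ∇φ(z)⟩` of `φ` at the point `z`. -/
noncomputable def infLaplacian {E : Type*} [NormedAddCommGroup E] [InnerProductSpace ℝ E]
    [CompleteSpace E] (φ : E → ℝ) (z : E) : ℝ :=
  fderiv ℝ (fderiv ℝ φ) z (gradient φ z) (gradient φ z)

/-- `u` is infinity-harmonic on `Ω` in the viscosity sense: `u` is continuous on `Ω`, and
whenever `φ` is `C²` near a point `z ∈ Ω` and `u - φ` has a local maximum (resp. minimum)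
at `z`, the infinity Laplacian of `φ` at `z` is `≥ 0` (resp. `≤ 0`). -/
def IsInfinityHarmonicOn {E : Type*} [NormedAddCommGroup E] [InnerProductSpace ℝ E]
    [CompleteSpace E] (u : E → ℝ) (Ω : Set E) : Prop :=
  ContinuousOn u Ω ∧
  (∀ φ : E → ℝ, ∀ z ∈ Ω, ContDiffAt ℝ 2 φ z →
    IsLocalMax (fun x => u x - φ x) z → 0 ≤ infLaplacian φ z) ∧
  (∀ φ : E → ℝ, ∀ z ∈ Ω, ContDiffAt ℝ 2 φ z →
    IsLocalMin (fun x => u x - φ x) z → infLaplacian φ z ≤ 0)

/-- The open box `∏ I i` in Euclidean space. -/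
def box {d : ℕ} (I : Fin d → Set ℝ) : Set (EuclideanSpace ℝ (Fin d)) :=
  {x | ∀ i, x i ∈ I i}

/-- The open cube with centre `p` and half side `r`. -/
def cube {d : ℕ} (p : Fin d → ℝ) (r : ℝ) : Set (EuclideanSpace ℝ (Fin d)) :=
  {x | ∀ i, |x i - p i| < r}

end Vale.Agent.Lib.P080
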