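import Mathlib
import Vale.Agent.Lib.P080.Defs

namespace Vale.Agent.Lib.P080

/-- The point of the Euclidean plane with coordinates `(r, t)`. -/
noncomputable def planePt (r t : ℝ) : EuclideanSpace ℝ (Fin 2) := WithLp.toLp 2 ![r, t]

/-- The reflection `(r, t) ↦ (-r, t)` of the Euclidean plane. -/
noncomputable def planeRefl (y : EuclideanSpace ℝ (Fin 2)) : EuclideanSpace ℝ (Fin 2) :=
  planePt (-(y 0)) (y 1)

/-- Cylindrical coordinates about the axis spanned by `e`: the point `x` is sent to
`(distance from x to the axis, height of x along the axis)`, that is to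
`(‖x - ⟪e, x⟫ e‖, ⟪e, x⟫)` (for a unit vector `e`). -/
noncomputable def axMap {E : Type*} [NormedAddCommGroup E] [InnerProductSpace ℝ E]
    (e : E) (x : E) : EuclideanSpace ℝ (Fin 2) :=
  planePt ‖x - (inner ℝ e x) • e‖ (inner ℝ e x)

end Vale.Agent.Lib.P080
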