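import Mathlib
import Vale.Agent.Lib.P080.Defs

namespace Vale.Agent.Lib.P080

open Filter Topology Set Metric

section

variable {E : Type*} [NormedAddCommGroup E] [InnerProductSpace ℝ E] [CompleteSpace E]

omit [CompleteSpace E] in
theorem lineE_hasDerivAt (z v : E) (s : ℝ) : HasDerivAt (fun s : ℝ => z + s • v) v s := by
  have h := ((hasDerivAt_id s).smul_const v).const_add z
  simpa using h

omit [CompleteSpace E] in
theorem lineE_tendsto (z v : E) : Tendsto (fun s : ℝ => z + s • v) (𝓝 0) (𝓝 z) := by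
  have h : ContinuousAt (fun s : ℝ => z + s • v) 0 := (lineE_hasDerivAt z v 0).continuousAt
  have h0 : z + (0 : ℝ) • v = z := by simp
  have := h.tendsto
  rwa [h0] at this

/-- The infinity Laplacian is the second derivative along the gradient line. -/
theorem infLaplacian_eq_deriv_deriv {φ : E → ℝ} {z : E} (hφ : ContDiffAt ℝ 2 φ z) :
    infLaplacian φ z = deriv (deriv (fun s : ℝ => φ (z + s • gradient φ z))) 0 := by
  set w := gradient φ z with hw
  have hφ2 : DifferentiableAt ℝ (fderiv ℝ φ) z :=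
    (hφ.fderiv_right (m := 1) (by norm_num)).differentiableAt (by norm_num)
  have hL0 : z + (0 : ℝ) • w = z := by simp
  have hΨ : HasDerivAt (fun s : ℝ => fderiv ℝ φ (z + s • w) w)
      (fderiv ℝ (fderiv ℝ φ) z w w) 0 := by
    have h1 : HasFDerivAt (fderiv ℝ φ) (fderiv ℝ (fderiv ℝ φ) z) (z + (0 : ℝ) • w) := by
      rw [hL0]; exact hφ2.hasFDerivAt
    have h2 : HasDerivAt (fun s : ℝ => fderiv ℝ φ (z + s • w))
        (fderiv ℝ (fderiv ℝ φ) z w) 0 :=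
      h1.comp_hasDerivAt 0 (lineE_hasDerivAt z w 0)
    have h3 := h2.clm_apply (hasDerivAt_const (0 : ℝ) w)
    simpa using h3
  have e2 : ∀ᶠ s in 𝓝 (0 : ℝ), DifferentiableAt ℝ φ (z + s • w) := by
    have h1 : ∀ᶠ y in 𝓝 z, ContDiffAt ℝ 2 φ y := hφ.eventually (by norm_num)
    have h2 := (lineE_tendsto z w).eventually h1
    filter_upwards [h2] with s hs
    exact hs.differentiableAt (by norm_num)
  have e3 : deriv (fun s : ℝ => φ (z + s • w)) =ᶠ[𝓝 0] fun s => fderiv ℝ φ (z + s • w) w := by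
    filter_upwards [e2] with s hs
    exact (hs.hasFDerivAt.comp_hasDerivAt s (lineE_hasDerivAt z w s)).deriv
  rw [e3.deriv_eq, hΨ.deriv]
  rfl

/-- The radial barrier `c + a |y - x| - γ |y - x|²`. -/
noncomputable def barrier (x : E) (c a γ : ℝ) (y : E) : ℝ := c + a * ‖y - x‖ - γ * ‖y - x‖ ^ 2

omit [InnerProductSpace ℝ E] [CompleteSpace E] in
theorem barrier_continuous (x : E) (c a γ : ℝ) : Continuous (barrier x c a γ) := by
  unfold barrier
  fun_prop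

omit [CompleteSpace E] in
theorem barrier_contDiffAt (x : E) (c a γ : ℝ) {z : E} (hz : z ≠ x) :
    ContDiffAt ℝ 2 (barrier x c a γ) z := by
  unfold barrier
  have h0 : ContDiffAt ℝ 2 (fun y : E => y - x) z := contDiffAt_id.sub contDiffAt_const
  have h1 : ContDiffAt ℝ 2 (fun y : E => ‖y - x‖) z := h0.norm ℝ (sub_ne_zero.mpr hz)
  have h2 : ContDiffAt ℝ 2 (fun y : E => ‖y - x‖ ^ 2) z := h0.norm_sq ℝ
  exact (contDiffAt_const.add (contDiffAt_const.mul h1)).sub (contDiffAt_const.mul h2)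

theorem barrier_hasGradientAt (x : E) (c a γ : ℝ) {z : E} (hz : z ≠ x) :
    HasGradientAt (barrier x c a γ) ((a / ‖z - x‖ - 2 * γ) • (z - x)) z := by
  have hρ : 0 < ‖z - x‖ := norm_pos_iff.mpr (sub_ne_zero.mpr hz)
  have h0 : HasFDerivAt (fun y : E => y - x) (ContinuousLinearMap.id ℝ E) z :=
    (hasFDerivAt_id z).sub_const x
  have h2 : HasFDerivAt (fun y : E => ‖y - x‖ ^ 2)
      (2 • (innerSL ℝ (z - x)).comp (ContinuousLinearMap.id ℝ E)) z := h0.norm_sq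
  have hne : ‖z - x‖ ^ 2 ≠ 0 := by positivity
  have h1 : HasFDerivAt (fun y : E => ‖y - x‖)
      ((1 / (2 * √(‖z - x‖ ^ 2))) • (2 • (innerSL ℝ (z - x)).comp (ContinuousLinearMap.id ℝ E)))
      z := by
    have h3 := h2.sqrt hne
    refine h3.congr_of_eventuallyEq (Eventually.of_forall fun y => ?_)
    exact (Real.sqrt_sq (norm_nonneg _)).symm
  rw [Real.sqrt_sq hρ.le] at h1
  have h4 : HasFDerivAt (barrier x c a γ)
      (a • ((1 / (2 * ‖z - x‖)) • (2 • (innerSL ℝ (z - x)).comp (ContinuousLinearMap.id ℝ E)))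
        - γ • (2 • (innerSL ℝ (z - x)).comp (ContinuousLinearMap.id ℝ E))) z :=
    ((h1.const_mul a).const_add c).sub (h2.const_mul γ)
  rw [hasGradientAt_iff_hasFDerivAt]
  refine h4.congr_fderiv ?_
  ext h
  simp only [_root_.sub_apply, _root_.smul_apply,
    ContinuousLinearMap.comp_apply, ContinuousLinearMap.id_apply, innerSL_apply_apply,
    InnerProductSpace.toDual_apply_apply, inner_smul_left, smul_eq_mul, nsmul_eq_mul]
  simp
  field_simp

theorem barrier_infLaplacian (x : E) (c a γ : ℝ) {z : E} (hz : z ≠ x) :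
    infLaplacian (barrier x c a γ) z = -2 * γ * (a - 2 * γ * ‖z - x‖) ^ 2 := by
  have hρ : 0 < ‖z - x‖ := norm_pos_iff.mpr (sub_ne_zero.mpr hz)
  rw [infLaplacian_eq_deriv_deriv (barrier_contDiffAt x c a γ hz),
    (barrier_hasGradientAt x c a γ hz).gradient]
  set ρ := ‖z - x‖ with hρdef
  set k := a / ρ - 2 * γ with hk
  set A := c + a * ρ - γ * ρ ^ 2 with hA
  set B := a * k * ρ - 2 * γ * k * ρ ^ 2 with hB
  set C := -γ * k ^ 2 * ρ ^ 2 with hC
  have hP1 : ∀ s : ℝ, HasDerivAt (fun s : ℝ => A + B * s + C * s ^ 2) (B + 2 * C * s) s := by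
    intro s
    have h1 : HasDerivAt (fun s : ℝ => B * s) B s := by
      simpa using (hasDerivAt_id s).const_mul B
    have h2 : HasDerivAt (fun s : ℝ => C * s ^ 2) (C * (2 * s)) s := by
      have := (hasDerivAt_pow 2 s).const_mul C
      simpa using this
    have h3 := (h1.const_add A).fun_add h2
    exact h3.congr_deriv (by ring)
  have hP2 : HasDerivAt (fun s : ℝ => B + 2 * C * s) (2 * C) 0 := by
    have h1 : HasDerivAt (fun s : ℝ => 2 * C * s) (2 * C) 0 := by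
      simpa using (hasDerivAt_id (0 : ℝ)).const_mul (2 * C)
    exact h1.const_add B
  have e1 : ∀ᶠ s in 𝓝 (0 : ℝ), 0 < 1 + s * k := by
    have hc : Tendsto (fun s : ℝ => 1 + s * k) (𝓝 0) (𝓝 1) := by
      have : ContinuousAt (fun s : ℝ => 1 + s * k) 0 := by fun_prop
      simpa using this.tendsto
    exact hc.eventually (lt_mem_nhds one_pos)
  have e2 : (fun s : ℝ => barrier x c a γ (z + s • k • (z - x)))
      =ᶠ[𝓝 0] fun s => A + B * s + C * s ^ 2 := by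
    filter_upwards [e1] with s hs
    have h1 : z + s • k • (z - x) - x = (1 + s * k) • (z - x) := by
      rw [add_smul, one_smul, mul_smul]
      abel
    unfold barrier
    rw [h1, norm_smul, Real.norm_eq_abs, abs_of_pos hs, ← hρdef, hA, hB, hC]
    ring
  have e3 : deriv (fun s : ℝ => barrier x c a γ (z + s • k • (z - x)))
      =ᶠ[𝓝 0] fun s => B + 2 * C * s := by
    have := eventually_eventually_nhds.mpr e2
    filter_upwards [this] with s hs
    rw [Filter.EventuallyEq.deriv_eq hs]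
    exact (hP1 s).deriv
  rw [e3.deriv_eq, hP2.deriv, hC, hk]
  field_simp

end

section

variable {E : Type*} [NormedAddCommGroup E] [InnerProductSpace ℝ E] [CompleteSpace E]

theorem infLaplacian_neg' (φ : E → ℝ) (z : E) :
    infLaplacian (fun x => -φ x) z = -infLaplacian φ z := by
  unfold infLaplacian gradient
  have h1 : fderiv ℝ (fun x => -φ x) = fun x => -fderiv ℝ φ x := by
    funext x
    exact fderiv_neg
  rw [h1]
  have h2 : fderiv ℝ (fun x => -fderiv ℝ φ x) z = -fderiv ℝ (fderiv ℝ φ) z := fderiv_neg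
  rw [h2]
  simp

/-- The negative of an infinity-harmonic function is infinity-harmonic. -/
theorem IsInfinityHarmonicOn.neg {u : E → ℝ} {Ω : Set E} (hu : IsInfinityHarmonicOn u Ω) :
    IsInfinityHarmonicOn (fun x => -u x) Ω := by
  refine ⟨hu.1.neg, ?_, ?_⟩
  · intro φ z hz hφ hmax
    have hmin : IsLocalMin (fun x => u x - (fun x => -φ x) x) z := by
      filter_upwards [hmax] with y hy
      have hy' : -u y - φ y ≤ -u z - φ z := hy
      show u z - -φ z ≤ u y - -φ y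
      linarith
    have := hu.2.2 (fun x => -φ x) z hz hφ.neg hmin
    rw [infLaplacian_neg'] at this
    linarith
  · intro φ z hz hφ hmin
    have hmax : IsLocalMax (fun x => u x - (fun x => -φ x) x) z := by
      filter_upwards [hmin] with y hy
      have hy' : -u z - φ z ≤ -u y - φ y := hy
      show u y - -φ y ≤ u z - -φ z
      linarith
    have := hu.2.1 (fun x => -φ x) z hz hφ.neg hmax
    rw [infLaplacian_neg'] at this
    linarith

variable [ProperSpace E]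

/-- Comparison with cones from above on a ball. -/
theorem cone_above {u : E → ℝ} {Ω : Set E} (hu : IsInfinityHarmonicOn u Ω) {x : E} {r M : ℝ}
    (hr : 0 < r) (hM : 0 ≤ M) (hball : closedBall x r ⊆ Ω)
    (hsph : ∀ y ∈ sphere x r, u y ≤ u x + M * r) :
    ∀ y ∈ closedBall x r, u y ≤ u x + M * ‖y - x‖ := by
  intro y0 hy0
  by_contra hcon
  rw [not_le] at hcon
  set m := u y0 - u x - M * ‖y0 - x‖ with hm
  have hmpos : 0 < m := by rw [hm]; linarith
  set γ := m / (2 * r ^ 2) with hγ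
  have hγpos : 0 < γ := by positivity
  have hγr : γ * r ^ 2 = m / 2 := by
    rw [hγ]; field_simp
  set a := M + 2 * γ * r with ha
  have hcont : ContinuousOn (fun y => u y - barrier x (u x) a γ y) (closedBall x r) :=
    (hu.1.mono hball).sub (barrier_continuous x (u x) a γ).continuousOn
  obtain ⟨z, hz, hzmax⟩ := (isCompact_closedBall x r).exists_isMaxOn
    ⟨x, mem_closedBall_self hr.le⟩ hcont
  have hρ0 : ‖y0 - x‖ ≤ r := by
    have := mem_closedBall.mp hy0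
    rwa [dist_eq_norm] at this
  have hF0 : 0 < u y0 - barrier x (u x) a γ y0 := by
    unfold barrier
    have h1 : 0 ≤ ‖y0 - x‖ := norm_nonneg _
    nlinarith [sq_nonneg (r - ‖y0 - x‖)]
  have hFz : 0 < u z - barrier x (u x) a γ z := lt_of_lt_of_le hF0 (hzmax hy0)
  have hzx : z ≠ x := by
    intro h
    rw [h] at hFz
    unfold barrier at hFz
    simp at hFz
  have hρz : ‖z - x‖ ≤ r := by
    have := mem_closedBall.mp hz
    rwa [dist_eq_norm] at this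
  have hzs : ‖z - x‖ ≠ r := by
    intro h
    have h1 : z ∈ sphere x r := by
      rw [mem_sphere, dist_eq_norm]; exact h
    have h2 := hsph z h1
    unfold barrier at hFz
    rw [h] at hFz
    nlinarith
  have hρlt : ‖z - x‖ < r := lt_of_le_of_ne hρz hzs
  have hzb : z ∈ ball x r := by
    rw [mem_ball, dist_eq_norm]; exact hρlt
  have hloc : IsLocalMax (fun y => u y - barrier x (u x) a γ y) z := by
    filter_upwards [isOpen_ball.mem_nhds hzb] with y hy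
    exact hzmax (ball_subset_closedBall hy)
  have h1 := hu.2.1 (barrier x (u x) a γ) z (hball hz) (barrier_contDiffAt x (u x) a γ hzx) hloc
  rw [barrier_infLaplacian x (u x) a γ hzx] at h1
  have h2 : 0 < a - 2 * γ * ‖z - x‖ := by
    rw [ha]
    nlinarith
  have h3 : 0 < (a - 2 * γ * ‖z - x‖) ^ 2 := by positivity
  nlinarith

/-- Ascent: an infinity-harmonic function gains at least `r |Du(x)|` somewhere on the sphere
of radius `r` around `x`. -/
theorem exists_ascent {u : E → ℝ} {Ω : Set E} (hu : IsInfinityHarmonicOn u Ω) {x : E} {r : ℝ}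
    (hr : 0 < r) (hball : closedBall x r ⊆ Ω) (hd : DifferentiableAt ℝ u x)
    (hpos : 0 < ‖fderiv ℝ u x‖) :
    ∃ y ∈ sphere x r, r * ‖fderiv ℝ u x‖ ≤ u y - u x := by
  set S := ‖fderiv ℝ u x‖ with hS
  set p := gradient u x with hp
  have hpn : ‖p‖ = S := by
    rw [hp, hS]
    unfold gradient
    exact LinearIsometryEquiv.norm_map _ _
  set e := (1 / S) • p with he
  have hen : ‖e‖ = 1 := by
    rw [he, norm_smul, hpn, Real.norm_eq_abs, abs_of_pos (by positivity)]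
    field_simp
  have hLe : fderiv ℝ u x e = S := by
    have h1 : fderiv ℝ u x e = inner ℝ p e := by
      rw [hp]
      unfold gradient
      rw [InnerProductSpace.toDual_symm_apply]
    rw [h1, he, inner_smul_right, real_inner_self_eq_norm_sq, hpn]
    field_simp
  have hne : (sphere x r).Nonempty := by
    refine ⟨x + r • e, ?_⟩
    rw [mem_sphere, dist_eq_norm, add_sub_cancel_left, norm_smul, hen, Real.norm_eq_abs,
      abs_of_pos hr, mul_one]
  have hcont : ContinuousOn u (sphere x r) :=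
    hu.1.mono (sphere_subset_closedBall.trans hball)
  obtain ⟨ys, hys, hmax⟩ := (isCompact_sphere x r).exists_isMaxOn hne hcont
  refine ⟨ys, hys, ?_⟩
  by_contra hcon
  rw [not_le] at hcon
  set M := max ((u ys - u x) / r) 0 with hM
  have hM0 : 0 ≤ M := le_max_right _ _
  have hMS : M < S := by
    rw [hM]
    apply max_lt _ hpos
    rw [div_lt_iff₀ hr]
    linarith
  have hsph : ∀ y ∈ sphere x r, u y ≤ u x + M * r := by
    intro y hy
    have h1 : u y ≤ u ys := hmax hy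
    have h2 : (u ys - u x) / r ≤ M := le_max_left _ _
    rw [div_le_iff₀ hr] at h2
    linarith
  have hcone := cone_above hu hr hM0 hball hsph
  have hg : HasDerivAt (fun t : ℝ => u (x + t • e)) S 0 := by
    have h0 : x + (0 : ℝ) • e = x := by simp
    have h1 : HasFDerivAt u (fderiv ℝ u x) (x + (0 : ℝ) • e) := by
      rw [h0]; exact hd.hasFDerivAt
    have h2 := h1.comp_hasDerivAt 0 (lineE_hasDerivAt x e 0)
    rw [hLe] at h2
    exact h2
  have hslope := (hasDerivAt_iff_tendsto_slope_zero.mp hg).mono_left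
    (nhdsWithin_mono 0 (fun t (ht : t ∈ Ioi (0 : ℝ)) => ne_of_gt ht))
  have hev : ∀ᶠ t in 𝓝[>] (0 : ℝ), t⁻¹ • ((fun t : ℝ => u (x + t • e)) (0 + t)
      - (fun t : ℝ => u (x + t • e)) 0) ≤ M := by
    filter_upwards [Ioc_mem_nhdsGT hr] with t ht
    have h1 : x + t • e ∈ closedBall x r := by
      rw [mem_closedBall, dist_eq_norm, add_sub_cancel_left, norm_smul, hen, Real.norm_eq_abs,
        abs_of_pos ht.1, mul_one]
      exact ht.2
    have h2 := hcone _ h1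
    rw [add_sub_cancel_left, norm_smul, hen, Real.norm_eq_abs, abs_of_pos ht.1, mul_one] at h2
    simp only [zero_add, zero_smul, add_zero, smul_eq_mul]
    rw [inv_mul_le_iff₀ ht.1]
    linarith
  have := le_of_tendsto hslope hev
  linarith

/-- Descent: an infinity-harmonic function loses at least `r |Du(x)|` somewhere on the sphere
of radius `r` around `x`. -/
theorem exists_descent {u : E → ℝ} {Ω : Set E} (hu : IsInfinityHarmonicOn u Ω) {x : E} {r : ℝ}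
    (hr : 0 < r) (hball : closedBall x r ⊆ Ω) (hd : DifferentiableAt ℝ u x)
    (hpos : 0 < ‖fderiv ℝ u x‖) :
    ∃ y ∈ sphere x r, r * ‖fderiv ℝ u x‖ ≤ u x - u y := by
  have hfd : fderiv ℝ (fun x => -u x) x = -fderiv ℝ u x := fderiv_neg
  have hpos' : 0 < ‖fderiv ℝ (fun x => -u x) x‖ := by
    rw [hfd, norm_neg]; exact hpos
  obtain ⟨y, hy, h⟩ := exists_ascent hu.neg hr hball hd.neg hpos'
  refine ⟨y, hy, ?_⟩
  rw [hfd, norm_neg] at h
  linarith

end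

section

variable {E : Type*} [NormedAddCommGroup E] [InnerProductSpace ℝ E] [CompleteSpace E]

/-- `ν` is a unit ascent direction of `u` at `x` at scale `t`. -/
def IsAsc (u : E → ℝ) (x : E) (t : ℝ) (ν : E) : Prop :=
  ‖ν‖ = 1 ∧ t * ‖fderiv ℝ u x‖ ≤ u (x + t • ν) - u x

/-- `μ` is a unit descent direction of `u` at `x` at scale `t`. -/
def IsDesc (u : E → ℝ) (x : E) (t : ℝ) (μ : E) : Prop :=
  ‖μ‖ = 1 ∧ t * ‖fderiv ℝ u x‖ ≤ u x - u (x - t • μ)

/-- The unit direction of the gradient. -/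
noncomputable def gdir (u : E → ℝ) (x : E) : E := (1 / ‖fderiv ℝ u x‖) • gradient u x

theorem gradient_norm (u : E → ℝ) (x : E) : ‖gradient u x‖ = ‖fderiv ℝ u x‖ := by
  unfold gradient
  exact LinearIsometryEquiv.norm_map _ _

theorem gdir_norm {u : E → ℝ} {x : E} (hpos : 0 < ‖fderiv ℝ u x‖) : ‖gdir u x‖ = 1 := by
  unfold gdir
  rw [norm_smul, gradient_norm, Real.norm_eq_abs, abs_of_pos (by positivity)]
  field_simp

theorem gradient_eq_smul_gdir {u : E → ℝ} {x : E} (hpos : 0 < ‖fderiv ℝ u x‖) :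
    gradient u x = ‖fderiv ℝ u x‖ • gdir u x := by
  unfold gdir
  rw [smul_smul]
  have : ‖fderiv ℝ u x‖ * (1 / ‖fderiv ℝ u x‖) = 1 := by field_simp
  rw [this, one_smul]

theorem fderiv_eq_inner_gdir {u : E → ℝ} {x : E} (hpos : 0 < ‖fderiv ℝ u x‖) (h : E) :
    fderiv ℝ u x h = ‖fderiv ℝ u x‖ * inner ℝ (gdir u x) h := by
  have h1 : fderiv ℝ u x h = inner ℝ (gradient u x) h := by
    unfold gradient
    rw [InnerProductSpace.toDual_symm_apply]
  rw [h1]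
  conv_lhs => rw [gradient_eq_smul_gdir hpos]
  rw [inner_smul_left]
  simp

omit [CompleteSpace E] in
theorem align_core {ν μ : E} (hν : ‖ν‖ = 1) (hμ : ‖μ‖ = 1) {t r κ : ℝ} (ht : 0 < t) (hr : 0 < r)
    (hκ : 0 ≤ κ) (h : (t + r) * κ ≤ ‖t • ν + r • μ‖) :
    t * r * ‖ν - μ‖ ^ 2 ≤ (t + r) ^ 2 * (1 - κ ^ 2) := by
  have h1 : ‖t • ν + r • μ‖ ^ 2 = t ^ 2 + r ^ 2 + 2 * t * r * inner ℝ ν μ := by
    rw [norm_add_sq_real, norm_smul, norm_smul, hν, hμ, inner_smul_left, inner_smul_right,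
      Real.norm_eq_abs, Real.norm_eq_abs, abs_of_pos ht, abs_of_pos hr]
    simp
    ring
  have h2 : ‖ν - μ‖ ^ 2 = 2 - 2 * inner ℝ ν μ := by
    rw [norm_sub_sq_real, hν, hμ]; ring
  have h3 : ((t + r) * κ) ^ 2 ≤ ‖t • ν + r • μ‖ ^ 2 :=
    pow_le_pow_left₀ (by positivity) h 2
  rw [h2]
  nlinarith

variable [ProperSpace E]

theorem exists_isAsc {u : E → ℝ} {Ω : Set E} (hu : IsInfinityHarmonicOn u Ω) {x : E} {t : ℝ}
    (ht : 0 < t) (hball : closedBall x t ⊆ Ω) (hd : DifferentiableAt ℝ u x)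
    (hpos : 0 < ‖fderiv ℝ u x‖) : ∃ ν, IsAsc u x t ν := by
  obtain ⟨y, hy, h⟩ := exists_ascent hu ht hball hd hpos
  have hyn : ‖y - x‖ = t := by
    rw [← dist_eq_norm]; exact mem_sphere.mp hy
  refine ⟨(1 / t) • (y - x), ?_, ?_⟩
  · rw [norm_smul, hyn, Real.norm_eq_abs, abs_of_pos (by positivity)]
    field_simp
  · have h1 : x + t • (1 / t) • (y - x) = y := by
      rw [smul_smul]
      have : t * (1 / t) = 1 := by field_simp
      rw [this, one_smul]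
      abel
    rw [h1]
    exact h

theorem exists_isDesc {u : E → ℝ} {Ω : Set E} (hu : IsInfinityHarmonicOn u Ω) {x : E} {t : ℝ}
    (ht : 0 < t) (hball : closedBall x t ⊆ Ω) (hd : DifferentiableAt ℝ u x)
    (hpos : 0 < ‖fderiv ℝ u x‖) : ∃ μ, IsDesc u x t μ := by
  obtain ⟨y, hy, h⟩ := exists_descent hu ht hball hd hpos
  have hyn : ‖x - y‖ = t := by
    rw [← dist_eq_norm, dist_comm]; exact mem_sphere.mp hy
  refine ⟨(1 / t) • (x - y), ?_, ?_⟩
  · rw [norm_smul, hyn, Real.norm_eq_abs, abs_of_pos (by positivity)]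
    field_simp
  · have h1 : x - t • (1 / t) • (x - y) = y := by
      rw [smul_smul]
      have : t * (1 / t) = 1 := by field_simp
      rw [this, one_smul]
      abel
    rw [h1]
    exact h

omit [CompleteSpace E] [ProperSpace E] in
/-- Alignment of an ascent direction at scale `t` and a descent direction at scale `r`. -/
theorem two_scale {u : E → ℝ} {Ω : Set E} (hdiff : ∀ y ∈ Ω, DifferentiableAt ℝ u y) {x : E}
    {R σ : ℝ} (hball : closedBall x R ⊆ Ω) (hσ : ∀ y ∈ closedBall x R, ‖fderiv ℝ u y‖ ≤ σ)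
    (hpos : 0 < ‖fderiv ℝ u x‖) {t r : ℝ} (ht : 0 < t) (htR : t ≤ R) (hr : 0 < r) (hrR : r ≤ R)
    {ν μ : E} (hν : IsAsc u x t ν) (hμ : IsDesc u x r μ) :
    t * r * ‖ν - μ‖ ^ 2 ≤ (t + r) ^ 2 * (2 * (σ - ‖fderiv ℝ u x‖) / ‖fderiv ℝ u x‖) := by
  set s := ‖fderiv ℝ u x‖ with hs
  have hR : 0 ≤ R := ht.le.trans htR
  have hsσ : s ≤ σ := hσ x (mem_closedBall_self hR)
  have hσpos : 0 < σ := lt_of_lt_of_le hpos hsσ
  have hyp : x + t • ν ∈ closedBall x R := by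
    rw [mem_closedBall, dist_eq_norm, add_sub_cancel_left, norm_smul, hν.1, Real.norm_eq_abs,
      abs_of_pos ht, mul_one]
    exact htR
  have hym : x - r • μ ∈ closedBall x R := by
    rw [mem_closedBall, dist_eq_norm, sub_sub_cancel_left, norm_neg, norm_smul, hμ.1,
      Real.norm_eq_abs, abs_of_pos hr, mul_one]
    exact hrR
  have hlip := Convex.norm_image_sub_le_of_norm_fderiv_le (𝕜 := ℝ) (f := u)
    (fun y hy => hdiff y (hball hy)) hσ (convex_closedBall x R) hym hyp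
  have hdif : x + t • ν - (x - r • μ) = t • ν + r • μ := by abel
  rw [hdif, Real.norm_eq_abs] at hlip
  have h1 : u (x + t • ν) - u (x - r • μ) ≤ σ * ‖t • ν + r • μ‖ := le_trans (le_abs_self _) hlip
  have h2 := hν.2
  have h3 := hμ.2
  have hκ0 : 0 ≤ s / σ := by positivity
  have hκ1 : s / σ ≤ 1 := (div_le_one hσpos).mpr hsσ
  have h4 : (t + r) * (s / σ) ≤ ‖t • ν + r • μ‖ := by
    rw [mul_div_assoc', div_le_iff₀ hσpos]
    nlinarith
  have h5 := align_core hν.1 hμ.1 ht hr hκ0 h4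
  have e1 : 1 - (s / σ) ^ 2 ≤ 2 * (1 - s / σ) := by nlinarith
  have e2 : 1 - s / σ = (σ - s) / σ := by field_simp
  have e3 : (σ - s) / σ ≤ (σ - s) / s :=
    div_le_div_of_nonneg_left (by linarith) hpos hsσ
  have e4 : 1 - (s / σ) ^ 2 ≤ 2 * (σ - s) / s := by
    rw [mul_div_assoc]
    linarith
  calc t * r * ‖ν - μ‖ ^ 2 ≤ (t + r) ^ 2 * (1 - (s / σ) ^ 2) := h5
    _ ≤ (t + r) ^ 2 * (2 * (σ - s) / s) := mul_le_mul_of_nonneg_left e4 (by positivity)

omit [ProperSpace E] in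
/-- At small scales every ascent direction is close to the gradient direction. -/
theorem asc_near_gdir {u : E → ℝ} {x : E} (hd : DifferentiableAt ℝ u x)
    (hpos : 0 < ‖fderiv ℝ u x‖) {ε : ℝ} (hε : 0 < ε) :
    ∃ δ > 0, ∀ t, 0 < t → t < δ → ∀ ν, IsAsc u x t ν → ‖ν - gdir u x‖ ≤ ε := by
  set s := ‖fderiv ℝ u x‖ with hs
  have hlo := hd.hasFDerivAt
  rw [hasFDerivAt_iff_isLittleO_nhds_zero] at hlo
  have hc : 0 < s * (ε ^ 2 / 2) := by positivity
  have h2 := Asymptotics.isLittleO_iff.mp hlo hc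
  obtain ⟨δ, hδ, hP⟩ := Metric.eventually_nhds_iff.mp h2
  refine ⟨δ, hδ, fun t ht htδ ν hν => ?_⟩
  have hnorm : ‖t • ν‖ = t := by
    rw [norm_smul, hν.1, Real.norm_eq_abs, abs_of_pos ht, mul_one]
  have h3 := hP (y := t • ν) (by rw [dist_zero_right, hnorm]; exact htδ)
  rw [hnorm, Real.norm_eq_abs] at h3
  have h4 := (abs_le.mp h3).2
  have h5 : fderiv ℝ u x (t • ν) = t * (s * inner ℝ (gdir u x) ν) := by
    rw [map_smul, fderiv_eq_inner_gdir hpos, smul_eq_mul]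
  have h6 := hν.2
  rw [h5] at h4
  have h7 : t * (s * (1 - inner ℝ (gdir u x) ν)) ≤ t * (s * (ε ^ 2 / 2)) := by nlinarith
  have h8 : s * (1 - inner ℝ (gdir u x) ν) ≤ s * (ε ^ 2 / 2) := le_of_mul_le_mul_left h7 ht
  have h9 : 1 - inner ℝ (gdir u x) ν ≤ ε ^ 2 / 2 := le_of_mul_le_mul_left h8 hpos
  have h10 : ‖ν - gdir u x‖ ^ 2 = 2 - 2 * inner ℝ (gdir u x) ν := by
    rw [norm_sub_sq_real, hν.1, gdir_norm hpos, real_inner_comm]; ring
  have h11 : ‖ν - gdir u x‖ ^ 2 ≤ ε ^ 2 := by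
    rw [h10]; linarith
  exact (sq_le_sq₀ (norm_nonneg _) hε.le).mp h11

end

section

variable {E : Type*} [NormedAddCommGroup E] [InnerProductSpace ℝ E] [CompleteSpace E]
  [ProperSpace E]

/-- One dyadic step: ascent directions at scales `ρ` and `ρ/2` are close. -/
theorem asc_step {u : E → ℝ} {Ω : Set E} (hu : IsInfinityHarmonicOn u Ω)
    (hdiff : ∀ y ∈ Ω, DifferentiableAt ℝ u y) {x : E} {ρ X : ℝ} (hρ : 0 < ρ)
    (hball : closedBall x ρ ⊆ Ω) (hpos : 0 < ‖fderiv ℝ u x‖)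
    (hX : ∀ y ∈ closedBall x ρ, ‖fderiv ℝ u y‖ ≤ ‖fderiv ℝ u x‖ + X)
    {ν ν₁ : E} (hν : IsAsc u x ρ ν) (hν₁ : IsAsc u x (ρ / 2) ν₁) :
    ‖ν - ν₁‖ ≤ 6 * √(X / ‖fderiv ℝ u x‖) := by
  set s := ‖fderiv ℝ u x‖ with hs
  have hxΩ : x ∈ Ω := hball (mem_closedBall_self hρ.le)
  have hX0 : 0 ≤ X := by
    have := hX x (mem_closedBall_self hρ.le)
    linarith
  obtain ⟨μ, hμ⟩ := exists_isDesc hu hρ hball (hdiff x hxΩ) hpos
  have h1 := two_scale hdiff hball hX hpos hρ le_rfl hρ le_rfl hν hμ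
  have h2 := two_scale hdiff hball hX hpos (half_pos hρ) (by linarith) hρ le_rfl hν₁ hμ
  have e0 : 2 * (s + X - s) / s = 2 * (X / s) := by
    rw [add_sub_cancel_left, mul_div_assoc]
  rw [e0] at h1 h2
  set Y := X / s with hY
  have hY0 : 0 ≤ Y := div_nonneg hX0 hpos.le
  have hρ2 : 0 < ρ ^ 2 := by positivity
  have ha : ‖ν - μ‖ ^ 2 ≤ 8 * Y := by
    have : ρ ^ 2 * ‖ν - μ‖ ^ 2 ≤ ρ ^ 2 * (8 * Y) := by nlinarith
    exact le_of_mul_le_mul_left this hρ2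
  have hb : ‖ν₁ - μ‖ ^ 2 ≤ 9 * Y := by
    have : ρ ^ 2 * ‖ν₁ - μ‖ ^ 2 ≤ ρ ^ 2 * (9 * Y) := by nlinarith
    exact le_of_mul_le_mul_left this hρ2
  have htri : ‖ν - ν₁‖ ≤ ‖ν - μ‖ + ‖ν₁ - μ‖ := by
    have := norm_sub_le_norm_sub_add_norm_sub ν μ ν₁
    rwa [norm_sub_rev μ ν₁] at this
  have hsq : (‖ν - μ‖ + ‖ν₁ - μ‖) ^ 2 ≤ (6 * √Y) ^ 2 := by
    rw [mul_pow, Real.sq_sqrt hY0]
    nlinarith [sq_nonneg (‖ν - μ‖ - ‖ν₁ - μ‖)]
  have := (sq_le_sq₀ (by positivity) (by positivity)).mp hsq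
  linarith

theorem two_rpow_sqrt_gt_one {β : ℝ} (hβ : 0 < β) : 1 < √((2 : ℝ) ^ β) := by
  rw [Real.lt_sqrt (by norm_num)]
  have := Real.one_lt_rpow (x := 2) (by norm_num) hβ
  linarith

theorem theta_half {H s ρ β : ℝ} (hρ : 0 < ρ) (hH : 0 ≤ H) (hs : 0 < s) :
    √(H * (ρ / 2) ^ β / s) = √(H * ρ ^ β / s) / √((2 : ℝ) ^ β) := by
  rw [Real.div_rpow hρ.le (by norm_num)]
  have h2 : 0 < (2 : ℝ) ^ β := Real.rpow_pos_of_pos (by norm_num) β
  have h3 : 0 ≤ H * ρ ^ β / s := by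
    have := Real.rpow_nonneg hρ.le β
    positivity
  rw [← Real.sqrt_div h3]
  congr 1
  field_simp

/-- Dyadic chain of ascent directions with a summable bound. -/
theorem asc_chain {u : E → ℝ} {Ω : Set E} (hu : IsInfinityHarmonicOn u Ω)
    (hdiff : ∀ y ∈ Ω, DifferentiableAt ℝ u y) {x : E} {R H β : ℝ}
    (hball : closedBall x R ⊆ Ω) (hpos : 0 < ‖fderiv ℝ u x‖) (hβ : 0 < β) (hH : 0 ≤ H)
    (hhol : ∀ y ∈ closedBall x R, ‖fderiv ℝ u y‖ ≤ ‖fderiv ℝ u x‖ + H * ‖y - x‖ ^ β) (n : ℕ) :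
    ∀ ρ, 0 < ρ → ρ ≤ R → ∀ ν, IsAsc u x ρ ν →
      ∃ ν', IsAsc u x (ρ / 2 ^ n) ν' ∧
        ‖ν - ν'‖ ≤ 6 * √(H * ρ ^ β / ‖fderiv ℝ u x‖) *
          (√((2 : ℝ) ^ β) / (√((2 : ℝ) ^ β) - 1)) := by
  set s := ‖fderiv ℝ u x‖ with hs
  set Q := √((2 : ℝ) ^ β) with hQ
  have hQ1 : 1 < Q := two_rpow_sqrt_gt_one hβ
  induction n with
  | zero =>
    intro ρ hρ hρR ν hν
    refine ⟨ν, by simpa using hν, ?_⟩
    rw [sub_self, norm_zero]
    have : 0 < Q - 1 := by linarith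
    positivity
  | succ n ih =>
    intro ρ hρ hρR ν hν
    have hballρ : closedBall x ρ ⊆ Ω := (closedBall_subset_closedBall hρR).trans hball
    have hxΩ : x ∈ Ω := hball (mem_closedBall_self (hρ.le.trans hρR))
    have hball2 : closedBall x (ρ / 2) ⊆ Ω :=
      (closedBall_subset_closedBall (by linarith)).trans hballρ
    obtain ⟨ν₁, hν₁⟩ := exists_isAsc hu (half_pos hρ) hball2 (hdiff x hxΩ) hpos
    have hX : ∀ y ∈ closedBall x ρ, ‖fderiv ℝ u y‖ ≤ s + H * ρ ^ β := by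
      intro y hy
      have h1 := hhol y (closedBall_subset_closedBall hρR hy)
      have h2 : ‖y - x‖ ≤ ρ := by
        have := mem_closedBall.mp hy
        rwa [dist_eq_norm] at this
      have h3 : ‖y - x‖ ^ β ≤ ρ ^ β := Real.rpow_le_rpow (norm_nonneg _) h2 hβ.le
      have h4 : H * ‖y - x‖ ^ β ≤ H * ρ ^ β := mul_le_mul_of_nonneg_left h3 hH
      linarith
    have hstep := asc_step hu hdiff hρ hballρ hpos hX hν hν₁
    obtain ⟨ν', hν', hb⟩ := ih (ρ / 2) (half_pos hρ) (by linarith) ν₁ hν₁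
    have e1 : ρ / 2 / 2 ^ n = ρ / 2 ^ (n + 1) := by
      rw [pow_succ]; field_simp
    rw [e1] at hν'
    refine ⟨ν', hν', ?_⟩
    rw [theta_half hρ hH hpos] at hb
    have htri : ‖ν - ν'‖ ≤ ‖ν - ν₁‖ + ‖ν₁ - ν'‖ := norm_sub_le_norm_sub_add_norm_sub ν ν₁ ν'
    have hQ0 : 0 < Q - 1 := by linarith
    have hQpos : 0 < Q := by linarith
    have e2 : 6 * √(H * ρ ^ β / s) + 6 * (√(H * ρ ^ β / s) / Q) * (Q / (Q - 1))
        = 6 * √(H * ρ ^ β / s) * (Q / (Q - 1)) := by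
      field_simp
      ring
    linarith

/-- Every ascent direction at scale `ρ` is within an explicit distance of the gradient
direction. -/
theorem asc_dir_bound {u : E → ℝ} {Ω : Set E} (hu : IsInfinityHarmonicOn u Ω)
    (hdiff : ∀ y ∈ Ω, DifferentiableAt ℝ u y) {x : E} {R H β : ℝ}
    (hball : closedBall x R ⊆ Ω) (hpos : 0 < ‖fderiv ℝ u x‖) (hβ : 0 < β) (hH : 0 ≤ H)
    (hhol : ∀ y ∈ closedBall x R, ‖fderiv ℝ u y‖ ≤ ‖fderiv ℝ u x‖ + H * ‖y - x‖ ^ β)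
    {ρ : ℝ} (hρ : 0 < ρ) (hρR : ρ ≤ R) {ν : E} (hν : IsAsc u x ρ ν) :
    ‖ν - gdir u x‖ ≤ 6 * √(H * ρ ^ β / ‖fderiv ℝ u x‖) *
      (√((2 : ℝ) ^ β) / (√((2 : ℝ) ^ β) - 1)) := by
  have hxΩ : x ∈ Ω := hball (mem_closedBall_self (hρ.le.trans hρR))
  apply le_of_forall_pos_le_add
  intro ε hε
  obtain ⟨δ, hδ, hP⟩ := asc_near_gdir (hdiff x hxΩ) hpos hε
  obtain ⟨n, hn⟩ := exists_pow_lt_of_lt_one (div_pos hδ hρ) (by norm_num : (1 / 2 : ℝ) < 1)
  obtain ⟨ν', hν', hb⟩ := asc_chain hu hdiff hball hpos hβ hH hhol n ρ hρ hρR ν hν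
  have hscale : ρ / 2 ^ n < δ := by
    rw [lt_div_iff₀ hρ] at hn
    have e : ρ / 2 ^ n = (1 / 2 : ℝ) ^ n * ρ := by
      rw [one_div, inv_pow]; field_simp
    rw [e]; exact hn
  have h1 := hP (ρ / 2 ^ n) (by positivity) hscale ν' hν'
  have htri : ‖ν - gdir u x‖ ≤ ‖ν - ν'‖ + ‖ν' - gdir u x‖ :=
    norm_sub_le_norm_sub_add_norm_sub ν ν' (gdir u x)
  linarith

/-- Every descent direction at scale `ρ` is within an explicit distance of the gradient
direction. -/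
theorem desc_dir_bound {u : E → ℝ} {Ω : Set E} (hu : IsInfinityHarmonicOn u Ω)
    (hdiff : ∀ y ∈ Ω, DifferentiableAt ℝ u y) {x : E} {R H β : ℝ}
    (hball : closedBall x R ⊆ Ω) (hpos : 0 < ‖fderiv ℝ u x‖) (hβ : 0 < β) (hH : 0 ≤ H)
    (hhol : ∀ y ∈ closedBall x R, ‖fderiv ℝ u y‖ ≤ ‖fderiv ℝ u x‖ + H * ‖y - x‖ ^ β)
    {ρ : ℝ} (hρ : 0 < ρ) (hρR : ρ ≤ R) {μ : E} (hμ : IsDesc u x ρ μ) :
    ‖μ - gdir u x‖ ≤ 9 * √(H * ρ ^ β / ‖fderiv ℝ u x‖) *
      (√((2 : ℝ) ^ β) / (√((2 : ℝ) ^ β) - 1)) := by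
  set s := ‖fderiv ℝ u x‖ with hs
  set Q := √((2 : ℝ) ^ β) with hQ
  have hQ1 : 1 < Q := two_rpow_sqrt_gt_one hβ
  have hballρ : closedBall x ρ ⊆ Ω := (closedBall_subset_closedBall hρR).trans hball
  have hxΩ : x ∈ Ω := hball (mem_closedBall_self (hρ.le.trans hρR))
  obtain ⟨ν, hν⟩ := exists_isAsc hu hρ hballρ (hdiff x hxΩ) hpos
  have hX : ∀ y ∈ closedBall x ρ, ‖fderiv ℝ u y‖ ≤ s + H * ρ ^ β := by
    intro y hy
    have h1 := hhol y (closedBall_subset_closedBall hρR hy)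
    have h2 : ‖y - x‖ ≤ ρ := by
      have := mem_closedBall.mp hy
      rwa [dist_eq_norm] at this
    have h3 : ‖y - x‖ ^ β ≤ ρ ^ β := Real.rpow_le_rpow (norm_nonneg _) h2 hβ.le
    have h4 : H * ‖y - x‖ ^ β ≤ H * ρ ^ β := mul_le_mul_of_nonneg_left h3 hH
    linarith
  have h1 := two_scale hdiff hballρ hX hpos hρ le_rfl hρ le_rfl hν hμ
  have e0 : 2 * (s + H * ρ ^ β - s) / s = 2 * (H * ρ ^ β / s) := by
    rw [add_sub_cancel_left, mul_div_assoc]
  rw [e0] at h1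
  set Y := H * ρ ^ β / s with hY
  have hY0 : 0 ≤ Y := by
    have := Real.rpow_nonneg hρ.le β
    positivity
  have hρ2 : 0 < ρ ^ 2 := by positivity
  have ha : ‖ν - μ‖ ^ 2 ≤ (3 * √Y) ^ 2 := by
    rw [mul_pow, Real.sq_sqrt hY0]
    have : ρ ^ 2 * ‖ν - μ‖ ^ 2 ≤ ρ ^ 2 * (8 * Y) := by nlinarith
    have := le_of_mul_le_mul_left this hρ2
    linarith
  have ha' : ‖ν - μ‖ ≤ 3 * √Y := (sq_le_sq₀ (norm_nonneg _) (by positivity)).mp ha
  have hb := asc_dir_bound hu hdiff hball hpos hβ hH hhol hρ hρR hν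
  have htri : ‖μ - gdir u x‖ ≤ ‖ν - μ‖ + ‖ν - gdir u x‖ := by
    have := norm_sub_le_norm_sub_add_norm_sub μ ν (gdir u x)
    rwa [norm_sub_rev μ ν] at this
  have hQ0 : 0 < Q - 1 := by linarith
  have hfrac : 1 ≤ Q / (Q - 1) := by
    rw [le_div_iff₀ hQ0]; linarith
  have hsq : 0 ≤ √Y := Real.sqrt_nonneg _
  have : 3 * √Y ≤ 3 * √Y * (Q / (Q - 1)) := le_mul_of_one_le_right (by positivity) hfrac
  have e3 : 9 * √Y * (Q / (Q - 1)) = 3 * √Y * (Q / (Q - 1)) + 6 * √Y * (Q / (Q - 1)) := by ring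
  linarith

end

section

variable {E : Type*} [NormedAddCommGroup E] [InnerProductSpace ℝ E]

/-- Alignment of an ascent direction at `x0` with a descent direction at a nearby point `x`,
both at scale `r`. -/
theorem cross_align {u : E → ℝ} {Ω : Set E} (hdiff : ∀ y ∈ Ω, DifferentiableAt ℝ u y)
    {x0 x : E} {r σ smin : ℝ} (hr : 0 < r) (hball : closedBall x0 (2 * r) ⊆ Ω)
    (hx : ‖x - x0‖ ≤ r) (hσ : ∀ y ∈ closedBall x0 (2 * r), ‖fderiv ℝ u y‖ ≤ σ)
    (hsmin : 0 < smin) (h0 : smin ≤ ‖fderiv ℝ u x0‖) (h1 : smin ≤ ‖fderiv ℝ u x‖)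
    {ν μ : E} (hν : IsAsc u x0 r ν) (hμ : IsDesc u x r μ) :
    ‖ν - μ‖ ^ 2 ≤ 8 * (σ - smin) / σ + 8 * ‖x - x0‖ / r := by
  have hx0mem : x0 ∈ closedBall x0 (2 * r) := mem_closedBall_self (by linarith)
  have hσpos : 0 < σ := lt_of_lt_of_le hsmin (h0.trans (hσ x0 hx0mem))
  have hxmem : x ∈ closedBall x0 (2 * r) := by
    rw [mem_closedBall, dist_eq_norm]; linarith
  have hyp : x0 + r • ν ∈ closedBall x0 (2 * r) := by
    rw [mem_closedBall, dist_eq_norm, add_sub_cancel_left, norm_smul, hν.1, Real.norm_eq_abs,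
      abs_of_pos hr, mul_one]
    linarith
  have hym : x - r • μ ∈ closedBall x0 (2 * r) := by
    rw [mem_closedBall, dist_eq_norm]
    have e : x - r • μ - x0 = (x - x0) - r • μ := by abel
    rw [e]
    have h2 : ‖(x - x0) - r • μ‖ ≤ ‖x - x0‖ + ‖r • μ‖ := norm_sub_le _ _
    rw [norm_smul, hμ.1, Real.norm_eq_abs, abs_of_pos hr, mul_one] at h2
    linarith
  have hconv := convex_closedBall x0 (2 * r)
  have hd' : ∀ y ∈ closedBall x0 (2 * r), DifferentiableAt ℝ u y := fun y hy => hdiff y (hball hy)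
  have hlip1 := Convex.norm_image_sub_le_of_norm_fderiv_le (𝕜 := ℝ) (f := u) hd' hσ hconv hym hyp
  have hlip2 := Convex.norm_image_sub_le_of_norm_fderiv_le (𝕜 := ℝ) (f := u) hd' hσ hconv
    hx0mem hxmem
  rw [Real.norm_eq_abs] at hlip1 hlip2
  have e1 : x0 + r • ν - (x - r • μ) = r • (ν + μ) - (x - x0) := by
    rw [smul_add]; abel
  have h2 : ‖x0 + r • ν - (x - r • μ)‖ ≤ r * ‖ν + μ‖ + ‖x - x0‖ := by
    rw [e1]
    have := norm_sub_le (r • (ν + μ)) (x - x0)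
    rwa [norm_smul, Real.norm_eq_abs, abs_of_pos hr] at this
  have h3 : u (x0 + r • ν) - u (x - r • μ) ≤ σ * (r * ‖ν + μ‖ + ‖x - x0‖) :=
    le_trans (le_abs_self _) (le_trans hlip1 (mul_le_mul_of_nonneg_left h2 hσpos.le))
  have h4 : u x - u x0 ≤ σ * ‖x - x0‖ := le_trans (le_abs_self _) hlip2
  have h5 := hν.2
  have h6 := hμ.2
  have h7 : r * smin ≤ r * ‖fderiv ℝ u x0‖ := mul_le_mul_of_nonneg_left h0 hr.le
  have h8 : r * smin ≤ r * ‖fderiv ℝ u x‖ := mul_le_mul_of_nonneg_left h1 hr.le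
  -- main inequality
  have hstar : 2 * r * smin - 2 * σ * ‖x - x0‖ ≤ σ * r * ‖ν + μ‖ := by nlinarith
  have hpar := parallelogram_law_with_norm ℝ ν μ
  rw [hν.1, hμ.1] at hpar
  have hN2 : ‖ν + μ‖ ≤ 2 := by
    have := norm_add_le ν μ
    rw [hν.1, hμ.1] at this
    linarith
  have hN0 : 0 ≤ ‖ν + μ‖ := norm_nonneg _
  have hsq : ‖ν - μ‖ ^ 2 ≤ 4 * (2 - ‖ν + μ‖) := by nlinarith
  have hσr : 0 < σ * r := by positivity
  have hkey : ‖ν - μ‖ ^ 2 * (σ * r) ≤ 8 * (σ - smin) * r + 8 * ‖x - x0‖ * σ := by nlinarith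
  rw [div_add_div _ _ hσpos.ne' hr.ne', le_div_iff₀ hσr]
  linarith

end

theorem exists_small_rpow {β : ℝ} (hβ : 0 < β) {c η : ℝ} (hc : 0 ≤ c) (hη : 0 < η) :
    ∃ r₀ > 0, ∀ r, 0 ≤ r → r ≤ r₀ → c * r ^ β ≤ η := by
  have hq : 0 < η / (c + 1) := by positivity
  refine ⟨(η / (c + 1)) ^ β⁻¹, Real.rpow_pos_of_pos hq _, fun r hr hr0 => ?_⟩
  have h1 : r ^ β ≤ ((η / (c + 1)) ^ β⁻¹) ^ β := Real.rpow_le_rpow hr hr0 hβ.le
  rw [Real.rpow_inv_rpow hq.le hβ.ne'] at h1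
  have h2 : c * r ^ β ≤ c * (η / (c + 1)) := mul_le_mul_of_nonneg_left h1 hc
  have h3 : c * (η / (c + 1)) ≤ η := by
    rw [mul_div_assoc', div_le_iff₀ (by positivity)]
    nlinarith
  linarith

section

variable {E : Type*} [NormedAddCommGroup E] [InnerProductSpace ℝ E] [CompleteSpace E]
  [ProperSpace E]

/-- Under a Hölder bound for the slope near `x₀`, gradient directions at nearby points are
close. -/
theorem gdir_close {u : E → ℝ} {Ω : Set E} (hu : IsInfinityHarmonicOn u Ω)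
    (hdiff : ∀ y ∈ Ω, DifferentiableAt ℝ u y) {x₀ x : E} {ρ₂ β H r ε₁ : ℝ}
    (hsub : ball x₀ ρ₂ ⊆ Ω) (hβ : 0 < β) (hH0 : 0 ≤ H)
    (hH : ∀ y ∈ ball x₀ ρ₂, ∀ z ∈ ball x₀ ρ₂,
      |‖fderiv ℝ u y‖ - ‖fderiv ℝ u z‖| ≤ H * ‖y - z‖ ^ β)
    (hpos : 0 < ‖fderiv ℝ u x₀‖) (hr : 0 < r) (hr1 : 2 * r < ρ₂)
    (hr2 : H * (2 * r) ^ β ≤ ‖fderiv ℝ u x₀‖ / 2)
    (hr3 : 9 * √(2 * (H * r ^ β) / ‖fderiv ℝ u x₀‖) *
      (√((2 : ℝ) ^ β) / (√((2 : ℝ) ^ β) - 1)) ≤ ε₁)
    (hr4 : 16 * (H * (2 * r) ^ β) / ‖fderiv ℝ u x₀‖ ≤ ε₁ ^ 2 / 2)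
    (hε₁ : 0 < ε₁)
    (hx1 : ‖x - x₀‖ ≤ r) (hx2 : 8 * ‖x - x₀‖ / r ≤ ε₁ ^ 2 / 2) :
    0 < ‖fderiv ℝ u x‖ ∧ ‖gdir u x - gdir u x₀‖ ≤ 3 * ε₁ := by
  set s₀ := ‖fderiv ℝ u x₀‖ with hs₀
  set Q := √((2 : ℝ) ^ β) with hQ
  have hQ1 : 1 < Q := two_rpow_sqrt_gt_one hβ
  have hF : 0 < Q / (Q - 1) := by
    have : 0 < Q - 1 := by linarith
    positivity
  set η := H * (2 * r) ^ β with hη
  have hη0 : 0 ≤ η := by
    have := Real.rpow_nonneg (by positivity : (0 : ℝ) ≤ 2 * r) β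
    positivity
  have hcb : closedBall x₀ (2 * r) ⊆ ball x₀ ρ₂ := closedBall_subset_ball hr1
  have hx₀b : x₀ ∈ ball x₀ ρ₂ := mem_ball_self (by linarith)
  have hxcb : x ∈ closedBall x₀ (2 * r) := by
    rw [mem_closedBall, dist_eq_norm]; linarith
  have hxb : x ∈ ball x₀ ρ₂ := hcb hxcb
  have hη' : ∀ y ∈ closedBall x₀ (2 * r), H * ‖y - x₀‖ ^ β ≤ η := by
    intro y hy
    have h2 : ‖y - x₀‖ ≤ 2 * r := by
      have := mem_closedBall.mp hy
      rwa [dist_eq_norm] at this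
    have h3 : ‖y - x₀‖ ^ β ≤ (2 * r) ^ β := Real.rpow_le_rpow (norm_nonneg _) h2 hβ.le
    exact mul_le_mul_of_nonneg_left h3 hH0
  have hσ : ∀ y ∈ closedBall x₀ (2 * r), ‖fderiv ℝ u y‖ ≤ s₀ + η := by
    intro y hy
    have h1 := hH y (hcb hy) x₀ hx₀b
    have := (abs_le.mp h1).2
    have := hη' y hy
    linarith
  have hlow : ∀ y ∈ closedBall x₀ (2 * r), s₀ - η ≤ ‖fderiv ℝ u y‖ := by
    intro y hy
    have h1 := hH y (hcb hy) x₀ hx₀b
    have := (abs_le.mp h1).1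
    have := hη' y hy
    linarith
  have hsx : s₀ - η ≤ ‖fderiv ℝ u x‖ := hlow x hxcb
  have hsmin : 0 < s₀ - η := by linarith
  have hposx : 0 < ‖fderiv ℝ u x‖ := lt_of_lt_of_le hsmin hsx
  refine ⟨hposx, ?_⟩
  have hbx₀ : closedBall x₀ r ⊆ Ω :=
    (closedBall_subset_closedBall (by linarith)).trans (hcb.trans hsub)
  have hbxsub : closedBall x r ⊆ closedBall x₀ (2 * r) := by
    intro y hy
    rw [mem_closedBall] at hy ⊢
    have := dist_triangle y x x₀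
    rw [dist_eq_norm x x₀] at this
    linarith
  have hbx : closedBall x r ⊆ Ω := hbxsub.trans (hcb.trans hsub)
  have hhol₀ : ∀ y ∈ closedBall x₀ r, ‖fderiv ℝ u y‖ ≤ s₀ + H * ‖y - x₀‖ ^ β := by
    intro y hy
    have h1 := hH y (hcb (closedBall_subset_closedBall (by linarith) hy)) x₀ hx₀b
    have := (abs_le.mp h1).2
    linarith
  have hholx : ∀ y ∈ closedBall x r,
      ‖fderiv ℝ u y‖ ≤ ‖fderiv ℝ u x‖ + H * ‖y - x‖ ^ β := by
    intro y hy
    have h1 := hH y (hcb (hbxsub hy)) x hxb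
    have := (abs_le.mp h1).2
    linarith
  obtain ⟨ν, hν⟩ := exists_isAsc hu hr hbx₀ (hdiff x₀ (hsub hx₀b)) hpos
  obtain ⟨μ, hμ⟩ := exists_isDesc hu hr hbx (hdiff x (hsub hxb)) hposx
  have hb1 := asc_dir_bound hu hdiff hbx₀ hpos hβ hH0 hhol₀ hr le_rfl hν
  have hb2 := desc_dir_bound hu hdiff hbx hposx hβ hH0 hholx hr le_rfl hμ
  have hc := cross_align hdiff hr (hcb.trans hsub) hx1 hσ hsmin (by linarith : s₀ - η ≤ s₀)
    hsx hν hμ
  have hrβ : 0 ≤ H * r ^ β := by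
    have := Real.rpow_nonneg hr.le β
    positivity
  set T := √(2 * (H * r ^ β) / s₀) with hT
  have h1 : √(H * r ^ β / s₀) ≤ T := by
    apply Real.sqrt_le_sqrt
    rw [div_le_div_iff_of_pos_right hpos]
    linarith
  have h2 : √(H * r ^ β / ‖fderiv ℝ u x‖) ≤ T := by
    apply Real.sqrt_le_sqrt
    rw [div_le_div_iff₀ hposx hpos]
    nlinarith
  have e1 : ‖ν - gdir u x₀‖ ≤ ε₁ := by
    calc ‖ν - gdir u x₀‖ ≤ 6 * √(H * r ^ β / s₀) * (Q / (Q - 1)) := hb1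
      _ ≤ 9 * T * (Q / (Q - 1)) := by
          apply mul_le_mul_of_nonneg_right _ hF.le
          have := Real.sqrt_nonneg (H * r ^ β / s₀)
          linarith
      _ ≤ ε₁ := hr3
  have e2 : ‖μ - gdir u x‖ ≤ ε₁ := by
    calc ‖μ - gdir u x‖ ≤ 9 * √(H * r ^ β / ‖fderiv ℝ u x‖) * (Q / (Q - 1)) := hb2
      _ ≤ 9 * T * (Q / (Q - 1)) := by
          apply mul_le_mul_of_nonneg_right _ hF.le
          linarith
      _ ≤ ε₁ := hr3
  have e3 : ‖ν - μ‖ ≤ ε₁ := by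
    have h3 : 8 * (s₀ + η - (s₀ - η)) / (s₀ + η) ≤ 16 * η / s₀ := by
      have : s₀ + η - (s₀ - η) = 2 * η := by ring
      rw [this, div_le_div_iff₀ (by positivity) hpos]
      nlinarith
    have h4 : ‖ν - μ‖ ^ 2 ≤ ε₁ ^ 2 := by linarith
    exact (sq_le_sq₀ (norm_nonneg _) hε₁.le).mp h4
  have t1 : ‖gdir u x - gdir u x₀‖ ≤ ‖gdir u x - μ‖ + ‖μ - ν‖ + ‖ν - gdir u x₀‖ := by
    have a := norm_sub_le_norm_sub_add_norm_sub (gdir u x) μ (gdir u x₀)
    have b := norm_sub_le_norm_sub_add_norm_sub μ ν (gdir u x₀)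
    linarith
  rw [norm_sub_rev (gdir u x) μ, norm_sub_rev μ ν] at t1
  linarith

omit [ProperSpace E] in
theorem fderiv_eq_toDual (u : E → ℝ) (x : E) :
    fderiv ℝ u x = InnerProductSpace.toDual ℝ E (gradient u x) := by
  unfold gradient
  simp

/-- Continuity of the derivative at a point near which the slope is Hölder continuous. -/
theorem fderiv_continuousAt_of_holder {u : E → ℝ} {Ω : Set E} (hΩ : IsOpen Ω)
    (hu : IsInfinityHarmonicOn u Ω) (hdiff : ∀ x ∈ Ω, DifferentiableAt ℝ u x)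
    {x₀ : E} (hx₀ : x₀ ∈ Ω) {ρ β H : ℝ} (hρ : 0 < ρ) (hβ : 0 < β)
    (hH : ∀ x ∈ ball x₀ ρ, ∀ y ∈ ball x₀ ρ,
      |‖fderiv ℝ u x‖ - ‖fderiv ℝ u y‖| ≤ H * ‖x - y‖ ^ β) :
    ContinuousAt (fderiv ℝ u) x₀ := by
  obtain ⟨ρ₁, hρ₁, hρ₁sub⟩ := Metric.isOpen_iff.mp hΩ x₀ hx₀
  set ρ₂ := min ρ ρ₁ with hρ₂
  have hρ₂pos : 0 < ρ₂ := lt_min hρ hρ₁
  have hsub : ball x₀ ρ₂ ⊆ Ω := (ball_subset_ball (min_le_right _ _)).trans hρ₁sub
  set H' := max H 0 with hH'
  have hH0 : 0 ≤ H' := le_max_right _ _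
  have hHol : ∀ y ∈ ball x₀ ρ₂, ∀ z ∈ ball x₀ ρ₂,
      |‖fderiv ℝ u y‖ - ‖fderiv ℝ u z‖| ≤ H' * ‖y - z‖ ^ β := by
    intro y hy z hz
    have h1 := hH y (ball_subset_ball (min_le_left _ _) hy) z
      (ball_subset_ball (min_le_left _ _) hz)
    have h2 : H * ‖y - z‖ ^ β ≤ H' * ‖y - z‖ ^ β :=
      mul_le_mul_of_nonneg_right (le_max_left _ _) (Real.rpow_nonneg (norm_nonneg _) β)
    linarith
  have hx₀b : x₀ ∈ ball x₀ ρ₂ := mem_ball_self hρ₂pos
  rw [Metric.continuousAt_iff]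
  intro ε hε
  rcases (norm_nonneg (fderiv ℝ u x₀)).eq_or_lt with h0 | hpos
  · obtain ⟨r₀, hr₀, hsmall⟩ := exists_small_rpow hβ hH0 (half_pos hε)
    refine ⟨min r₀ ρ₂, lt_min hr₀ hρ₂pos, fun x hx => ?_⟩
    rw [dist_eq_norm] at hx ⊢
    have hxb : x ∈ ball x₀ ρ₂ := by
      rw [mem_ball, dist_eq_norm]; exact lt_of_lt_of_le hx (min_le_right _ _)
    have h1 := hHol x hxb x₀ hx₀b
    rw [← h0, sub_zero, abs_of_nonneg (norm_nonneg _)] at h1
    have h2 := hsmall ‖x - x₀‖ (norm_nonneg _) (le_trans hx.le (min_le_left _ _))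
    have h3 : fderiv ℝ u x₀ = 0 := norm_eq_zero.mp h0.symm
    rw [h3, sub_zero]
    linarith
  · set s₀ := ‖fderiv ℝ u x₀‖ with hs₀
    set Q := √((2 : ℝ) ^ β) with hQ
    have hQ1 : 1 < Q := two_rpow_sqrt_gt_one hβ
    have hF : 0 < Q / (Q - 1) := by
      have : 0 < Q - 1 := by linarith
      positivity
    set F := Q / (Q - 1) with hFdef
    set ε₁ := ε / (4 * s₀) with hε₁
    have hε₁pos : 0 < ε₁ := by positivity
    have hη₁ : 0 < s₀ * (ε₁ / (9 * F)) ^ 2 / 2 := by positivity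
    obtain ⟨ra, hra, hsa⟩ := exists_small_rpow hβ hH0 hη₁
    have hη₂ : 0 < min (s₀ / 2) (s₀ * ε₁ ^ 2 / 32) := lt_min (by positivity) (by positivity)
    obtain ⟨rb, hrb, hsb⟩ := exists_small_rpow hβ hH0 hη₂
    obtain ⟨rc, hrc, hsc⟩ := exists_small_rpow hβ hH0 (by positivity : 0 < ε / 8)
    set r := min (ρ₂ / 4) (min ra (rb / 2)) with hr
    have hrpos : 0 < r := lt_min (by positivity) (lt_min hra (by positivity))
    have hr1 : 2 * r < ρ₂ := by
      have : r ≤ ρ₂ / 4 := min_le_left _ _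
      linarith
    have hra' : r ≤ ra := (min_le_right _ _).trans (min_le_left _ _)
    have hrb' : 2 * r ≤ rb := by
      have : r ≤ rb / 2 := (min_le_right _ _).trans (min_le_right _ _)
      linarith
    have ha := hsa r hrpos.le hra'
    have hb := hsb (2 * r) (by positivity) hrb'
    have hr2 : H' * (2 * r) ^ β ≤ s₀ / 2 := hb.trans (min_le_left _ _)
    have hr4 : 16 * (H' * (2 * r) ^ β) / s₀ ≤ ε₁ ^ 2 / 2 := by
      have := hb.trans (min_le_right _ _)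
      rw [div_le_iff₀ hpos]
      nlinarith
    have hr3 : 9 * √(2 * (H' * r ^ β) / s₀) * F ≤ ε₁ := by
      have h1 : 2 * (H' * r ^ β) / s₀ ≤ (ε₁ / (9 * F)) ^ 2 := by
        rw [div_le_iff₀ hpos]
        nlinarith
      have h2 : √(2 * (H' * r ^ β) / s₀) ≤ ε₁ / (9 * F) := by
        calc √(2 * (H' * r ^ β) / s₀) ≤ √((ε₁ / (9 * F)) ^ 2) := Real.sqrt_le_sqrt h1
          _ = ε₁ / (9 * F) := Real.sqrt_sq (by positivity)
      calc 9 * √(2 * (H' * r ^ β) / s₀) * F ≤ 9 * (ε₁ / (9 * F)) * F := by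
            apply mul_le_mul_of_nonneg_right _ hF.le
            linarith
        _ = ε₁ := by field_simp
    set δ := min r (min (r * ε₁ ^ 2 / 16) rc) with hδ
    have hδpos : 0 < δ := lt_min hrpos (lt_min (by positivity) hrc)
    refine ⟨δ, hδpos, fun x hx => ?_⟩
    rw [dist_eq_norm] at hx
    have hx1 : ‖x - x₀‖ ≤ r := hx.le.trans (min_le_left _ _)
    have hx2' : ‖x - x₀‖ ≤ r * ε₁ ^ 2 / 16 :=
      hx.le.trans ((min_le_right _ _).trans (min_le_left _ _))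
    have hx3 : ‖x - x₀‖ ≤ rc := hx.le.trans ((min_le_right _ _).trans (min_le_right _ _))
    have hx2 : 8 * ‖x - x₀‖ / r ≤ ε₁ ^ 2 / 2 := by
      rw [div_le_iff₀ hrpos]
      nlinarith
    obtain ⟨hposx, hclose⟩ := gdir_close hu hdiff hsub hβ hH0 hHol hpos hrpos hr1 hr2 hr3 hr4
      hε₁pos hx1 hx2
    have hxb : x ∈ ball x₀ ρ₂ := by
      rw [mem_ball, dist_eq_norm]; linarith
    have hS := hHol x hxb x₀ hx₀b
    have hS' : |‖fderiv ℝ u x‖ - s₀| ≤ ε / 8 := hS.trans (hsc _ (norm_nonneg _) hx3)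
    rw [dist_eq_norm, fderiv_eq_toDual u x, fderiv_eq_toDual u x₀, ← map_sub,
      LinearIsometryEquiv.norm_map, gradient_eq_smul_gdir hposx, gradient_eq_smul_gdir hpos]
    have e : ‖fderiv ℝ u x‖ • gdir u x - s₀ • gdir u x₀
        = (‖fderiv ℝ u x‖ - s₀) • gdir u x + s₀ • (gdir u x - gdir u x₀) := by
      rw [sub_smul, smul_sub]; abel
    rw [e]
    have hfin : s₀ * (3 * ε₁) = 3 * ε / 4 := by
      rw [hε₁]; field_simp
    calc ‖(‖fderiv ℝ u x‖ - s₀) • gdir u x + s₀ • (gdir u x - gdir u x₀)‖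
        ≤ ‖(‖fderiv ℝ u x‖ - s₀) • gdir u x‖ + ‖s₀ • (gdir u x - gdir u x₀)‖ :=
          norm_add_le _ _
      _ = |‖fderiv ℝ u x‖ - s₀| + s₀ * ‖gdir u x - gdir u x₀‖ := by
          rw [norm_smul, norm_smul, gdir_norm hposx, mul_one, Real.norm_eq_abs,
            Real.norm_eq_abs, abs_of_pos hpos]
      _ ≤ ε / 8 + s₀ * (3 * ε₁) := add_le_add hS' (mul_le_mul_of_nonneg_left hclose hpos.le)
      _ < ε := by rw [hfin]; linarith

/-- The derivative of an infinity-harmonic function is continuous at every critical point. -/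
theorem fderiv_continuousAt_of_zero {u : E → ℝ} {Ω : Set E} (hΩ : IsOpen Ω)
    (hu : IsInfinityHarmonicOn u Ω) (hdiff : ∀ x ∈ Ω, DifferentiableAt ℝ u x)
    {x₀ : E} (hx₀ : x₀ ∈ Ω) (h0 : fderiv ℝ u x₀ = 0) : ContinuousAt (fderiv ℝ u) x₀ := by
  obtain ⟨ρ₁, hρ₁, hρ₁sub⟩ := Metric.isOpen_iff.mp hΩ x₀ hx₀
  rw [Metric.continuousAt_iff]
  intro ε hε
  have hlo := (hdiff x₀ hx₀).hasFDerivAt
  rw [hasFDerivAt_iff_isLittleO_nhds_zero] at hlo
  have hc : 0 < ε / 4 := by positivity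
  have h2 := Asymptotics.isLittleO_iff.mp hlo hc
  obtain ⟨δ₁, hδ₁, hP⟩ := Metric.eventually_nhds_iff.mp h2
  have hsmall : ∀ y : E, ‖y - x₀‖ < δ₁ → |u y - u x₀| ≤ ε / 4 * ‖y - x₀‖ := by
    intro y hy
    have h3 := hP (y := y - x₀) (by rw [dist_zero_right]; exact hy)
    rw [h0] at h3
    simpa using h3
  set r := min δ₁ ρ₁ / 4 with hr
  have hm : 0 < min δ₁ ρ₁ := lt_min hδ₁ hρ₁
  have hrpos : 0 < r := by positivity
  have hrδ : 2 * r < δ₁ := by
    have : min δ₁ ρ₁ ≤ δ₁ := min_le_left _ _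
    rw [hr]; linarith
  have hrρ : 2 * r < ρ₁ := by
    have : min δ₁ ρ₁ ≤ ρ₁ := min_le_right _ _
    rw [hr]; linarith
  refine ⟨r, hrpos, fun x hx => ?_⟩
  rw [dist_eq_norm] at hx
  rw [h0, dist_zero_right]
  rcases (norm_nonneg (fderiv ℝ u x)).eq_or_lt with hz | hpos
  · rw [← hz]; exact hε
  · have hbx : closedBall x r ⊆ Ω := by
      intro y hy
      apply hρ₁sub
      rw [mem_closedBall] at hy
      rw [mem_ball]
      have := dist_triangle y x x₀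
      rw [dist_eq_norm x x₀] at this
      linarith
    have hxΩ : x ∈ Ω := hbx (mem_closedBall_self hrpos.le)
    obtain ⟨y, hy, hasc⟩ := exists_ascent hu hrpos hbx (hdiff x hxΩ) hpos
    have hyx : ‖y - x‖ = r := by
      rw [← dist_eq_norm]; exact mem_sphere.mp hy
    have hyx₀ : ‖y - x₀‖ ≤ 2 * r := by
      have e : y - x₀ = (y - x) + (x - x₀) := by abel
      rw [e]
      have := norm_add_le (y - x) (x - x₀)
      linarith
    have h3 := hsmall y (by linarith)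
    have h4 := hsmall x (by linarith)
    have h5 : u y - u x₀ ≤ ε / 4 * (2 * r) :=
      le_trans (le_abs_self _) (le_trans h3 (mul_le_mul_of_nonneg_left hyx₀ hc.le))
    have h6 : -(ε / 4 * r) ≤ u x - u x₀ := by
      have a := neg_abs_le (u x - u x₀)
      have b : ε / 4 * ‖x - x₀‖ ≤ ε / 4 * r := mul_le_mul_of_nonneg_left hx.le hc.le
      linarith
    have h7 : r * ‖fderiv ℝ u x‖ ≤ r * (3 * ε / 4) := by nlinarith
    have h8 : ‖fderiv ℝ u x‖ ≤ 3 * ε / 4 := le_of_mul_le_mul_left h7 hrpos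
    linarith

/-- An infinity-harmonic function that is differentiable and whose slope is locally Hölder
continuous near every non-critical point is continuously differentiable. -/
theorem contDiffOn_of_holder_slope' {u : E → ℝ} {Ω : Set E} (hΩ : IsOpen Ω)
    (hu : IsInfinityHarmonicOn u Ω) (hdiff : ∀ x ∈ Ω, DifferentiableAt ℝ u x)
    (hH : ∀ x₀ ∈ Ω, fderiv ℝ u x₀ ≠ 0 → ∃ ρ > (0 : ℝ), ∃ β > (0 : ℝ), ∃ H : ℝ,
      ∀ x ∈ ball x₀ ρ, ∀ y ∈ ball x₀ ρ,
        |‖fderiv ℝ u x‖ - ‖fderiv ℝ u y‖| ≤ H * ‖x - y‖ ^ β) :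
    ContDiffOn ℝ 1 u Ω := by
  have h1 : (1 : WithTop ℕ∞) = 0 + 1 := (zero_add 1).symm
  rw [h1, contDiffOn_succ_iff_fderiv_of_isOpen hΩ]
  refine ⟨fun x hx => (hdiff x hx).differentiableWithinAt, by simp, ?_⟩
  rw [contDiffOn_zero]
  intro x hx
  by_cases h0 : fderiv ℝ u x = 0
  · exact (fderiv_continuousAt_of_zero hΩ hu hdiff hx h0).continuousWithinAt
  · obtain ⟨ρ, hρ, β, hβ, H, hH'⟩ := hH x hx h0
    exact (fderiv_continuousAt_of_holder hΩ hu hdiff hx hρ hβ hH').continuousWithinAt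

/-- An infinity-harmonic function that is differentiable with locally Hölder continuous slope
is continuously differentiable. -/
theorem contDiffOn_of_holder_slope {u : E → ℝ} {Ω : Set E} (hΩ : IsOpen Ω)
    (hu : IsInfinityHarmonicOn u Ω) (hdiff : ∀ x ∈ Ω, DifferentiableAt ℝ u x)
    (hH : ∀ x₀ ∈ Ω, ∃ ρ > (0 : ℝ), ∃ β > (0 : ℝ), ∃ H : ℝ, ∀ x ∈ ball x₀ ρ, ∀ y ∈ ball x₀ ρ,
      |‖fderiv ℝ u x‖ - ‖fderiv ℝ u y‖| ≤ H * ‖x - y‖ ^ β) :
    ContDiffOn ℝ 1 u Ω := by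
  have h1 : (1 : WithTop ℕ∞) = 0 + 1 := (zero_add 1).symm
  rw [h1, contDiffOn_succ_iff_fderiv_of_isOpen hΩ]
  refine ⟨fun x hx => (hdiff x hx).differentiableWithinAt, by simp, ?_⟩
  rw [contDiffOn_zero]
  intro x hx
  obtain ⟨ρ, hρ, β, hβ, H, hH'⟩ := hH x hx
  exact (fderiv_continuousAt_of_holder hΩ hu hdiff hx hρ hβ hH').continuousWithinAt

end

end Vale.Agent.Lib.P080
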