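import Mathlib
import Vale.Agent.Lib.P080.AxialDefs
import Vale.Agent.Lib.P080.Slope

namespace Vale.Agent.Lib.P080

open Filter Topology Set Metric

section Plane

@[simp] theorem planePt_zero (r t : ℝ) : (planePt r t) 0 = r := rfl

@[simp] theorem planePt_one (r t : ℝ) : (planePt r t) 1 = t := rfl

theorem planePt_eta (y : EuclideanSpace ℝ (Fin 2)) : planePt (y 0) (y 1) = y := by
  ext i
  fin_cases i <;> rfl

theorem planePt_add (a b c d : ℝ) : planePt (a + c) (b + d) = planePt a b + planePt c d := by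
  ext i
  fin_cases i <;> simp [planePt]

theorem planePt_sub (a b c d : ℝ) : planePt (a - c) (b - d) = planePt a b - planePt c d := by
  ext i
  fin_cases i <;> simp [planePt]

theorem planePt_smul (k a b : ℝ) : planePt (k * a) (k * b) = k • planePt a b := by
  ext i
  fin_cases i <;> simp [planePt]

theorem planePt_eq (r t : ℝ) : planePt r t = r • planePt 1 0 + t • planePt 0 1 := by
  rw [← planePt_smul, ← planePt_smul, ← planePt_add]
  simp

theorem inner_planePt (a b c d : ℝ) : inner ℝ (planePt a b) (planePt c d) = a * c + b * d := by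
  simp [planePt, EuclideanSpace.inner_eq_star_dotProduct, Fin.sum_univ_two, dotProduct]
  ring

theorem norm_planePt_sq (a b : ℝ) : ‖planePt a b‖ ^ 2 = a ^ 2 + b ^ 2 := by
  rw [← real_inner_self_eq_norm_sq, inner_planePt]
  ring

theorem inner_planePt_left (y : EuclideanSpace ℝ (Fin 2)) (c d : ℝ) :
    inner ℝ y (planePt c d) = y 0 * c + y 1 * d := by
  conv_lhs => rw [← planePt_eta y]
  rw [inner_planePt]

theorem norm_planePt_sub_sq (a b c d : ℝ) :
    ‖planePt a b - planePt c d‖ ^ 2 = (a - c) ^ 2 + (b - d) ^ 2 := by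
  rw [← planePt_sub, norm_planePt_sq]

theorem norm_planePt_one_zero : ‖planePt 1 0‖ = 1 := by
  have h := norm_planePt_sq 1 0
  have h0 : (0 : ℝ) ≤ ‖planePt 1 0‖ := norm_nonneg _
  nlinarith

theorem norm_planePt_zero_one : ‖planePt 0 1‖ = 1 := by
  have h := norm_planePt_sq 0 1
  have h0 : (0 : ℝ) ≤ ‖planePt 0 1‖ := norm_nonneg _
  nlinarith

theorem dist_planePt_left (r r' t : ℝ) : dist (planePt r t) (planePt r' t) = |r - r'| := by
  rw [dist_eq_norm]
  have h := norm_planePt_sub_sq r t r' t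
  have h0 : (0 : ℝ) ≤ ‖planePt r t - planePt r' t‖ := norm_nonneg _
  have h1 : ‖planePt r t - planePt r' t‖ ^ 2 = |r - r'| ^ 2 := by
    rw [h, sq_abs]; ring
  exact (sq_eq_sq₀ h0 (abs_nonneg _)).mp h1

theorem planeRefl_planePt (r t : ℝ) : planeRefl (planePt r t) = planePt (-r) t := rfl

theorem even_planePt_neg {W : EuclideanSpace ℝ (Fin 2) → ℝ} (hW : ∀ y, W (planeRefl y) = W y)
    (r t : ℝ) : W (planePt (-r) t) = W (planePt r t) := by
  rw [← planeRefl_planePt, hW]

theorem even_planePt_abs {W : EuclideanSpace ℝ (Fin 2) → ℝ} (hW : ∀ y, W (planeRefl y) = W y)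
    (r t : ℝ) : W (planePt |r| t) = W (planePt r t) := by
  rcases abs_cases r with ⟨h, _⟩ | ⟨h, _⟩
  · rw [h]
  · rw [h, even_planePt_neg hW]

theorem hasDerivAt_planePt (t r : ℝ) :
    HasDerivAt (fun r : ℝ => planePt r t) (planePt 1 0) r := by
  have h : HasDerivAt (fun r : ℝ => r • planePt 1 0 + t • planePt 0 1) (planePt 1 0) r := by
    have h1 := ((hasDerivAt_id r).smul_const (planePt 1 0)).add_const (t • planePt 0 1)
    simpa using h1
  have e : (fun r : ℝ => planePt r t) = fun r : ℝ => r • planePt 1 0 + t • planePt 0 1 := by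
    funext r
    exact planePt_eq r t
  rw [e]
  exact h

end Plane

section OneDim

/-- A one-variable function whose derivative is `K`-Lipschitz on `(-R, R)` satisfies
`min (g ρ) (g (-ρ)) ≤ g α + K/2 (ρ² - α²)` for `|α| ≤ ρ < R`. -/
theorem min_le_add_sq {g g' : ℝ → ℝ} {R K : ℝ}
    (hg : ∀ r, |r| < R → HasDerivAt g (g' r) r)
    (hg' : ∀ r r', |r| < R → |r'| < R → |g' r - g' r'| ≤ K * |r - r'|)
    {ρ α : ℝ} (hρ : ρ < R) (hα : |α| ≤ ρ) :
    min (g ρ) (g (-ρ)) ≤ g α + K / 2 * (ρ ^ 2 - α ^ 2) := by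
  have hρ0 : 0 ≤ ρ := (abs_nonneg α).trans hα
  have hin : ∀ r ∈ Icc (-ρ) ρ, |r| < R := by
    intro r hr
    exact lt_of_le_of_lt (abs_le.mpr ⟨hr.1, hr.2⟩) hρ
  set h : ℝ → ℝ := fun r => g r - K / 2 * r ^ 2 with hh
  have hd : ∀ r, |r| < R → HasDerivAt h (g' r - K * r) r := by
    intro r hr
    have h1 : HasDerivAt (fun r : ℝ => K / 2 * r ^ 2) (K / 2 * (2 * r)) r := by
      have := (hasDerivAt_pow 2 r).const_mul (K / 2)
      simpa using this
    have h2 := (hg r hr).sub h1
    exact h2.congr_deriv (by ring)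
  have hconc : ConcaveOn ℝ (Icc (-ρ) ρ) h := by
    apply AntitoneOn.concaveOn_of_deriv (convex_Icc _ _)
    · intro r hr
      exact (hd r (hin r hr)).continuousAt.continuousWithinAt
    · intro r hr
      rw [interior_Icc] at hr
      exact (hd r (hin r (Ioo_subset_Icc_self hr))).differentiableAt.differentiableWithinAt
    · intro r hr r' hr' hrr'
      rw [interior_Icc] at hr hr'
      have hr1 := hin r (Ioo_subset_Icc_self hr)
      have hr2 := hin r' (Ioo_subset_Icc_self hr')
      rw [(hd r hr1).deriv, (hd r' hr2).deriv]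
      have h3 := hg' r' r hr2 hr1
      rw [abs_of_nonneg (sub_nonneg.mpr hrr')] at h3
      have h4 := le_abs_self (g' r' - g' r)
      linarith
  have hαm : α ∈ Icc (-ρ) ρ := ⟨(abs_le.mp hα).1, (abs_le.mp hα).2⟩
  have h5 := hconc.min_le_of_mem_Icc (left_mem_Icc.mpr (by linarith))
    (right_mem_Icc.mpr (by linarith)) hαm
  simp only [hh] at h5
  have h6 : min (g ρ) (g (-ρ)) - K / 2 * ρ ^ 2 ≤ g α - K / 2 * α ^ 2 := by
    refine le_trans ?_ h5
    rw [le_min_iff]
    constructor
    · have := min_le_right (g ρ) (g (-ρ))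
      have e : (-ρ) ^ 2 = ρ ^ 2 := by ring
      rw [e]
      linarith
    · have := min_le_left (g ρ) (g (-ρ))
      linarith
  linarith

end OneDim

section Transfer

variable {E : Type*} [NormedAddCommGroup E] [InnerProductSpace ℝ E] [CompleteSpace E]
variable {F : Type*} [NormedAddCommGroup F] [InnerProductSpace ℝ F] [CompleteSpace F]

/-- Two test functions that agree along their gradient lines have the same infinity
Laplacian. -/
theorem infLaplacian_transfer {φ : E → ℝ} {ψ : F → ℝ} {x : E} {z : F}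
    (hφ : ContDiffAt ℝ 2 φ x) (hψ : ContDiffAt ℝ 2 ψ z)
    (h : ∀ᶠ τ in 𝓝 (0 : ℝ), φ (x + τ • gradient φ x) = ψ (z + τ • gradient ψ z)) :
    infLaplacian φ x = infLaplacian ψ z := by
  rw [infLaplacian_eq_deriv_deriv hφ, infLaplacian_eq_deriv_deriv hψ]
  have h1 : (fun s : ℝ => φ (x + s • gradient φ x)) =ᶠ[𝓝 0]
      fun s : ℝ => ψ (z + s • gradient ψ z) := h
  exact h1.deriv.deriv_eq

theorem fderiv_eq_inner_gradient (φ : E → ℝ) (x v : E) :
    fderiv ℝ φ x v = inner ℝ (gradient φ x) v := by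
  unfold gradient
  rw [InnerProductSpace.toDual_symm_apply]

end Transfer

section Geometry

variable {E : Type*} [NormedAddCommGroup E] [InnerProductSpace ℝ E]

/-- The component of `x` perpendicular to the axis spanned by `e`. -/
noncomputable def axPerp (e x : E) : E := x - (inner ℝ e x) • e

theorem axMap_eq (e x : E) : axMap e x = planePt ‖axPerp e x‖ (inner ℝ e x) := rfl

theorem inner_axPerp {e : E} (he : ‖e‖ = 1) (x : E) : inner ℝ e (axPerp e x) = 0 := by
  unfold axPerp
  rw [inner_sub_right, inner_smul_right, real_inner_self_eq_norm_sq, he]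
  ring

theorem axPerp_sub (e x y : E) : axPerp e (x - y) = axPerp e x - axPerp e y := by
  unfold axPerp
  rw [inner_sub_right, sub_smul]
  abel

theorem norm_sq_eq_axPerp {e : E} (he : ‖e‖ = 1) (x : E) :
    ‖x‖ ^ 2 = ‖axPerp e x‖ ^ 2 + (inner ℝ e x) ^ 2 := by
  have h : x = axPerp e x + (inner ℝ e x) • e := by
    unfold axPerp
    abel
  have h2 : ‖axPerp e x + (inner ℝ e x) • e‖ ^ 2 = ‖axPerp e x‖ ^ 2 + (inner ℝ e x) ^ 2 := by
    rw [norm_add_sq_real, inner_smul_right, real_inner_comm e (axPerp e x), inner_axPerp he,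
      norm_smul, he, Real.norm_eq_abs, mul_one, sq_abs]
    ring
  rw [← h] at h2
  exact h2

theorem norm_axPerp_le {e : E} (he : ‖e‖ = 1) (x : E) : ‖axPerp e x‖ ≤ ‖x‖ := by
  have h := norm_sq_eq_axPerp he x
  have h1 : ‖axPerp e x‖ ^ 2 ≤ ‖x‖ ^ 2 := by nlinarith [sq_nonneg (inner ℝ e x)]
  exact (sq_le_sq₀ (norm_nonneg _) (norm_nonneg _)).mp h1

theorem norm_axMap_sub_le {e : E} (he : ‖e‖ = 1) (x y : E) :
    ‖axMap e x - axMap e y‖ ≤ ‖x - y‖ := by
  have h1 : ‖axMap e x - axMap e y‖ ^ 2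
      = (‖axPerp e x‖ - ‖axPerp e y‖) ^ 2 + (inner ℝ e x - inner ℝ e y) ^ 2 :=
    norm_planePt_sub_sq _ _ _ _
  have h2 := norm_sq_eq_axPerp he (x - y)
  rw [axPerp_sub, inner_sub_right] at h2
  have h3 : |‖axPerp e x‖ - ‖axPerp e y‖| ≤ ‖axPerp e x - axPerp e y‖ :=
    abs_norm_sub_norm_le _ _
  have h4 : (‖axPerp e x‖ - ‖axPerp e y‖) ^ 2 ≤ ‖axPerp e x - axPerp e y‖ ^ 2 := by
    rw [← sq_abs]
    exact pow_le_pow_left₀ (abs_nonneg _) h3 2
  have h5 : ‖axMap e x - axMap e y‖ ^ 2 ≤ ‖x - y‖ ^ 2 := by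
    rw [h1, h2]
    linarith
  exact (sq_le_sq₀ (norm_nonneg _) (norm_nonneg _)).mp h5

theorem lipschitzWith_axMap {e : E} (he : ‖e‖ = 1) : LipschitzWith 1 (axMap e) := by
  apply LipschitzWith.of_dist_le_mul
  intro x y
  rw [dist_eq_norm, dist_eq_norm, NNReal.coe_one, one_mul]
  exact norm_axMap_sub_le he x y

theorem continuous_axMap {e : E} (he : ‖e‖ = 1) : Continuous (axMap e) :=
  (lipschitzWith_axMap he).continuous

/-- The linear embedding of the plane onto the plane spanned by `ν` and `e`. -/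
noncomputable def sliceL (ν e : E) : EuclideanSpace ℝ (Fin 2) →L[ℝ] E :=
  (EuclideanSpace.proj (0 : Fin 2)).smulRight ν + (EuclideanSpace.proj (1 : Fin 2)).smulRight e

theorem sliceL_apply (ν e : E) (y : EuclideanSpace ℝ (Fin 2)) :
    sliceL ν e y = y 0 • ν + y 1 • e := by
  simp [sliceL]

/-- The coordinates of a point with respect to `ν` and `e`. -/
noncomputable def coordL (ν e : E) : E →L[ℝ] EuclideanSpace ℝ (Fin 2) :=
  (innerSL ℝ ν).smulRight (planePt 1 0) + (innerSL ℝ e).smulRight (planePt 0 1)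

theorem coordL_apply (ν e x : E) : coordL ν e x = planePt (inner ℝ ν x) (inner ℝ e x) := by
  rw [planePt_eq]
  simp [coordL]

/-- The component of a point orthogonal to `ν` and `e`. -/
noncomputable def wL (ν e : E) : E →L[ℝ] E :=
  ContinuousLinearMap.id ℝ E - (sliceL ν e).comp (coordL ν e)

theorem wL_apply (ν e x : E) : wL ν e x = x - (inner ℝ ν x) • ν - (inner ℝ e x) • e := by
  simp [wL, sliceL_apply, coordL_apply]
  abel

variable {ν e : E}

theorem inner_nu_sliceL (hν : ‖ν‖ = 1) (hνe : inner ℝ ν e = 0) (y : EuclideanSpace ℝ (Fin 2)) :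
    inner ℝ ν (sliceL ν e y) = y 0 := by
  rw [sliceL_apply, inner_add_right, inner_smul_right, inner_smul_right,
    real_inner_self_eq_norm_sq, hν, hνe]
  ring

theorem inner_e_sliceL (he : ‖e‖ = 1) (hνe : inner ℝ ν e = 0) (y : EuclideanSpace ℝ (Fin 2)) :
    inner ℝ e (sliceL ν e y) = y 1 := by
  rw [sliceL_apply, inner_add_right, inner_smul_right, inner_smul_right,
    real_inner_self_eq_norm_sq, he, real_inner_comm, hνe]
  ring

theorem coordL_sliceL (hν : ‖ν‖ = 1) (he : ‖e‖ = 1) (hνe : inner ℝ ν e = 0)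
    (y : EuclideanSpace ℝ (Fin 2)) : coordL ν e (sliceL ν e y) = y := by
  rw [coordL_apply, inner_nu_sliceL hν hνe, inner_e_sliceL he hνe, planePt_eta]

theorem wL_sliceL (hν : ‖ν‖ = 1) (he : ‖e‖ = 1) (hνe : inner ℝ ν e = 0)
    (y : EuclideanSpace ℝ (Fin 2)) : wL ν e (sliceL ν e y) = 0 := by
  rw [wL_apply, inner_nu_sliceL hν hνe, inner_e_sliceL he hνe, sliceL_apply]
  abel

theorem axPerp_sliceL (he : ‖e‖ = 1) (hνe : inner ℝ ν e = 0)
    (y : EuclideanSpace ℝ (Fin 2)) : axPerp e (sliceL ν e y) = y 0 • ν := by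
  unfold axPerp
  rw [inner_e_sliceL he hνe, sliceL_apply]
  abel

theorem axMap_sliceL (hν : ‖ν‖ = 1) (he : ‖e‖ = 1) (hνe : inner ℝ ν e = 0)
    (y : EuclideanSpace ℝ (Fin 2)) : axMap e (sliceL ν e y) = planePt |y 0| (y 1) := by
  rw [axMap_eq, axPerp_sliceL he hνe, inner_e_sliceL he hνe, norm_smul, hν, mul_one,
    Real.norm_eq_abs]

theorem inner_nu_wL (hν : ‖ν‖ = 1) (hνe : inner ℝ ν e = 0) (x : E) :
    inner ℝ ν (wL ν e x) = 0 := by
  rw [wL_apply, inner_sub_right, inner_sub_right, inner_smul_right, inner_smul_right,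
    real_inner_self_eq_norm_sq, hν, hνe]
  ring

theorem norm_axPerp_sq (hν : ‖ν‖ = 1) (hνe : inner ℝ ν e = 0) (x : E) :
    ‖axPerp e x‖ ^ 2 = (inner ℝ ν x) ^ 2 + ‖wL ν e x‖ ^ 2 := by
  have h : axPerp e x = (inner ℝ ν x) • ν + wL ν e x := by
    unfold axPerp
    rw [wL_apply]
    abel
  rw [h, norm_add_sq_real, inner_smul_left, inner_nu_wL hν hνe, norm_smul, hν, Real.norm_eq_abs,
    mul_one, sq_abs]
  simp

theorem abs_inner_le_norm_axPerp (hν : ‖ν‖ = 1) (hνe : inner ℝ ν e = 0) (x : E) :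
    |inner ℝ ν x| ≤ ‖axPerp e x‖ := by
  have h := norm_axPerp_sq hν hνe x
  have h1 : |inner ℝ ν x| ^ 2 ≤ ‖axPerp e x‖ ^ 2 := by
    rw [sq_abs]
    nlinarith [sq_nonneg ‖wL ν e x‖]
  exact (sq_le_sq₀ (abs_nonneg _) (norm_nonneg _)).mp h1

theorem norm_coordL_le (hν : ‖ν‖ = 1) (he : ‖e‖ = 1) (hνe : inner ℝ ν e = 0) (x : E) :
    ‖coordL ν e x‖ ≤ ‖x‖ := by
  have h1 : ‖coordL ν e x‖ ^ 2 = (inner ℝ ν x) ^ 2 + (inner ℝ e x) ^ 2 := by
    rw [coordL_apply, norm_planePt_sq]
  have h2 := norm_sq_eq_axPerp he x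
  have h3 := norm_axPerp_sq hν hνe x
  have h4 : ‖coordL ν e x‖ ^ 2 ≤ ‖x‖ ^ 2 := by
    rw [h1, h2, h3]
    nlinarith [sq_nonneg ‖wL ν e x‖]
  exact (sq_le_sq₀ (norm_nonneg _) (norm_nonneg _)).mp h4

end Geometry

section Forward

variable {E : Type*} [NormedAddCommGroup E] [InnerProductSpace ℝ E] [CompleteSpace E]
variable {ν e : E}

/-- The penalised lift of a planar test function `ψ` to the whole space. -/
noncomputable def liftFun (ν e : E) (ψ : EuclideanSpace ℝ (Fin 2) → ℝ) (M : ℝ) (x : E) : ℝ :=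
  ψ (coordL ν e x) + M * ‖wL ν e x‖ ^ 2

omit [CompleteSpace E] in
theorem liftFun_sliceL (hν : ‖ν‖ = 1) (he : ‖e‖ = 1) (hνe : inner ℝ ν e = 0)
    (ψ : EuclideanSpace ℝ (Fin 2) → ℝ) (M : ℝ) (y : EuclideanSpace ℝ (Fin 2)) :
    liftFun ν e ψ M (sliceL ν e y) = ψ y := by
  unfold liftFun
  rw [coordL_sliceL hν he hνe, wL_sliceL hν he hνe]
  simp

omit [CompleteSpace E] in
theorem liftFun_contDiffAt (hν : ‖ν‖ = 1) (he : ‖e‖ = 1) (hνe : inner ℝ ν e = 0)
    {ψ : EuclideanSpace ℝ (Fin 2) → ℝ} {z : EuclideanSpace ℝ (Fin 2)}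
    (hψ : ContDiffAt ℝ 2 ψ z) (M : ℝ) :
    ContDiffAt ℝ 2 (liftFun ν e ψ M) (sliceL ν e z) := by
  unfold liftFun
  have h1 : ContDiffAt ℝ 2 (fun x => ψ (coordL ν e x)) (sliceL ν e z) := by
    have hz : ContDiffAt ℝ 2 ψ (coordL ν e (sliceL ν e z)) := by
      rw [coordL_sliceL hν he hνe]
      exact hψ
    exact hz.comp (sliceL ν e z) (coordL ν e).contDiff.contDiffAt
  have h2 : ContDiffAt ℝ 2 (fun x => ‖wL ν e x‖ ^ 2) (sliceL ν e z) :=
    (wL ν e).contDiff.contDiffAt.norm_sq ℝ
  exact h1.add (contDiffAt_const.mul h2)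

theorem liftFun_hasGradientAt (hν : ‖ν‖ = 1) (he : ‖e‖ = 1) (hνe : inner ℝ ν e = 0)
    {ψ : EuclideanSpace ℝ (Fin 2) → ℝ} {z : EuclideanSpace ℝ (Fin 2)}
    (hψ : DifferentiableAt ℝ ψ z) (M : ℝ) :
    HasGradientAt (liftFun ν e ψ M) (sliceL ν e (gradient ψ z)) (sliceL ν e z) := by
  have hz : HasFDerivAt ψ (fderiv ℝ ψ z) (coordL ν e (sliceL ν e z)) := by
    rw [coordL_sliceL hν he hνe]
    exact hψ.hasFDerivAt
  have h1 : HasFDerivAt (fun x => ψ (coordL ν e x)) ((fderiv ℝ ψ z).comp (coordL ν e))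
      (sliceL ν e z) := hz.comp (sliceL ν e z) (coordL ν e).hasFDerivAt
  have h2 : HasFDerivAt (fun x => ‖wL ν e x‖ ^ 2)
      (2 • (innerSL ℝ (wL ν e (sliceL ν e z))).comp (wL ν e)) (sliceL ν e z) :=
    (wL ν e).hasFDerivAt.norm_sq
  have h3 := h1.add (h2.const_mul M)
  rw [hasGradientAt_iff_hasFDerivAt]
  refine h3.congr_fderiv ?_
  ext h
  rw [wL_sliceL hν he hνe]
  simp only [_root_.add_apply, ContinuousLinearMap.comp_apply,
    _root_.smul_apply, InnerProductSpace.toDual_apply_apply, coordL_apply,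
    sliceL_apply, inner_add_left, real_inner_smul_left, fderiv_eq_inner_gradient,
    inner_planePt_left, innerSL_apply_apply, inner_zero_left, smul_zero, mul_zero, add_zero,
    smul_eq_mul]

theorem liftFun_infLaplacian (hν : ‖ν‖ = 1) (he : ‖e‖ = 1) (hνe : inner ℝ ν e = 0)
    {ψ : EuclideanSpace ℝ (Fin 2) → ℝ} {z : EuclideanSpace ℝ (Fin 2)}
    (hψ : ContDiffAt ℝ 2 ψ z) (M : ℝ) :
    infLaplacian (liftFun ν e ψ M) (sliceL ν e z) = infLaplacian ψ z := by
  apply infLaplacian_transfer (liftFun_contDiffAt hν he hνe hψ M) hψ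
  refine Eventually.of_forall fun τ => ?_
  rw [(liftFun_hasGradientAt hν he hνe (hψ.differentiableAt (by norm_num)) M).gradient]
  rw [← map_smul, ← map_add, liftFun_sliceL hν he hνe]

omit [CompleteSpace E] in
theorem offaxis_aux {W ψ : EuclideanSpace ℝ (Fin 2) → ℝ} {z : EuclideanSpace ℝ (Fin 2)}
    {δ a : ℝ} {L : NNReal} {T : Set (EuclideanSpace ℝ (Fin 2))} (ha : 0 < a)
    (hball : ∀ ⦃y⦄, dist y z < δ → W y - ψ y ≤ W z - ψ z ∧ y ∈ T)
    (hLip : LipschitzOnWith L ψ T) {r s t w2 : ℝ}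
    (hy : dist (planePt r t) z < δ) (hc : dist (planePt s t) z < δ)
    (hw : 0 ≤ w2) (hrs : (r - s) * (r + s) = w2) (hsum : a ≤ |r + s|) :
    W (planePt r t) - (ψ (planePt s t) + L / a * w2) ≤ W z - ψ z := by
  obtain ⟨h1, h2⟩ := hball hy
  obtain ⟨_, h3⟩ := hball hc
  have h4 := hLip.dist_le_mul _ h2 _ h3
  rw [dist_planePt_left, Real.dist_eq] at h4
  have h5 : ψ (planePt r t) - ψ (planePt s t) ≤ L * |r - s| := (le_abs_self _).trans h4
  have h6 : |r - s| * a ≤ w2 := by
    have h7 : |r - s| * |r + s| = w2 := by rw [← abs_mul, hrs, abs_of_nonneg hw]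
    nlinarith [abs_nonneg (r - s)]
  have h7 : (L : ℝ) * |r - s| ≤ L / a * w2 := by
    rw [div_mul_eq_mul_div, le_div_iff₀ ha]
    nlinarith [L.coe_nonneg]
  linarith

omit [CompleteSpace E] in
/-- A planar test function touching an even function `W` from above lifts, after adding a
multiple of the squared distance to the slice plane, to a test function touching
`W ∘ axMap e` from above. -/
theorem exists_lift_isLocalMax (hν : ‖ν‖ = 1) (he : ‖e‖ = 1) (hνe : inner ℝ ν e = 0)
    {W ψ : EuclideanSpace ℝ (Fin 2) → ℝ} (hW : ∀ y, W (planeRefl y) = W y)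
    {z : EuclideanSpace ℝ (Fin 2)} (hψ : ContDiffAt ℝ 2 ψ z)
    (hmax : IsLocalMax (fun y => W y - ψ y) z) :
    ∃ M : ℝ, IsLocalMax (fun x => W (axMap e x) - liftFun ν e ψ M x) (sliceL ν e z) := by
  have hval : ∀ M : ℝ, W (axMap e (sliceL ν e z)) - liftFun ν e ψ M (sliceL ν e z)
      = W z - ψ z := by
    intro M
    rw [liftFun_sliceL hν he hνe, axMap_sliceL hν he hνe, even_planePt_abs hW, planePt_eta]
  by_cases h0 : z 0 = 0
  · have hψ1 : ContDiffAt ℝ 1 (fderiv ℝ ψ) z := hψ.fderiv_right (m := 1) (by norm_num)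
    obtain ⟨K, T, hT, hLip⟩ := hψ1.exists_lipschitzOnWith
    have hdiff : ∀ᶠ y in 𝓝 z, DifferentiableAt ℝ ψ y :=
      (hψ.eventually (by norm_num)).mono fun y hy => hy.differentiableAt (by norm_num)
    have hev : ∀ᶠ y in 𝓝 z, (W y - ψ y ≤ W z - ψ z) ∧ DifferentiableAt ℝ ψ y ∧ y ∈ T := by
      filter_upwards [hmax, hdiff, hT] with y h1 h2 h3
      exact ⟨h1, h2, h3⟩
    obtain ⟨δ, hδ, hball⟩ := Metric.eventually_nhds_iff.mp hev
    refine ⟨K / 2, ?_⟩
    have hnhds : ball (sliceL ν e z) (δ / 2) ∈ 𝓝 (sliceL ν e z) :=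
      ball_mem_nhds _ (by positivity)
    filter_upwards [hnhds] with x hx
    show W (axMap e x) - liftFun ν e ψ (K / 2) x
      ≤ W (axMap e (sliceL ν e z)) - liftFun ν e ψ (K / 2) (sliceL ν e z)
    rw [hval]
    set s := inner ℝ ν x with hs
    set t := inner ℝ e x with ht
    set ρ := ‖axPerp e x‖ with hρ
    have hzeq : z = planePt 0 (z 1) := by rw [← h0, planePt_eta]
    have hx' : ‖x - sliceL ν e z‖ < δ / 2 := by rw [← dist_eq_norm]; exact hx
    have hax : ‖planePt ρ t - planePt 0 (z 1)‖ < δ / 2 := by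
      have h1 := norm_axMap_sub_le he x (sliceL ν e z)
      rw [axMap_sliceL hν he hνe, h0, abs_zero] at h1
      exact lt_of_le_of_lt h1 hx'
    have hsq : ρ ^ 2 + (t - z 1) ^ 2 < (δ / 2) ^ 2 := by
      have h1 := norm_planePt_sub_sq ρ t 0 (z 1)
      have h2 : ‖planePt ρ t - planePt 0 (z 1)‖ ^ 2 < (δ / 2) ^ 2 :=
        pow_lt_pow_left₀ hax (norm_nonneg _) (by norm_num)
      rw [h1] at h2
      simpa using h2
    have hρ0 : 0 ≤ ρ := norm_nonneg _
    have hρlt : ρ < δ / 2 := by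
      have h1 : ρ ^ 2 < (δ / 2) ^ 2 := by nlinarith [sq_nonneg (t - z 1)]
      exact lt_of_pow_lt_pow_left₀ 2 (by positivity) h1
    have hin : ∀ r : ℝ, |r| < δ / 2 → dist (planePt r t) z < δ := by
      intro r hr
      have h1 : dist (planePt r t) z ^ 2 = r ^ 2 + (t - z 1) ^ 2 := by
        rw [dist_eq_norm]
        conv_lhs => rw [hzeq]
        rw [norm_planePt_sub_sq]
        simp
      have h2 : r ^ 2 < (δ / 2) ^ 2 := sq_lt_sq' (abs_lt.mp hr).1 (abs_lt.mp hr).2
      have h3 : dist (planePt r t) z ^ 2 < δ ^ 2 := by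
        rw [h1]
        nlinarith [sq_nonneg ρ]
      exact lt_of_pow_lt_pow_left₀ 2 hδ.le h3
    have hg : ∀ r, |r| < δ / 2 → HasDerivAt (fun r => ψ (planePt r t))
        (fderiv ℝ ψ (planePt r t) (planePt 1 0)) r := by
      intro r hr
      have h1 := (hball (hin r hr)).2.1.hasFDerivAt
      exact h1.comp_hasDerivAt r (hasDerivAt_planePt t r)
    have hg' : ∀ r r', |r| < δ / 2 → |r'| < δ / 2 →
        |fderiv ℝ ψ (planePt r t) (planePt 1 0) - fderiv ℝ ψ (planePt r' t) (planePt 1 0)|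
          ≤ K * |r - r'| := by
      intro r r' hr hr'
      have h1 := hLip.dist_le_mul _ (hball (hin r hr)).2.2 _ (hball (hin r' hr')).2.2
      rw [dist_planePt_left, dist_eq_norm] at h1
      have h2 := (fderiv ℝ ψ (planePt r t) - fderiv ℝ ψ (planePt r' t)).le_opNorm (planePt 1 0)
      rw [norm_planePt_one_zero, mul_one, Real.norm_eq_abs, _root_.sub_apply] at h2
      exact h2.trans h1
    have hQ : min (ψ (planePt ρ t)) (ψ (planePt (-ρ) t))
        ≤ ψ (planePt s t) + K / 2 * (ρ ^ 2 - s ^ 2) :=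
      min_le_add_sq hg hg' hρlt (abs_inner_le_norm_axPerp hν hνe x)
    have hw : ρ ^ 2 - s ^ 2 = ‖wL ν e x‖ ^ 2 := by
      have := norm_axPerp_sq hν hνe x
      linarith
    have hb1 := (hball (hin ρ (by rw [abs_of_nonneg hρ0]; exact hρlt))).1
    have hb2 := (hball (hin (-ρ) (by rw [abs_neg, abs_of_nonneg hρ0]; exact hρlt))).1
    rw [even_planePt_neg hW] at hb2
    have hlift : liftFun ν e ψ (K / 2) x = ψ (planePt s t) + K / 2 * ‖wL ν e x‖ ^ 2 := by
      unfold liftFun
      rw [coordL_apply]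
    rw [hlift, axMap_eq, ← hw]
    rcases min_le_iff.mp hQ with h | h <;> linarith
  · have ha : 0 < |z 0| := abs_pos.mpr h0
    have hψ1 : ContDiffAt ℝ 1 ψ z := hψ.of_le (by norm_num)
    obtain ⟨L, T, hT, hLip⟩ := hψ1.exists_lipschitzOnWith
    have hev : ∀ᶠ y in 𝓝 z, (W y - ψ y ≤ W z - ψ z) ∧ y ∈ T := by
      filter_upwards [hmax, hT] with y h1 h2
      exact ⟨h1, h2⟩
    obtain ⟨δ, hδ, hball⟩ := Metric.eventually_nhds_iff.mp hev
    refine ⟨L / |z 0|, ?_⟩
    have hnhds : ball (sliceL ν e z) (min δ (|z 0| / 2)) ∈ 𝓝 (sliceL ν e z) :=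
      ball_mem_nhds _ (lt_min hδ (by positivity))
    filter_upwards [hnhds] with x hx
    show W (axMap e x) - liftFun ν e ψ (L / |z 0|) x
      ≤ W (axMap e (sliceL ν e z)) - liftFun ν e ψ (L / |z 0|) (sliceL ν e z)
    rw [hval]
    set s := inner ℝ ν x with hs
    set t := inner ℝ e x with ht
    set ρ := ‖axPerp e x‖ with hρ
    have hx' : ‖x - sliceL ν e z‖ < min δ (|z 0| / 2) := by rw [← dist_eq_norm]; exact hx
    have hx1 : ‖x - sliceL ν e z‖ < δ := lt_of_lt_of_le hx' (min_le_left _ _)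
    have hx2 : ‖x - sliceL ν e z‖ < |z 0| / 2 := lt_of_lt_of_le hx' (min_le_right _ _)
    have hρ0 : 0 ≤ ρ := norm_nonneg _
    have hsρ : |s| ≤ ρ := abs_inner_le_norm_axPerp hν hνe x
    have hw : ρ ^ 2 - s ^ 2 = ‖wL ν e x‖ ^ 2 := by
      have := norm_axPerp_sq hν hνe x
      linarith
    have hlift : liftFun ν e ψ (L / |z 0|) x
        = ψ (planePt s t) + L / |z 0| * ‖wL ν e x‖ ^ 2 := by
      unfold liftFun
      rw [coordL_apply]
    have hs0 : |s - z 0| < |z 0| / 2 := by
      have h1 : s - z 0 = inner ℝ ν (x - sliceL ν e z) := by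
        rw [inner_sub_right, inner_nu_sliceL hν hνe]
      rw [h1]
      have h2 := abs_real_inner_le_norm ν (x - sliceL ν e z)
      rw [hν, one_mul] at h2
      exact lt_of_le_of_lt h2 hx2
    have hc : dist (planePt s t) z < δ := by
      have h1 : planePt s t - z = coordL ν e (x - sliceL ν e z) := by
        rw [map_sub, coordL_sliceL hν he hνe, coordL_apply]
      rw [dist_eq_norm, h1]
      exact lt_of_le_of_lt (norm_coordL_le hν he hνe _) hx1
    have hax : ‖planePt ρ t - planePt |z 0| (z 1)‖ < δ := by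
      have h1 := norm_axMap_sub_le he x (sliceL ν e z)
      rw [axMap_sliceL hν he hνe] at h1
      exact lt_of_le_of_lt h1 hx1
    rw [hlift, axMap_eq]
    rcases lt_or_gt_of_ne h0 with hneg | hpos
    · have habs : |z 0| = -(z 0) := abs_of_neg hneg
      have hy : dist (planePt (-ρ) t) z < δ := by
        have h1 : ‖planePt (-ρ) t - z‖ = ‖planePt ρ t - planePt |z 0| (z 1)‖ := by
          have e1 : ‖planePt (-ρ) t - z‖ ^ 2 = ‖planePt ρ t - planePt |z 0| (z 1)‖ ^ 2 := by
            conv_lhs => rw [← planePt_eta z]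
            rw [norm_planePt_sub_sq, norm_planePt_sub_sq, habs]
            ring
          exact (sq_eq_sq₀ (norm_nonneg _) (norm_nonneg _)).mp e1
        rw [dist_eq_norm, h1]
        exact hax
      have hsum : |z 0| ≤ |(-ρ) + s| := by
        have h1 := (abs_lt.mp hs0).2
        have h2 := (abs_le.mp hsρ).1
        rw [abs_of_nonpos (by linarith : (-ρ) + s ≤ 0)]
        linarith
      have hmain := offaxis_aux ha hball hLip hy hc (sq_nonneg ‖wL ν e x‖)
        (by rw [← hw]; ring) hsum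
      rw [even_planePt_neg hW] at hmain
      exact hmain
    · have habs : |z 0| = z 0 := abs_of_pos hpos
      have hy : dist (planePt ρ t) z < δ := by
        rw [dist_eq_norm]
        have h1 : planePt |z 0| (z 1) = z := by rw [habs, planePt_eta]
        rw [← h1]
        exact hax
      have hsum : |z 0| ≤ |ρ + s| := by
        have h1 := (abs_lt.mp hs0).1
        have h2 := (abs_le.mp hsρ).2
        rw [abs_of_nonneg (by linarith : 0 ≤ ρ + s)]
        linarith
      exact offaxis_aux ha hball hLip hy hc (sq_nonneg ‖wL ν e x‖) (by rw [← hw]; ring) hsum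

end Forward

section Converse

variable {E : Type*} [NormedAddCommGroup E] [InnerProductSpace ℝ E] [CompleteSpace E]

theorem inner_planePt_right (a b : ℝ) (y : EuclideanSpace ℝ (Fin 2)) :
    inner ℝ (planePt a b) y = a * y 0 + b * y 1 := by
  rw [real_inner_comm, inner_planePt_left]
  ring

omit [CompleteSpace E] in
theorem wL_eq (ν e x : E) : wL ν e x = x - sliceL ν e (coordL ν e x) := rfl

omit [CompleteSpace E] in
theorem inner_e_wL {ν e : E} (he : ‖e‖ = 1) (hνe : inner ℝ ν e = 0) (x : E) :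
    inner ℝ e (wL ν e x) = 0 := by
  rw [wL_apply, inner_sub_right, inner_sub_right, inner_smul_right, inner_smul_right,
    real_inner_self_eq_norm_sq, he, real_inner_comm ν e, hνe]
  ring

omit [CompleteSpace E] in
theorem inner_self_wL {ν e : E} (hν : ‖ν‖ = 1) (he : ‖e‖ = 1) (hνe : inner ℝ ν e = 0) (x : E) :
    inner ℝ x (wL ν e x) = ‖wL ν e x‖ ^ 2 := by
  have h : x = wL ν e x + ((inner ℝ ν x) • ν + (inner ℝ e x) • e) := by
    rw [wL_apply]
    abel
  have h' : inner ℝ x (wL ν e x)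
      = inner ℝ (wL ν e x + ((inner ℝ ν x) • ν + (inner ℝ e x) • e)) (wL ν e x) := by
    rw [← h]
  rw [h', inner_add_left, inner_add_left, real_inner_smul_left, real_inner_smul_left,
    inner_nu_wL hν hνe, inner_e_wL he hνe, real_inner_self_eq_norm_sq]
  ring

omit [CompleteSpace E] in
/-- Along the orbit of `x₀` under rotations about the axis, a test function touching an
axially symmetric function has vanishing derivative. -/
theorem fderiv_orbit_eq_zero {e ν η : E} (he : ‖e‖ = 1) (hν : ‖ν‖ = 1) (hη : ‖η‖ = 1)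
    (hνe : inner ℝ ν e = 0) (hηe : inner ℝ η e = 0) (hην : inner ℝ η ν = 0)
    {U : EuclideanSpace ℝ (Fin 2) → ℝ} {φ : E → ℝ} {x₀ : E}
    (hx₀ : axPerp e x₀ = ‖axPerp e x₀‖ • ν)
    (hφ : DifferentiableAt ℝ φ x₀) (hmax : IsLocalMax (fun x => U (axMap e x) - φ x) x₀) :
    ‖axPerp e x₀‖ * fderiv ℝ φ x₀ η = 0 := by
  set t₀ := inner ℝ e x₀ with ht₀
  set ρ₀ := ‖axPerp e x₀‖ with hρ₀
  set c : ℝ → E := fun θ => t₀ • e + ρ₀ • (Real.cos θ • ν + Real.sin θ • η) with hc
  have hc0 : c 0 = x₀ := by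
    simp only [hc, Real.cos_zero, Real.sin_zero, one_smul, zero_smul, add_zero]
    rw [← hx₀]
    unfold axPerp
    abel
  have hcd : HasDerivAt c (ρ₀ • η) 0 := by
    have h1 : HasDerivAt (fun θ : ℝ => Real.cos θ • ν + Real.sin θ • η)
        ((-Real.sin 0) • ν + Real.cos 0 • η) 0 :=
      ((Real.hasDerivAt_cos 0).smul_const ν).add ((Real.hasDerivAt_sin 0).smul_const η)
    have h2 : HasDerivAt c (ρ₀ • ((-Real.sin 0) • ν + Real.cos 0 • η)) 0 :=
      (h1.const_smul ρ₀).const_add (t₀ • e)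
    have e1 : ρ₀ • ((-Real.sin 0) • ν + Real.cos 0 • η) = ρ₀ • η := by simp
    rw [e1] at h2
    exact h2
  have hunit : ∀ θ : ℝ, ‖Real.cos θ • ν + Real.sin θ • η‖ = 1 := by
    intro θ
    have h1 : ‖Real.cos θ • ν + Real.sin θ • η‖ ^ 2 = 1 := by
      rw [norm_add_sq_real, norm_smul, norm_smul, hν, hη, real_inner_smul_left,
        real_inner_smul_right, real_inner_comm η ν, hην, Real.norm_eq_abs, Real.norm_eq_abs,
        mul_one, mul_one, sq_abs, sq_abs]
      have := Real.cos_sq_add_sin_sq θ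
      linarith
    have h0 : (0 : ℝ) ≤ ‖Real.cos θ • ν + Real.sin θ • η‖ := norm_nonneg _
    nlinarith
  have hax : ∀ θ : ℝ, axMap e (c θ) = axMap e x₀ := by
    intro θ
    have h1 : inner ℝ e (c θ) = t₀ := by
      simp only [hc]
      rw [inner_add_right, inner_smul_right, inner_smul_right, inner_add_right, inner_smul_right,
        inner_smul_right, real_inner_self_eq_norm_sq, he, real_inner_comm ν e, hνe,
        real_inner_comm η e, hηe]
      ring
    have h2 : axPerp e (c θ) = ρ₀ • (Real.cos θ • ν + Real.sin θ • η) := by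
      unfold axPerp
      rw [h1]
      simp only [hc]
      abel
    rw [axMap_eq, axMap_eq, h1, h2, norm_smul, hunit, mul_one, Real.norm_eq_abs,
      abs_of_nonneg (norm_nonneg _)]
  have hmin : IsLocalMin (fun θ => φ (c θ)) 0 := by
    have hcont : Tendsto c (𝓝 0) (𝓝 x₀) := by
      have := hcd.continuousAt.tendsto
      rwa [hc0] at this
    have h1 := hcont.eventually hmax
    filter_upwards [h1] with θ hθ
    have h2 : U (axMap e (c θ)) - φ (c θ) ≤ U (axMap e x₀) - φ x₀ := hθ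
    rw [hax θ] at h2
    show φ (c 0) ≤ φ (c θ)
    rw [hc0]
    linarith
  have hd : HasDerivAt (fun θ => φ (c θ)) (fderiv ℝ φ x₀ (ρ₀ • η)) 0 := by
    have h1 : HasFDerivAt φ (fderiv ℝ φ x₀) (c 0) := by
      rw [hc0]
      exact hφ.hasFDerivAt
    exact h1.comp_hasDerivAt 0 hcd
  have h3 := hmin.hasDerivAt_eq_zero hd
  rw [map_smul, smul_eq_mul] at h3
  exact h3

/-- A frame adapted to a test function touching an axially symmetric function: a unit vector
`ν` orthogonal to the axis such that both the touching point and the gradient of the test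
function lie in the plane spanned by `ν` and the axis. -/
theorem exists_frame {e f : E} (he : ‖e‖ = 1) (hf : ‖f‖ = 1) (hfe : inner ℝ f e = 0)
    {U : EuclideanSpace ℝ (Fin 2) → ℝ} {φ : E → ℝ} {x₀ : E} (hφ : DifferentiableAt ℝ φ x₀)
    (hmax : IsLocalMax (fun x => U (axMap e x) - φ x) x₀) :
    ∃ ν : E, ‖ν‖ = 1 ∧ inner ℝ ν e = 0 ∧ axPerp e x₀ = ‖axPerp e x₀‖ • ν ∧
      wL ν e (gradient φ x₀) = 0 := by
  set g := gradient φ x₀ with hg
  by_cases hp : axPerp e x₀ = 0
  · by_cases hq : axPerp e g = 0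
    · refine ⟨f, hf, hfe, by rw [hp]; simp, ?_⟩
      have h1 : g = (inner ℝ e g) • e := by
        have h2 : axPerp e g = g - (inner ℝ e g) • e := rfl
        rw [h2] at hq
        exact sub_eq_zero.mp hq
      have h3 : inner ℝ f g = 0 := by
        rw [h1, inner_smul_right, hfe, mul_zero]
      rw [wL_apply, h3, zero_smul, sub_zero]
      exact sub_eq_zero.mpr h1
    · set q := axPerp e g with hqdef
      have hqn : ‖q‖ ≠ 0 := norm_ne_zero_iff.mpr hq
      have hqe : inner ℝ q e = 0 := by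
        rw [real_inner_comm]
        exact inner_axPerp he g
      refine ⟨‖q‖⁻¹ • q, ?_, ?_, by rw [hp]; simp, ?_⟩
      · rw [norm_smul, norm_inv, norm_norm, inv_mul_cancel₀ hqn]
      · rw [real_inner_smul_left, hqe, mul_zero]
      · have h1 : g = q + (inner ℝ e g) • e := by
          rw [hqdef]
          unfold axPerp
          abel
        have h2 : inner ℝ q g = ‖q‖ ^ 2 := by
          conv_lhs => rw [h1]
          rw [inner_add_right, inner_smul_right, hqe, mul_zero, add_zero,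
            real_inner_self_eq_norm_sq]
        rw [wL_apply, real_inner_smul_left, h2, smul_smul]
        have h3 : ‖q‖⁻¹ * ‖q‖ ^ 2 * ‖q‖⁻¹ = 1 := by
          field_simp
        rw [h3, one_smul, hqdef]
        unfold axPerp
        abel
  · set p := axPerp e x₀ with hpdef
    have hpn : ‖p‖ ≠ 0 := norm_ne_zero_iff.mpr hp
    have hpe : inner ℝ p e = 0 := by
      rw [real_inner_comm]
      exact inner_axPerp he x₀
    set ν := ‖p‖⁻¹ • p with hνdef
    have hν : ‖ν‖ = 1 := by
      rw [hνdef, norm_smul, norm_inv, norm_norm, inv_mul_cancel₀ hpn]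
    have hνe : inner ℝ ν e = 0 := by
      rw [hνdef, real_inner_smul_left, hpe, mul_zero]
    have hpν : p = ‖p‖ • ν := by
      rw [hνdef, smul_smul, mul_inv_cancel₀ hpn, one_smul]
    refine ⟨ν, hν, hνe, hpν, ?_⟩
    by_contra hη₀
    set η₀ := wL ν e g with hη₀def
    have hη₀n : ‖η₀‖ ≠ 0 := norm_ne_zero_iff.mpr hη₀
    have h1 := fderiv_orbit_eq_zero (η := ‖η₀‖⁻¹ • η₀) he hν
      (by rw [norm_smul, norm_inv, norm_norm, inv_mul_cancel₀ hη₀n]) hνe
      (by rw [real_inner_smul_left, real_inner_comm, hη₀def, inner_e_wL he hνe, mul_zero])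
      (by rw [real_inner_smul_left, real_inner_comm, hη₀def, inner_nu_wL hν hνe, mul_zero])
      hpν hφ hmax
    rw [map_smul, smul_eq_mul, fderiv_eq_inner_gradient, ← hg, hη₀def,
      inner_self_wL hν he hνe, ← hη₀def] at h1
    have h2 : ‖p‖ * (‖η₀‖⁻¹ * ‖η₀‖ ^ 2) = ‖p‖ * ‖η₀‖ := by
      field_simp
    rw [h2] at h1
    rcases mul_eq_zero.mp h1 with h | h
    · exact hpn h
    · exact hη₀n h

/-- The viscosity subsolution property: every `C²` test function touching `u` from above at a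
point of `Ω` has nonnegative infinity Laplacian there. -/
def SubSol {F : Type*} [NormedAddCommGroup F] [InnerProductSpace ℝ F] [CompleteSpace F]
    (u : F → ℝ) (Ω : Set F) : Prop :=
  ∀ φ : F → ℝ, ∀ z ∈ Ω, ContDiffAt ℝ 2 φ z →
    IsLocalMax (fun x => u x - φ x) z → 0 ≤ infLaplacian φ z

theorem isInfinityHarmonicOn_iff_subSol {u : E → ℝ} {Ω : Set E} :
    IsInfinityHarmonicOn u Ω ↔
      ContinuousOn u Ω ∧ SubSol u Ω ∧ SubSol (fun x => -u x) Ω := by
  constructor
  · intro h
    exact ⟨h.1, h.2.1, h.neg.2.1⟩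
  · rintro ⟨hc, hs, hn⟩
    refine ⟨hc, hs, ?_⟩
    intro φ z hz hφ hmin
    have hmax : IsLocalMax (fun x => -u x - (fun x => -φ x) x) z := by
      filter_upwards [hmin] with y hy
      have hy' : u z - φ z ≤ u y - φ y := hy
      show -u y - -φ y ≤ -u z - -φ z
      linarith
    have := hn (fun x => -φ x) z hz hφ.neg hmax
    rw [infLaplacian_neg'] at this
    linarith

/-- If `W` is a planar subsolution, even in the first variable, then `W ∘ axMap e` is a
subsolution. -/
theorem subSol_axial_of_plane {e f : E} (he : ‖e‖ = 1) (hf : ‖f‖ = 1) (hfe : inner ℝ f e = 0)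
    {W : EuclideanSpace ℝ (Fin 2) → ℝ} {D : Set (EuclideanSpace ℝ (Fin 2))}
    (hW : ∀ y, W (planeRefl y) = W y) (h : SubSol W D) :
    SubSol (fun x => W (axMap e x)) (axMap e ⁻¹' D) := by
  intro φ x₀ hx₀ hφ hmax
  have hφd : DifferentiableAt ℝ φ x₀ := hφ.differentiableAt (by norm_num)
  obtain ⟨ν, hν, hνe, hp, hg⟩ := exists_frame he hf hfe hφd hmax
  have hslice : sliceL ν e (axMap e x₀) = x₀ := by
    rw [axMap_eq, sliceL_apply, planePt_zero, planePt_one, ← hp]
    unfold axPerp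
    abel
  have hψ : ContDiffAt ℝ 2 (fun y => φ (sliceL ν e y)) (axMap e x₀) := by
    have h1 : ContDiffAt ℝ 2 φ (sliceL ν e (axMap e x₀)) := by
      rw [hslice]
      exact hφ
    exact h1.comp (axMap e x₀) (sliceL ν e).contDiff.contDiffAt
  have hWs : ∀ y, W (axMap e (sliceL ν e y)) = W y := by
    intro y
    rw [axMap_sliceL hν he hνe, even_planePt_abs hW, planePt_eta]
  have hmaxψ : IsLocalMax (fun y => W y - (fun y => φ (sliceL ν e y)) y) (axMap e x₀) := by
    have hcont : Tendsto (fun y => sliceL ν e y) (𝓝 (axMap e x₀)) (𝓝 x₀) := by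
      have := (sliceL ν e).continuous.tendsto (axMap e x₀)
      rwa [hslice] at this
    have h1 := hcont.eventually hmax
    filter_upwards [h1] with y hy
    show W y - φ (sliceL ν e y) ≤ W (axMap e x₀) - φ (sliceL ν e (axMap e x₀))
    rw [hslice]
    have h2 : W (axMap e (sliceL ν e y)) - φ (sliceL ν e y) ≤ W (axMap e x₀) - φ x₀ := hy
    rw [hWs] at h2
    exact h2
  have hgradψ : HasGradientAt (fun y => φ (sliceL ν e y)) (coordL ν e (gradient φ x₀))
      (axMap e x₀) := by
    have h1 : HasFDerivAt φ (fderiv ℝ φ x₀) (sliceL ν e (axMap e x₀)) := by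
      rw [hslice]
      exact hφd.hasFDerivAt
    have h2 : HasFDerivAt (fun y => φ (sliceL ν e y)) ((fderiv ℝ φ x₀).comp (sliceL ν e))
        (axMap e x₀) := h1.comp (axMap e x₀) (sliceL ν e).hasFDerivAt
    rw [hasGradientAt_iff_hasFDerivAt]
    refine h2.congr_fderiv ?_
    ext k
    simp only [ContinuousLinearMap.comp_apply, InnerProductSpace.toDual_apply_apply,
      coordL_apply, sliceL_apply, fderiv_eq_inner_gradient, inner_add_right,
      real_inner_smul_right, inner_planePt_right]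
    rw [real_inner_comm ν, real_inner_comm e]
    ring
  have hsc : sliceL ν e (coordL ν e (gradient φ x₀)) = gradient φ x₀ := by
    have h1 := hg
    rw [wL_eq] at h1
    exact (sub_eq_zero.mp h1).symm
  have key : infLaplacian φ x₀ = infLaplacian (fun y => φ (sliceL ν e y)) (axMap e x₀) := by
    apply infLaplacian_transfer hφ hψ
    refine Eventually.of_forall fun τ => ?_
    rw [hgradψ.gradient]
    show φ (x₀ + τ • gradient φ x₀)
      = φ (sliceL ν e (axMap e x₀ + τ • coordL ν e (gradient φ x₀)))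
    rw [map_add, map_smul, hslice, hsc]
  rw [key]
  exact h _ (axMap e x₀) hx₀ hψ hmaxψ

/-- If `W ∘ axMap e` is a subsolution and `W` is even in the first variable, then `W` is a
planar subsolution. -/
theorem subSol_plane_of_axial {e f : E} (he : ‖e‖ = 1) (hf : ‖f‖ = 1) (hfe : inner ℝ f e = 0)
    {W : EuclideanSpace ℝ (Fin 2) → ℝ} {D : Set (EuclideanSpace ℝ (Fin 2))}
    (hDsym : ∀ y ∈ D, planeRefl y ∈ D) (hW : ∀ y, W (planeRefl y) = W y)
    (h : SubSol (fun x => W (axMap e x)) (axMap e ⁻¹' D)) : SubSol W D := by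
  intro ψ z hz hψ hmax
  obtain ⟨M, hM⟩ := exists_lift_isLocalMax hf he hfe hW hψ hmax
  have hmem : sliceL f e z ∈ axMap e ⁻¹' D := by
    show axMap e (sliceL f e z) ∈ D
    rw [axMap_sliceL hf he hfe]
    rcases abs_cases (z 0) with ⟨h1, _⟩ | ⟨h1, _⟩
    · rw [h1, planePt_eta]
      exact hz
    · rw [h1]
      exact hDsym z hz
  have h2 := h (liftFun f e ψ M) (sliceL f e z) hmem (liftFun_contDiffAt hf he hfe hψ M) hM
  rwa [liftFun_infLaplacian hf he hfe hψ M] at h2

/-- Axial symmetry reduction: `W ∘ axMap e` is infinity-harmonic on the preimage of `D` if and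
only if the even planar function `W` is infinity-harmonic on `D`. -/
theorem isInfinityHarmonicOn_axial_iff {e f : E} (he : ‖e‖ = 1) (hf : ‖f‖ = 1)
    (hfe : inner ℝ f e = 0)
    {W : EuclideanSpace ℝ (Fin 2) → ℝ} {D : Set (EuclideanSpace ℝ (Fin 2))}
    (hDsym : ∀ y ∈ D, planeRefl y ∈ D) (hW : ∀ y, W (planeRefl y) = W y) :
    IsInfinityHarmonicOn (fun x => W (axMap e x)) (axMap e ⁻¹' D) ↔ IsInfinityHarmonicOn W D := by
  have hWn : ∀ y, (fun y => -W y) (planeRefl y) = (fun y => -W y) y := by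
    intro y
    show -W (planeRefl y) = -W y
    rw [hW]
  rw [isInfinityHarmonicOn_iff_subSol, isInfinityHarmonicOn_iff_subSol]
  constructor
  · rintro ⟨hc, hs, hn⟩
    refine ⟨?_, subSol_plane_of_axial he hf hfe hDsym hW hs,
      subSol_plane_of_axial he hf hfe hDsym hWn hn⟩
    have hmaps : MapsTo (fun y => sliceL f e y) D (axMap e ⁻¹' D) := by
      intro y hy
      show axMap e (sliceL f e y) ∈ D
      rw [axMap_sliceL hf he hfe]
      rcases abs_cases (y 0) with ⟨h1, _⟩ | ⟨h1, _⟩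
      · rw [h1, planePt_eta]
        exact hy
      · rw [h1]
        exact hDsym y hy
    have h1 : ContinuousOn (fun y => W (axMap e (sliceL f e y))) D :=
      hc.comp (sliceL f e).continuous.continuousOn hmaps
    refine h1.congr ?_
    intro y _
    show W y = W (axMap e (sliceL f e y))
    rw [axMap_sliceL hf he hfe, even_planePt_abs hW, planePt_eta]
  · rintro ⟨hc, hs, hn⟩
    refine ⟨?_, subSol_axial_of_plane he hf hfe hW hs, subSol_axial_of_plane he hf hfe hWn hn⟩
    exact hc.comp (continuous_axMap he).continuousOn (mapsTo_preimage _ _)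

end Converse

section Smooth

variable {E : Type*} [NormedAddCommGroup E] [InnerProductSpace ℝ E]

theorem lipschitzWith_norm_axPerp {e : E} (he : ‖e‖ = 1) :
    LipschitzWith 1 (fun x : E => ‖axPerp e x‖) := by
  apply LipschitzWith.of_dist_le_mul
  intro x y
  rw [Real.dist_eq, dist_eq_norm, NNReal.coe_one, one_mul]
  calc |‖axPerp e x‖ - ‖axPerp e y‖| ≤ ‖axPerp e x - axPerp e y‖ := abs_norm_sub_norm_le _ _
    _ = ‖axPerp e (x - y)‖ := by rw [axPerp_sub]
    _ ≤ ‖x - y‖ := norm_axPerp_le he _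

theorem axMap_eq_smul (e : E) :
    axMap e = fun x => ‖axPerp e x‖ • planePt 1 0 + inner ℝ e x • planePt 0 1 := by
  funext x
  rw [axMap_eq, planePt_eq]

theorem contDiffAt_axPerp (e x : E) : ContDiffAt ℝ 1 (fun x : E => axPerp e x) x := by
  unfold axPerp
  exact contDiffAt_id.sub ((contDiffAt_const.inner ℝ contDiffAt_id).smul contDiffAt_const)

/-- An even function of the first planar variable has vanishing derivative in that variable on
the axis. -/
theorem fderiv_even_axis {W : EuclideanSpace ℝ (Fin 2) → ℝ} (hW : ∀ y, W (planeRefl y) = W y)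
    {t : ℝ} (hd : DifferentiableAt ℝ W (planePt 0 t)) :
    fderiv ℝ W (planePt 0 t) (planePt 1 0) = 0 := by
  set d := fderiv ℝ W (planePt 0 t) (planePt 1 0) with hdd
  have h1 : HasDerivAt (fun r : ℝ => W (planePt r t)) d 0 :=
    hd.hasFDerivAt.comp_hasDerivAt 0 (hasDerivAt_planePt t 0)
  have h2 : HasDerivAt (fun r : ℝ => W (planePt (-r) t)) (d * (-1)) 0 := by
    have h3 : HasDerivAt (fun r : ℝ => W (planePt r t)) d (-(0 : ℝ)) := by
      rw [neg_zero]
      exact h1
    exact HasDerivAt.comp (0 : ℝ) h3 (hasDerivAt_neg 0)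
  have e : (fun r : ℝ => W (planePt (-r) t)) = fun r : ℝ => W (planePt r t) := by
    funext r
    exact even_planePt_neg hW r t
  rw [e] at h2
  have h4 := h1.unique h2
  linarith

/-- Regularity transfer: if the even planar function `W` is `C¹` on the open set `D`, then
`W ∘ axMap e` is `C¹` on the preimage of `D` (including at the points of the axis). -/
theorem contDiffOn_axial {e : E} (he : ‖e‖ = 1)
    {W : EuclideanSpace ℝ (Fin 2) → ℝ} {D : Set (EuclideanSpace ℝ (Fin 2))}
    (hD : IsOpen D) (hW : ∀ y, W (planeRefl y) = W y) (hC : ContDiffOn ℝ 1 W D) :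
    ContDiffOn ℝ 1 (fun x => W (axMap e x)) (axMap e ⁻¹' D) := by
  have hΩ : IsOpen (axMap e ⁻¹' D) := hD.preimage (continuous_axMap he)
  have hWd : ∀ x ∈ axMap e ⁻¹' D, DifferentiableAt ℝ W (axMap e x) := by
    intro x hx
    exact (hC.contDiffAt (hD.mem_nhds hx)).differentiableAt (by norm_num)
  set f' : E → E →L[ℝ] ℝ := fun x =>
    (fderiv ℝ W (axMap e x) (planePt 1 0)) • fderiv ℝ (fun x : E => ‖axPerp e x‖) x
      + (fderiv ℝ W (axMap e x) (planePt 0 1)) • innerSL ℝ e with hf'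
  have haxis : ∀ x ∈ axMap e ⁻¹' D, axPerp e x = 0 →
      fderiv ℝ W (axMap e x) (planePt 1 0) = 0 := by
    intro x hx hp
    have h1 : axMap e x = planePt 0 (inner ℝ e x) := by
      rw [axMap_eq, hp, norm_zero]
    have h2 := hWd x hx
    rw [h1] at h2 ⊢
    exact fderiv_even_axis hW h2
  have stepA : ∀ x ∈ axMap e ⁻¹' D, HasFDerivAt (fun x => W (axMap e x)) (f' x) x := by
    intro x hx
    by_cases hp : axPerp e x = 0
    · have h0 := haxis x hx hp
      have hlo := (hWd x hx).hasFDerivAt.isLittleO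
      have htend : Tendsto (axMap e) (𝓝 x) (𝓝 (axMap e x)) :=
        (continuous_axMap he).continuousAt
      have h1 := hlo.comp_tendsto htend
      have h2 : (fun y => axMap e y - axMap e x) =O[𝓝 x] fun y => y - x := by
        apply Asymptotics.IsBigO.of_bound'
        exact Eventually.of_forall fun y => norm_axMap_sub_le he y x
      have h3 := h1.trans_isBigO h2
      apply HasFDerivAt.of_isLittleO
      refine h3.congr_left ?_
      intro y
      simp only [Function.comp_apply, hf', h0, zero_smul, zero_add]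
      have h4 : axMap e y - axMap e x
          = ‖axPerp e y‖ • planePt 1 0 + inner ℝ e (y - x) • planePt 0 1 := by
        rw [axMap_eq, axMap_eq, hp, norm_zero, ← planePt_sub, sub_zero, planePt_eq,
          inner_sub_right]
      rw [h4, map_add, map_smul, map_smul, h0]
      simp [mul_comm]
    · have hρ : DifferentiableAt ℝ (fun x : E => ‖axPerp e x‖) x :=
        ((contDiffAt_axPerp e x).differentiableAt (by norm_num)).norm ℝ hp
      have hA : HasFDerivAt (axMap e)
          ((fderiv ℝ (fun x : E => ‖axPerp e x‖) x).smulRight (planePt 1 0)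
            + (innerSL ℝ e).smulRight (planePt 0 1)) x := by
        rw [axMap_eq_smul]
        exact (hρ.hasFDerivAt.smul_const (planePt 1 0)).add
          ((innerSL ℝ e).hasFDerivAt.smul_const (planePt 0 1))
      have h1 := (hWd x hx).hasFDerivAt.comp x hA
      refine h1.congr_fderiv ?_
      ext h
      simp [hf', mul_comm]
  have hfd : ∀ x ∈ axMap e ⁻¹' D, fderiv ℝ (fun x => W (axMap e x)) x = f' x :=
    fun x hx => (stepA x hx).fderiv
  have hcontW : ∀ x ∈ axMap e ⁻¹' D, ∀ v : EuclideanSpace ℝ (Fin 2),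
      ContinuousAt (fun y => fderiv ℝ W (axMap e y) v) x := by
    intro x hx v
    have h1 : ContinuousAt (fderiv ℝ W) (axMap e x) :=
      (hC.continuousOn_fderiv_of_isOpen hD le_rfl).continuousAt (hD.mem_nhds hx)
    have h2 : ContinuousAt (fun y => fderiv ℝ W (axMap e y)) x :=
      ContinuousAt.comp (f := axMap e) h1 (continuous_axMap he).continuousAt
    exact h2.clm_apply continuousAt_const
  have stepB : ∀ x ∈ axMap e ⁻¹' D, ContinuousAt (fderiv ℝ (fun x => W (axMap e x))) x := by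
    intro x hx
    by_cases hp : axPerp e x = 0
    · have h0 := haxis x hx hp
      have hev : f' =ᶠ[𝓝 x] fderiv ℝ (fun x => W (axMap e x)) := by
        filter_upwards [hΩ.mem_nhds hx] with y hy
        exact (hfd y hy).symm
      refine ContinuousAt.congr ?_ hev
      have ha := hcontW x hx (planePt 1 0)
      have hb := hcontW x hx (planePt 0 1)
      have h1 : Tendsto (fun y => (fderiv ℝ W (axMap e y) (planePt 1 0))
          • fderiv ℝ (fun x : E => ‖axPerp e x‖) y) (𝓝 x) (𝓝 0) := by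
        have h2 : Tendsto (fun y => |fderiv ℝ W (axMap e y) (planePt 1 0)|) (𝓝 x) (𝓝 0) := by
          have h3 := ha.tendsto.abs
          rw [h0, abs_zero] at h3
          exact h3
        refine squeeze_zero_norm (fun y => ?_) h2
        rw [norm_smul, Real.norm_eq_abs]
        have h4 : ‖fderiv ℝ (fun x : E => ‖axPerp e x‖) y‖ ≤ 1 := by
          have := norm_fderiv_le_of_lipschitz ℝ (lipschitzWith_norm_axPerp he) (x₀ := y)
          simpa using this
        exact mul_le_of_le_one_right (abs_nonneg _) h4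
      have h5 : Tendsto (fun y => (fderiv ℝ W (axMap e y) (planePt 0 1)) • innerSL ℝ e)
          (𝓝 x) (𝓝 ((fderiv ℝ W (axMap e x) (planePt 0 1)) • innerSL ℝ e)) :=
        hb.tendsto.smul_const _
      have h6 := h1.add h5
      have h7 : f' x = 0 + (fderiv ℝ W (axMap e x) (planePt 0 1)) • innerSL ℝ e := by
        simp only [hf', h0, zero_smul]
      show Tendsto f' (𝓝 x) (𝓝 (f' x))
      rw [h7]
      exact h6
    · have h2 : ContDiffAt ℝ 1 (fun x : E => ‖axPerp e x‖) x :=
        (contDiffAt_axPerp e x).norm ℝ hp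
      have h3 : ContDiffAt ℝ 1 (fun x : E => inner ℝ e x) x :=
        contDiffAt_const.inner ℝ contDiffAt_id
      have h4 : ContDiffAt ℝ 1 (axMap e) x := by
        rw [axMap_eq_smul]
        exact (h2.smul contDiffAt_const).add (h3.smul contDiffAt_const)
      have hW' : ContDiffAt ℝ 1 W (axMap e x) := hC.contDiffAt (hD.mem_nhds hx)
      have h5 : ContDiffAt ℝ 1 (fun x => W (axMap e x)) x := hW'.comp x h4
      exact (h5.fderiv_right (m := 0) (by norm_num)).continuousAt
  have h1 : (1 : WithTop ℕ∞) = 0 + 1 := (zero_add 1).symm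
  rw [h1, contDiffOn_succ_iff_fderiv_of_isOpen hΩ]
  refine ⟨fun x hx => (stepA x hx).differentiableAt.differentiableWithinAt, by simp, ?_⟩
  rw [contDiffOn_zero]
  intro x hx
  exact (stepB x hx).continuousWithinAt

end Smooth

end Vale.Agent.Lib.P080
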