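import Mathlib
import Vale.Agent.Lib.P080.Axial

namespace Vale.Agent.Lib.P080

open Filter Topology Set Metric

section Quant

variable {E : Type*} [NormedAddCommGroup E] [InnerProductSpace ℝ E] [CompleteSpace E]

omit [CompleteSpace E] in
/-- The derivative of the distance to the axis at a point off the axis. -/
theorem hasFDerivAt_norm_axPerp {e x : E} (he : ‖e‖ = 1) (hp : axPerp e x ≠ 0) :
    HasFDerivAt (fun x : E => ‖axPerp e x‖) (innerSL ℝ (‖axPerp e x‖⁻¹ • axPerp e x)) x := by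
  have h1 : HasFDerivAt (fun x : E => ‖x‖ ^ 2)
      (2 • (innerSL ℝ x).comp (ContinuousLinearMap.id ℝ E)) x := (hasFDerivAt_id x).norm_sq
  have h0 : HasFDerivAt (fun y : E => inner ℝ e y) (innerSL ℝ e) x := (innerSL ℝ e).hasFDerivAt
  have h2 := h0.mul h0
  have h3 := h1.sub h2
  have hsq : ∀ y : E, ‖axPerp e y‖ = √(‖y‖ ^ 2 - inner ℝ e y * inner ℝ e y) := by
    intro y
    have h := norm_sq_eq_axPerp he y
    have e1 : ‖y‖ ^ 2 - inner ℝ e y * inner ℝ e y = ‖axPerp e y‖ ^ 2 := by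
      rw [h]
      ring
    rw [e1, Real.sqrt_sq (norm_nonneg _)]
  have hρ : 0 < ‖axPerp e x‖ := norm_pos_iff.mpr hp
  have hne : ‖x‖ ^ 2 - inner ℝ e x * inner ℝ e x ≠ 0 := by
    have h := norm_sq_eq_axPerp he x
    have e1 : ‖x‖ ^ 2 - inner ℝ e x * inner ℝ e x = ‖axPerp e x‖ ^ 2 := by
      rw [h]
      ring
    rw [e1]
    positivity
  have h4 := h3.sqrt hne
  have h5 : HasFDerivAt (fun y : E => ‖axPerp e y‖)
      ((1 / (2 * √(‖x‖ ^ 2 - inner ℝ e x * inner ℝ e x))) •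
        (2 • (innerSL ℝ x).comp (ContinuousLinearMap.id ℝ E)
          - (inner ℝ e x • innerSL ℝ e + inner ℝ e x • innerSL ℝ e))) x :=
    h4.congr_of_eventuallyEq (Eventually.of_forall hsq)
  refine h5.congr_fderiv ?_
  ext h
  rw [← hsq x]
  simp only [_root_.smul_apply, _root_.sub_apply, _root_.add_apply,
    ContinuousLinearMap.comp_apply, ContinuousLinearMap.id_apply, innerSL_apply_apply,
    real_inner_smul_left, smul_eq_mul, nsmul_eq_mul]
  unfold axPerp
  rw [inner_sub_left, real_inner_smul_left]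
  push_cast
  field_simp
  ring

/-- For an even function of the first planar variable, the derivative in that variable is odd. -/
theorem fderiv_even_refl {W : EuclideanSpace ℝ (Fin 2) → ℝ} (hW : ∀ y, W (planeRefl y) = W y)
    {r t : ℝ} (h1 : DifferentiableAt ℝ W (planePt r t))
    (h2 : DifferentiableAt ℝ W (planePt (-r) t)) :
    fderiv ℝ W (planePt (-r) t) (planePt 1 0) = -fderiv ℝ W (planePt r t) (planePt 1 0) := by
  have g1 : HasDerivAt (fun s : ℝ => W (planePt s t))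
      (fderiv ℝ W (planePt r t) (planePt 1 0)) r :=
    h1.hasFDerivAt.comp_hasDerivAt r (hasDerivAt_planePt t r)
  have g2 : HasDerivAt (fun s : ℝ => W (planePt s t))
      (fderiv ℝ W (planePt (-r) t) (planePt 1 0)) (-r) :=
    h2.hasFDerivAt.comp_hasDerivAt (-r) (hasDerivAt_planePt t (-r))
  have g3 : HasDerivAt (fun s : ℝ => W (planePt (-s) t))
      (fderiv ℝ W (planePt r t) (planePt 1 0) * (-1)) (-r) := by
    have h3 : HasDerivAt (fun s : ℝ => W (planePt s t))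
        (fderiv ℝ W (planePt r t) (planePt 1 0)) (-(-r)) := by
      rw [neg_neg]
      exact g1
    exact HasDerivAt.comp (-r) h3 (hasDerivAt_neg (-r))
  have e : (fun s : ℝ => W (planePt (-s) t)) = fun s : ℝ => W (planePt s t) := by
    funext s
    exact even_planePt_neg hW s t
  rw [e] at g3
  have h4 := g2.unique g3
  linarith

omit [CompleteSpace E] in
/-- The derivative of an axially symmetric function `W ∘ axMap e`. -/
theorem hasFDerivAt_axial {e : E} (he : ‖e‖ = 1) {W : EuclideanSpace ℝ (Fin 2) → ℝ}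
    (hW : ∀ y, W (planeRefl y) = W y) {x : E} (hd : DifferentiableAt ℝ W (axMap e x)) :
    HasFDerivAt (fun x => W (axMap e x))
      ((fderiv ℝ W (axMap e x) (planePt 1 0)) • innerSL ℝ (‖axPerp e x‖⁻¹ • axPerp e x)
        + (fderiv ℝ W (axMap e x) (planePt 0 1)) • innerSL ℝ e) x := by
  by_cases hp : axPerp e x = 0
  · have h0 : fderiv ℝ W (axMap e x) (planePt 1 0) = 0 := by
      have h1 : axMap e x = planePt 0 (inner ℝ e x) := by
        rw [axMap_eq, hp, norm_zero]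
      have h2 := hd
      rw [h1] at h2 ⊢
      exact fderiv_even_axis hW h2
    have hlo := hd.hasFDerivAt.isLittleO
    have htend : Tendsto (axMap e) (𝓝 x) (𝓝 (axMap e x)) :=
      (continuous_axMap he).continuousAt
    have h1 := hlo.comp_tendsto htend
    have h2 : (fun y => axMap e y - axMap e x) =O[𝓝 x] fun y => y - x := by
      apply Asymptotics.IsBigO.of_bound'
      exact Eventually.of_forall fun y => norm_axMap_sub_le he y x
    have h3 := h1.trans_isBigO h2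
    apply HasFDerivAt.of_isLittleO
    refine h3.congr_left ?_
    intro y
    simp only [Function.comp_apply, h0, zero_smul, zero_add]
    have h4 : axMap e y - axMap e x
        = ‖axPerp e y‖ • planePt 1 0 + inner ℝ e (y - x) • planePt 0 1 := by
      rw [axMap_eq, axMap_eq, hp, norm_zero, ← planePt_sub, sub_zero, planePt_eq,
        inner_sub_right]
    rw [h4, map_add, map_smul, map_smul, h0]
    simp [mul_comm]
  · have hA : HasFDerivAt (axMap e)
        ((innerSL ℝ (‖axPerp e x‖⁻¹ • axPerp e x)).smulRight (planePt 1 0)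
          + (innerSL ℝ e).smulRight (planePt 0 1)) x := by
      rw [axMap_eq_smul]
      exact ((hasFDerivAt_norm_axPerp he hp).smul_const (planePt 1 0)).add
        ((innerSL ℝ e).hasFDerivAt.smul_const (planePt 0 1))
    have h1 := hd.hasFDerivAt.comp x hA
    refine h1.congr_fderiv ?_
    ext h
    simp [mul_comm]

/-- The gradient of an axially symmetric function `W ∘ axMap e`. -/
theorem hasGradientAt_axial {e : E} (he : ‖e‖ = 1) {W : EuclideanSpace ℝ (Fin 2) → ℝ}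
    (hW : ∀ y, W (planeRefl y) = W y) {x : E} (hd : DifferentiableAt ℝ W (axMap e x)) :
    HasGradientAt (fun x => W (axMap e x))
      ((fderiv ℝ W (axMap e x) (planePt 1 0)) • (‖axPerp e x‖⁻¹ • axPerp e x)
        + (fderiv ℝ W (axMap e x) (planePt 0 1)) • e) x := by
  rw [hasGradientAt_iff_hasFDerivAt]
  refine (hasFDerivAt_axial he hW hd).congr_fderiv ?_
  ext h
  simp only [_root_.add_apply, _root_.smul_apply, innerSL_apply_apply,
    InnerProductSpace.toDual_apply_apply, inner_add_left, real_inner_smul_left, smul_eq_mul]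

omit [CompleteSpace E] in
theorem norm_unit_le_one (p : E) : ‖‖p‖⁻¹ • p‖ ≤ 1 := by
  rw [norm_smul, norm_inv, norm_norm]
  by_cases hp : ‖p‖ = 0
  · rw [hp]
    simp
  · rw [inv_mul_cancel₀ hp]

omit [CompleteSpace E] in
theorem norm_unit_sub_le {p q : E} (hp : p ≠ 0) (hq : q ≠ 0) :
    ‖‖p‖⁻¹ • p - ‖q‖⁻¹ • q‖ ≤ 2 * ‖p - q‖ / ‖q‖ := by
  have hp' : 0 < ‖p‖ := norm_pos_iff.mpr hp
  have hq' : 0 < ‖q‖ := norm_pos_iff.mpr hq
  have e1 : ‖p‖⁻¹ • p - ‖q‖⁻¹ • q = ‖q‖⁻¹ • (p - q) + (‖p‖⁻¹ - ‖q‖⁻¹) • p := by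
    rw [smul_sub, sub_smul]
    abel
  have h1 : ‖‖q‖⁻¹ • (p - q)‖ = ‖p - q‖ / ‖q‖ := by
    rw [norm_smul, norm_inv, norm_norm, inv_mul_eq_div]
  have h2 : ‖(‖p‖⁻¹ - ‖q‖⁻¹) • p‖ ≤ ‖p - q‖ / ‖q‖ := by
    rw [norm_smul, Real.norm_eq_abs]
    have e2 : ‖p‖⁻¹ - ‖q‖⁻¹ = (‖q‖ - ‖p‖) / (‖p‖ * ‖q‖) := by
      field_simp
    rw [e2, abs_div, abs_of_pos (mul_pos hp' hq')]
    have h3 : |‖q‖ - ‖p‖| ≤ ‖p - q‖ := by
      rw [abs_sub_comm]
      exact abs_norm_sub_norm_le p q
    have e3 : |‖q‖ - ‖p‖| / (‖p‖ * ‖q‖) * ‖p‖ = |‖q‖ - ‖p‖| / ‖q‖ := by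
      field_simp
    rw [e3]
    exact div_le_div_of_nonneg_right h3 hq'.le
  rw [e1]
  calc ‖‖q‖⁻¹ • (p - q) + (‖p‖⁻¹ - ‖q‖⁻¹) • p‖
      ≤ ‖‖q‖⁻¹ • (p - q)‖ + ‖(‖p‖⁻¹ - ‖q‖⁻¹) • p‖ := norm_add_le _ _
    _ ≤ ‖p - q‖ / ‖q‖ + ‖p - q‖ / ‖q‖ := by rw [h1]; linarith
    _ = 2 * ‖p - q‖ / ‖q‖ := by ring

omit [CompleteSpace E] in
theorem fderiv_axis_eq_zero {e : E} {W : EuclideanSpace ℝ (Fin 2) → ℝ}
    (hW : ∀ y, W (planeRefl y) = W y) {x : E} (hd : DifferentiableAt ℝ W (axMap e x))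
    (hp : axPerp e x = 0) : fderiv ℝ W (axMap e x) (planePt 1 0) = 0 := by
  have h1 : axMap e x = planePt 0 (inner ℝ e x) := by
    rw [axMap_eq, hp, norm_zero]
  have h2 := hd
  rw [h1] at h2 ⊢
  exact fderiv_even_axis hW h2

/-- For an even function with Hölder continuous derivative on a symmetric set, the derivative
in the first variable is bounded by the distance to the axis to the power `α`. -/
theorem abs_radial_le {W : EuclideanSpace ℝ (Fin 2) → ℝ} (hW : ∀ y, W (planeRefl y) = W y)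
    {D : Set (EuclideanSpace ℝ (Fin 2))} (hDsym : ∀ y ∈ D, planeRefl y ∈ D)
    {α C : ℝ} (hα1 : α ≤ 1) (hC : 0 ≤ C)
    (hd : ∀ z ∈ D, DifferentiableAt ℝ W z)
    (hH : ∀ z ∈ D, ∀ z' ∈ D, ‖fderiv ℝ W z - fderiv ℝ W z'‖ ≤ C * ‖z - z'‖ ^ α)
    {ρ t : ℝ} (hρ : 0 ≤ ρ) (hz : planePt ρ t ∈ D) :
    |fderiv ℝ W (planePt ρ t) (planePt 1 0)| ≤ C * ρ ^ α := by
  have hz' : planePt (-ρ) t ∈ D := hDsym _ hz
  have h1 := fderiv_even_refl hW (hd _ hz) (hd _ hz')
  have h2 := hH _ hz _ hz'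
  have h3 := (fderiv ℝ W (planePt ρ t) - fderiv ℝ W (planePt (-ρ) t)).le_opNorm (planePt 1 0)
  rw [norm_planePt_one_zero, mul_one, Real.norm_eq_abs, _root_.sub_apply, h1] at h3
  have h4 : ‖planePt ρ t - planePt (-ρ) t‖ = 2 * ρ := by
    rw [← dist_eq_norm, dist_planePt_left, abs_of_nonneg (by linarith)]
    ring
  rw [h4] at h2
  have h5 : (2 * ρ) ^ α ≤ 2 * ρ ^ α := by
    rw [Real.mul_rpow (by norm_num) hρ]
    have h6 : (2 : ℝ) ^ α ≤ 2 ^ (1 : ℝ) := Real.rpow_le_rpow_of_exponent_le (by norm_num) hα1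
    rw [Real.rpow_one] at h6
    exact mul_le_mul_of_nonneg_right h6 (Real.rpow_nonneg hρ α)
  have h6 : |fderiv ℝ W (planePt ρ t) (planePt 1 0) - -fderiv ℝ W (planePt ρ t) (planePt 1 0)|
      = 2 * |fderiv ℝ W (planePt ρ t) (planePt 1 0)| := by
    rw [sub_neg_eq_add, ← two_mul, abs_mul, abs_of_pos (by norm_num : (0 : ℝ) < 2)]
  rw [h6] at h3
  have h7 := mul_le_mul_of_nonneg_left h5 hC
  linarith

/-- Hölder transfer: if the derivative of the even planar function `W` is Hölder continuous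
with exponent `α ≤ 1` and constant `C` on the symmetric set `D`, then the gradient of
`W ∘ axMap e` is Hölder continuous with exponent `α` and constant `4 C` on the preimage. -/
theorem axial_holder {e : E} (he : ‖e‖ = 1) {W : EuclideanSpace ℝ (Fin 2) → ℝ}
    (hW : ∀ y, W (planeRefl y) = W y)
    {D : Set (EuclideanSpace ℝ (Fin 2))} (hDsym : ∀ y ∈ D, planeRefl y ∈ D)
    {α C : ℝ} (hα0 : 0 < α) (hα1 : α ≤ 1) (hC : 0 ≤ C)
    (hd : ∀ z ∈ D, DifferentiableAt ℝ W z)
    (hH : ∀ z ∈ D, ∀ z' ∈ D, ‖fderiv ℝ W z - fderiv ℝ W z'‖ ≤ C * ‖z - z'‖ ^ α)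
    {x y : E} (hx : axMap e x ∈ D) (hy : axMap e y ∈ D) :
    ‖gradient (fun x => W (axMap e x)) x - gradient (fun x => W (axMap e x)) y‖
      ≤ 4 * C * ‖x - y‖ ^ α := by
  rw [(hasGradientAt_axial he hW (hd _ hx)).gradient,
    (hasGradientAt_axial he hW (hd _ hy)).gradient]
  have hax0 : axPerp e x = 0 → fderiv ℝ W (axMap e x) (planePt 1 0) = 0 :=
    fderiv_axis_eq_zero hW (hd _ hx)
  have hay0 : axPerp e y = 0 → fderiv ℝ W (axMap e y) (planePt 1 0) = 0 :=
    fderiv_axis_eq_zero hW (hd _ hy)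
  have hay' : |fderiv ℝ W (axMap e y) (planePt 1 0)| ≤ C * ‖axPerp e y‖ ^ α :=
    abs_radial_le hW hDsym hα1 hC hd hH (norm_nonneg _) hy
  have hdα : 0 ≤ ‖x - y‖ ^ α := Real.rpow_nonneg (norm_nonneg _) α
  have hzz : ‖axMap e x - axMap e y‖ ^ α ≤ ‖x - y‖ ^ α :=
    Real.rpow_le_rpow (norm_nonneg _) (norm_axMap_sub_le he x y) hα0.le
  have hF : ‖fderiv ℝ W (axMap e x) - fderiv ℝ W (axMap e y)‖ ≤ C * ‖x - y‖ ^ α :=
    (hH _ hx _ hy).trans (mul_le_mul_of_nonneg_left hzz hC)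
  have hab : |fderiv ℝ W (axMap e x) (planePt 1 0) - fderiv ℝ W (axMap e y) (planePt 1 0)|
      ≤ C * ‖x - y‖ ^ α := by
    have h3 := (fderiv ℝ W (axMap e x) - fderiv ℝ W (axMap e y)).le_opNorm (planePt 1 0)
    rw [norm_planePt_one_zero, mul_one, Real.norm_eq_abs, _root_.sub_apply] at h3
    exact h3.trans hF
  have hcc : |fderiv ℝ W (axMap e x) (planePt 0 1) - fderiv ℝ W (axMap e y) (planePt 0 1)|
      ≤ C * ‖x - y‖ ^ α := by
    have h3 := (fderiv ℝ W (axMap e x) - fderiv ℝ W (axMap e y)).le_opNorm (planePt 0 1)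
    rw [norm_planePt_zero_one, mul_one, Real.norm_eq_abs, _root_.sub_apply] at h3
    exact h3.trans hF
  set ax := fderiv ℝ W (axMap e x) (planePt 1 0) with hax
  set ay := fderiv ℝ W (axMap e y) (planePt 1 0) with hay
  set cx := fderiv ℝ W (axMap e x) (planePt 0 1) with hcx
  set cy := fderiv ℝ W (axMap e y) (planePt 0 1) with hcy
  set νx := ‖axPerp e x‖⁻¹ • axPerp e x with hνx
  set νy := ‖axPerp e y‖⁻¹ • axPerp e y with hνy
  set d := ‖x - y‖ with hd'
  have hCd : 0 ≤ C * d ^ α := mul_nonneg hC hdα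
  have hνx1 : ‖νx‖ ≤ 1 := norm_unit_le_one _
  have hνy1 : ‖νy‖ ≤ 1 := norm_unit_le_one _
  have key : ‖ax • νx - ay • νy‖ ≤ 3 * (C * d ^ α) := by
    by_cases hpx : axPerp e x = 0
    · have h0 : ax = 0 := hax0 hpx
      rw [h0, zero_smul, zero_sub, norm_neg, norm_smul, Real.norm_eq_abs]
      have h1 : |ay| ≤ C * d ^ α := by
        rw [h0, zero_sub, abs_neg] at hab
        exact hab
      have h2 : |ay| * ‖νy‖ ≤ |ay| * 1 := mul_le_mul_of_nonneg_left hνy1 (abs_nonneg _)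
      linarith
    · by_cases hpy : axPerp e y = 0
      · have h0 : ay = 0 := hay0 hpy
        rw [h0, zero_smul, sub_zero, norm_smul, Real.norm_eq_abs]
        have h1 : |ax| ≤ C * d ^ α := by
          rw [h0, sub_zero] at hab
          exact hab
        have h2 : |ax| * ‖νx‖ ≤ |ax| * 1 := mul_le_mul_of_nonneg_left hνx1 (abs_nonneg _)
        linarith
      · have e1 : ax • νx - ay • νy = (ax - ay) • νx + ay • (νx - νy) := by
          rw [sub_smul, smul_sub]
          abel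
        rw [e1]
        have h1 : ‖(ax - ay) • νx‖ ≤ C * d ^ α := by
          rw [norm_smul, Real.norm_eq_abs]
          have h2 : |ax - ay| * ‖νx‖ ≤ |ax - ay| * 1 :=
            mul_le_mul_of_nonneg_left hνx1 (abs_nonneg _)
          linarith
        have h2 : ‖ay • (νx - νy)‖ ≤ 2 * (C * d ^ α) := by
          rw [norm_smul, Real.norm_eq_abs]
          have hρy : 0 < ‖axPerp e y‖ := norm_pos_iff.mpr hpy
          have hν2 : ‖νx - νy‖ ≤ 2 := by
            have h3 := norm_sub_le νx νy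
            linarith
          have hνd : ‖νx - νy‖ ≤ 2 * d / ‖axPerp e y‖ := by
            have h3 := norm_unit_sub_le hpx hpy
            have h4 : ‖axPerp e x - axPerp e y‖ ≤ d := by
              rw [← axPerp_sub]
              exact norm_axPerp_le he _
            have h5 : 2 * ‖axPerp e x - axPerp e y‖ / ‖axPerp e y‖ ≤ 2 * d / ‖axPerp e y‖ :=
              div_le_div_of_nonneg_right (by linarith) hρy.le
            exact h3.trans h5
          have hρα : 0 ≤ ‖axPerp e y‖ ^ α := Real.rpow_nonneg hρy.le α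
          rcases le_or_gt ‖axPerp e y‖ d with hle | hgt
          · have h5 : ‖axPerp e y‖ ^ α ≤ d ^ α := Real.rpow_le_rpow hρy.le hle hα0.le
            have h6 : |ay| * ‖νx - νy‖ ≤ (C * ‖axPerp e y‖ ^ α) * 2 :=
              mul_le_mul hay' hν2 (norm_nonneg _) (mul_nonneg hC hρα)
            have h7 := mul_le_mul_of_nonneg_left h5 hC
            linarith
          · have hq0 : 0 ≤ d / ‖axPerp e y‖ := div_nonneg (norm_nonneg _) hρy.le
            have hq1 : d / ‖axPerp e y‖ ≤ 1 := (div_le_one hρy).mpr hgt.le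
            have hq : d / ‖axPerp e y‖ ≤ (d / ‖axPerp e y‖) ^ α := by
              rcases hq0.eq_or_lt with h0 | hpos
              · rw [← h0]
                exact Real.rpow_nonneg le_rfl α
              · have h8 := Real.rpow_le_rpow_of_exponent_ge hpos hq1 hα1
                rwa [Real.rpow_one] at h8
            have hq' : ‖axPerp e y‖ ^ α * (d / ‖axPerp e y‖) ^ α = d ^ α := by
              rw [Real.div_rpow (norm_nonneg _) hρy.le,
                mul_div_cancel₀ _ (ne_of_gt (Real.rpow_pos_of_pos hρy α))]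
            have h6 : |ay| * ‖νx - νy‖ ≤ (C * ‖axPerp e y‖ ^ α) * (2 * d / ‖axPerp e y‖) :=
              mul_le_mul hay' hνd (norm_nonneg _) (mul_nonneg hC hρα)
            have h7 : (C * ‖axPerp e y‖ ^ α) * (2 * d / ‖axPerp e y‖)
                = 2 * C * (‖axPerp e y‖ ^ α * (d / ‖axPerp e y‖)) := by ring
            have h8 : ‖axPerp e y‖ ^ α * (d / ‖axPerp e y‖)
                ≤ ‖axPerp e y‖ ^ α * (d / ‖axPerp e y‖) ^ α :=
              mul_le_mul_of_nonneg_left hq hρα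
            rw [hq'] at h8
            have h9 : 2 * C * (‖axPerp e y‖ ^ α * (d / ‖axPerp e y‖)) ≤ 2 * C * d ^ α :=
              mul_le_mul_of_nonneg_left h8 (by linarith)
            linarith
        have h3 := norm_add_le ((ax - ay) • νx) (ay • (νx - νy))
        linarith
  have e2 : ax • νx + cx • e - (ay • νy + cy • e) = (ax • νx - ay • νy) + (cx - cy) • e := by
    rw [sub_smul]
    abel
  rw [e2]
  have h3 := norm_add_le (ax • νx - ay • νy) ((cx - cy) • e)
  have h4 : ‖(cx - cy) • e‖ = |cx - cy| := by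
    rw [norm_smul, he, mul_one, Real.norm_eq_abs]
  rw [h4] at h3
  linarith

omit [CompleteSpace E] in
theorem norm_axMap_sub_axis {e : E} (he : ‖e‖ = 1) (x : E) (t₀ : ℝ) :
    ‖axMap e x - planePt 0 t₀‖ = ‖x - t₀ • e‖ := by
  have h1 : ‖axMap e x - planePt 0 t₀‖ ^ 2 = ‖axPerp e x‖ ^ 2 + (inner ℝ e x - t₀) ^ 2 := by
    rw [axMap_eq, norm_planePt_sub_sq]
    ring
  have h2 := norm_sq_eq_axPerp he (x - t₀ • e)
  have h4 : inner ℝ e (x - t₀ • e) = inner ℝ e x - t₀ := by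
    rw [inner_sub_right, inner_smul_right, real_inner_self_eq_norm_sq, he]
    ring
  have h3 : axPerp e (x - t₀ • e) = axPerp e x := by
    unfold axPerp
    rw [h4, sub_smul]
    abel
  rw [h3, h4] at h2
  have h5 : ‖axMap e x - planePt 0 t₀‖ ^ 2 = ‖x - t₀ • e‖ ^ 2 := by rw [h1, h2]
  exact (sq_eq_sq₀ (norm_nonneg _) (norm_nonneg _)).mp h5

omit [CompleteSpace E] in
theorem preimage_axis_ball {e : E} (he : ‖e‖ = 1) (t₀ r : ℝ) :
    axMap e ⁻¹' ball (planePt 0 t₀) r = ball (t₀ • e) r := by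
  ext x
  rw [mem_preimage, mem_ball, mem_ball, dist_eq_norm, dist_eq_norm, norm_axMap_sub_axis he]

theorem planeRefl_mem_axis_ball {t₀ r : ℝ} {y : EuclideanSpace ℝ (Fin 2)}
    (hy : y ∈ ball (planePt 0 t₀) r) : planeRefl y ∈ ball (planePt 0 t₀) r := by
  rw [mem_ball, dist_eq_norm] at hy ⊢
  have h1 : ‖planeRefl y - planePt 0 t₀‖ ^ 2 = ‖y - planePt 0 t₀‖ ^ 2 := by
    have e1 : planeRefl y = planePt (-(y 0)) (y 1) := rfl
    rw [e1, norm_planePt_sub_sq]
    conv_rhs => rw [← planePt_eta y]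
    rw [norm_planePt_sub_sq]
    ring
  have h2 : ‖planeRefl y - planePt 0 t₀‖ = ‖y - planePt 0 t₀‖ :=
    (sq_eq_sq₀ (norm_nonneg _) (norm_nonneg _)).mp h1
  rw [h2]
  exact hy

theorem norm_fderiv_sub_eq {F : Type*} [NormedAddCommGroup F] [InnerProductSpace ℝ F]
    [CompleteSpace F] (v : F → ℝ) (z z' : F) :
    ‖fderiv ℝ v z - fderiv ℝ v z'‖ = ‖gradient v z - gradient v z'‖ := by
  have h1 : ∀ w : F, fderiv ℝ v w = InnerProductSpace.toDual ℝ F (gradient v w) := by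
    intro w
    unfold gradient
    simp
  rw [h1 z, h1 z', ← map_sub, LinearIsometryEquiv.norm_map]

/-- Interior gradient estimate on balls centred on the axis, for axially symmetric
infinity-harmonic functions, from a planar interior estimate taken as a hypothesis. -/
theorem axial_interior_estimate {e f : E} (he : ‖e‖ = 1) (hf : ‖f‖ = 1) (hfe : inner ℝ f e = 0)
    {W : EuclideanSpace ℝ (Fin 2) → ℝ} (hW : ∀ y, W (planeRefl y) = W y)
    {α C₀ : ℝ} (hα0 : 0 < α) (hα1 : α ≤ 1) (hC₀ : 0 ≤ C₀)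
    (hES : ∀ (v : EuclideanSpace ℝ (Fin 2) → ℝ) (z₀ : EuclideanSpace ℝ (Fin 2)) (R M : ℝ),
      0 < R → IsInfinityHarmonicOn v (ball z₀ R) →
      (∀ z ∈ ball z₀ R, ∀ z' ∈ ball z₀ R, v z - v z' ≤ M) →
      (∀ z ∈ ball z₀ (R / 2), DifferentiableAt ℝ v z) ∧
      ∀ z ∈ ball z₀ (R / 2), ∀ z' ∈ ball z₀ (R / 2),
        ‖gradient v z - gradient v z'‖ ≤ C₀ * M / R ^ (1 + α) * ‖z - z'‖ ^ α)
    {t₀ R M : ℝ} (hR : 0 < R)
    (hu : IsInfinityHarmonicOn (fun x => W (axMap e x)) (ball (t₀ • e) R))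
    (hosc : ∀ x ∈ ball (t₀ • e) R, ∀ y ∈ ball (t₀ • e) R, W (axMap e x) - W (axMap e y) ≤ M)
    {x y : E} (hx : x ∈ ball (t₀ • e) (R / 2)) (hy : y ∈ ball (t₀ • e) (R / 2)) :
    ‖gradient (fun x => W (axMap e x)) x - gradient (fun x => W (axMap e x)) y‖
      ≤ 4 * (C₀ * M / R ^ (1 + α)) * ‖x - y‖ ^ α := by
  have hsym : ∀ r : ℝ, ∀ y ∈ ball (planePt 0 t₀) r, planeRefl y ∈ ball (planePt 0 t₀) r :=
    fun r y hy => planeRefl_mem_axis_ball hy
  have hWharm : IsInfinityHarmonicOn W (ball (planePt 0 t₀) R) := by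
    apply (isInfinityHarmonicOn_axial_iff he hf hfe (hsym R) hW).mp
    rw [preimage_axis_ball he]
    exact hu
  have hWs : ∀ z : EuclideanSpace ℝ (Fin 2), W (axMap e (sliceL f e z)) = W z := by
    intro z
    rw [axMap_sliceL hf he hfe, even_planePt_abs hW, planePt_eta]
  have hmem : ∀ z ∈ ball (planePt 0 t₀) R, sliceL f e z ∈ ball (t₀ • e) R := by
    intro z hz
    rw [← preimage_axis_ball he, mem_preimage, axMap_sliceL hf he hfe]
    rcases abs_cases (z 0) with ⟨h1, _⟩ | ⟨h1, _⟩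
    · rw [h1, planePt_eta]
      exact hz
    · rw [h1]
      exact hsym R z hz
  have hoscW : ∀ z ∈ ball (planePt 0 t₀) R, ∀ z' ∈ ball (planePt 0 t₀) R, W z - W z' ≤ M := by
    intro z hz z' hz'
    have h := hosc _ (hmem z hz) _ (hmem z' hz')
    rw [hWs, hWs] at h
    exact h
  obtain ⟨hdiff, hHol⟩ := hES W (planePt 0 t₀) R M hR hWharm hoscW
  have hM : 0 ≤ M := by
    have h := hoscW _ (mem_ball_self hR) _ (mem_ball_self hR)
    linarith
  have hC : 0 ≤ C₀ * M / R ^ (1 + α) :=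
    div_nonneg (mul_nonneg hC₀ hM) (Real.rpow_nonneg hR.le _)
  have hH : ∀ z ∈ ball (planePt 0 t₀) (R / 2), ∀ z' ∈ ball (planePt 0 t₀) (R / 2),
      ‖fderiv ℝ W z - fderiv ℝ W z'‖ ≤ C₀ * M / R ^ (1 + α) * ‖z - z'‖ ^ α := by
    intro z hz z' hz'
    rw [norm_fderiv_sub_eq]
    exact hHol z hz z' hz'
  have hx' : axMap e x ∈ ball (planePt 0 t₀) (R / 2) := by
    rw [← mem_preimage, preimage_axis_ball he]
    exact hx
  have hy' : axMap e y ∈ ball (planePt 0 t₀) (R / 2) := by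
    rw [← mem_preimage, preimage_axis_ball he]
    exact hy
  exact axial_holder he hW (hsym (R / 2)) hα0 hα1 hC hdiff hH hx' hy'

end Quant

end Vale.Agent.Lib.P080
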