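import Mathlib

namespace Vale.Agent.Lib.P080

open Filter Topology Set

theorem cube_strictMono : StrictMono (fun x : ℝ => x ^ 3) :=
  Odd.strictMono_pow (by decide)

theorem cube_surjective : Function.Surjective (fun x : ℝ => x ^ 3) := by
  intro y
  rcases le_total 0 y with hy | hy
  · refine ⟨y ^ ((1 : ℝ) / 3), ?_⟩
    show (y ^ ((1 : ℝ) / 3)) ^ 3 = y
    rw [← Real.rpow_natCast, ← Real.rpow_mul hy]
    norm_num
  · refine ⟨-((-y) ^ ((1 : ℝ) / 3)), ?_⟩
    show (-((-y) ^ ((1 : ℝ) / 3))) ^ 3 = y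
    have h : ((-y) ^ ((1 : ℝ) / 3)) ^ 3 = -y := by
      rw [← Real.rpow_natCast, ← Real.rpow_mul (by linarith)]
      norm_num
    have : (-((-y) ^ ((1 : ℝ) / 3))) ^ 3 = -(((-y) ^ ((1 : ℝ) / 3)) ^ 3) := by ring
    rw [this, h]; ring

/-- The order isomorphism `x ↦ x ^ 3` of the real line. -/
noncomputable def cubeIso : ℝ ≃o ℝ :=
  cube_strictMono.orderIsoOfSurjective _ cube_surjective

/-- Real cube root. -/
noncomputable def cbrt (s : ℝ) : ℝ := cubeIso.symm s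

theorem cbrt_pow (s : ℝ) : cbrt s ^ 3 = s := cubeIso.apply_symm_apply s

theorem cbrt_cube (x : ℝ) : cbrt (x ^ 3) = x := cubeIso.symm_apply_apply x

theorem cbrt_strictMono : StrictMono cbrt := cubeIso.symm.strictMono

theorem cbrt_continuous : Continuous cbrt := cubeIso.symm.continuous

theorem cbrt_zero : cbrt 0 = 0 := by
  have := cbrt_cube 0
  simpa using this

theorem cbrt_lt_iff {s p : ℝ} : cbrt s < p ↔ s < p ^ 3 := by
  rw [← cbrt_cube p, cbrt_strictMono.lt_iff_lt, cbrt_cube]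

theorem lt_cbrt_iff {s p : ℝ} : p < cbrt s ↔ p ^ 3 < s := by
  rw [← cbrt_cube p, cbrt_strictMono.lt_iff_lt, cbrt_cube]

theorem cbrt_le_iff {s p : ℝ} : cbrt s ≤ p ↔ s ≤ p ^ 3 := by
  rw [← cbrt_cube p, cbrt_strictMono.le_iff_le, cbrt_cube]

theorem le_cbrt_iff {s p : ℝ} : p ≤ cbrt s ↔ p ^ 3 ≤ s := by
  rw [← cbrt_cube p, cbrt_strictMono.le_iff_le, cbrt_cube]

theorem cbrt_ne_zero {s : ℝ} (hs : s ≠ 0) : cbrt s ≠ 0 := by
  intro h
  have := cbrt_pow s
  rw [h] at this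
  apply hs
  rw [← this]; norm_num

theorem cbrt_eq_zero_iff {s : ℝ} : cbrt s = 0 ↔ s = 0 := by
  constructor
  · intro h
    by_contra hs
    exact cbrt_ne_zero hs h
  · rintro rfl
    exact cbrt_zero

theorem hasDerivAt_cbrt {s : ℝ} (hs : s ≠ 0) :
    HasDerivAt cbrt (3 * cbrt s ^ 2)⁻¹ s := by
  have h1 : HasDerivAt (fun x : ℝ => x ^ 3) (3 * cbrt s ^ 2) (cbrt s) := by
    simpa using hasDerivAt_pow 3 (cbrt s)
  have h2 : (3 * cbrt s ^ 2) ≠ 0 := by
    have := cbrt_ne_zero hs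
    positivity
  exact HasDerivAt.of_local_left_inverse cbrt_continuous.continuousAt h1 h2
    (Filter.Eventually.of_forall cbrt_pow)

/-- Primitive of the cube root: `cbrtPrim s = (3/4) s cbrt(s) = (3/4)|s|^(4/3)`. -/
noncomputable def cbrtPrim (s : ℝ) : ℝ := 3 / 4 * (s * cbrt s)

theorem cbrtPrim_nonneg (s : ℝ) : 0 ≤ cbrtPrim s := by
  unfold cbrtPrim
  have h : s * cbrt s = cbrt s ^ 4 := by
    have h3 := cbrt_pow s
    calc s * cbrt s = cbrt s ^ 3 * cbrt s := by rw [h3]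
      _ = cbrt s ^ 4 := by ring
  rw [h]
  positivity

theorem cbrtPrim_pos {s : ℝ} (hs : s ≠ 0) : 0 < cbrtPrim s := by
  unfold cbrtPrim
  have h : s * cbrt s = cbrt s ^ 4 := by
    have h3 := cbrt_pow s
    calc s * cbrt s = cbrt s ^ 3 * cbrt s := by rw [h3]
      _ = cbrt s ^ 4 := by ring
  rw [h]
  have := cbrt_ne_zero hs
  positivity

theorem cbrt_neg (s : ℝ) : cbrt (-s) = -cbrt s := by
  have : (-cbrt s) ^ 3 = -s := by
    have := cbrt_pow s
    calc (-cbrt s) ^ 3 = -(cbrt s ^ 3) := by ring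
      _ = -s := by rw [this]
  rw [← this, cbrt_cube]

theorem cbrtPrim_neg (s : ℝ) : cbrtPrim (-s) = cbrtPrim s := by
  unfold cbrtPrim
  rw [cbrt_neg]; ring

theorem cbrtPrim_zero : cbrtPrim 0 = 0 := by
  unfold cbrtPrim; simp

theorem hasDerivAt_cbrtPrim (s : ℝ) : HasDerivAt cbrtPrim (cbrt s) s := by
  by_cases hs : s = 0
  · subst hs
    rw [cbrt_zero]
    rw [hasDerivAt_iff_isLittleO_nhds_zero]
    rw [Asymptotics.isLittleO_iff]
    intro c hc
    have hcont : ContinuousAt cbrt 0 := cbrt_continuous.continuousAt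
    have h0 : ∀ᶠ h in 𝓝 (0 : ℝ), |cbrt h| < c := by
      have := hcont.tendsto
      rw [cbrt_zero] at this
      have h2 : ∀ᶠ h in 𝓝 (0 : ℝ), cbrt h ∈ Ioo (-c) c :=
        this (Ioo_mem_nhds (by linarith) hc)
      filter_upwards [h2] with h hh
      exact abs_lt.mpr ⟨hh.1, hh.2⟩
    filter_upwards [h0] with h hh
    simp only [zero_add, cbrtPrim_zero, sub_zero, smul_eq_mul, mul_zero, Real.norm_eq_abs]
    unfold cbrtPrim
    rw [abs_mul, abs_mul]
    have : |(3 / 4 : ℝ)| = 3 / 4 := abs_of_pos (by norm_num)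
    rw [this]
    nlinarith [abs_nonneg h, abs_nonneg (cbrt h)]
  · have h1 := hasDerivAt_cbrt hs
    have h2 : HasDerivAt (fun x : ℝ => x * cbrt x) (1 * cbrt s + s * (3 * cbrt s ^ 2)⁻¹) s :=
      (hasDerivAt_id s).mul h1
    have h3 : HasDerivAt cbrtPrim (3 / 4 * (1 * cbrt s + s * (3 * cbrt s ^ 2)⁻¹)) s :=
      h2.const_mul (3 / 4)
    convert h3 using 1
    have hne := cbrt_ne_zero hs
    have hs3 : s = cbrt s ^ 3 := (cbrt_pow s).symm
    field_simp
    nlinarith [hs3]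

end Vale.Agent.Lib.P080
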