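import Mathlib
import Vale.Agent.Lib.P080.Cbrt

namespace Vale.Agent.Lib.P080

open Filter Topology Set

/-- One-dimensional viscosity subsolution property of `f'^2 f'' ≥ a`, tested with quadratics. -/
def SubQ (f : ℝ → ℝ) (I : Set ℝ) (a : ℝ) : Prop :=
  ∀ z ∈ I, ∀ β γ : ℝ,
    IsLocalMax (fun t => f t - (β * (t - z) + γ * (t - z) ^ 2)) z → a ≤ 2 * γ * β ^ 2

/-- One-dimensional viscosity supersolution property of `f'^2 f'' ≤ b`, tested with quadratics. -/
def SuperQ (f : ℝ → ℝ) (I : Set ℝ) (b : ℝ) : Prop :=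
  ∀ z ∈ I, ∀ β γ : ℝ,
    IsLocalMin (fun t => f t - (β * (t - z) + γ * (t - z) ^ 2)) z → 2 * γ * β ^ 2 ≤ b

theorem SuperQ.neg {f : ℝ → ℝ} {I : Set ℝ} {b : ℝ} (h : SuperQ f I b) :
    SubQ (fun t => -f t) I (-b) := by
  intro z hz β γ hmax
  have hmin : IsLocalMin (fun t => f t - ((-β) * (t - z) + (-γ) * (t - z) ^ 2)) z := by
    have := hmax
    unfold IsLocalMax IsMaxFilter at this
    unfold IsLocalMin IsMinFilter
    filter_upwards [this] with t ht
    simp only [sub_self, mul_zero] at ht ⊢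
    nlinarith
  have := h z hz (-β) (-γ) hmin
  nlinarith

/-- The comparison function: a primitive of `t ↦ cbrt (m (t - w))`. -/
noncomputable def psi (m w : ℝ) (t : ℝ) : ℝ := cbrtPrim (m * (t - w)) / m

theorem hasDerivAt_psi {m : ℝ} (hm : m ≠ 0) (w t : ℝ) :
    HasDerivAt (psi m w) (cbrt (m * (t - w))) t := by
  have h1 : HasDerivAt (fun t : ℝ => m * (t - w)) (m * 1) t :=
    ((hasDerivAt_id t).sub_const w).const_mul m
  have h2 := (hasDerivAt_cbrtPrim (m * (t - w))).comp t h1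
  have h3 := h2.div_const m
  have h4 : HasDerivAt (psi m w) (cbrt (m * (t - w)) * (m * 1) / m) t := h3
  refine h4.congr_deriv ?_
  field_simp

theorem psi_self (m w : ℝ) : psi m w w = 0 := by
  unfold psi; simp [cbrtPrim_zero]

theorem psi_continuous {m : ℝ} (hm : m ≠ 0) (w : ℝ) : Continuous (psi m w) :=
  continuous_iff_continuousAt.mpr fun t => (hasDerivAt_psi hm w t).continuousAt

theorem psi_symm (m w t : ℝ) : psi m w t = psi m t w := by
  unfold psi
  have : m * (w - t) = -(m * (t - w)) := by ring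
  rw [this, cbrtPrim_neg]

theorem psi_neg_of_neg {m : ℝ} (hm : m < 0) {w t : ℝ} (h : t ≠ w) : psi m w t < 0 := by
  unfold psi
  have : m * (t - w) ≠ 0 := mul_ne_zero hm.ne (sub_ne_zero.mpr h)
  exact div_neg_of_pos_of_neg (cbrtPrim_pos this) hm

theorem psi_eq {m : ℝ} (hm : m ≠ 0) (w t : ℝ) :
    psi m w t = 3 / 4 * ((t - w) * cbrt (m * (t - w))) := by
  unfold psi cbrtPrim
  field_simp

/-- If `h' < p` then eventually to the right the increment is below `p (t - x)`. -/
theorem eventually_right_lt {h : ℝ → ℝ} {h' x p : ℝ} (hd : HasDerivAt h h' x) (hp : h' < p) :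
    ∀ᶠ t in 𝓝[>] x, h t - h x < p * (t - x) := by
  have h1 : Tendsto (slope h x) (𝓝[>] x) (𝓝 h') :=
    (hasDerivAt_iff_tendsto_slope.mp hd).mono_left (nhdsGT_le_nhdsNE x)
  have h2 : ∀ᶠ t in 𝓝[>] x, slope h x t < p := h1.eventually_lt_const hp
  filter_upwards [h2, self_mem_nhdsWithin] with t ht htx
  rw [slope_def_field] at ht
  have : 0 < t - x := sub_pos.mpr htx
  rwa [div_lt_iff₀ this] at ht

/-- If `q < h'` then eventually to the left the increment is above `q (y - t)`. -/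
theorem eventually_left_gt {h : ℝ → ℝ} {h' y q : ℝ} (hd : HasDerivAt h h' y) (hq : q < h') :
    ∀ᶠ t in 𝓝[<] y, q * (y - t) < h y - h t := by
  have h1 : Tendsto (slope h y) (𝓝[<] y) (𝓝 h') :=
    (hasDerivAt_iff_tendsto_slope.mp hd).mono_left (nhdsLT_le_nhdsNE y)
  have h2 : ∀ᶠ t in 𝓝[<] y, q < slope h y t := h1.eventually_const_lt hq
  filter_upwards [h2, self_mem_nhdsWithin] with t ht hty
  rw [slope_def_field] at ht
  have hpos : 0 < y - t := sub_pos.mpr hty
  have e : (h t - h y) / (t - y) = (h y - h t) / (y - t) := by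
    rw [← neg_sub (h y) (h t), ← neg_sub y t, neg_div_neg_eq]
  rw [e, lt_div_iff₀ hpos] at ht
  exact ht

/-- Touching at a non-singular point of the comparison function. -/
theorem touch_psi {f : ℝ → ℝ} {I : Set ℝ} {a : ℝ} (hsub : SubQ f I a) {m w z : ℝ}
    (hm : m ≠ 0) (hz : z ∈ I) (hzw : z ≠ w)
    (hmax : IsLocalMax (fun t => f t - psi m w t) z) : a ≤ m / 3 := by
  set β := cbrt (m * (z - w)) with hβ
  have hβ0 : β ≠ 0 := cbrt_ne_zero (mul_ne_zero hm (sub_ne_zero.mpr hzw))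
  have hβ2 : 0 < β ^ 2 := by positivity
  apply le_of_forall_pos_le_add
  intro δ hδ
  set ε := δ / (2 * β ^ 2) with hε
  have hεpos : 0 < ε := by positivity
  set γ := m / (6 * β ^ 2) + ε with hγ
  let Q : ℝ → ℝ := fun t => psi m w t - β * (t - z) - γ * (t - z) ^ 2
  have hQd : ∀ t, HasDerivAt Q (cbrt (m * (t - w)) - β - 2 * γ * (t - z)) t := by
    intro t
    have h1 := hasDerivAt_psi hm w t
    have h2 : HasDerivAt (fun t : ℝ => β * (t - z)) (β * 1) t :=
      ((hasDerivAt_id t).sub_const z).const_mul β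
    have h3 : HasDerivAt (fun t : ℝ => γ * (t - z) ^ 2) (γ * (2 * (t - z) ^ 1 * 1)) t :=
      (((hasDerivAt_id t).sub_const z).pow 2).const_mul γ
    have h4 := (h1.sub h2).sub h3
    have h5 : HasDerivAt Q (cbrt (m * (t - w)) - β * 1 - γ * (2 * (t - z) ^ 1 * 1)) t := h4
    refine h5.congr_deriv ?_
    ring
  have hderivQ : deriv Q = fun t => cbrt (m * (t - w)) - β - 2 * γ * (t - z) :=
    funext fun t => (hQd t).deriv
  have hQdd : HasDerivAt (fun t => cbrt (m * (t - w)) - β - 2 * γ * (t - z))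
      ((3 * β ^ 2)⁻¹ * (m * 1) - 2 * γ * 1) z := by
    have h1 : HasDerivAt (fun t : ℝ => m * (t - w)) (m * 1) z :=
      ((hasDerivAt_id z).sub_const w).const_mul m
    have h2 : HasDerivAt cbrt (3 * β ^ 2)⁻¹ (m * (z - w)) :=
      hasDerivAt_cbrt (mul_ne_zero hm (sub_ne_zero.mpr hzw))
    have h3 := h2.comp z h1
    have h4 : HasDerivAt (fun t : ℝ => 2 * γ * (t - z)) (2 * γ * 1) z :=
      ((hasDerivAt_id z).sub_const z).const_mul (2 * γ)
    exact (h3.sub_const β).sub h4
  have hdd : deriv (deriv Q) z < 0 := by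
    rw [hderivQ, hQdd.deriv, hγ]
    have : (3 * β ^ 2)⁻¹ * (m * 1) - 2 * (m / (6 * β ^ 2) + ε) * 1 = -2 * ε := by
      field_simp
      ring
    rw [this]
    linarith
  have hd0 : deriv Q z = 0 := by
    rw [hderivQ]
    simp [hβ]
  have hQmax : IsLocalMax Q z := isLocalMax_of_deriv_deriv_neg hdd hd0 (hQd z).continuousAt
  have hfmax : IsLocalMax (fun t => f t - (β * (t - z) + γ * (t - z) ^ 2)) z := by
    unfold IsLocalMax IsMaxFilter at hmax hQmax ⊢
    filter_upwards [hmax, hQmax] with t h1 h2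
    simp only [Q, sub_self, mul_zero] at h1 h2 ⊢
    have : (0:ℝ) ^ 2 = 0 := by norm_num
    rw [this] at h2 ⊢
    simp only [mul_zero, sub_zero, add_zero] at h2 ⊢
    linarith
  have h5 := hsub z hz β γ hfmax
  have h6 : 2 * γ * β ^ 2 = m / 3 + δ := by
    rw [hγ, hε]
    field_simp
    ring
  linarith

end Vale.Agent.Lib.P080
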