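import Mathlib
import Vale.Agent.Lib.P080.OneDimA

namespace Vale.Agent.Lib.P080

open Filter Topology Set

/-- Interior maximum of `f - psi` on `[x, y]` under slope conditions at the end points. -/
theorem exists_interior_max {f : ℝ → ℝ} {I : Set ℝ} (hIc : I.OrdConnected)
    (hf : ContinuousOn f I) {x y : ℝ} (hx : x ∈ I) (hy : y ∈ I) (hxy : x < y) {p q : ℝ}
    (hp : ∃ᶠ t in 𝓝[>] x, p * (t - x) ≤ f t - f x)
    (hq : ∃ᶠ t in 𝓝[<] y, f y - f t ≤ q * (y - t))
    {m w : ℝ} (hm : m ≠ 0) (hw1 : m * (x - w) < p ^ 3) (hw2 : q ^ 3 < m * (y - w)) :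
    ∃ z ∈ Ioo x y, ∀ t ∈ Icc x y, f t - psi m w t ≤ f z - psi m w z := by
  have hsub : Icc x y ⊆ I := hIc.out hx hy
  have hcont : ContinuousOn (fun t => f t - psi m w t) (Icc x y) :=
    (hf.mono hsub).sub (psi_continuous hm w).continuousOn
  obtain ⟨z, hz, hzmax⟩ := isCompact_Icc.exists_isMaxOn (nonempty_Icc.mpr hxy.le) hcont
  have hzmax' : ∀ t ∈ Icc x y, f t - psi m w t ≤ f z - psi m w z := fun t ht => hzmax ht
  refine ⟨z, ⟨?_, ?_⟩, hzmax'⟩
  · rcases eq_or_lt_of_le hz.1 with h | h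
    · exfalso
      rw [← h] at hzmax'
      have hd := hasDerivAt_psi hm w x
      have hlt : cbrt (m * (x - w)) < p := cbrt_lt_iff.mpr hw1
      have hev := eventually_right_lt hd hlt
      have hev2 : ∀ᶠ t in 𝓝[>] x, t ∈ Ioo x y := Ioo_mem_nhdsGT hxy
      obtain ⟨t, ⟨ht1, ht2⟩, ht3⟩ := ((hp.and_eventually hev).and_eventually hev2).exists
      have := hzmax' t ⟨ht3.1.le, ht3.2.le⟩
      linarith
    · exact h
  · rcases eq_or_lt_of_le hz.2 with h | h
    · exfalso
      rw [h] at hzmax'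
      have hd := hasDerivAt_psi hm w y
      have hlt : q < cbrt (m * (y - w)) := lt_cbrt_iff.mpr hw2
      have hev := eventually_left_gt hd hlt
      have hev2 : ∀ᶠ t in 𝓝[<] y, t ∈ Ioo x y := Ioo_mem_nhdsLT hxy
      obtain ⟨t, ⟨ht1, ht2⟩, ht3⟩ := ((hq.and_eventually hev).and_eventually hev2).exists
      have := hzmax' t ⟨ht3.1.le, ht3.2.le⟩
      linarith
    · exact h

/-- Key comparison lemma for subsolutions: a right upper slope at `x` and a left lower slope
at `y > x` satisfy `p^3 + 3 a (y - x) ≤ q^3`. -/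
theorem sub_slopes {f : ℝ → ℝ} {I : Set ℝ} {a : ℝ} (hIc : I.OrdConnected)
    (hf : ContinuousOn f I) (hsub : SubQ f I a) {x y : ℝ} (hx : x ∈ I) (hy : y ∈ I)
    (hxy : x < y) {p q : ℝ}
    (hp : ∃ᶠ t in 𝓝[>] x, p * (t - x) ≤ f t - f x)
    (hq : ∃ᶠ t in 𝓝[<] y, f y - f t ≤ q * (y - t)) :
    p ^ 3 + 3 * a * (y - x) ≤ q ^ 3 := by
  by_contra hcon
  rw [not_le] at hcon
  have hyx : 0 < y - x := sub_pos.mpr hxy
  obtain ⟨m, hm0, hm3a, hmq⟩ : ∃ m : ℝ, m ≠ 0 ∧ m < 3 * a ∧ q ^ 3 < p ^ 3 + m * (y - x) := by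
    set D := p ^ 3 + 3 * a * (y - x) - q ^ 3 with hD
    have hDpos : 0 < D := by linarith
    set η := D / (2 * (y - x)) with hη
    have hηpos : 0 < η := by positivity
    have hηD : η * (y - x) = D / 2 := by rw [hη]; field_simp
    by_cases h0 : 3 * a - η = 0
    · refine ⟨3 * a - η / 2, ?_, by linarith, ?_⟩
      · intro h; linarith
      · nlinarith
    · refine ⟨3 * a - η, h0, by linarith, ?_⟩
      nlinarith
  have hIsub : Icc x y ⊆ I := hIc.out hx hy
  have key : ∀ w, m * (x - w) < p ^ 3 → q ^ 3 < m * (y - w) →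
      w ∈ Ioo x y ∧ ∀ t ∈ Icc x y, f t - f w ≤ psi m w t := by
    intro w hw1 hw2
    obtain ⟨z, hz, hzmax⟩ := exists_interior_max hIc hf hx hy hxy hp hq hm0 hw1 hw2
    by_cases hzw : z = w
    · rw [hzw] at hz hzmax
      refine ⟨hz, fun t ht => ?_⟩
      have := hzmax t ht
      rw [psi_self] at this
      linarith
    · exfalso
      have hloc : IsLocalMax (fun t => f t - psi m w t) z := by
        have : Icc x y ∈ 𝓝 z := Icc_mem_nhds hz.1 hz.2
        filter_upwards [this] with t ht using hzmax t ht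
      have := touch_psi hsub hm0 (hIsub ⟨hz.1.le, hz.2.le⟩) hzw hloc
      linarith
  -- admissibility in terms of `m * w`
  set L := m * x - p ^ 3 with hL
  set R := m * y - q ^ 3 with hR
  have hLR : L < R := by rw [hL, hR]; nlinarith
  have adm : ∀ w, L < m * w → m * w < R → m * (x - w) < p ^ 3 ∧ q ^ 3 < m * (y - w) := by
    intro w h1 h2
    rw [hL] at h1
    rw [hR] at h2
    constructor
    · rw [mul_sub]; linarith
    · rw [mul_sub]; linarith
  rcases lt_or_gt_of_ne hm0 with hneg | hpos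
  · -- m < 0 : two distinct admissible points give a contradiction
    set w1 := (L + (R - L) / 3) / m with hw1
    set w2 := (L + 2 * (R - L) / 3) / m with hw2
    have e1 : m * w1 = L + (R - L) / 3 := by rw [hw1]; field_simp
    have e2 : m * w2 = L + 2 * (R - L) / 3 := by rw [hw2]; field_simp
    have a1 := adm w1 (by rw [e1]; linarith) (by rw [e1]; linarith)
    have a2 := adm w2 (by rw [e2]; linarith) (by rw [e2]; linarith)
    have k1 := key w1 a1.1 a1.2
    have k2 := key w2 a2.1 a2.2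
    have hne : w2 ≠ w1 := by
      intro h
      have : m * w2 = m * w1 := by rw [h]
      rw [e1, e2] at this
      linarith
    have i1 := k1.2 w2 ⟨k2.1.1.le, k2.1.2.le⟩
    have i2 := k2.2 w1 ⟨k1.1.1.le, k1.1.2.le⟩
    have n1 := psi_neg_of_neg hneg hne
    have n2 := psi_neg_of_neg hneg hne.symm
    linarith
  · -- m > 0 : f is locally constant on the admissible interval
    have hWadm : ∀ w ∈ Ioo (L / m) (R / m), m * (x - w) < p ^ 3 ∧ q ^ 3 < m * (y - w) := by
      intro w hw
      apply adm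
      · have := hw.1
        rw [div_lt_iff₀ hpos] at this
        linarith
      · have := hw.2
        rw [lt_div_iff₀ hpos] at this
        linarith
    have hWne : L / m < R / m := div_lt_div_of_pos_right hLR hpos
    have hderiv : ∀ w ∈ Ioo (L / m) (R / m), HasDerivAt f 0 w := by
      intro w hw
      rw [hasDerivAt_iff_isLittleO, Asymptotics.isLittleO_iff]
      intro c hc
      have hcont : ContinuousAt (fun t : ℝ => cbrt (m * (t - w))) w := by
        apply (cbrt_continuous.comp (by fun_prop)).continuousAt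
      have h0 : ∀ᶠ t in 𝓝 w, |cbrt (m * (t - w))| < c := by
        have h1 := hcont.tendsto
        simp only [sub_self, mul_zero, cbrt_zero] at h1
        have h2 : ∀ᶠ t in 𝓝 w, cbrt (m * (t - w)) ∈ Ioo (-c) c :=
          h1 (Ioo_mem_nhds (by linarith) hc)
        filter_upwards [h2] with t ht
        exact abs_lt.mpr ⟨ht.1, ht.2⟩
      have h1 : ∀ᶠ t in 𝓝 w, t ∈ Ioo (L / m) (R / m) := isOpen_Ioo.mem_nhds hw
      filter_upwards [h0, h1] with t ht0 ht1
      have aw := hWadm w hw
      have at' := hWadm t ht1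
      have kw := key w aw.1 aw.2
      have kt := key t at'.1 at'.2
      have i1 := kw.2 t ⟨kt.1.1.le, kt.1.2.le⟩
      have i2 := kt.2 w ⟨kw.1.1.le, kw.1.2.le⟩
      rw [psi_symm m t w] at i2
      have habs : |f t - f w| ≤ psi m w t := abs_le.mpr ⟨by linarith, i1⟩
      have hpsi : psi m w t ≤ c * |t - w| := by
        rw [psi_eq hm0]
        have h3 : (t - w) * cbrt (m * (t - w)) ≤ |t - w| * |cbrt (m * (t - w))| := by
          rw [← abs_mul]; exact le_abs_self _
        nlinarith [abs_nonneg (t - w), abs_nonneg (cbrt (m * (t - w)))]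
      simp only [smul_eq_mul, mul_zero, sub_zero, Real.norm_eq_abs]
      linarith
    have hconst : ∀ w ∈ Ioo (L / m) (R / m), ∀ w' ∈ Ioo (L / m) (R / m), f w = f w' := by
      intro w hw w' hw'
      apply IsOpen.is_const_of_deriv_eq_zero isOpen_Ioo isPreconnected_Ioo
        (fun v hv => (hderiv v hv).differentiableAt.differentiableWithinAt)
        (fun v hv => (hderiv v hv).deriv) hw hw'
    set w0 := (L / m + R / m) / 2 with hw0
    have hw0mem : w0 ∈ Ioo (L / m) (R / m) := ⟨by rw [hw0]; linarith, by rw [hw0]; linarith⟩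
    have aw0 := hWadm w0 hw0mem
    have kw0 := key w0 aw0.1 aw0.2
    have hloc : IsLocalMax (fun t => f t - (0 * (t - w0) + 0 * (t - w0) ^ 2)) w0 := by
      have h1 : ∀ᶠ t in 𝓝 w0, t ∈ Ioo (L / m) (R / m) := isOpen_Ioo.mem_nhds hw0mem
      filter_upwards [h1] with t ht
      have := hconst t ht w0 hw0mem
      simp only [zero_mul, add_zero, sub_zero]
      exact this.le
    have := hsub w0 (hIsub ⟨kw0.1.1.le, kw0.1.2.le⟩) 0 0 hloc
    simp only [mul_zero, zero_mul] at this
    nlinarith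

end Vale.Agent.Lib.P080
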