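import Mathlib
import Vale.Agent.Lib.P080.OneDimB

namespace Vale.Agent.Lib.P080

open Filter Topology Set

/-- right upper slopes -/
def URs (f : ℝ → ℝ) (x : ℝ) : Set ℝ := {p | ∃ᶠ t in 𝓝[>] x, p * (t - x) ≤ f t - f x}
/-- right lower slopes -/
def LRs (f : ℝ → ℝ) (x : ℝ) : Set ℝ := {p | ∃ᶠ t in 𝓝[>] x, f t - f x ≤ p * (t - x)}
/-- left upper slopes -/
def ULs (f : ℝ → ℝ) (y : ℝ) : Set ℝ := {q | ∃ᶠ t in 𝓝[<] y, q * (y - t) ≤ f y - f t}
/-- left lower slopes -/
def LLs (f : ℝ → ℝ) (y : ℝ) : Set ℝ := {q | ∃ᶠ t in 𝓝[<] y, f y - f t ≤ q * (y - t)}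

theorem URs_down {f : ℝ → ℝ} {x p p' : ℝ} (h : p ∈ URs f x) (hp : p' ≤ p) : p' ∈ URs f x := by
  have h1 : ∀ᶠ t in 𝓝[>] x, x < t := self_mem_nhdsWithin
  refine (Frequently.and_eventually h h1).mono ?_
  rintro t ⟨ht1, ht2⟩
  nlinarith

theorem LRs_up {f : ℝ → ℝ} {x p p' : ℝ} (h : p ∈ LRs f x) (hp : p ≤ p') : p' ∈ LRs f x := by
  have h1 : ∀ᶠ t in 𝓝[>] x, x < t := self_mem_nhdsWithin
  refine (Frequently.and_eventually h h1).mono ?_
  rintro t ⟨ht1, ht2⟩
  nlinarith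

theorem ULs_down {f : ℝ → ℝ} {y q q' : ℝ} (h : q ∈ ULs f y) (hq : q' ≤ q) : q' ∈ ULs f y := by
  have h1 : ∀ᶠ t in 𝓝[<] y, t < y := self_mem_nhdsWithin
  refine (Frequently.and_eventually h h1).mono ?_
  rintro t ⟨ht1, ht2⟩
  nlinarith

theorem LLs_up {f : ℝ → ℝ} {y q q' : ℝ} (h : q ∈ LLs f y) (hq : q ≤ q') : q' ∈ LLs f y := by
  have h1 : ∀ᶠ t in 𝓝[<] y, t < y := self_mem_nhdsWithin
  refine (Frequently.and_eventually h h1).mono ?_
  rintro t ⟨ht1, ht2⟩
  nlinarith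

theorem URs_or_LRs (f : ℝ → ℝ) (x p : ℝ) : p ∈ URs f x ∨ p ∈ LRs f x := by
  by_cases h : p ∈ URs f x
  · exact Or.inl h
  · right
    have h1 : ∀ᶠ t in 𝓝[>] x, ¬ (p * (t - x) ≤ f t - f x) := not_frequently.mp h
    exact (h1.mono fun t ht => (not_le.mp ht).le).frequently

theorem ULs_or_LLs (f : ℝ → ℝ) (y q : ℝ) : q ∈ ULs f y ∨ q ∈ LLs f y := by
  by_cases h : q ∈ ULs f y
  · exact Or.inl h
  · right
    have h1 : ∀ᶠ t in 𝓝[<] y, ¬ (q * (y - t) ≤ f y - f t) := not_frequently.mp h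
    exact (h1.mono fun t ht => (not_le.mp ht).le).frequently

theorem eventually_small_right (z C : ℝ) : ∀ᶠ t in 𝓝[>] z, z < t ∧ C * (t - z) < 1 := by
  have h1 : ∀ᶠ t in 𝓝[>] z, z < t := self_mem_nhdsWithin
  have h2 : ∀ᶠ t in 𝓝[>] z, t ∈ Ioo z (z + 1 / (|C| + 1)) :=
    Ioo_mem_nhdsGT (by have : 0 < 1 / (|C| + 1) := by positivity
                       linarith)
  filter_upwards [h1, h2] with t ht1 ht2
  refine ⟨ht1, ?_⟩
  have h3 : t - z < 1 / (|C| + 1) := by linarith [ht2.2]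
  have h4 : C * (t - z) ≤ |C| * (t - z) :=
    mul_le_mul_of_nonneg_right (le_abs_self C) (by linarith)
  have h5 : |C| * (t - z) < (|C| + 1) * (1 / (|C| + 1)) := by
    have hpos : 0 < |C| + 1 := by positivity
    calc |C| * (t - z) ≤ (|C| + 1) * (t - z) := by nlinarith
      _ < (|C| + 1) * (1 / (|C| + 1)) := mul_lt_mul_of_pos_left h3 hpos
  have h6 : (|C| + 1) * (1 / (|C| + 1)) = 1 := by field_simp
  linarith

theorem eventually_small_left (z C : ℝ) : ∀ᶠ t in 𝓝[<] z, t < z ∧ C * (z - t) < 1 := by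
  have h1 : ∀ᶠ t in 𝓝[<] z, t < z := self_mem_nhdsWithin
  have h2 : ∀ᶠ t in 𝓝[<] z, t ∈ Ioo (z - 1 / (|C| + 1)) z :=
    Ioo_mem_nhdsLT (by have : 0 < 1 / (|C| + 1) := by positivity
                       linarith)
  filter_upwards [h1, h2] with t ht1 ht2
  refine ⟨ht1, ?_⟩
  have h3 : z - t < 1 / (|C| + 1) := by linarith [ht2.1]
  have h4 : C * (z - t) ≤ |C| * (z - t) :=
    mul_le_mul_of_nonneg_right (le_abs_self C) (by linarith)
  have h5 : |C| * (z - t) < (|C| + 1) * (1 / (|C| + 1)) := by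
    have hpos : 0 < |C| + 1 := by positivity
    calc |C| * (z - t) ≤ (|C| + 1) * (z - t) := by nlinarith
      _ < (|C| + 1) * (1 / (|C| + 1)) := mul_lt_mul_of_pos_left h3 hpos
  have h6 : (|C| + 1) * (1 / (|C| + 1)) = 1 := by field_simp
  linarith

/-- Touching from below by a quadratic gives a right upper slope and a left lower slope. -/
theorem slopes_of_localMin {f : ℝ → ℝ} {z β γ : ℝ}
    (h : IsLocalMin (fun t => f t - (β * (t - z) + γ * (t - z) ^ 2)) z) :
    (β - 1) ∈ URs f z ∧ (β + 1) ∈ LLs f z := by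
  have h' : ∀ᶠ t in 𝓝 z, β * (t - z) + γ * (t - z) ^ 2 ≤ f t - f z := by
    filter_upwards [h] with t ht
    simp only [sub_self, mul_zero] at ht
    have : (0:ℝ) ^ 2 = 0 := by norm_num
    rw [this] at ht
    simp only [mul_zero, add_zero, sub_zero] at ht
    linarith
  constructor
  · have h1 : ∀ᶠ t in 𝓝[>] z, β * (t - z) + γ * (t - z) ^ 2 ≤ f t - f z :=
      h'.filter_mono nhdsWithin_le_nhds
    have h2 := eventually_small_right z (-γ)
    refine (h1.and h2).frequently.mono ?_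
    rintro t ⟨ht1, ht2, ht3⟩
    have : 0 < t - z := by linarith
    nlinarith
  · have h1 : ∀ᶠ t in 𝓝[<] z, β * (t - z) + γ * (t - z) ^ 2 ≤ f t - f z :=
      h'.filter_mono nhdsWithin_le_nhds
    have h2 := eventually_small_left z (-γ)
    refine (h1.and h2).frequently.mono ?_
    rintro t ⟨ht1, ht2, ht3⟩
    have : 0 < z - t := by linarith
    nlinarith

/-- Touching from above by a quadratic gives a right lower slope and a left upper slope. -/
theorem slopes_of_localMax {f : ℝ → ℝ} {z β γ : ℝ}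
    (h : IsLocalMax (fun t => f t - (β * (t - z) + γ * (t - z) ^ 2)) z) :
    (β + 1) ∈ LRs f z ∧ (β - 1) ∈ ULs f z := by
  have h' : ∀ᶠ t in 𝓝 z, f t - f z ≤ β * (t - z) + γ * (t - z) ^ 2 := by
    filter_upwards [h] with t ht
    simp only [sub_self, mul_zero] at ht
    have : (0:ℝ) ^ 2 = 0 := by norm_num
    rw [this] at ht
    simp only [mul_zero, add_zero, sub_zero] at ht
    linarith
  constructor
  · have h1 : ∀ᶠ t in 𝓝[>] z, f t - f z ≤ β * (t - z) + γ * (t - z) ^ 2 :=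
      h'.filter_mono nhdsWithin_le_nhds
    have h2 := eventually_small_right z γ
    refine (h1.and h2).frequently.mono ?_
    rintro t ⟨ht1, ht2, ht3⟩
    have : 0 < t - z := by linarith
    nlinarith
  · have h1 : ∀ᶠ t in 𝓝[<] z, f t - f z ≤ β * (t - z) + γ * (t - z) ^ 2 :=
      h'.filter_mono nhdsWithin_le_nhds
    have h2 := eventually_small_left z γ
    refine (h1.and h2).frequently.mono ?_
    rintro t ⟨ht1, ht2, ht3⟩
    have : 0 < z - t := by linarith
    nlinarith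

/-- Density of points where a quadratic touches from above. -/
theorem exists_touch_above {f : ℝ → ℝ} {x y : ℝ} (hxy : x < y) (hf : ContinuousOn f (Icc x y)) :
    ∃ z ∈ Ioo x y, ∃ β γ : ℝ,
      IsLocalMax (fun t => f t - (β * (t - z) + γ * (t - z) ^ 2)) z := by
  set c := (x + y) / 2 with hc
  set h := (y - x) / 2 with hh
  have hhpos : 0 < h := by rw [hh]; linarith
  set C := (max (f x) (f y) - f c) / h ^ 2 + 1 with hC
  have hCh : max (f x) (f y) - f c < C * h ^ 2 := by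
    rw [hC]
    have : 0 < h ^ 2 := by positivity
    field_simp
    linarith
  have hcont : ContinuousOn (fun t => f t - C * (t - c) ^ 2) (Icc x y) :=
    hf.sub (by fun_prop)
  obtain ⟨z, hz, hzmax⟩ := isCompact_Icc.exists_isMaxOn (nonempty_Icc.mpr hxy.le) hcont
  have hcmem : c ∈ Icc x y := ⟨by rw [hc]; linarith, by rw [hc]; linarith⟩
  have hzc : f c - C * (c - c) ^ 2 ≤ f z - C * (z - c) ^ 2 := hzmax hcmem
  have hzc' : f c ≤ f z - C * (z - c) ^ 2 := by
    have : f c - C * (c - c) ^ 2 = f c := by ring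
    linarith
  have hxc : (x - c) ^ 2 = h ^ 2 := by rw [hc, hh]; ring
  have hyc : (y - c) ^ 2 = h ^ 2 := by rw [hc, hh]; ring
  have hzx : z ≠ x := by
    intro hzx
    rw [hzx, hxc] at hzc'
    have := le_max_left (f x) (f y)
    linarith
  have hzy : z ≠ y := by
    intro hzy
    rw [hzy, hyc] at hzc'
    have := le_max_right (f x) (f y)
    linarith
  have hzI : z ∈ Ioo x y := ⟨lt_of_le_of_ne hz.1 (Ne.symm hzx), lt_of_le_of_ne hz.2 hzy⟩
  refine ⟨z, hzI, 2 * C * (z - c), C, ?_⟩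
  have hnb : Icc x y ∈ 𝓝 z := Icc_mem_nhds hzI.1 hzI.2
  filter_upwards [hnb] with t ht
  have h1 : f t - C * (t - c) ^ 2 ≤ f z - C * (z - c) ^ 2 := hzmax ht
  have e1 : f t - (2 * C * (z - c) * (t - z) + C * (t - z) ^ 2)
      = (f t - C * (t - c) ^ 2) + C * (z - c) ^ 2 := by ring
  have e2 : f z - (2 * C * (z - c) * (z - z) + C * (z - z) ^ 2)
      = (f z - C * (z - c) ^ 2) + C * (z - c) ^ 2 := by ring
  show f t - (2 * C * (z - c) * (t - z) + C * (t - z) ^ 2)
      ≤ f z - (2 * C * (z - c) * (z - z) + C * (z - z) ^ 2)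
  rw [e1, e2]
  linarith

/-- Density of points where a quadratic touches from below. -/
theorem exists_touch_below {f : ℝ → ℝ} {x y : ℝ} (hxy : x < y) (hf : ContinuousOn f (Icc x y)) :
    ∃ z ∈ Ioo x y, ∃ β γ : ℝ,
      IsLocalMin (fun t => f t - (β * (t - z) + γ * (t - z) ^ 2)) z := by
  obtain ⟨z, hz, β, γ, hmax⟩ := exists_touch_above (f := fun t => -f t) hxy hf.neg
  refine ⟨z, hz, -β, -γ, ?_⟩
  filter_upwards [hmax] with t ht
  simp only [sub_self, mul_zero] at ht ⊢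
  have : (0:ℝ) ^ 2 = 0 := by norm_num
  rw [this] at ht ⊢
  simp only [mul_zero, add_zero, sub_zero] at ht ⊢
  linarith

end Vale.Agent.Lib.P080
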