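import Mathlib
import Vale.Agent.Lib.P080.OneDimC

namespace Vale.Agent.Lib.P080

open Filter Topology Set

theorem super_slopes {f : ℝ → ℝ} {I : Set ℝ} {b : ℝ} (hIc : I.OrdConnected)
    (hf : ContinuousOn f I) (hsup : SuperQ f I b) {x y : ℝ} (hx : x ∈ I) (hy : y ∈ I)
    (hxy : x < y) {p q : ℝ} (hp : p ∈ LRs f x) (hq : q ∈ ULs f y) :
    q ^ 3 ≤ p ^ 3 + 3 * b * (y - x) := by
  have hsub := hsup.neg
  have hp' : ∃ᶠ t in 𝓝[>] x, (-p) * (t - x) ≤ (fun t => -f t) t - (fun t => -f t) x := by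
    refine Frequently.mono hp fun t ht => ?_
    simp only
    linarith
  have hq' : ∃ᶠ t in 𝓝[<] y, (fun t => -f t) y - (fun t => -f t) t ≤ (-q) * (y - t) := by
    refine Frequently.mono hq fun t ht => ?_
    simp only
    linarith
  have h := sub_slopes hIc hf.neg hsub hx hy hxy hp' hq'
  have e1 : (-p) ^ 3 = -(p ^ 3) := by ring
  have e2 : (-q) ^ 3 = -(q ^ 3) := by ring
  rw [e1, e2] at h
  linarith

theorem downset_sSup {S : Set ℝ} (hne : S.Nonempty) (hbdd : BddAbove S)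
    (hdown : ∀ p ∈ S, ∀ p' ≤ p, p' ∈ S) :
    (∀ p < sSup S, p ∈ S) ∧ (∀ p > sSup S, p ∉ S) := by
  constructor
  · intro p hp
    obtain ⟨s, hs, hps⟩ := exists_lt_of_lt_csSup hne hp
    exact hdown s hs p hps.le
  · intro p hp hmem
    exact absurd (le_csSup hbdd hmem) (not_le.mpr hp)

theorem upset_sInf {S : Set ℝ} (hne : S.Nonempty) (hbdd : BddBelow S)
    (hup : ∀ p ∈ S, ∀ p' ≥ p, p' ∈ S) :
    (∀ p > sInf S, p ∈ S) ∧ (∀ p < sInf S, p ∉ S) := by
  constructor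
  · intro p hp
    obtain ⟨s, hs, hps⟩ := exists_lt_of_csInf_lt hne hp
    exact hup s hs p hps.le
  · intro p hp hmem
    exact absurd (csInf_le hbdd hmem) (not_le.mpr hp)

theorem exists_nbhd_delta {I : Set ℝ} (hI : IsOpen I) {z : ℝ} (hz : z ∈ I) :
    ∃ δ₀ > 0, ∀ δ, 0 < δ → δ < δ₀ → z + δ ∈ I ∧ z - δ ∈ I := by
  obtain ⟨ε, hε, hball⟩ := Metric.isOpen_iff.mp hI z hz
  refine ⟨ε, hε, fun δ h1 h2 => ⟨hball ?_, hball ?_⟩⟩
  · rw [Metric.mem_ball, Real.dist_eq]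
    have : z + δ - z = δ := by ring
    rw [this, abs_of_pos h1]; exact h2
  · rw [Metric.mem_ball, Real.dist_eq]
    have : z - δ - z = -δ := by ring
    rw [this, abs_neg, abs_of_pos h1]; exact h2

theorem exists_dini {f : ℝ → ℝ} {I : Set ℝ} {a b : ℝ} (hI : IsOpen I) (hIc : I.OrdConnected)
    (hf : ContinuousOn f I) (hsub : SubQ f I a) (hsup : SuperQ f I b) {z : ℝ} (hz : z ∈ I) :
    ∃ Dp Dm Ep Em : ℝ,
      ((∀ p < Dp, p ∈ URs f z) ∧ (∀ p > Dp, p ∉ URs f z)) ∧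
      ((∀ p > Dm, p ∈ LRs f z) ∧ (∀ p < Dm, p ∉ LRs f z)) ∧
      ((∀ q < Ep, q ∈ ULs f z) ∧ (∀ q > Ep, q ∉ ULs f z)) ∧
      ((∀ q > Em, q ∈ LLs f z) ∧ (∀ q < Em, q ∉ LLs f z)) ∧ Dm ≤ Dp ∧ Em ≤ Ep := by
  obtain ⟨δ₀, hδ₀, hδ⟩ := exists_nbhd_delta hI hz
  have hy0 := (hδ (δ₀ / 2) (by linarith) (by linarith)).1
  have hx0 := (hδ (δ₀ / 2) (by linarith) (by linarith)).2
  set y0 := z + δ₀ / 2 with hy0def
  set x0 := z - δ₀ / 2 with hx0def
  have hzy0 : z < y0 := by rw [hy0def]; linarith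
  have hx0z : x0 < z := by rw [hx0def]; linarith
  have hsubR : Icc z y0 ⊆ I := hIc.out hz hy0
  have hsubL : Icc x0 z ⊆ I := hIc.out hx0 hz
  obtain ⟨y1, hy1, β1, γ1, hmin1⟩ := exists_touch_below hzy0 (hf.mono hsubR)
  obtain ⟨y2, hy2, β2, γ2, hmax2⟩ := exists_touch_above hzy0 (hf.mono hsubR)
  obtain ⟨x1, hx1, β3, γ3, hmin3⟩ := exists_touch_below hx0z (hf.mono hsubL)
  obtain ⟨x2, hx2, β4, γ4, hmax4⟩ := exists_touch_above hx0z (hf.mono hsubL)
  have hy1I : y1 ∈ I := hsubR ⟨hy1.1.le, hy1.2.le⟩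
  have hy2I : y2 ∈ I := hsubR ⟨hy2.1.le, hy2.2.le⟩
  have hx1I : x1 ∈ I := hsubL ⟨hx1.1.le, hx1.2.le⟩
  have hx2I : x2 ∈ I := hsubL ⟨hx2.1.le, hx2.2.le⟩
  have q1 := (slopes_of_localMin hmin1).2
  have q2 := (slopes_of_localMax hmax2).2
  have p1 := (slopes_of_localMin hmin3).1
  have p2 := (slopes_of_localMax hmax4).1
  -- bounds
  have bUR : ∀ p ∈ URs f z, p ≤ cbrt ((β1 + 1) ^ 3 - 3 * a * (y1 - z)) := by
    intro p hp
    have := sub_slopes hIc hf hsub hz hy1I hy1.1 hp q1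
    rw [le_cbrt_iff]; linarith
  have bLR : ∀ p ∈ LRs f z, cbrt ((β2 - 1) ^ 3 - 3 * b * (y2 - z)) ≤ p := by
    intro p hp
    have := super_slopes hIc hf hsup hz hy2I hy2.1 hp q2
    rw [cbrt_le_iff]; linarith
  have bLL : ∀ q ∈ LLs f z, cbrt ((β3 - 1) ^ 3 + 3 * a * (z - x1)) ≤ q := by
    intro q hq
    have := sub_slopes hIc hf hsub hx1I hz hx1.2 p1 hq
    rw [cbrt_le_iff]; linarith
  have bUL : ∀ q ∈ ULs f z, q ≤ cbrt ((β4 + 1) ^ 3 + 3 * b * (z - x2)) := by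
    intro q hq
    have := super_slopes hIc hf hsup hx2I hz hx2.2 p2 hq
    rw [le_cbrt_iff]; linarith
  have neUR : (URs f z).Nonempty := by
    refine ⟨cbrt ((β2 - 1) ^ 3 - 3 * b * (y2 - z)) - 1, ?_⟩
    rcases URs_or_LRs f z (cbrt ((β2 - 1) ^ 3 - 3 * b * (y2 - z)) - 1) with h | h
    · exact h
    · have := bLR _ h
      linarith
  have neLR : (LRs f z).Nonempty := by
    refine ⟨cbrt ((β1 + 1) ^ 3 - 3 * a * (y1 - z)) + 1, ?_⟩
    rcases URs_or_LRs f z (cbrt ((β1 + 1) ^ 3 - 3 * a * (y1 - z)) + 1) with h | h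
    · have := bUR _ h
      linarith
    · exact h
  have neUL : (ULs f z).Nonempty := by
    refine ⟨cbrt ((β3 - 1) ^ 3 + 3 * a * (z - x1)) - 1, ?_⟩
    rcases ULs_or_LLs f z (cbrt ((β3 - 1) ^ 3 + 3 * a * (z - x1)) - 1) with h | h
    · exact h
    · have := bLL _ h
      linarith
  have neLL : (LLs f z).Nonempty := by
    refine ⟨cbrt ((β4 + 1) ^ 3 + 3 * b * (z - x2)) + 1, ?_⟩
    rcases ULs_or_LLs f z (cbrt ((β4 + 1) ^ 3 + 3 * b * (z - x2)) + 1) with h | h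
    · have := bUL _ h
      linarith
    · exact h
  have hUR := downset_sSup neUR ⟨_, bUR⟩ (fun p hp p' hp' => URs_down hp hp')
  have hLR := upset_sInf neLR ⟨_, bLR⟩ (fun p hp p' hp' => LRs_up hp hp')
  have hUL := downset_sSup neUL ⟨_, bUL⟩ (fun p hp p' hp' => ULs_down hp hp')
  have hLL := upset_sInf neLL ⟨_, bLL⟩ (fun p hp p' hp' => LLs_up hp hp')
  refine ⟨sSup (URs f z), sInf (LRs f z), sSup (ULs f z), sInf (LLs f z),
    hUR, hLR, hUL, hLL, ?_, ?_⟩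
  · by_contra hcon
    rw [not_le] at hcon
    set mid := (sSup (URs f z) + sInf (LRs f z)) / 2 with hmid
    rcases URs_or_LRs f z mid with h | h
    · exact hUR.2 mid (by rw [hmid]; linarith) h
    · exact hLR.2 mid (by rw [hmid]; linarith) h
  · by_contra hcon
    rw [not_le] at hcon
    set mid := (sSup (ULs f z) + sInf (LLs f z)) / 2 with hmid
    rcases ULs_or_LLs f z mid with h | h
    · exact hUL.2 mid (by rw [hmid]; linarith) h
    · exact hLL.2 mid (by rw [hmid]; linarith) h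

theorem le_zero_of_small {X K δ₀ : ℝ} (hδ₀ : 0 < δ₀)
    (h : ∀ δ, 0 < δ → δ < δ₀ → X ≤ K * δ) : X ≤ 0 := by
  by_contra hX
  rw [not_le] at hX
  have hK : 0 < |K| + 1 := by positivity
  set δ := min (δ₀ / 2) (X / (2 * (|K| + 1))) with hδ
  have hδpos : 0 < δ := by
    rw [hδ]; apply lt_min (by linarith) (by positivity)
  have hδlt : δ < δ₀ := lt_of_le_of_lt (min_le_left _ _) (by linarith)
  have hδ1 : δ ≤ X / (2 * (|K| + 1)) := min_le_right _ _
  have hδ2 : (|K| + 1) * δ ≤ X / 2 := by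
    have : (|K| + 1) * (X / (2 * (|K| + 1))) = X / 2 := by field_simp
    calc (|K| + 1) * δ ≤ (|K| + 1) * (X / (2 * (|K| + 1))) :=
          mul_le_mul_of_nonneg_left hδ1 hK.le
      _ = X / 2 := this
  have h1 := h δ hδpos hδlt
  have h2 : K * δ ≤ |K| * δ := mul_le_mul_of_nonneg_right (le_abs_self K) hδpos.le
  nlinarith

theorem cube_le_cube {u v : ℝ} (h : u ≤ v) : u ^ 3 ≤ v ^ 3 := cube_strictMono.monotone h

theorem eq_of_cube_eq {u v : ℝ} (h : u ^ 3 = v ^ 3) : u = v := cube_strictMono.injective h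

theorem dini_collapse {I : Set ℝ} (hI : IsOpen I) {a b : ℝ} {Dp Dm Ep Em : ℝ → ℝ}
    (F1 : ∀ z ∈ I, Dm z ≤ Dp z ∧ Em z ≤ Ep z)
    (F2 : ∀ x ∈ I, ∀ y ∈ I, x < y → Dp x ^ 3 + 3 * a * (y - x) ≤ Em y ^ 3)
    (F3 : ∀ x ∈ I, ∀ y ∈ I, x < y → Ep y ^ 3 ≤ Dm x ^ 3 + 3 * b * (y - x)) :
    ∀ z ∈ I, Dp z = Dm z ∧ Ep z = Em z ∧ Dp z = Ep z := by
  have hr : ∀ z ∈ I, Dp z = Dm z := by
    intro z hz
    obtain ⟨δ₀, hδ₀, hδ⟩ := exists_nbhd_delta hI hz
    have hle : Dp z ^ 3 - Dm z ^ 3 ≤ 0 := by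
      apply le_zero_of_small (K := 3 * (b - a)) hδ₀
      intro δ h1 h2
      have hy := (hδ δ h1 h2).1
      have i1 := F2 z hz (z + δ) hy (by linarith)
      have i2 := cube_le_cube (F1 (z + δ) hy).2
      have i3 := F3 z hz (z + δ) hy (by linarith)
      have e : z + δ - z = δ := by ring
      rw [e] at i1 i3
      nlinarith
    have hge := cube_le_cube (F1 z hz).1
    exact eq_of_cube_eq (le_antisymm (by linarith) hge)
  have hl : ∀ z ∈ I, Ep z = Em z := by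
    intro z hz
    obtain ⟨δ₀, hδ₀, hδ⟩ := exists_nbhd_delta hI hz
    have hle : Ep z ^ 3 - Em z ^ 3 ≤ 0 := by
      apply le_zero_of_small (K := 3 * (b - a)) hδ₀
      intro δ h1 h2
      have hx := (hδ δ h1 h2).2
      have i1 := F2 (z - δ) hx z hz (by linarith)
      have i2 := cube_le_cube (F1 (z - δ) hx).1
      have i3 := F3 (z - δ) hx z hz (by linarith)
      have e : z - (z - δ) = δ := by ring
      rw [e] at i1 i3
      nlinarith
    have hge := cube_le_cube (F1 z hz).2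
    exact eq_of_cube_eq (le_antisymm (by linarith) hge)
  intro z hz
  refine ⟨hr z hz, hl z hz, ?_⟩
  obtain ⟨δ₀, hδ₀, hδ⟩ := exists_nbhd_delta hI hz
  have hle1 : Ep z ^ 3 - Dp z ^ 3 ≤ 0 := by
    apply le_zero_of_small (K := 6 * (b - a)) hδ₀
    intro δ h1 h2
    have hy := (hδ δ h1 h2).1
    have hx := (hδ δ h1 h2).2
    have i1 := F3 (z - δ) hx z hz (by linarith)
    have i2 := F2 (z - δ) hx (z + δ) hy (by linarith)
    have i3 := F3 z hz (z + δ) hy (by linarith)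
    have e1 : z - (z - δ) = δ := by ring
    have e2 : z + δ - (z - δ) = 2 * δ := by ring
    have e3 : z + δ - z = δ := by ring
    rw [e1] at i1
    rw [e2] at i2
    rw [e3] at i3
    rw [← hr (z - δ) hx] at i1
    rw [← hl (z + δ) hy] at i2
    rw [← hr z hz] at i3
    nlinarith
  have hle2 : Dp z ^ 3 - Ep z ^ 3 ≤ 0 := by
    apply le_zero_of_small (K := 6 * (b - a)) hδ₀
    intro δ h1 h2
    have hy := (hδ δ h1 h2).1
    have hx := (hδ δ h1 h2).2
    have i1 := F2 z hz (z + δ) hy (by linarith)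
    have i2 := F3 (z - δ) hx (z + δ) hy (by linarith)
    have i3 := F2 (z - δ) hx z hz (by linarith)
    have e1 : z - (z - δ) = δ := by ring
    have e2 : z + δ - (z - δ) = 2 * δ := by ring
    have e3 : z + δ - z = δ := by ring
    rw [e3] at i1
    rw [e2] at i2
    rw [e1] at i3
    rw [← hl (z + δ) hy] at i1
    rw [← hr (z - δ) hx] at i2
    rw [← hl z hz] at i3
    nlinarith
  exact eq_of_cube_eq (le_antisymm (by linarith) (by linarith))

/-- The one-dimensional regularity theorem: a continuous function which is a quadratic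
viscosity subsolution of `f'^2 f'' ≥ a` and supersolution of `f'^2 f'' ≤ b` on an open interval
is differentiable, and the cube of its derivative has increments between `3a` and `3b`
times the increment of the variable. -/
theorem oneD {f : ℝ → ℝ} {I : Set ℝ} {a b : ℝ} (hI : IsOpen I) (hIc : I.OrdConnected)
    (hf : ContinuousOn f I) (hsub : SubQ f I a) (hsup : SuperQ f I b) :
    ∃ g : ℝ → ℝ, (∀ z ∈ I, HasDerivAt f (g z) z) ∧
      ∀ x ∈ I, ∀ y ∈ I, x < y →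
        g x ^ 3 + 3 * a * (y - x) ≤ g y ^ 3 ∧ g y ^ 3 ≤ g x ^ 3 + 3 * b * (y - x) := by
  have hex := fun z (hz : z ∈ I) => exists_dini hI hIc hf hsub hsup hz
  choose! Dp Dm Ep Em hD using hex
  have F1 : ∀ z ∈ I, Dm z ≤ Dp z ∧ Em z ≤ Ep z := fun z hz => (hD z hz).2.2.2.2
  have F2 : ∀ x ∈ I, ∀ y ∈ I, x < y → Dp x ^ 3 + 3 * a * (y - x) ≤ Em y ^ 3 := by
    intro x hx y hy hxy
    have hUR := (hD x hx).1.1
    have hLL := (hD y hy).2.2.2.1.1
    have h1 : Dp x ≤ cbrt (Em y ^ 3 - 3 * a * (y - x)) := by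
      apply le_of_forall_lt_imp_le_of_dense
      intro p hp
      have h2 : cbrt (p ^ 3 + 3 * a * (y - x)) ≤ Em y := by
        apply le_of_forall_gt_imp_ge_of_dense
        intro q hq
        have := sub_slopes hIc hf hsub hx hy hxy (hUR p hp) (hLL q hq)
        rw [cbrt_le_iff]; exact this
      rw [cbrt_le_iff] at h2
      rw [le_cbrt_iff]; linarith
    rw [le_cbrt_iff] at h1
    linarith
  have F3 : ∀ x ∈ I, ∀ y ∈ I, x < y → Ep y ^ 3 ≤ Dm x ^ 3 + 3 * b * (y - x) := by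
    intro x hx y hy hxy
    have hLR := (hD x hx).2.1.1
    have hUL := (hD y hy).2.2.1.1
    have h1 : Ep y ≤ cbrt (Dm x ^ 3 + 3 * b * (y - x)) := by
      apply le_of_forall_lt_imp_le_of_dense
      intro q hq
      have h2 : cbrt (q ^ 3 - 3 * b * (y - x)) ≤ Dm x := by
        apply le_of_forall_gt_imp_ge_of_dense
        intro p hp
        have := super_slopes hIc hf hsup hx hy hxy (hLR p hp) (hUL q hq)
        rw [cbrt_le_iff]; linarith
      rw [cbrt_le_iff] at h2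
      rw [le_cbrt_iff]; linarith
    rw [le_cbrt_iff] at h1
    exact h1
  have hcol := dini_collapse hI F1 F2 F3
  refine ⟨Dp, ?_, ?_⟩
  · intro z hz
    obtain ⟨e1, e2, e3⟩ := hcol z hz
    obtain ⟨hUR, hLR, hUL, hLL, -, -⟩ := hD z hz
    rw [hasDerivAt_iff_isLittleO, Asymptotics.isLittleO_iff]
    intro c hc
    rw [← nhdsNE_sup_pure z, ← nhdsLT_sup_nhdsGT z]
    rw [Filter.eventually_sup, Filter.eventually_sup]
    refine ⟨⟨?_, ?_⟩, ?_⟩
    · -- left
      have n1 : (Dp z + c) ∉ ULs f z := hUL.2 _ (by rw [← e3]; linarith)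
      have n2 : (Dp z - c) ∉ LLs f z := hLL.2 _ (by rw [← e2, ← e3]; linarith)
      have h1 : ∀ᶠ t in 𝓝[<] z, ¬ ((Dp z + c) * (z - t) ≤ f z - f t) := not_frequently.mp n1
      have h2 : ∀ᶠ t in 𝓝[<] z, ¬ (f z - f t ≤ (Dp z - c) * (z - t)) := not_frequently.mp n2
      have h3 : ∀ᶠ t in 𝓝[<] z, t < z := self_mem_nhdsWithin
      filter_upwards [h1, h2, h3] with t ht1 ht2 ht3
      rw [not_le] at ht1 ht2
      simp only [smul_eq_mul, Real.norm_eq_abs]
      rw [abs_of_neg (sub_neg.mpr ht3), abs_le]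
      constructor <;> nlinarith
    · -- right
      have n1 : (Dp z + c) ∉ URs f z := hUR.2 _ (by linarith)
      have n2 : (Dp z - c) ∉ LRs f z := hLR.2 _ (by rw [← e1]; linarith)
      have h1 : ∀ᶠ t in 𝓝[>] z, ¬ ((Dp z + c) * (t - z) ≤ f t - f z) := not_frequently.mp n1
      have h2 : ∀ᶠ t in 𝓝[>] z, ¬ (f t - f z ≤ (Dp z - c) * (t - z)) := not_frequently.mp n2
      have h3 : ∀ᶠ t in 𝓝[>] z, z < t := self_mem_nhdsWithin
      filter_upwards [h1, h2, h3] with t ht1 ht2 ht3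
      rw [not_le] at ht1 ht2
      simp only [smul_eq_mul, Real.norm_eq_abs]
      rw [abs_of_pos (sub_pos.mpr ht3), abs_le]
      constructor <;> nlinarith
    · simp
  · intro x hx y hy hxy
    obtain ⟨e1, e2, e3⟩ := hcol x hx
    obtain ⟨e1', e2', e3'⟩ := hcol y hy
    constructor
    · have := F2 x hx y hy hxy
      rw [← e2', ← e3'] at this
      exact this
    · have := F3 x hx y hy hxy
      rw [← e3', ← e1] at this
      exact this

end Vale.Agent.Lib.P080
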