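import Mathlib
import Vale.Agent.Lib.P080.Defs
import Vale.Agent.Lib.P080.OneDimD

namespace Vale.Agent.Lib.P080

open Filter Topology Set

variable {d : ℕ}

/-- The coordinate projection as a continuous linear map. -/
noncomputable def prj (i : Fin d) : EuclideanSpace ℝ (Fin d) →L[ℝ] ℝ := EuclideanSpace.proj i

theorem prj_apply (i : Fin d) (x : EuclideanSpace ℝ (Fin d)) : prj i x = x i := rfl

/-- Derivative of a separable function. -/
theorem sep_hasFDerivAt {q : Fin d → ℝ → ℝ} {q' : Fin d → ℝ} {z : EuclideanSpace ℝ (Fin d)}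
    (h : ∀ i, HasDerivAt (q i) (q' i) (z i)) :
    HasFDerivAt (fun x : EuclideanSpace ℝ (Fin d) => ∑ i, q i (x i)) (∑ i, q' i • prj i) z := by
  have h1 : ∀ i ∈ Finset.univ,
      HasFDerivAt (fun x : EuclideanSpace ℝ (Fin d) => q i (x i)) (q' i • prj i) z := by
    intro i _
    exact (h i).comp_hasFDerivAt z (prj i).hasFDerivAt
  exact HasFDerivAt.fun_sum h1

theorem toDual_toLp (g : Fin d → ℝ) :
    InnerProductSpace.toDual ℝ (EuclideanSpace ℝ (Fin d)) (WithLp.toLp 2 g) = ∑ i, g i • prj i := by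
  ext w
  simp [PiLp.inner_apply, prj_apply, mul_comm]

/-- Gradient of a separable function. -/
theorem sep_gradient {q : Fin d → ℝ → ℝ} {q' : Fin d → ℝ} {z : EuclideanSpace ℝ (Fin d)}
    (h : ∀ i, HasDerivAt (q i) (q' i) (z i)) :
    gradient (fun x : EuclideanSpace ℝ (Fin d) => ∑ i, q i (x i)) z = WithLp.toLp 2 q' := by
  apply HasGradientAt.gradient
  rw [hasGradientAt_iff_hasFDerivAt, toDual_toLp]
  exact sep_hasFDerivAt h

/-- The separable quadratic test function. -/
noncomputable def sepQuad (β γ : Fin d → ℝ) (z : EuclideanSpace ℝ (Fin d)) :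
    EuclideanSpace ℝ (Fin d) → ℝ :=
  fun x => ∑ i, (β i * (x i - z i) + γ i * (x i - z i) ^ 2)

theorem sepQuad_hasFDerivAt (β γ : Fin d → ℝ) (z x : EuclideanSpace ℝ (Fin d)) :
    HasFDerivAt (sepQuad β γ z) (∑ i, (β i + 2 * γ i * (x i - z i)) • prj i) x := by
  have h : ∀ i, HasDerivAt (fun t : ℝ => β i * (t - z i) + γ i * (t - z i) ^ 2)
      (β i + 2 * γ i * (x i - z i)) (x i) := by
    intro i
    have h2 : HasDerivAt (fun t : ℝ => β i * (t - z i)) (β i * 1) (x i) :=
      ((hasDerivAt_id (x i)).sub_const (z i)).const_mul (β i)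
    have h3 : HasDerivAt (fun t : ℝ => γ i * (t - z i) ^ 2)
        (γ i * (2 * (x i - z i) ^ 1 * 1)) (x i) :=
      (((hasDerivAt_id (x i)).sub_const (z i)).pow 2).const_mul (γ i)
    have h4 := h2.add h3
    refine h4.congr_deriv ?_
    ring
  exact sep_hasFDerivAt h

theorem sepQuad_fderiv (β γ : Fin d → ℝ) (z : EuclideanSpace ℝ (Fin d)) :
    fderiv ℝ (sepQuad β γ z) = fun x => ∑ i, (β i + 2 * γ i * (x i - z i)) • prj i :=
  funext fun x => (sepQuad_hasFDerivAt β γ z x).fderiv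

theorem sepQuad_gradient (β γ : Fin d → ℝ) (z : EuclideanSpace ℝ (Fin d)) :
    gradient (sepQuad β γ z) z = WithLp.toLp 2 β := by
  apply HasGradientAt.gradient
  rw [hasGradientAt_iff_hasFDerivAt, toDual_toLp]
  have := sepQuad_hasFDerivAt β γ z z
  simpa using this

theorem sepQuad_hasFDerivAt2 (β γ : Fin d → ℝ) (z : EuclideanSpace ℝ (Fin d)) :
    HasFDerivAt (fderiv ℝ (sepQuad β γ z))
      (∑ i, ((2 * γ i) • prj i).smulRight (prj i)) z := by
  rw [sepQuad_fderiv]
  have h1 : ∀ i ∈ Finset.univ,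
      HasFDerivAt (fun x : EuclideanSpace ℝ (Fin d) => (β i + 2 * γ i * (x i - z i)) • prj i)
        (((2 * γ i) • prj i).smulRight (prj i)) z := by
    intro i _
    have hc : HasFDerivAt (fun x : EuclideanSpace ℝ (Fin d) => β i + 2 * γ i * (x i - z i))
        ((2 * γ i) • prj i) z := by
      have h0 : HasFDerivAt (fun x : EuclideanSpace ℝ (Fin d) => x i) (prj i) z :=
        (prj i).hasFDerivAt
      have h2 := ((h0.sub_const (z i)).const_mul (2 * γ i)).const_add (β i)
      exact h2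
    exact hc.smul_const (prj i)
  exact HasFDerivAt.fun_sum h1

theorem sepQuad_infLaplacian (β γ : Fin d → ℝ) (z : EuclideanSpace ℝ (Fin d)) :
    infLaplacian (sepQuad β γ z) z = ∑ i, 2 * γ i * β i ^ 2 := by
  unfold infLaplacian
  rw [(sepQuad_hasFDerivAt2 β γ z).fderiv, sepQuad_gradient]
  simp only [_root_.sum_apply, ContinuousLinearMap.smulRight_apply,
    _root_.smul_apply, prj_apply, smul_eq_mul]
  apply Finset.sum_congr rfl
  intro i _
  ring

theorem sepQuad_contDiff (β γ : Fin d → ℝ) (z : EuclideanSpace ℝ (Fin d)) :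
    ContDiff ℝ 2 (sepQuad β γ z) := by
  unfold sepQuad
  fun_prop

/-- The basic touching lemma: separable quadratic test functions for a separable
infinity-harmonic function. -/
theorem sep_touch_above {I : Fin d → Set ℝ} {f : Fin d → ℝ → ℝ}
    (hu : IsInfinityHarmonicOn (fun x : EuclideanSpace ℝ (Fin d) => ∑ i, f i (x i)) (box I))
    {z : EuclideanSpace ℝ (Fin d)} (hz : z ∈ box I) (β γ : Fin d → ℝ)
    (h : ∀ i, IsLocalMax (fun t => f i t - (β i * (t - z i) + γ i * (t - z i) ^ 2)) (z i)) :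
    0 ≤ ∑ i, 2 * γ i * β i ^ 2 := by
  rw [← sepQuad_infLaplacian β γ z]
  apply hu.2.1 (sepQuad β γ z) z hz (sepQuad_contDiff β γ z).contDiffAt
  have h1 : ∀ i, ∀ᶠ x in 𝓝 z, f i (x i) - (β i * (x i - z i) + γ i * (x i - z i) ^ 2)
      ≤ f i (z i) - (β i * (z i - z i) + γ i * (z i - z i) ^ 2) := by
    intro i
    have hc : Tendsto (fun x : EuclideanSpace ℝ (Fin d) => x i) (𝓝 z) (𝓝 (z i)) :=
      (prj i).continuous.continuousAt
    exact hc.eventually (h i)
  have h2 := eventually_all.mpr h1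
  filter_upwards [h2] with x hx
  show (∑ i, f i (x i)) - sepQuad β γ z x ≤ (∑ i, f i (z i)) - sepQuad β γ z z
  unfold sepQuad
  rw [← Finset.sum_sub_distrib, ← Finset.sum_sub_distrib]
  exact Finset.sum_le_sum fun i _ => hx i

theorem sep_touch_below {I : Fin d → Set ℝ} {f : Fin d → ℝ → ℝ}
    (hu : IsInfinityHarmonicOn (fun x : EuclideanSpace ℝ (Fin d) => ∑ i, f i (x i)) (box I))
    {z : EuclideanSpace ℝ (Fin d)} (hz : z ∈ box I) (β γ : Fin d → ℝ)
    (h : ∀ i, IsLocalMin (fun t => f i t - (β i * (t - z i) + γ i * (t - z i) ^ 2)) (z i)) :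
    ∑ i, 2 * γ i * β i ^ 2 ≤ 0 := by
  rw [← sepQuad_infLaplacian β γ z]
  apply hu.2.2 (sepQuad β γ z) z hz (sepQuad_contDiff β γ z).contDiffAt
  have h1 : ∀ i, ∀ᶠ x in 𝓝 z, f i (z i) - (β i * (z i - z i) + γ i * (z i - z i) ^ 2)
      ≤ f i (x i) - (β i * (x i - z i) + γ i * (x i - z i) ^ 2) := by
    intro i
    have hc : Tendsto (fun x : EuclideanSpace ℝ (Fin d) => x i) (𝓝 z) (𝓝 (z i)) :=
      (prj i).continuous.continuousAt
    exact hc.eventually (h i)
  have h2 := eventually_all.mpr h1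
  filter_upwards [h2] with x hx
  show (∑ i, f i (z i)) - sepQuad β γ z z ≤ (∑ i, f i (x i)) - sepQuad β γ z x
  unfold sepQuad
  rw [← Finset.sum_sub_distrib, ← Finset.sum_sub_distrib]
  exact Finset.sum_le_sum fun i _ => hx i

end Vale.Agent.Lib.P080
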