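import Mathlib
import Vale.Agent.Lib.P080.Sep

namespace Vale.Agent.Lib.P080

open Filter Topology Set

variable {d : ℕ}

/-- Values `2 γ β²` of quadratics touching `f` from above at points of `I`. -/
def touchAbove (f : ℝ → ℝ) (I : Set ℝ) : Set ℝ :=
  {v | ∃ z ∈ I, ∃ β γ : ℝ,
    IsLocalMax (fun t => f t - (β * (t - z) + γ * (t - z) ^ 2)) z ∧ v = 2 * γ * β ^ 2}

/-- Values `2 γ β²` of quadratics touching `f` from below at points of `I`. -/
def touchBelow (f : ℝ → ℝ) (I : Set ℝ) : Set ℝ :=
  {v | ∃ z ∈ I, ∃ β γ : ℝ,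
    IsLocalMin (fun t => f t - (β * (t - z) + γ * (t - z) ^ 2)) z ∧ v = 2 * γ * β ^ 2}

theorem exists_lt_in_open {I : Set ℝ} (hI : IsOpen I) (hne : I.Nonempty) :
    ∃ x ∈ I, ∃ y ∈ I, x < y := by
  obtain ⟨z, hz⟩ := hne
  obtain ⟨δ₀, hδ₀, hδ⟩ := exists_nbhd_delta hI hz
  exact ⟨z, hz, z + δ₀ / 2, (hδ (δ₀ / 2) (by linarith) (by linarith)).1, by linarith⟩

theorem touchAbove_nonempty {f : ℝ → ℝ} {I : Set ℝ} (hI : IsOpen I) (hIc : I.OrdConnected)
    (hne : I.Nonempty) (hf : ContinuousOn f I) : (touchAbove f I).Nonempty := by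
  obtain ⟨x, hx, y, hy, hxy⟩ := exists_lt_in_open hI hne
  have hsub : Icc x y ⊆ I := hIc.out hx hy
  obtain ⟨z, hz, β, γ, hmax⟩ := exists_touch_above hxy (hf.mono hsub)
  exact ⟨2 * γ * β ^ 2, z, hsub ⟨hz.1.le, hz.2.le⟩, β, γ, hmax, rfl⟩

theorem touchBelow_nonempty {f : ℝ → ℝ} {I : Set ℝ} (hI : IsOpen I) (hIc : I.OrdConnected)
    (hne : I.Nonempty) (hf : ContinuousOn f I) : (touchBelow f I).Nonempty := by
  obtain ⟨x, hx, y, hy, hxy⟩ := exists_lt_in_open hI hne
  have hsub : Icc x y ⊆ I := hIc.out hx hy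
  obtain ⟨z, hz, β, γ, hmin⟩ := exists_touch_below hxy (hf.mono hsub)
  exact ⟨2 * γ * β ^ 2, z, hsub ⟨hz.1.le, hz.2.le⟩, β, γ, hmin, rfl⟩

/-- Continuity of the one-variable pieces of a separable continuous function. -/
theorem sep_continuousOn {I : Fin d → Set ℝ} {f : Fin d → ℝ → ℝ}
    (hne : ∀ i, (I i).Nonempty)
    (hu : ContinuousOn (fun x : EuclideanSpace ℝ (Fin d) => ∑ i, f i (x i)) (box I)) (i : Fin d) :
    ContinuousOn (f i) (I i) := by
  choose x0 hx0 using hne
  let ι : ℝ → EuclideanSpace ℝ (Fin d) := fun t => WithLp.toLp 2 (Function.update x0 i t)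
  have hι : Continuous ι :=
    (PiLp.continuous_toLp 2 _).comp (continuous_const.update i continuous_id)
  have hmaps : MapsTo ι (I i) (box I) := by
    intro t ht j
    show Function.update x0 i t j ∈ I j
    by_cases hj : j = i
    · subst hj; simpa using ht
    · rw [Function.update_of_ne hj]; exact hx0 j
  have hcomp : ContinuousOn (fun t => ∑ j, f j (ι t j)) (I i) :=
    hu.comp hι.continuousOn hmaps
  have heq : ∀ t, f i t = (∑ j, f j (ι t j)) - ∑ j ∈ Finset.univ.erase i, f j (x0 j) := by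
    intro t
    have h1 : ∑ j, f j (ι t j) = f i (ι t i) + ∑ j ∈ Finset.univ.erase i, f j (ι t j) :=
      (Finset.add_sum_erase Finset.univ (fun j => f j (ι t j)) (Finset.mem_univ i)).symm
    have h2 : ι t i = t := by
      show Function.update x0 i t i = t
      simp
    have h3 : ∑ j ∈ Finset.univ.erase i, f j (ι t j) = ∑ j ∈ Finset.univ.erase i, f j (x0 j) := by
      apply Finset.sum_congr rfl
      intro j hj
      have hji : j ≠ i := Finset.ne_of_mem_erase hj
      have : ι t j = x0 j := by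
        show Function.update x0 i t j = x0 j
        rw [Function.update_of_ne hji]
      rw [this]
    rw [h1, h2, h3]; ring
  have : f i = fun t => (∑ j, f j (ι t j)) - ∑ j ∈ Finset.univ.erase i, f j (x0 j) :=
    funext heq
  rw [this]
  exact hcomp.sub continuousOn_const

/-- Sum of touching values from above is nonnegative. -/
theorem sum_touchAbove_nonneg {I : Fin d → Set ℝ} {f : Fin d → ℝ → ℝ}
    (hu : IsInfinityHarmonicOn (fun x : EuclideanSpace ℝ (Fin d) => ∑ i, f i (x i)) (box I))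
    (v : Fin d → ℝ) (hv : ∀ i, v i ∈ touchAbove (f i) (I i)) : 0 ≤ ∑ i, v i := by
  choose z hz β γ hmax hval using hv
  have h := sep_touch_above hu (z := WithLp.toLp 2 z) (fun i => hz i) β γ (fun i => hmax i)
  have : ∑ i, v i = ∑ i, 2 * γ i * β i ^ 2 := Finset.sum_congr rfl fun i _ => hval i
  rw [this]; exact h

theorem sum_touchBelow_nonpos {I : Fin d → Set ℝ} {f : Fin d → ℝ → ℝ}
    (hu : IsInfinityHarmonicOn (fun x : EuclideanSpace ℝ (Fin d) => ∑ i, f i (x i)) (box I))
    (v : Fin d → ℝ) (hv : ∀ i, v i ∈ touchBelow (f i) (I i)) : ∑ i, v i ≤ 0 := by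
  choose z hz β γ hmin hval using hv
  have h := sep_touch_below hu (z := WithLp.toLp 2 z) (fun i => hz i) β γ (fun i => hmin i)
  have : ∑ i, v i = ∑ i, 2 * γ i * β i ^ 2 := Finset.sum_congr rfl fun i _ => hval i
  rw [this]; exact h

/-- The separation constants. -/
theorem sep_constants {I : Fin d → Set ℝ} {f : Fin d → ℝ → ℝ}
    (hI : ∀ i, IsOpen (I i)) (hIc : ∀ i, (I i).OrdConnected) (hne : ∀ i, (I i).Nonempty)
    (hu : IsInfinityHarmonicOn (fun x : EuclideanSpace ℝ (Fin d) => ∑ i, f i (x i)) (box I)) :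
    ∃ c : Fin d → ℝ, ∑ i, c i = 0 ∧ ∀ i, SubQ (f i) (I i) (c i) ∧ SuperQ (f i) (I i) (c i) := by
  have hcont : ∀ i, ContinuousOn (f i) (I i) := fun i => sep_continuousOn hne hu.1 i
  have hneA : ∀ i, (touchAbove (f i) (I i)).Nonempty :=
    fun i => touchAbove_nonempty (hI i) (hIc i) (hne i) (hcont i)
  have hneB : ∀ i, (touchBelow (f i) (I i)).Nonempty :=
    fun i => touchBelow_nonempty (hI i) (hIc i) (hne i) (hcont i)
  choose vA hvA using hneA
  choose vB hvB using hneB
  have hbddA : ∀ i, BddBelow (touchAbove (f i) (I i)) := by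
    intro i
    refine ⟨-∑ j ∈ Finset.univ.erase i, vA j, ?_⟩
    intro v hv
    have h := sum_touchAbove_nonneg hu (Function.update vA i v) (by
      intro j
      by_cases hj : j = i
      · subst hj; simpa using hv
      · rw [Function.update_of_ne hj]; exact hvA j)
    have h1 : ∑ j, Function.update vA i v j
        = Function.update vA i v i + ∑ j ∈ Finset.univ.erase i, Function.update vA i v j :=
      (Finset.add_sum_erase Finset.univ _ (Finset.mem_univ i)).symm
    have h2 : ∑ j ∈ Finset.univ.erase i, Function.update vA i v j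
        = ∑ j ∈ Finset.univ.erase i, vA j := by
      apply Finset.sum_congr rfl
      intro j hj
      rw [Function.update_of_ne (Finset.ne_of_mem_erase hj)]
    rw [h1, h2, Function.update_self] at h
    linarith
  have hbddB : ∀ i, BddAbove (touchBelow (f i) (I i)) := by
    intro i
    refine ⟨-∑ j ∈ Finset.univ.erase i, vB j, ?_⟩
    intro v hv
    have h := sum_touchBelow_nonpos hu (Function.update vB i v) (by
      intro j
      by_cases hj : j = i
      · subst hj; simpa using hv
      · rw [Function.update_of_ne hj]; exact hvB j)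
    have h1 : ∑ j, Function.update vB i v j
        = Function.update vB i v i + ∑ j ∈ Finset.univ.erase i, Function.update vB i v j :=
      (Finset.add_sum_erase Finset.univ _ (Finset.mem_univ i)).symm
    have h2 : ∑ j ∈ Finset.univ.erase i, Function.update vB i v j
        = ∑ j ∈ Finset.univ.erase i, vB j := by
      apply Finset.sum_congr rfl
      intro j hj
      rw [Function.update_of_ne (Finset.ne_of_mem_erase hj)]
    rw [h1, h2, Function.update_self] at h
    linarith
  set a : Fin d → ℝ := fun i => sInf (touchAbove (f i) (I i)) with ha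
  set b : Fin d → ℝ := fun i => sSup (touchBelow (f i) (I i)) with hb
  have hsubQ : ∀ i, SubQ (f i) (I i) (a i) := by
    intro i z hz β γ hmax
    exact csInf_le (hbddA i) ⟨z, hz, β, γ, hmax, rfl⟩
  have hsupQ : ∀ i, SuperQ (f i) (I i) (b i) := by
    intro i z hz β γ hmin
    exact le_csSup (hbddB i) ⟨z, hz, β, γ, hmin, rfl⟩
  have hsumA : 0 ≤ ∑ i, a i := by
    by_contra hcon
    rw [not_le] at hcon
    set ε := -(∑ i, a i) / (2 * ((d : ℝ) + 1)) with hε
    have hεpos : 0 < ε := by
      rw [hε]; apply div_pos (by linarith) (by positivity)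
    have hex : ∀ i, ∃ v ∈ touchAbove (f i) (I i), v < a i + ε := fun i =>
      exists_lt_of_csInf_lt ⟨vA i, hvA i⟩ (by rw [ha]; simp only; linarith)
    choose v hv hvlt using hex
    have h := sum_touchAbove_nonneg hu v hv
    have h1 : ∑ i, v i ≤ ∑ i, (a i + ε) := Finset.sum_le_sum fun i _ => (hvlt i).le
    have h2 : ∑ i : Fin d, (a i + ε) = ∑ i, a i + (d : ℝ) * ε := by
      rw [Finset.sum_add_distrib]; simp
    have h3 : (d : ℝ) * ε ≤ ((d : ℝ) + 1) * ε := by nlinarith
    have h4 : ((d : ℝ) + 1) * ε = -(∑ i, a i) / 2 := by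
      rw [hε]; field_simp
    linarith
  have hsumB : ∑ i, b i ≤ 0 := by
    by_contra hcon
    rw [not_le] at hcon
    set ε := (∑ i, b i) / (2 * ((d : ℝ) + 1)) with hε
    have hεpos : 0 < ε := by
      rw [hε]; apply div_pos (by linarith) (by positivity)
    have hex : ∀ i, ∃ v ∈ touchBelow (f i) (I i), b i - ε < v := fun i =>
      exists_lt_of_lt_csSup ⟨vB i, hvB i⟩ (by rw [hb]; simp only; linarith)
    choose v hv hvlt using hex
    have h := sum_touchBelow_nonpos hu v hv
    have h1 : ∑ i, (b i - ε) ≤ ∑ i, v i := Finset.sum_le_sum fun i _ => (hvlt i).le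
    have h2 : ∑ i : Fin d, (b i - ε) = ∑ i, b i - (d : ℝ) * ε := by
      rw [Finset.sum_sub_distrib]; simp
    have h3 : (d : ℝ) * ε ≤ ((d : ℝ) + 1) * ε := by nlinarith
    have h4 : ((d : ℝ) + 1) * ε = (∑ i, b i) / 2 := by
      rw [hε]; field_simp
    linarith
  have hab : ∀ i, a i ≤ b i := by
    intro i
    obtain ⟨g, -, hg⟩ := oneD (hI i) (hIc i) (hcont i) (hsubQ i) (hsupQ i)
    obtain ⟨x, hx, y, hy, hxy⟩ := exists_lt_in_open (hI i) (hne i)
    have := hg x hx y hy hxy
    have hyx : 0 < y - x := sub_pos.mpr hxy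
    nlinarith [this.1, this.2]
  have hsum0 : ∑ i, (b i - a i) = 0 := by
    apply le_antisymm
    · rw [Finset.sum_sub_distrib]; linarith
    · exact Finset.sum_nonneg fun i _ => sub_nonneg.mpr (hab i)
  have heq : ∀ i, b i = a i := by
    intro i
    have := (Finset.sum_eq_zero_iff_of_nonneg (fun i _ => sub_nonneg.mpr (hab i))).mp hsum0 i
      (Finset.mem_univ i)
    linarith
  refine ⟨a, ?_, fun i => ⟨hsubQ i, ?_⟩⟩
  · apply le_antisymm _ hsumA
    have : ∑ i, b i = ∑ i, a i := Finset.sum_congr rfl fun i _ => heq i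
    linarith
  · rw [← heq i]; exact hsupQ i

/-- Structure theorem: the pieces of a separable infinity-harmonic function are differentiable
and the cubes of their derivatives are affine, with slopes summing to zero. -/
theorem sep_structure {I : Fin d → Set ℝ} {f : Fin d → ℝ → ℝ}
    (hI : ∀ i, IsOpen (I i)) (hIc : ∀ i, (I i).OrdConnected) (hne : ∀ i, (I i).Nonempty)
    (hu : IsInfinityHarmonicOn (fun x : EuclideanSpace ℝ (Fin d) => ∑ i, f i (x i)) (box I)) :
    ∃ c : Fin d → ℝ, ∃ g : Fin d → ℝ → ℝ, ∑ i, c i = 0 ∧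
      ∀ i, (∀ t ∈ I i, HasDerivAt (f i) (g i t) t) ∧
        ∀ s ∈ I i, ∀ t ∈ I i, g i t ^ 3 - g i s ^ 3 = 3 * c i * (t - s) := by
  obtain ⟨c, hc0, hc⟩ := sep_constants hI hIc hne hu
  have hcont : ∀ i, ContinuousOn (f i) (I i) := fun i => sep_continuousOn hne hu.1 i
  have hex := fun i => oneD (hI i) (hIc i) (hcont i) (hc i).1 (hc i).2
  choose g hg1 hg2 using hex
  refine ⟨c, g, hc0, fun i => ⟨hg1 i, ?_⟩⟩
  intro s hs t ht
  rcases lt_trichotomy s t with h | h | h
  · have := hg2 i s hs t ht h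
    linarith [this.1, this.2]
  · rw [h]; ring
  · have := hg2 i t ht s hs h
    linarith [this.1, this.2]

end Vale.Agent.Lib.P080
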