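import Mathlib
import Vale.Agent.Lib.P080.SepStruct

namespace Vale.Agent.Lib.P080

open Filter Topology Set

variable {d : ℕ}

theorem abs_sub_cube_le (u v : ℝ) : |u - v| ^ 3 ≤ 4 * |u ^ 3 - v ^ 3| := by
  have h1 : u ^ 3 - v ^ 3 = (u - v) * (u ^ 2 + u * v + v ^ 2) := by ring
  have h2 : 0 ≤ u ^ 2 + u * v + v ^ 2 := by nlinarith [sq_nonneg (u + v), sq_nonneg (u - v)]
  rw [h1, abs_mul, abs_of_nonneg h2]
  have h3 : |u - v| ^ 3 = |u - v| * (u - v) ^ 2 := by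
    rw [← sq_abs (u - v)]; ring
  rw [h3]
  have h4 : (u - v) ^ 2 ≤ 4 * (u ^ 2 + u * v + v ^ 2) := by nlinarith [sq_nonneg (u + v)]
  nlinarith [abs_nonneg (u - v)]

theorem piece_holder {g : ℝ → ℝ} {c s t : ℝ} (h : g t ^ 3 - g s ^ 3 = 3 * c * (t - s)) :
    |g t - g s| ^ 3 ≤ 12 * |c| * |t - s| := by
  have h1 := abs_sub_cube_le (g t) (g s)
  rw [h, abs_mul, abs_mul] at h1
  have : |(3 : ℝ)| = 3 := abs_of_pos (by norm_num)
  rw [this] at h1
  linarith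

theorem le_of_cube_le {A B : ℝ} (h : A ^ 3 ≤ B ^ 3) : A ≤ B :=
  cube_strictMono.le_iff_le.mp h

theorem rpow_third_cube {x : ℝ} (hx : 0 ≤ x) : (x ^ ((1 : ℝ) / 3)) ^ 3 = x := by
  rw [← Real.rpow_natCast, ← Real.rpow_mul hx]
  norm_num

theorem rpow_four_thirds_cube {x : ℝ} (hx : 0 ≤ x) : (x ^ ((4 : ℝ) / 3)) ^ 3 = x ^ 4 := by
  rw [← Real.rpow_natCast, ← Real.rpow_mul hx]
  norm_num

/-- Gradient of a separable function with differentiable pieces. -/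
theorem sep_gradient_box {I : Fin d → Set ℝ} {f : Fin d → ℝ → ℝ} {g : Fin d → ℝ → ℝ}
    (hg : ∀ i, ∀ t ∈ I i, HasDerivAt (f i) (g i t) t) {x : EuclideanSpace ℝ (Fin d)}
    (hx : x ∈ box I) :
    gradient (fun x : EuclideanSpace ℝ (Fin d) => ∑ i, f i (x i)) x
      = WithLp.toLp 2 (fun i => g i (x i)) :=
  sep_gradient (q' := fun i => g i (x i)) fun i => hg i (x i) (hx i)

theorem norm_toLp_sub_le (a b : Fin d → ℝ) :
    ‖(WithLp.toLp 2 a : EuclideanSpace ℝ (Fin d)) - WithLp.toLp 2 b‖ ≤ ∑ i, |a i - b i| := by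
  rw [EuclideanSpace.norm_eq]
  have h1 : ∑ i, ‖((WithLp.toLp 2 a : EuclideanSpace ℝ (Fin d)) - WithLp.toLp 2 b) i‖ ^ 2
      = ∑ i, |a i - b i| ^ 2 := by
    apply Finset.sum_congr rfl
    intro i _
    simp
  rw [h1]
  have h2 : ∑ i, |a i - b i| ^ 2 ≤ (∑ i, |a i - b i|) ^ 2 :=
    Finset.sum_sq_le_sq_sum_of_nonneg fun i _ => abs_nonneg _
  have h3 : 0 ≤ ∑ i, |a i - b i| := Finset.sum_nonneg fun i _ => abs_nonneg _
  calc √(∑ i, |a i - b i| ^ 2) ≤ √((∑ i, |a i - b i|) ^ 2) := Real.sqrt_le_sqrt h2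
    _ = ∑ i, |a i - b i| := Real.sqrt_sq h3

theorem abs_coord_sub_le (x y : EuclideanSpace ℝ (Fin d)) (i : Fin d) : |x i - y i| ≤ ‖x - y‖ := by
  have := PiLp.norm_apply_le (x - y) i
  simpa using this

/-- The derivative of a piece is the cube root of an affine function, hence continuous. -/
theorem piece_deriv_continuousOn {I : Set ℝ} {g : ℝ → ℝ} {c : ℝ}
    (hg : ∀ s ∈ I, ∀ t ∈ I, g t ^ 3 - g s ^ 3 = 3 * c * (t - s)) : ContinuousOn g I := by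
  rcases I.eq_empty_or_nonempty with h | ⟨s0, hs0⟩
  · rw [h]; exact continuousOn_empty g
  · have heq : ∀ t ∈ I, g t = cbrt (g s0 ^ 3 + 3 * c * (t - s0)) := by
      intro t ht
      have := hg s0 hs0 t ht
      have h2 : g s0 ^ 3 + 3 * c * (t - s0) = g t ^ 3 := by linarith
      rw [h2, cbrt_cube]
    have hc : Continuous (fun t : ℝ => cbrt (g s0 ^ 3 + 3 * c * (t - s0))) :=
      cbrt_continuous.comp (by fun_prop)
    exact hc.continuousOn.congr heq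

theorem piece_contDiffOn {I : Set ℝ} (hI : IsOpen I) {f g : ℝ → ℝ} {c : ℝ}
    (hd : ∀ t ∈ I, HasDerivAt f (g t) t)
    (hg : ∀ s ∈ I, ∀ t ∈ I, g t ^ 3 - g s ^ 3 = 3 * c * (t - s)) : ContDiffOn ℝ 1 f I := by
  rw [contDiffOn_one_iff_derivWithin hI.uniqueDiffOn]
  refine ⟨fun t ht => (hd t ht).differentiableAt.differentiableWithinAt, ?_⟩
  refine (piece_deriv_continuousOn hg).congr ?_
  intro t ht
  rw [derivWithin_of_isOpen hI ht, (hd t ht).deriv]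

theorem sep_contDiffOn {I : Fin d → Set ℝ} (hI : ∀ i, IsOpen (I i)) {f g : Fin d → ℝ → ℝ}
    {c : Fin d → ℝ} (hd : ∀ i, ∀ t ∈ I i, HasDerivAt (f i) (g i t) t)
    (hg : ∀ i, ∀ s ∈ I i, ∀ t ∈ I i, g i t ^ 3 - g i s ^ 3 = 3 * c i * (t - s)) :
    ContDiffOn ℝ 1 (fun x : EuclideanSpace ℝ (Fin d) => ∑ i, f i (x i)) (box I) := by
  apply ContDiffOn.sum
  intro i _
  have h1 : ContDiffOn ℝ 1 (f i) (I i) := piece_contDiffOn (hI i) (hd i) (hg i)
  have h2 : ContDiffOn ℝ 1 (fun x : EuclideanSpace ℝ (Fin d) => x i) (box I) :=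
    (prj i).contDiff.contDiffOn
  exact h1.comp h2 (fun x hx => hx i)

end Vale.Agent.Lib.P080
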