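import Mathlib
import Vale.Agent.Lib.P080.Holder

namespace Vale.Agent.Lib.P080

open Filter Topology Set

variable {d : ℕ}

/-- Second-order necessary condition at a local maximum in one variable. -/
theorem second_deriv_nonpos {h h' : ℝ → ℝ} {h'' s0 : ℝ} (hmax : IsLocalMax h s0)
    (hd : ∀ᶠ s in 𝓝 s0, HasDerivAt h (h' s) s) (hd2 : HasDerivAt h' h'' s0) : h'' ≤ 0 := by
  by_contra hcon
  rw [not_le] at hcon
  have heq : deriv h =ᶠ[𝓝 s0] h' := hd.mono fun s hs => hs.deriv
  have h1 : deriv (deriv h) s0 = h'' := by rw [heq.deriv_eq, hd2.deriv]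
  have h2 : deriv h s0 = 0 := by
    rw [hd.self_of_nhds.deriv]
    exact hmax.hasDerivAt_eq_zero hd.self_of_nhds
  have hcont : ContinuousAt h s0 := hd.self_of_nhds.continuousAt
  have hmin : IsLocalMin h s0 :=
    isLocalMin_of_deriv_deriv_pos (by rw [h1]; exact hcon) h2 hcont
  have hconst : h =ᶠ[𝓝 s0] fun _ => h s0 := by
    filter_upwards [hmax, hmin] with s hs1 hs2
    exact le_antisymm hs1 hs2
  have h3 : deriv h =ᶠ[𝓝 s0] fun _ => 0 := by
    have := eventually_eventually_nhds.mpr hconst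
    filter_upwards [this] with s hs
    rw [Filter.EventuallyEq.deriv_eq hs]
    simp
  have h4 : deriv (deriv h) s0 = 0 := by
    rw [h3.deriv_eq]; simp
  rw [h1] at h4
  linarith

/-- Where the derivative of a piece does not vanish, it is itself differentiable. -/
theorem piece_hasDerivAt_g {I : Set ℝ} (hI : IsOpen I) {g : ℝ → ℝ} {c : ℝ}
    (hg : ∀ s ∈ I, ∀ t ∈ I, g t ^ 3 - g s ^ 3 = 3 * c * (t - s)) {z : ℝ} (hz : z ∈ I)
    (hgz : g z ≠ 0) : HasDerivAt g (c / g z ^ 2) z := by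
  have heq : g =ᶠ[𝓝 z] fun t => cbrt (g z ^ 3 + 3 * c * (t - z)) := by
    filter_upwards [hI.mem_nhds hz] with t ht
    have := hg z hz t ht
    have h2 : g z ^ 3 + 3 * c * (t - z) = g t ^ 3 := by linarith
    rw [h2, cbrt_cube]
  have h1 : HasDerivAt (fun t : ℝ => g z ^ 3 + 3 * c * (t - z)) (3 * c * 1) z :=
    (((hasDerivAt_id z).sub_const z).const_mul (3 * c)).const_add (g z ^ 3)
  have hne : g z ^ 3 + 3 * c * (z - z) ≠ 0 := by
    have : g z ^ 3 + 3 * c * (z - z) = g z ^ 3 := by ring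
    rw [this]
    exact pow_ne_zero 3 hgz
  have h2 := hasDerivAt_cbrt hne
  have h3 : HasDerivAt (fun t => cbrt (g z ^ 3 + 3 * c * (t - z)))
      ((3 * cbrt (g z ^ 3 + 3 * c * (z - z)) ^ 2)⁻¹ * (3 * c * 1)) z := h2.comp z h1
  have h4 : cbrt (g z ^ 3 + 3 * c * (z - z)) = g z := by
    have : g z ^ 3 + 3 * c * (z - z) = g z ^ 3 := by ring
    rw [this, cbrt_cube]
  rw [h4] at h3
  refine (h3.congr_of_eventuallyEq heq).congr_deriv ?_
  field_simp

theorem line_hasDerivAt (z v : EuclideanSpace ℝ (Fin d)) (s : ℝ) :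
    HasDerivAt (fun s : ℝ => z + s • v) v s := by
  have h := ((hasDerivAt_id s).smul_const v).const_add z
  simpa using h

theorem line_tendsto (z v : EuclideanSpace ℝ (Fin d)) :
    Tendsto (fun s : ℝ => z + s • v) (𝓝 0) (𝓝 z) := by
  have h : ContinuousAt (fun s : ℝ => z + s • v) 0 := (line_hasDerivAt z v 0).continuousAt
  have h0 : z + (0 : ℝ) • v = z := by simp
  have := h.tendsto
  rwa [h0] at this

/-- At a coordinate where the gradient vanishes, touching from above forces `c i ≤ 0`. -/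
theorem sep_coord_nonpos {I : Fin d → Set ℝ} (hI : ∀ i, IsOpen (I i)) {f g : Fin d → ℝ → ℝ}
    {c : Fin d → ℝ} (hd : ∀ i, ∀ t ∈ I i, HasDerivAt (f i) (g i t) t)
    (hg : ∀ i, ∀ s ∈ I i, ∀ t ∈ I i, g i t ^ 3 - g i s ^ 3 = 3 * c i * (t - s))
    {φ : EuclideanSpace ℝ (Fin d) → ℝ} {z : EuclideanSpace ℝ (Fin d)} (hz : z ∈ box I)
    (hφ : ContDiffAt ℝ 2 φ z)
    (hmax : IsLocalMax (fun x : EuclideanSpace ℝ (Fin d) => (∑ i, f i (x i)) - φ x) z)
    (hfd : fderiv ℝ φ z = ∑ j, g j (z j) • prj j) (i : Fin d) (hγ : g i (z i) = 0) :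
    c i ≤ 0 := by
  by_contra hcon
  rw [not_le] at hcon
  set e : EuclideanSpace ℝ (Fin d) := EuclideanSpace.single i (1 : ℝ) with he
  have hLi : ∀ s : ℝ, (z + s • e) i = z i + s := by
    intro s
    simp [he]
  have hLj : ∀ s : ℝ, ∀ j, j ≠ i → (z + s • e) j = z j := by
    intro s j hj
    simp [he, hj]
  let k : ℝ → ℝ := fun s => f i (z i + s) - φ (z + s • e)
  let Ψ : ℝ → ℝ := fun s => fderiv ℝ φ (z + s • e) e
  have hL0 : z + (0 : ℝ) • e = z := by simp
  -- local max of k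
  have hk : ∀ᶠ s in 𝓝 (0 : ℝ), k s ≤ k 0 := by
    have h1 := (line_tendsto z e).eventually hmax
    filter_upwards [h1] with s hs
    have hsum : ∀ s : ℝ, (∑ j, f j ((z + s • e) j)) - ∑ j, f j (z j) = f i (z i + s) - f i (z i) := by
      intro s
      rw [← Finset.sum_sub_distrib]
      rw [Finset.sum_eq_single i]
      · rw [hLi]
      · intro j _ hj
        rw [hLj s j hj]; ring
      · intro h; exact absurd (Finset.mem_univ i) h
    have hs' : (∑ j, f j ((z + s • e) j)) - φ (z + s • e) ≤ (∑ j, f j (z j)) - φ z := hs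
    have := hsum s
    show f i (z i + s) - φ (z + s • e) ≤ f i (z i + 0) - φ (z + (0 : ℝ) • e)
    rw [hL0, add_zero]
    linarith
  -- Ψ
  have hφ2 : DifferentiableAt ℝ (fderiv ℝ φ) z :=
    (hφ.fderiv_right (m := 1) (by norm_num)).differentiableAt (by norm_num)
  have hΨd : HasDerivAt Ψ (fderiv ℝ (fderiv ℝ φ) z e e) 0 := by
    have h1 : HasFDerivAt (fderiv ℝ φ) (fderiv ℝ (fderiv ℝ φ) z) (z + (0 : ℝ) • e) := by
      rw [hL0]; exact hφ2.hasFDerivAt
    have h2 : HasDerivAt (fun s : ℝ => fderiv ℝ φ (z + s • e)) (fderiv ℝ (fderiv ℝ φ) z e) 0 :=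
      h1.comp_hasDerivAt 0 (line_hasDerivAt z e 0)
    have h3 := h2.clm_apply (hasDerivAt_const (0 : ℝ) e)
    simpa using h3
  have hΨ0 : Ψ 0 = 0 := by
    show fderiv ℝ φ (z + (0 : ℝ) • e) e = 0
    rw [hL0, hfd]
    simp only [_root_.sum_apply, _root_.smul_apply, prj_apply, smul_eq_mul]
    rw [Finset.sum_eq_single i]
    · rw [hγ]; ring
    · intro j _ hj
      simp [he, hj]
    · intro h; exact absurd (Finset.mem_univ i) h
  set Ψ' := fderiv ℝ (fderiv ℝ φ) z e e with hΨ'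
  set C := |Ψ'| + 1 with hC
  have hCpos : 0 < C := by positivity
  have hΨb : ∀ᶠ s in 𝓝 (0 : ℝ), |Ψ s| ≤ C * |s| := by
    have h1 := hasDerivAt_iff_isLittleO.mp hΨd
    have h2 := Asymptotics.isLittleO_iff.mp h1 (c := 1) one_pos
    filter_upwards [h2] with s hs
    rw [hΨ0] at hs
    simp only [sub_zero, smul_eq_mul, Real.norm_eq_abs, one_mul] at hs
    have h3 : |Ψ s| ≤ |Ψ s - s * Ψ'| + |s * Ψ'| := by
      have := abs_add_le (Ψ s - s * Ψ') (s * Ψ')
      simpa using this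
    rw [abs_mul] at h3
    rw [hC]
    nlinarith [abs_nonneg s, abs_nonneg Ψ']
  have hIi : ∀ᶠ s in 𝓝 (0 : ℝ), z i + s ∈ I i := by
    have hc : Tendsto (fun s : ℝ => z i + s) (𝓝 0) (𝓝 (z i)) := by
      have : ContinuousAt (fun s : ℝ => z i + s) 0 := by fun_prop
      simpa using this.tendsto
    exact hc.eventually ((hI i).mem_nhds (hz i))
  have hφd : ∀ᶠ s in 𝓝 (0 : ℝ), DifferentiableAt ℝ φ (z + s • e) := by
    have h1 : ∀ᶠ y in 𝓝 z, ContDiffAt ℝ 2 φ y := hφ.eventually (by norm_num)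
    have h2 := (line_tendsto z e).eventually h1
    filter_upwards [h2] with s hs
    exact hs.differentiableAt (by norm_num)
  obtain ⟨ε, hε, hP⟩ := Metric.eventually_nhds_iff.mp (((hk.and hΨb).and hIi).and hφd)
  have hkd : ∀ s : ℝ, |s| < ε → HasDerivAt k (g i (z i + s) - Ψ s) s := by
    intro s hs
    have hPs := hP (y := s) (by simpa using hs)
    obtain ⟨⟨⟨-, -⟩, h3⟩, h4⟩ := hPs
    have ha : HasDerivAt (fun s : ℝ => f i (z i + s)) (g i (z i + s)) s := by
      have h5 : HasDerivAt (fun s : ℝ => z i + s) 1 s := (hasDerivAt_id s).const_add (z i)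
      have h6 : HasDerivAt (fun s : ℝ => f i (z i + s)) (g i (z i + s) * 1) s :=
        (hd i (z i + s) h3).comp s h5
      exact h6.congr_deriv (mul_one _)
    have hb : HasDerivAt (fun s : ℝ => φ (z + s • e)) (fderiv ℝ φ (z + s • e) e) s :=
      h4.hasFDerivAt.comp_hasDerivAt s (line_hasDerivAt z e s)
    exact ha.sub hb
  set δ := min (ε / 2) (min 1 (3 * c i / C ^ 3) / 2) with hδ
  have hC3 : 0 < C ^ 3 := by positivity
  have hq : 0 < 3 * c i / C ^ 3 := by positivity
  have hδpos : 0 < δ := by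
    rw [hδ]
    apply lt_min (by linarith)
    apply half_pos
    exact lt_min one_pos hq
  have hδε : δ < ε := lt_of_le_of_lt (min_le_left _ _) (by linarith)
  have hδ1 : δ ≤ 1 := by
    have h1 : δ ≤ min 1 (3 * c i / C ^ 3) / 2 := min_le_right _ _
    have h2 : min 1 (3 * c i / C ^ 3) ≤ 1 := min_le_left _ _
    linarith
  have hδq : C ^ 3 * δ < 3 * c i := by
    have h1 : δ ≤ min 1 (3 * c i / C ^ 3) / 2 := min_le_right _ _
    have h2 : min 1 (3 * c i / C ^ 3) ≤ 3 * c i / C ^ 3 := min_le_right _ _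
    have h3 : δ < 3 * c i / C ^ 3 := by
      have : 0 < min 1 (3 * c i / C ^ 3) := lt_min one_pos hq
      linarith
    rw [lt_div_iff₀ hC3] at h3
    linarith
  have hcont : ContinuousOn k (Icc 0 δ) := by
    intro s hs
    have : |s| < ε := by
      rw [abs_of_nonneg hs.1]; linarith [hs.2]
    exact (hkd s this).continuousAt.continuousWithinAt
  have hpos : ∀ s ∈ interior (Icc 0 δ), 0 < deriv k s := by
    intro s hs
    rw [interior_Icc] at hs
    have hsabs : |s| < ε := by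
      rw [abs_of_pos hs.1]; linarith [hs.2]
    rw [(hkd s hsabs).deriv]
    have hPs := hP (y := s) (by simpa using hsabs)
    obtain ⟨⟨⟨-, h2⟩, h3⟩, -⟩ := hPs
    have hcube := hg i (z i) (hz i) (z i + s) h3
    rw [hγ] at hcube
    have hcube' : g i (z i + s) ^ 3 = 3 * c i * s := by
      have : (0 : ℝ) ^ 3 = 0 := by norm_num
      rw [this] at hcube
      have e2 : z i + s - z i = s := by ring
      rw [e2] at hcube
      linarith
    have hlt : (C * s) ^ 3 < g i (z i + s) ^ 3 := by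
      rw [hcube']
      have e3 : (C * s) ^ 3 = C ^ 3 * s ^ 2 * s := by ring
      rw [e3]
      have h5 : C ^ 3 * s ^ 2 ≤ C ^ 3 * s := by
        apply mul_le_mul_of_nonneg_left _ hC3.le
        nlinarith [hs.1, hs.2]
      have h6 : C ^ 3 * s < 3 * c i := by
        have : C ^ 3 * s ≤ C ^ 3 * δ := mul_le_mul_of_nonneg_left hs.2.le hC3.le
        linarith
      nlinarith [hs.1]
    have hlt' : C * s < g i (z i + s) := cube_strictMono.lt_iff_lt.mp hlt
    have h7 : Ψ s ≤ C * s := by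
      have := le_abs_self (Ψ s)
      rw [abs_of_pos hs.1] at h2
      linarith
    linarith
  have hmono := strictMonoOn_of_deriv_pos (convex_Icc 0 δ) hcont hpos
  have hlt := hmono (left_mem_Icc.mpr hδpos.le) (right_mem_Icc.mpr hδpos.le) hδpos
  have hPδ := hP (y := δ) (by simpa [abs_of_pos hδpos] using hδε)
  linarith [hPδ.1.1.1]

end Vale.Agent.Lib.P080
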