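import Mathlib
import Vale.Agent.Lib.P080.Conv

namespace Vale.Agent.Lib.P080

open Filter Topology Set

variable {d : ℕ}

/-- Subsolution part of the converse: if the slopes sum to a nonnegative number, the separable
function is a viscosity subsolution. -/
theorem sep_sub {I : Fin d → Set ℝ} (hI : ∀ i, IsOpen (I i)) {f g : Fin d → ℝ → ℝ}
    {c : Fin d → ℝ} (hd : ∀ i, ∀ t ∈ I i, HasDerivAt (f i) (g i t) t)
    (hg : ∀ i, ∀ s ∈ I i, ∀ t ∈ I i, g i t ^ 3 - g i s ^ 3 = 3 * c i * (t - s))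
    (hc : 0 ≤ ∑ i, c i)
    {φ : EuclideanSpace ℝ (Fin d) → ℝ} {z : EuclideanSpace ℝ (Fin d)} (hz : z ∈ box I)
    (hφ : ContDiffAt ℝ 2 φ z)
    (hmax : IsLocalMax (fun x : EuclideanSpace ℝ (Fin d) => (∑ i, f i (x i)) - φ x) z) :
    0 ≤ infLaplacian φ z := by
  set γ : Fin d → ℝ := fun i => g i (z i) with hγdef
  have hU : HasFDerivAt (fun x : EuclideanSpace ℝ (Fin d) => ∑ i, f i (x i))
      (∑ i, γ i • prj i) z := sep_hasFDerivAt (fun i => hd i (z i) (hz i))
  have hφd : DifferentiableAt ℝ φ z := hφ.differentiableAt (by norm_num)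
  have hfd : fderiv ℝ φ z = ∑ j, γ j • prj j := by
    have h0 := hmax.hasFDerivAt_eq_zero (hU.sub hφd.hasFDerivAt)
    exact (sub_eq_zero.mp h0).symm
  have hgrad : gradient φ z = WithLp.toLp 2 γ := by
    unfold gradient
    rw [hfd, ← toDual_toLp]
    simp
  set v : EuclideanSpace ℝ (Fin d) := WithLp.toLp 2 γ with hv
  have hvi : ∀ i, v i = γ i := fun i => rfl
  unfold infLaplacian
  rw [hgrad]
  have hLi : ∀ (s : ℝ) (i : Fin d), (z + s • v) i = z i + s * γ i := by
    intro s i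
    simp [hv]
  have hL0 : z + (0 : ℝ) • v = z := by simp
  -- eventual facts
  have e1 : ∀ᶠ s in 𝓝 (0 : ℝ), ∀ i, z i + s * γ i ∈ I i := by
    rw [eventually_all]
    intro i
    have hc : Tendsto (fun s : ℝ => z i + s * γ i) (𝓝 0) (𝓝 (z i)) := by
      have : ContinuousAt (fun s : ℝ => z i + s * γ i) 0 := by fun_prop
      simpa using this.tendsto
    exact hc.eventually ((hI i).mem_nhds (hz i))
  have e2 : ∀ᶠ s in 𝓝 (0 : ℝ), DifferentiableAt ℝ φ (z + s • v) := by
    have h1 : ∀ᶠ y in 𝓝 z, ContDiffAt ℝ 2 φ y := hφ.eventually (by norm_num)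
    have h2 := (line_tendsto z v).eventually h1
    filter_upwards [h2] with s hs
    exact hs.differentiableAt (by norm_num)
  let h : ℝ → ℝ := fun s => (∑ i, f i (z i + s * γ i)) - φ (z + s • v)
  let h' : ℝ → ℝ := fun s => (∑ i, g i (z i + s * γ i) * γ i) - fderiv ℝ φ (z + s • v) v
  have hmaxh : IsLocalMax h 0 := by
    have h1 := (line_tendsto z v).eventually hmax
    filter_upwards [h1] with s hs
    have hs' : (∑ j, f j ((z + s • v) j)) - φ (z + s • v) ≤ (∑ j, f j (z j)) - φ z := hs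
    show (∑ i, f i (z i + s * γ i)) - φ (z + s • v)
      ≤ (∑ i, f i (z i + 0 * γ i)) - φ (z + (0 : ℝ) • v)
    rw [hL0]
    have e3 : ∑ j, f j ((z + s • v) j) = ∑ i, f i (z i + s * γ i) :=
      Finset.sum_congr rfl fun i _ => by rw [hLi]
    have e4 : ∑ i, f i (z i + 0 * γ i) = ∑ j, f j (z j) :=
      Finset.sum_congr rfl fun i _ => by rw [zero_mul, add_zero]
    rw [e4, ← e3]
    exact hs'
  have hd1 : ∀ᶠ s in 𝓝 (0 : ℝ), HasDerivAt h (h' s) s := by
    filter_upwards [e1, e2] with s hs1 hs2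
    have ha : HasDerivAt (fun s : ℝ => ∑ i, f i (z i + s * γ i))
        (∑ i, g i (z i + s * γ i) * γ i) s := by
      apply HasDerivAt.fun_sum
      intro i _
      have h5 : HasDerivAt (fun s : ℝ => z i + s * γ i) (γ i) s := by
        have := ((hasDerivAt_id s).mul_const (γ i)).const_add (z i)
        simpa using this
      exact (hd i (z i + s * γ i) (hs1 i)).comp s h5
    have hb : HasDerivAt (fun s : ℝ => φ (z + s • v)) (fderiv ℝ φ (z + s • v) v) s :=
      hs2.hasFDerivAt.comp_hasDerivAt s (line_hasDerivAt z v s)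
    exact ha.sub hb
  let τ : Fin d → ℝ := fun i => if γ i = 0 then 0 else c i
  have hφ2 : DifferentiableAt ℝ (fderiv ℝ φ) z :=
    (hφ.fderiv_right (m := 1) (by norm_num)).differentiableAt (by norm_num)
  have hd2 : HasDerivAt h' ((∑ i, τ i) - fderiv ℝ (fderiv ℝ φ) z v v) 0 := by
    have ha : HasDerivAt (fun s : ℝ => ∑ i, g i (z i + s * γ i) * γ i) (∑ i, τ i) 0 := by
      apply HasDerivAt.fun_sum
      intro i _
      by_cases hγ : γ i = 0
      · have e5 : (fun s : ℝ => g i (z i + s * γ i) * γ i) = fun _ => 0 := by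
          funext s
          rw [hγ]; ring
        have e6 : τ i = 0 := if_pos hγ
        rw [e5, e6]
        exact hasDerivAt_const _ _
      · have e6 : τ i = c i := if_neg hγ
        rw [e6]
        have hgz : HasDerivAt (g i) (c i / γ i ^ 2) (z i + 0 * γ i) := by
          have hpt : z i + 0 * γ i = z i := by ring
          rw [hpt]
          exact piece_hasDerivAt_g (hI i) (hg i) (hz i) hγ
        have h5 : HasDerivAt (fun s : ℝ => z i + s * γ i) (γ i) 0 := by
          have := ((hasDerivAt_id (0 : ℝ)).mul_const (γ i)).const_add (z i)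
          simpa using this
        have h6 : HasDerivAt (fun s : ℝ => g i (z i + s * γ i)) (c i / γ i ^ 2 * γ i) 0 :=
          hgz.comp 0 h5
        have h7 := h6.mul_const (γ i)
        refine h7.congr_deriv ?_
        field_simp
    have hb : HasDerivAt (fun s : ℝ => fderiv ℝ φ (z + s • v) v)
        (fderiv ℝ (fderiv ℝ φ) z v v) 0 := by
      have h1 : HasFDerivAt (fderiv ℝ φ) (fderiv ℝ (fderiv ℝ φ) z) (z + (0 : ℝ) • v) := by
        rw [hL0]; exact hφ2.hasFDerivAt
      have h2 : HasDerivAt (fun s : ℝ => fderiv ℝ φ (z + s • v))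
          (fderiv ℝ (fderiv ℝ φ) z v) 0 :=
        h1.comp_hasDerivAt 0 (line_hasDerivAt z v 0)
      have h3 := h2.clm_apply (hasDerivAt_const (0 : ℝ) v)
      simpa using h3
    exact ha.sub hb
  have hle := second_deriv_nonpos hmaxh hd1 hd2
  have hτ : ∀ i, c i ≤ τ i := by
    intro i
    by_cases hγ : γ i = 0
    · have e6 : τ i = 0 := if_pos hγ
      rw [e6]
      exact sep_coord_nonpos hI hd hg hz hφ hmax hfd i hγ
    · have e6 : τ i = c i := if_neg hγ
      rw [e6]
  have hsum : ∑ i, c i ≤ ∑ i, τ i := Finset.sum_le_sum fun i _ => hτ i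
  linarith

theorem infLaplacian_neg (φ : EuclideanSpace ℝ (Fin d) → ℝ) (z : EuclideanSpace ℝ (Fin d)) :
    infLaplacian (fun x => -φ x) z = -infLaplacian φ z := by
  unfold infLaplacian gradient
  have h1 : fderiv ℝ (fun x => -φ x) = fun x => -fderiv ℝ φ x := by
    funext x
    exact fderiv_neg
  rw [h1]
  have h2 : fderiv ℝ (fun x => -fderiv ℝ φ x) z = -fderiv ℝ (fderiv ℝ φ) z := fderiv_neg
  rw [h2]
  simp

/-- Supersolution part of the converse. -/
theorem sep_super {I : Fin d → Set ℝ} (hI : ∀ i, IsOpen (I i)) {f g : Fin d → ℝ → ℝ}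
    {c : Fin d → ℝ} (hd : ∀ i, ∀ t ∈ I i, HasDerivAt (f i) (g i t) t)
    (hg : ∀ i, ∀ s ∈ I i, ∀ t ∈ I i, g i t ^ 3 - g i s ^ 3 = 3 * c i * (t - s))
    (hc : ∑ i, c i ≤ 0)
    {φ : EuclideanSpace ℝ (Fin d) → ℝ} {z : EuclideanSpace ℝ (Fin d)} (hz : z ∈ box I)
    (hφ : ContDiffAt ℝ 2 φ z)
    (hmin : IsLocalMin (fun x : EuclideanSpace ℝ (Fin d) => (∑ i, f i (x i)) - φ x) z) :
    infLaplacian φ z ≤ 0 := by
  have hd' : ∀ i, ∀ t ∈ I i, HasDerivAt (fun t => -f i t) (-g i t) t :=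
    fun i t ht => (hd i t ht).neg
  have hg' : ∀ i, ∀ s ∈ I i, ∀ t ∈ I i,
      (-g i t) ^ 3 - (-g i s) ^ 3 = 3 * (-c i) * (t - s) := by
    intro i s hs t ht
    have := hg i s hs t ht
    have e1 : (-g i t) ^ 3 = -(g i t ^ 3) := by ring
    have e2 : (-g i s) ^ 3 = -(g i s ^ 3) := by ring
    rw [e1, e2]; linarith
  have hc' : 0 ≤ ∑ i, -c i := by
    rw [Finset.sum_neg_distrib]; linarith
  have hmax : IsLocalMax
      (fun x : EuclideanSpace ℝ (Fin d) => (∑ i, -f i (x i)) - (-φ x)) z := by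
    filter_upwards [hmin] with x hx
    have hx' : (∑ i, f i (z i)) - φ z ≤ (∑ i, f i (x i)) - φ x := hx
    show (∑ i, -f i (x i)) - (-φ x) ≤ (∑ i, -f i (z i)) - (-φ z)
    rw [Finset.sum_neg_distrib, Finset.sum_neg_distrib]
    linarith
  have := sep_sub (f := fun i t => -f i t) (g := fun i t => -g i t) (c := fun i => -c i)
    hI hd' hg' hc' hz hφ.neg hmax
  rw [infLaplacian_neg] at this
  linarith

/-- Converse: separable functions whose pieces have derivatives with affine cubes, with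
slopes summing to zero, are infinity-harmonic on the box. -/
theorem sep_harmonic {I : Fin d → Set ℝ} (hI : ∀ i, IsOpen (I i)) {f g : Fin d → ℝ → ℝ}
    {c : Fin d → ℝ} (hd : ∀ i, ∀ t ∈ I i, HasDerivAt (f i) (g i t) t)
    (hg : ∀ i, ∀ s ∈ I i, ∀ t ∈ I i, g i t ^ 3 - g i s ^ 3 = 3 * c i * (t - s))
    (hc : ∑ i, c i = 0) :
    IsInfinityHarmonicOn (fun x : EuclideanSpace ℝ (Fin d) => ∑ i, f i (x i)) (box I) := by
  refine ⟨?_, ?_, ?_⟩
  · exact (sep_contDiffOn hI hd hg).continuousOn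
  · intro φ z hz hφ hmax
    exact sep_sub hI hd hg hc.ge hz hφ hmax
  · intro φ z hz hφ hmin
    exact sep_super hI hd hg hc.le hz hφ hmin

end Vale.Agent.Lib.P080
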