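import Mathlib

namespace Vale.Agent.Lib.P080

section

variable {E : Type*} [NormedAddCommGroup E] [InnerProductSpace ℝ E]

/-- Two vectors of length `r` whose sum has length at least `2 r (1 - ε)` differ by at most
`r √(8 ε)` (parallelogram law). -/
theorem explicit_antipodal {A A' : E} {r ε : ℝ} (hr : 0 < r) (hA : ‖A‖ = r) (hA' : ‖A'‖ = r)
    (hε0 : 0 ≤ ε) (hε1 : ε ≤ 1) (h : 2 * r * (1 - ε) ≤ ‖A + A'‖) :
    ‖A - A'‖ ≤ r * √(8 * ε) := by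
  have h1 : 0 ≤ 2 * r * (1 - ε) := mul_nonneg (by linarith) (by linarith)
  have hsq : (2 * r * (1 - ε)) ^ 2 ≤ ‖A + A'‖ ^ 2 := pow_le_pow_left₀ h1 h 2
  have hpar := parallelogram_law_with_norm ℝ A A'
  rw [hA, hA'] at hpar
  have h2 : ‖A - A'‖ ^ 2 ≤ 8 * ε * r ^ 2 := by
    nlinarith [mul_nonneg (sq_nonneg r) (sq_nonneg ε)]
  have h3 : (r * √(8 * ε)) ^ 2 = 8 * ε * r ^ 2 := by
    rw [mul_pow, Real.sq_sqrt (by positivity)]
    ring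
  refine (pow_le_pow_iff_left₀ (norm_nonneg _) (by positivity) two_ne_zero).mp ?_
  rw [h3]
  exact h2

/-- A unit vector `ν` and a vector `A` of length `r` with `r (1 - κ) ≤ ⟨ν, A⟩` satisfy
`‖r ν - A‖ ≤ r √(2 κ)`. -/
theorem explicit_dir {ν A : E} {r κ : ℝ} (hr : 0 < r) (hν : ‖ν‖ = 1) (hA : ‖A‖ = r)
    (h : r * (1 - κ) ≤ inner ℝ ν A) :
    ‖r • ν - A‖ ≤ r * √(2 * κ) := by
  have hn : ‖r • ν‖ = r := by
    rw [norm_smul, hν, mul_one, Real.norm_eq_abs, abs_of_pos hr]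
  have hexp : ‖r • ν - A‖ ^ 2 = 2 * r ^ 2 - 2 * (r * inner ℝ ν A) := by
    rw [norm_sub_sq_real, hn, hA, real_inner_smul_left]
    ring
  have h2 : ‖r • ν - A‖ ^ 2 ≤ 2 * κ * r ^ 2 := by
    rw [hexp]
    nlinarith [mul_le_mul_of_nonneg_left h hr.le]
  have hκ : 0 ≤ κ := by
    have h0 : 0 ≤ 2 * κ * r ^ 2 := le_trans (sq_nonneg _) h2
    by_contra hcon
    have hneg : κ < 0 := not_le.mp hcon
    nlinarith [mul_pos_of_neg_of_neg hneg (neg_neg_of_pos (pow_pos hr 2))]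
  have h3 : (r * √(2 * κ)) ^ 2 = 2 * κ * r ^ 2 := by
    rw [mul_pow, Real.sq_sqrt (by positivity)]
    ring
  refine (pow_le_pow_iff_left₀ (norm_nonneg _) (by positivity) two_ne_zero).mp ?_
  rw [h3]
  exact h2

end

/-- Elementary inequality collecting the error terms. -/
theorem explicit_arith {ε κ : ℝ} (hε0 : 0 ≤ ε) (hεκ : ε ≤ κ) (hκ1 : κ ≤ 1) :
    κ + √(8 * ε) + 2 * √(2 * κ) ≤ 7 * √κ := by
  have hκ0 : 0 ≤ κ := le_trans hε0 hεκ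
  have hs0 : 0 ≤ √κ := Real.sqrt_nonneg κ
  have hs2 : √κ ^ 2 = κ := Real.sq_sqrt hκ0
  have hs1 : √κ ≤ 1 := Real.sqrt_le_one.mpr hκ1
  have h2 : √(2 : ℝ) ≤ 3 / 2 := by
    rw [Real.sqrt_le_left (by norm_num)]
    norm_num
  have e1 : √(8 * ε) ≤ √(8 * κ) := Real.sqrt_le_sqrt (by linarith)
  have e2 : √(8 * κ) = 2 * (√2 * √κ) := by
    have e : (8 : ℝ) * κ = 2 ^ 2 * (2 * κ) := by ring
    rw [e, Real.sqrt_mul (by norm_num), Real.sqrt_sq (by norm_num), Real.sqrt_mul (by norm_num)]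
  have e3 : √(2 * κ) = √2 * √κ := Real.sqrt_mul (by norm_num) κ
  have h4 : √2 * √κ ≤ 3 / 2 * √κ := mul_le_mul_of_nonneg_right h2 hs0
  have h5 : κ ≤ √κ := by nlinarith [mul_nonneg hs0 (sub_nonneg.mpr hs1)]
  rw [e3]
  linarith

/-- `14 √2 ≤ 20`. -/
theorem explicit_sqrt_two : 14 * √(2 : ℝ) ≤ 20 := by
  have h2 : √(2 : ℝ) ≤ 10 / 7 := by
    rw [Real.sqrt_le_left (by norm_num)]
    norm_num
  linarith

end Vale.Agent.Lib.P080
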