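import Mathlib

/-!
# P080: differentiability from pinned scale-wise linear approximations

If at every small scale a function is close to an affine function with unit direction `n`
and slope `S`, and any two such directions at the same accuracy are close to each other, then
the directions converge and the function is differentiable at the point.
-/

namespace Vale.Agent.Lib.P080

open Filter Topology Set Metric

theorem hasFDerivAt_of_scale_approx {E : Type*} [NormedAddCommGroup E] [InnerProductSpace ℝ E]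
    [CompleteSpace E] {u : E → ℝ} {x : E} {S R : ℝ}
    (hS : 0 < S) (hR : 0 < R)
    (hex : ∀ η > 0, ∃ ρ₀ > 0, ∀ ρ ∈ Ioc (0 : ℝ) ρ₀, ∃ n : E, ‖n‖ = 1 ∧ ∀ h : E, ‖h‖ ≤ ρ →
      |u (x + h) - u x - S * inner ℝ n h| ≤ η * ρ)
    (hpin : ∀ η ρ ρ' : ℝ, 0 < ρ → ρ < R → 0 < ρ' → ρ' < R → ∀ n n' : E, ‖n‖ = 1 → ‖n'‖ = 1 →
      (∀ h : E, ‖h‖ ≤ ρ → |u (x + h) - u x - S * inner ℝ n h| ≤ η * ρ) →
      (∀ h : E, ‖h‖ ≤ ρ' → |u (x + h) - u x - S * inner ℝ n' h| ≤ η * ρ') →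
      S * ‖n - n'‖ ≤ 2 * η) :
    ∃ g : E, HasFDerivAt u (innerSL ℝ g) x := by
  -- the approximation predicate
  let P : ℝ → E → Prop := fun η n => ∃ ρ : ℝ, 0 < ρ ∧ ρ < R ∧ ‖n‖ = 1 ∧
    ∀ h : E, ‖h‖ ≤ ρ → |u (x + h) - u x - S * inner ℝ n h| ≤ η * ρ
  have hP1 : ∀ η > 0, ∃ n, P η n := by
    intro η hη
    obtain ⟨ρ₀, hρ₀, h⟩ := hex η hη
    have hρ : 0 < min ρ₀ (R / 2) := lt_min hρ₀ (by positivity)
    obtain ⟨n, hn, hn'⟩ := h (min ρ₀ (R / 2)) ⟨hρ, min_le_left _ _⟩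
    exact ⟨n, min ρ₀ (R / 2), hρ, lt_of_le_of_lt (min_le_right _ _) (by linarith), hn, hn'⟩
  have hP2 : ∀ η η' : ℝ, η ≤ η' → ∀ n, P η n → P η' n := by
    rintro η η' hηη' n ⟨ρ, hρ, hρR, hn, h⟩
    exact ⟨ρ, hρ, hρR, hn, fun z hz => (h z hz).trans (mul_le_mul_of_nonneg_right hηη' hρ.le)⟩
  have hP3 : ∀ η : ℝ, ∀ n n', P η n → P η n' → S * ‖n - n'‖ ≤ 2 * η := by
    rintro η n n' ⟨ρ, hρ, hρR, hn, h⟩ ⟨ρ', hρ', hρ'R, hn', h'⟩
    exact hpin η ρ ρ' hρ hρR hρ' hρ'R n n' hn hn' h h'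
  have hk : ∀ k : ℕ, (0 : ℝ) < 1 / ((k : ℝ) + 1) := fun k => by positivity
  choose m hm using fun k : ℕ => hP1 (1 / ((k : ℝ) + 1)) (hk k)
  have hanti : ∀ N k : ℕ, N ≤ k → (1 : ℝ) / ((k : ℝ) + 1) ≤ 1 / ((N : ℝ) + 1) := by
    intro N k hNk
    apply one_div_le_one_div_of_le (by positivity)
    have h1 : (N : ℝ) ≤ k := by exact_mod_cast hNk
    linarith
  have hdist : ∀ N : ℕ, ∀ n, P (1 / ((N : ℝ) + 1)) n → ∀ k, N ≤ k →
      ‖n - m k‖ ≤ 2 / (S * ((N : ℝ) + 1)) := by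
    intro N n hn k hNk
    have h1 := hP3 _ n (m k) hn (hP2 _ _ (hanti N k hNk) _ (hm k))
    have h2 : 0 < (N : ℝ) + 1 := by positivity
    rw [le_div_iff₀ (mul_pos hS h2)]
    have h3 : S * ‖n - m k‖ * ((N : ℝ) + 1) ≤ 2 * (1 / ((N : ℝ) + 1)) * ((N : ℝ) + 1) :=
      mul_le_mul_of_nonneg_right h1 h2.le
    have h4 : 2 * (1 / ((N : ℝ) + 1)) * ((N : ℝ) + 1) = 2 := by field_simp
    have h5 : ‖n - m k‖ * (S * ((N : ℝ) + 1)) = S * ‖n - m k‖ * ((N : ℝ) + 1) := by ring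
    linarith
  have hb0 : Tendsto (fun N : ℕ => 2 / (S * ((N : ℝ) + 1))) atTop (𝓝 0) := by
    have h0 : Tendsto (fun N : ℕ => 2 / S * (1 / ((N : ℝ) + 1))) atTop (𝓝 0) := by
      simpa using tendsto_one_div_add_atTop_nhds_zero_nat.const_mul (2 / S)
    refine h0.congr (fun N => ?_)
    have h2 : 0 < (N : ℝ) + 1 := by positivity
    field_simp
  have hcauchy : CauchySeq m := by
    refine cauchySeq_of_le_tendsto_0 (fun N : ℕ => 2 / (S * ((N : ℝ) + 1))) ?_ hb0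
    intro j k N hNj hNk
    rw [dist_eq_norm]
    exact hdist N (m j) (hP2 _ _ (hanti N j hNj) _ (hm j)) k hNk
  obtain ⟨nstar, hnstar⟩ := cauchySeq_tendsto_of_complete hcauchy
  have hlim : ∀ N : ℕ, ∀ n, P (1 / ((N : ℝ) + 1)) n →
      ‖n - nstar‖ ≤ 2 / (S * ((N : ℝ) + 1)) := by
    intro N n hn
    have h1 : Tendsto (fun k => ‖n - m k‖) atTop (𝓝 ‖n - nstar‖) :=
      (tendsto_const_nhds.sub hnstar).norm
    exact le_of_tendsto h1 (eventually_atTop.2 ⟨N, fun k hk => hdist N n hn k hk⟩)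
  refine ⟨S • nstar, ?_⟩
  rw [hasFDerivAt_iff_isLittleO_nhds_zero, Asymptotics.isLittleO_iff]
  intro c hc
  obtain ⟨N, hN⟩ : ∃ N : ℕ, 3 / ((N : ℝ) + 1) ≤ c := by
    obtain ⟨N, hN⟩ := exists_nat_gt (3 / c)
    refine ⟨N, ?_⟩
    have h2 : 0 < (N : ℝ) + 1 := by positivity
    rw [div_le_iff₀ h2]
    have h3 : 3 < (N : ℝ) * c := (div_lt_iff₀ hc).1 hN
    nlinarith
  obtain ⟨ρ₀, hρ₀, hρ⟩ := hex (1 / ((N : ℝ) + 1)) (hk N)
  have hball : ∀ᶠ h : E in 𝓝 0, ‖h‖ < min ρ₀ R := by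
    have h1 : ball (0 : E) (min ρ₀ R) ∈ 𝓝 (0 : E) := ball_mem_nhds _ (lt_min hρ₀ hR)
    filter_upwards [h1] with h hh
    exact mem_ball_zero_iff.1 hh
  filter_upwards [hball] with h hh
  rcases eq_or_ne h 0 with rfl | hh0
  · simp
  have hhpos : 0 < ‖h‖ := norm_pos_iff.2 hh0
  obtain ⟨n, hn1, hn⟩ := hρ ‖h‖ ⟨hhpos, hh.le.trans (min_le_left _ _)⟩
  have hPn : P (1 / ((N : ℝ) + 1)) n :=
    ⟨‖h‖, hhpos, lt_of_lt_of_le hh (min_le_right _ _), hn1, hn⟩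
  have h1 := hlim N n hPn
  have h2 := hn h le_rfl
  have h3 : (innerSL ℝ (S • nstar)) h = S * inner ℝ nstar h := by
    rw [innerSL_apply_apply, inner_smul_left]
    simp
  rw [h3, Real.norm_eq_abs]
  have h4 : u (x + h) - u x - S * inner ℝ nstar h
      = (u (x + h) - u x - S * inner ℝ n h) + S * inner ℝ (n - nstar) h := by
    rw [inner_sub_left]
    ring
  have h5 : |inner ℝ (n - nstar) h| ≤ ‖n - nstar‖ * ‖h‖ := abs_real_inner_le_norm _ _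
  have hN1 : 0 < (N : ℝ) + 1 := by positivity
  have h6 : ‖n - nstar‖ * ‖h‖ ≤ 2 / (S * ((N : ℝ) + 1)) * ‖h‖ :=
    mul_le_mul_of_nonneg_right h1 hhpos.le
  calc |u (x + h) - u x - S * inner ℝ nstar h|
      = |(u (x + h) - u x - S * inner ℝ n h) + S * inner ℝ (n - nstar) h| := by rw [h4]
    _ ≤ |u (x + h) - u x - S * inner ℝ n h| + |S * inner ℝ (n - nstar) h| := abs_add_le _ _
    _ ≤ 1 / ((N : ℝ) + 1) * ‖h‖ + S * (‖n - nstar‖ * ‖h‖) := by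
        rw [abs_mul, abs_of_pos hS]
        exact add_le_add h2 (mul_le_mul_of_nonneg_left h5 hS.le)
    _ ≤ 1 / ((N : ℝ) + 1) * ‖h‖ + S * (2 / (S * ((N : ℝ) + 1)) * ‖h‖) :=
        add_le_add le_rfl (mul_le_mul_of_nonneg_left h6 hS.le)
    _ = 3 / ((N : ℝ) + 1) * ‖h‖ := by
        field_simp
        ring
    _ ≤ c * ‖h‖ := mul_le_mul_of_nonneg_right hN hhpos.le

end Vale.Agent.Lib.P080
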