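import Mathlib

/-!
Linear approximation at one scale.

A function which is Lipschitz with constant `L` on a ball of radius `r`, and which rises by
`S * r` at one point of the ball and falls by `S * r` at another one, is close to the linear
function `h ↦ S * inner ℝ n h` on the smaller ball of radius `ρ`, for a unit vector `n`, with an
error controlled by `L - S` and `ρ / r`.
-/

namespace Vale.Agent.Lib.P080

open Filter Topology Set Metric

variable {E : Type*} [NormedAddCommGroup E] [InnerProductSpace ℝ E]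

/-- Real arithmetic behind the norm estimate. -/
theorem qcscale_real_norm {N A I H r : ℝ} (hr : 0 < r) (hA0 : 0 ≤ A) (hA : A ≤ r)
    (hN : N ^ 2 = A ^ 2 - 2 * I + H ^ 2) : N ≤ r - I / r + H ^ 2 / (2 * r) := by
  have h1 : r - I / r + H ^ 2 / (2 * r) = (2 * r ^ 2 - 2 * I + H ^ 2) / (2 * r) := by
    field_simp
  rw [h1, le_div_iff₀ (by positivity)]
  nlinarith [sq_nonneg (N - r), mul_le_mul hA hA hA0 hr.le]

/-- The distance from `h` to a point `a` of norm at most `r`, to second order in `h`. -/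
theorem qcscale_norm_sub_le (a h : E) {r : ℝ} (hr : 0 < r) (ha : ‖a‖ ≤ r) :
    ‖a - h‖ ≤ r - inner ℝ a h / r + ‖h‖ ^ 2 / (2 * r) :=
  qcscale_real_norm hr (norm_nonneg _) ha (norm_sub_sq_real a h)

/-- A bound for a linear functional on a ball bounds the norm of its vector. -/
theorem qcscale_sup_inner {c : E} {k ρ M : ℝ} (hρ : 0 ≤ ρ)
    (h : ∀ h : E, ‖h‖ ≤ ρ → k * inner ℝ c h ≤ M) : k * (ρ * ‖c‖) ≤ M := by
  by_cases hc : c = 0
  · have h0 := h 0 (by simpa using hρ)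
    simpa [hc] using h0
  · have hn : 0 < ‖c‖ := norm_pos_iff.2 hc
    have h1 := h ((ρ / ‖c‖) • c) (by
      rw [norm_smul, Real.norm_eq_abs, abs_of_nonneg (div_nonneg hρ hn.le),
        div_mul_cancel₀ _ hn.ne'])
    rw [inner_smul_right, real_inner_self_eq_norm_sq] at h1
    have e : ρ / ‖c‖ * ‖c‖ ^ 2 = ρ * ‖c‖ := by
      field_simp
    rw [e] at h1
    exact h1

/-- Two-sided bound for the increment from the Lipschitz bound and the two extreme points. -/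
theorem qcscale_two_sided {u : E → ℝ} {x p q : E} {S L r : ℝ} (hr : 0 < r) (hL : 0 ≤ L)
    (hlip : ∀ y ∈ closedBall x r, ∀ z ∈ closedBall x r, u z - u y ≤ L * ‖z - y‖)
    (hp : p ∈ closedBall x r) (hpu : S * r ≤ u p - u x)
    (hq : q ∈ closedBall x r) (hqu : S * r ≤ u x - u q) (h : E) (hh : ‖h‖ ≤ r) :
    -((L - S) * r) + L / r * inner ℝ (p - x) h - L * ‖h‖ ^ 2 / (2 * r) ≤ u (x + h) - u x ∧
      u (x + h) - u x ≤ (L - S) * r + L / r * inner ℝ (x - q) h + L * ‖h‖ ^ 2 / (2 * r) := by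
  have hxh : x + h ∈ closedBall x r := by
    rw [mem_closedBall, dist_eq_norm, add_sub_cancel_left]
    exact hh
  have ha : ‖p - x‖ ≤ r := by
    rw [← dist_eq_norm]
    exact mem_closedBall.1 hp
  have hb : ‖x - q‖ ≤ r := by
    rw [← dist_eq_norm, dist_comm]
    exact mem_closedBall.1 hq
  constructor
  · have h1 := hlip (x + h) hxh p hp
    have e : p - (x + h) = (p - x) - h := by abel
    rw [e] at h1
    have h2 := qcscale_norm_sub_le (p - x) h hr ha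
    have h3 := mul_le_mul_of_nonneg_left h2 hL
    have e2 : L * (r - inner ℝ (p - x) h / r + ‖h‖ ^ 2 / (2 * r))
        = L * r - L / r * inner ℝ (p - x) h + L * ‖h‖ ^ 2 / (2 * r) := by ring
    linarith
  · have h1 := hlip q hq (x + h) hxh
    have e : x + h - q = (x - q) - (-h) := by abel
    rw [e] at h1
    have h2 := qcscale_norm_sub_le (x - q) (-h) hr hb
    rw [inner_neg_right, norm_neg] at h2
    have h3 := mul_le_mul_of_nonneg_left h2 hL
    have e2 : L * (r - -inner ℝ (x - q) h / r + ‖h‖ ^ 2 / (2 * r))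
        = L * r + L / r * inner ℝ (x - q) h + L * ‖h‖ ^ 2 / (2 * r) := by ring
    linarith

/-- Real arithmetic: replacing the slope `L / r * A` by `S`. -/
theorem qcscale_real_final {X I A S L r ρ E0 : ℝ} (hr : 0 < r) (hL : 0 ≤ L)
    (h1 : |X - L / r * (A * I)| ≤ 3 * E0) (h2 : S * r ≤ L * A) (h3 : A ≤ r) (h4 : |I| ≤ ρ) :
    |X - S * I| ≤ 3 * E0 + (L - S) * ρ := by
  have e0 : L / r * A = L * A / r := by ring
  have hc0 : 0 ≤ L / r * A - S := by
    have h5 : S ≤ L * A / r := by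
      rw [le_div_iff₀ hr]
      exact h2
    linarith
  have hc1 : L / r * A - S ≤ L - S := by
    have h5 : L * A / r ≤ L := by
      rw [div_le_iff₀ hr]
      exact mul_le_mul_of_nonneg_left h3 hL
    linarith
  have e : X - S * I = (X - L / r * (A * I)) + (L / r * A - S) * I := by ring
  have h5 : |(L / r * A - S) * I| ≤ (L - S) * ρ := by
    rw [abs_mul, abs_of_nonneg hc0]
    exact mul_le_mul hc1 h4 (abs_nonneg I) (by linarith)
  rw [e]
  have h6 := abs_add_le (X - L / r * (A * I)) ((L / r * A - S) * I)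
  linarith

theorem scale_core {u : E → ℝ} {x p q : E} {S L r ρ : ℝ}
    (hS : 0 < S) (hSL : S ≤ L) (hρ : 0 < ρ) (hρr : ρ ≤ r)
    (hlip : ∀ y ∈ closedBall x r, ∀ z ∈ closedBall x r, u z - u y ≤ L * ‖z - y‖)
    (hp : p ∈ closedBall x r) (hpu : S * r ≤ u p - u x)
    (hq : q ∈ closedBall x r) (hqu : S * r ≤ u x - u q) :
    ∃ n : E, ‖n‖ = 1 ∧ ∀ h : E, ‖h‖ ≤ ρ →
      |u (x + h) - u x - S * inner ℝ n h|
        ≤ 3 * (L - S) * r + 3 * L * ρ ^ 2 / (2 * r) + (L - S) * ρ := by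
  have hr : 0 < r := hρ.trans_le hρr
  have hL : 0 < L := hS.trans_le hSL
  have ha : ‖p - x‖ ≤ r := by
    rw [← dist_eq_norm]
    exact mem_closedBall.1 hp
  have hxx : x ∈ closedBall x r := mem_closedBall_self hr.le
  have hpa : S * r ≤ L * ‖p - x‖ := hpu.trans (hlip x hxx p hp)
  have hapos : 0 < ‖p - x‖ := by
    by_contra hcon
    have h0 : ‖p - x‖ = 0 := le_antisymm (not_lt.1 hcon) (norm_nonneg _)
    rw [h0, mul_zero] at hpa
    have h1 := mul_pos hS hr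
    linarith
  obtain ⟨E0, hE0⟩ : ∃ E0 : ℝ, E0 = (L - S) * r + L * ρ ^ 2 / (2 * r) := ⟨_, rfl⟩
  have hE0nn : 0 ≤ E0 := by
    rw [hE0]
    have h1 := mul_nonneg (sub_nonneg.2 hSL) hr.le
    have h2 : 0 ≤ L * ρ ^ 2 / (2 * r) := by positivity
    linarith
  have key : ∀ h : E, ‖h‖ ≤ ρ → L / r * inner ℝ (p - x) h - E0 ≤ u (x + h) - u x ∧
      u (x + h) - u x ≤ L / r * inner ℝ (x - q) h + E0 := by
    intro h hh
    obtain ⟨k1, k2⟩ := qcscale_two_sided hr hL.le hlip hp hpu hq hqu h (hh.trans hρr)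
    have hsq : L * ‖h‖ ^ 2 / (2 * r) ≤ L * ρ ^ 2 / (2 * r) := by
      apply div_le_div_of_nonneg_right _ (by positivity)
      apply mul_le_mul_of_nonneg_left _ hL.le
      exact pow_le_pow_left₀ (norm_nonneg h) hh 2
    rw [hE0]
    constructor <;> linarith
  have hD : L / r * (ρ * ‖(p - x) - (x - q)‖) ≤ 2 * E0 := by
    apply qcscale_sup_inner hρ.le
    intro h hh
    obtain ⟨k1, k2⟩ := key h hh
    rw [inner_sub_left]
    linarith
  have hM : ∀ h : E, ‖h‖ ≤ ρ → |u (x + h) - u x - L / r * inner ℝ (p - x) h| ≤ 3 * E0 := by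
    intro h hh
    obtain ⟨k1, k2⟩ := key h hh
    have hin : inner ℝ ((x - q) - (p - x)) h ≤ ‖(p - x) - (x - q)‖ * ρ := by
      calc inner ℝ ((x - q) - (p - x)) h ≤ ‖(x - q) - (p - x)‖ * ‖h‖ := real_inner_le_norm _ _
        _ = ‖(p - x) - (x - q)‖ * ‖h‖ := by rw [norm_sub_rev]
        _ ≤ ‖(p - x) - (x - q)‖ * ρ := mul_le_mul_of_nonneg_left hh (norm_nonneg _)
    rw [inner_sub_left] at hin
    have hLr : 0 ≤ L / r := div_nonneg hL.le hr.le
    have h6 := mul_le_mul_of_nonneg_left hin hLr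
    rw [abs_le]
    constructor
    · linarith
    · linarith
  refine ⟨‖p - x‖⁻¹ • (p - x), ?_, ?_⟩
  · rw [norm_smul, norm_inv, norm_norm, inv_mul_cancel₀ hapos.ne']
  · intro h hh
    have hI : |inner ℝ (‖p - x‖⁻¹ • (p - x)) h| ≤ ρ := by
      calc |inner ℝ (‖p - x‖⁻¹ • (p - x)) h|
          ≤ ‖‖p - x‖⁻¹ • (p - x)‖ * ‖h‖ := abs_real_inner_le_norm _ _
        _ = ‖h‖ := by
            rw [norm_smul, norm_inv, norm_norm, inv_mul_cancel₀ hapos.ne', one_mul]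
        _ ≤ ρ := hh
    have hAI : inner ℝ (p - x) h = ‖p - x‖ * inner ℝ (‖p - x‖⁻¹ • (p - x)) h := by
      rw [real_inner_smul_left, ← mul_assoc, mul_inv_cancel₀ hapos.ne', one_mul]
    have h1 := hM h hh
    rw [hAI] at h1
    have h2 := qcscale_real_final hr hL.le h1 hpa ha hI
    rw [hE0] at h2
    calc |u (x + h) - u x - S * inner ℝ (‖p - x‖⁻¹ • (p - x)) h|
        ≤ 3 * ((L - S) * r + L * ρ ^ 2 / (2 * r)) + (L - S) * ρ := h2
      _ = 3 * (L - S) * r + 3 * L * ρ ^ 2 / (2 * r) + (L - S) * ρ := by ring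

/-- Real arithmetic for the choice of the scales. -/
theorem qcscale_real_eta {S η θ ε' ρ : ℝ} (hS : 0 < S) (hη : 0 < η) (hθ0 : 0 < θ) (hθ1 : θ ≤ 1)
    (hθ2 : θ ≤ η / (6 * S)) (hε0 : 0 < ε') (hε1 : ε' ≤ S) (hε2 : ε' ≤ η * θ / 8) (hρ : 0 < ρ) :
    3 * ((S + ε') - S) * (ρ / θ) + 3 * (S + ε') * ρ ^ 2 / (2 * (ρ / θ)) + ((S + ε') - S) * ρ
      ≤ η * ρ := by
  have e1 : 3 * ((S + ε') - S) * (ρ / θ) = 3 * (ε' / θ) * ρ := by ring
  have e2 : 3 * (S + ε') * ρ ^ 2 / (2 * (ρ / θ)) = 3 * (S + ε') * θ / 2 * ρ := by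
    field_simp
  have e3 : ((S + ε') - S) * ρ = ε' * ρ := by ring
  rw [e1, e2, e3]
  have h1 : ε' / θ ≤ η / 8 := by
    rw [div_le_iff₀ hθ0]
    linarith
  have h2 : 6 * S * θ ≤ η := by
    have h := (le_div_iff₀ (by positivity : (0 : ℝ) < 6 * S)).1 hθ2
    linarith
  have h3 : ε' ≤ η / 8 := by nlinarith
  have h4 : 3 * (S + ε') * θ / 2 ≤ η / 2 := by nlinarith
  have h5 : 3 * (ε' / θ) + 3 * (S + ε') * θ / 2 + ε' ≤ η := by linarith
  calc 3 * (ε' / θ) * ρ + 3 * (S + ε') * θ / 2 * ρ + ε' * ρ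
      = (3 * (ε' / θ) + 3 * (S + ε') * θ / 2 + ε') * ρ := by ring
    _ ≤ η * ρ := mul_le_mul_of_nonneg_right h5 hρ.le

theorem exists_scale_approx {u : E → ℝ} {x : E} {S r₁ : ℝ} (hS : 0 < S) (hr₁ : 0 < r₁)
    (hasc : ∀ r ∈ Ioc (0 : ℝ) r₁, (∃ p ∈ closedBall x r, S * r ≤ u p - u x) ∧
      (∃ q ∈ closedBall x r, S * r ≤ u x - u q))
    (hlip : ∀ ε > 0, ∃ r₀ > 0, ∀ y ∈ closedBall x r₀, ∀ z ∈ closedBall x r₀,
      u z - u y ≤ (S + ε) * ‖z - y‖)
    {η : ℝ} (hη : 0 < η) :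
    ∃ ρ₀ > 0, ∀ ρ ∈ Ioc (0 : ℝ) ρ₀, ∃ n : E, ‖n‖ = 1 ∧ ∀ h : E, ‖h‖ ≤ ρ →
      |u (x + h) - u x - S * inner ℝ n h| ≤ η * ρ := by
  obtain ⟨θ, hθ⟩ : ∃ θ : ℝ, θ = min 1 (η / (6 * S)) := ⟨_, rfl⟩
  have hθ0 : 0 < θ := by
    rw [hθ]
    exact lt_min one_pos (by positivity)
  have hθ1 : θ ≤ 1 := by
    rw [hθ]
    exact min_le_left _ _
  have hθ2 : θ ≤ η / (6 * S) := by
    rw [hθ]
    exact min_le_right _ _
  obtain ⟨ε', hε'⟩ : ∃ ε' : ℝ, ε' = min S (η * θ / 8) := ⟨_, rfl⟩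
  have hε0 : 0 < ε' := by
    rw [hε']
    exact lt_min hS (by positivity)
  have hε1 : ε' ≤ S := by
    rw [hε']
    exact min_le_left _ _
  have hε2 : ε' ≤ η * θ / 8 := by
    rw [hε']
    exact min_le_right _ _
  obtain ⟨r₀, hr₀, hL⟩ := hlip ε' hε0
  refine ⟨θ * min r₀ r₁, mul_pos hθ0 (lt_min hr₀ hr₁), ?_⟩
  intro ρ hρ
  have hρ0 : 0 < ρ := hρ.1
  have hr : 0 < ρ / θ := div_pos hρ0 hθ0
  have hρr : ρ ≤ ρ / θ := by
    rw [le_div_iff₀ hθ0]
    nlinarith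
  have hrmin : ρ / θ ≤ min r₀ r₁ := by
    rw [div_le_iff₀ hθ0]
    have h1 := hρ.2
    linarith
  have hr0 : ρ / θ ≤ r₀ := hrmin.trans (min_le_left _ _)
  have hr1 : ρ / θ ≤ r₁ := hrmin.trans (min_le_right _ _)
  obtain ⟨⟨p, hp, hpu⟩, ⟨q, hq, hqu⟩⟩ := hasc (ρ / θ) ⟨hr, hr1⟩
  have hsub : closedBall x (ρ / θ) ⊆ closedBall x r₀ := closedBall_subset_closedBall hr0
  have hlip' : ∀ y ∈ closedBall x (ρ / θ), ∀ z ∈ closedBall x (ρ / θ),
      u z - u y ≤ (S + ε') * ‖z - y‖ := fun y hy z hz => hL y (hsub hy) z (hsub hz)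
  obtain ⟨n, hn, hbound⟩ :=
    scale_core hS (by linarith : S ≤ S + ε') hρ0 hρr hlip' hp hpu hq hqu
  refine ⟨n, hn, fun h hh => (hbound h hh).trans ?_⟩
  exact qcscale_real_eta hS hη hθ0 hθ1 hθ2 hε0 hε1 hε2 hρ0

end Vale.Agent.Lib.P080
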