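import Mathlib
import Vale.Agent.Lib.P080.Slope

namespace Vale.Agent.Lib.P080

open Filter Topology Set Metric

section

variable {E : Type*} [NormedAddCommGroup E] [InnerProductSpace ℝ E] [CompleteSpace E]

/-- Quasi-concavity along segments with endpoints in `B`. -/
def QCOn (u : E → ℝ) (B : Set E) : Prop :=
  ∀ x ∈ B, ∀ y ∈ B, ∀ w ∈ segment ℝ x y, min (u x) (u y) ≤ u w

omit [CompleteSpace E] in
theorem dirDeriv_hasDerivAt {u : E → ℝ} {x : E} (hd : DifferentiableAt ℝ u x) (v : E) :
    HasDerivAt (fun t : ℝ => u (x + t • v)) (fderiv ℝ u x v) 0 := by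
  have h0 : x + (0 : ℝ) • v = x := by simp
  have h1 : HasFDerivAt u (fderiv ℝ u x) (x + (0 : ℝ) • v) := by
    rw [h0]; exact hd.hasFDerivAt
  exact h1.comp_hasDerivAt 0 (lineE_hasDerivAt x v 0)

omit [CompleteSpace E] in
/-- One-sided slope bound from above along a direction. -/
theorem fderiv_le_of_slope_le {u : E → ℝ} {x v : E} (hd : DifferentiableAt ℝ u x) {τ M : ℝ}
    (hτ : 0 < τ) (h : ∀ t ∈ Ioc (0 : ℝ) τ, u (x + t • v) ≤ u x + M * t) :
    fderiv ℝ u x v ≤ M := by
  have hg := dirDeriv_hasDerivAt hd v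
  have hslope := (hasDerivAt_iff_tendsto_slope_zero.mp hg).mono_left
    (nhdsWithin_mono 0 (fun t (ht : t ∈ Ioi (0 : ℝ)) => ne_of_gt ht))
  have hev : ∀ᶠ t in 𝓝[>] (0 : ℝ), t⁻¹ • ((fun t : ℝ => u (x + t • v)) (0 + t)
      - (fun t : ℝ => u (x + t • v)) 0) ≤ M := by
    filter_upwards [Ioc_mem_nhdsGT hτ] with t ht
    have h2 := h t ht
    simp only [zero_add, zero_smul, add_zero, smul_eq_mul]
    rw [inv_mul_le_iff₀ ht.1]
    linarith
  exact le_of_tendsto hslope hev

omit [CompleteSpace E] in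
/-- One-sided slope bound from below along a direction. -/
theorem le_fderiv_of_le_slope {u : E → ℝ} {x v : E} (hd : DifferentiableAt ℝ u x) {τ M : ℝ}
    (hτ : 0 < τ) (h : ∀ t ∈ Ioc (0 : ℝ) τ, u x + M * t ≤ u (x + t • v)) :
    M ≤ fderiv ℝ u x v := by
  have hg := dirDeriv_hasDerivAt hd v
  have hslope := (hasDerivAt_iff_tendsto_slope_zero.mp hg).mono_left
    (nhdsWithin_mono 0 (fun t (ht : t ∈ Ioi (0 : ℝ)) => ne_of_gt ht))
  have hev : ∀ᶠ t in 𝓝[>] (0 : ℝ), M ≤ t⁻¹ • ((fun t : ℝ => u (x + t • v)) (0 + t)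
      - (fun t : ℝ => u (x + t • v)) 0) := by
    filter_upwards [Ioc_mem_nhdsGT hτ] with t ht
    have h2 := h t ht
    simp only [zero_add, zero_smul, add_zero, smul_eq_mul]
    rw [le_inv_mul_iff₀ ht.1]
    linarith
  exact ge_of_tendsto hslope hev

omit [CompleteSpace E] in
/-- Quasi-concavity: a negative directional derivative towards `y` forces `u y < u x`. -/
theorem lt_of_fderiv_neg {u : E → ℝ} {B : Set E} (hqc : QCOn u B) {x y : E} (hx : x ∈ B)
    (hy : y ∈ B) (hd : DifferentiableAt ℝ u x) (h : fderiv ℝ u x (y - x) < 0) : u y < u x := by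
  by_contra hcon
  rw [not_lt] at hcon
  have h1 : (0 : ℝ) ≤ fderiv ℝ u x (y - x) := by
    refine le_fderiv_of_le_slope hd one_pos (fun t ht => ?_)
    have hw : x + t • (y - x) ∈ segment ℝ x y := by
      refine ⟨1 - t, t, by linarith [ht.2], ht.1.le, by ring, ?_⟩
      rw [smul_sub, sub_smul, one_smul]
      abel
    have := hqc x hx y hy _ hw
    rw [min_eq_left hcon] at this
    linarith
  linarith

variable [ProperSpace E]

/-- Increasing slope: at a maximum point `y` of `u` on the sphere of radius `r` around `z`,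
the slope of `u` at `y` is at least `(u y - u z) / r`. -/
theorem slope_ge_of_max_sphere {u : E → ℝ} {Ω : Set E} (hu : IsInfinityHarmonicOn u Ω)
    {z y : E} {r : ℝ} (hr : 0 < r) (hball : closedBall z r ⊆ Ω) (hy : y ∈ sphere z r)
    (hmax : ∀ w ∈ sphere z r, u w ≤ u y) (hd : DifferentiableAt ℝ u y) :
    u y - u z ≤ r * ‖fderiv ℝ u y‖ := by
  by_cases hc : u y ≤ u z
  · have : 0 ≤ r * ‖fderiv ℝ u y‖ := by positivity
    linarith
  rw [not_le] at hc
  set M := (u y - u z) / r with hM
  have hMpos : 0 < M := div_pos (by linarith) hr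
  have hMr : M * r = u y - u z := by
    rw [hM]; field_simp
  have hsph : ∀ w ∈ sphere z r, u w ≤ u z + M * r := by
    intro w hw
    have := hmax w hw
    linarith
  have hcone := cone_above hu hr hMpos.le hball hsph
  have hyz : ‖y - z‖ = r := by
    rw [← dist_eq_norm]; exact mem_sphere.mp hy
  set v := (1 / r) • (z - y) with hv
  have hvn : ‖v‖ = 1 := by
    rw [hv, norm_smul, norm_sub_rev, hyz, Real.norm_eq_abs, abs_of_pos (by positivity)]
    field_simp
  have h1 : fderiv ℝ u y v ≤ -M := by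
    refine fderiv_le_of_slope_le hd hr (fun t ht => ?_)
    have e1 : y + t • v - z = (1 - t / r) • (y - z) := by
      rw [hv, smul_smul, sub_smul, one_smul]
      have : t * (1 / r) = t / r := by ring
      rw [this]
      have e2 : (t / r) • (z - y) = -((t / r) • (y - z)) := by
        rw [← smul_neg, neg_sub]
      rw [e2]
      abel
    have h0 : 0 ≤ 1 - t / r := by
      rw [sub_nonneg, div_le_one hr]; exact ht.2
    have e3 : ‖y + t • v - z‖ = r - t := by
      rw [e1, norm_smul, hyz, Real.norm_eq_abs, abs_of_nonneg h0]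
      field_simp
    have hmem : y + t • v ∈ closedBall z r := by
      rw [mem_closedBall, dist_eq_norm, e3]
      linarith [ht.1]
    have := hcone _ hmem
    rw [e3] at this
    nlinarith
  have h2 : -‖fderiv ℝ u y‖ ≤ fderiv ℝ u y v := by
    have := (fderiv ℝ u y).le_opNorm v
    rw [hvn, mul_one, Real.norm_eq_abs] at this
    exact (abs_le.mp this).1
  have h3 : M ≤ ‖fderiv ℝ u y‖ := by linarith
  calc u y - u z = M * r := hMr.symm
    _ ≤ ‖fderiv ℝ u y‖ * r := mul_le_mul_of_nonneg_right h3 hr.le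
    _ = r * ‖fderiv ℝ u y‖ := mul_comm _ _

/-- The key one-sided slope bound for quasi-concave infinity-harmonic functions: going
backwards from `x` along the gradient direction by `r` loses at most `r |Du(x)|`. -/
theorem star_slope {u : E → ℝ} {Ω : Set E} (hu : IsInfinityHarmonicOn u Ω) {B : Set E}
    (hBΩ : B ⊆ Ω) (hqc : QCOn u B) {x : E} {r : ℝ} (hr : 0 < r) (hd : DifferentiableAt ℝ u x)
    (hpos : 0 < ‖fderiv ℝ u x‖) (hball : closedBall (x - r • gdir u x) r ⊆ B) :
    u x - u (x - r • gdir u x) ≤ r * ‖fderiv ℝ u x‖ := by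
  set n := gdir u x with hn
  have hnn : ‖n‖ = 1 := gdir_norm hpos
  set z := x - r • n with hz
  have hxz : x - z = r • n := by rw [hz]; abel
  have hxs : x ∈ sphere z r := by
    rw [mem_sphere, dist_eq_norm, hxz, norm_smul, hnn, Real.norm_eq_abs, abs_of_pos hr, mul_one]
  have hxB : x ∈ B := hball (sphere_subset_closedBall hxs)
  have hmax : ∀ w ∈ sphere z r, u w ≤ u x := by
    intro w hw
    by_cases hwx : w = x
    · rw [hwx]
    have hwB : w ∈ B := hball (sphere_subset_closedBall hw)
    have hwz : ‖w - z‖ = r := by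
      rw [← dist_eq_norm]; exact mem_sphere.mp hw
    have e1 : w - z = (w - x) + r • n := by rw [hz]; abel
    have e2 : ‖w - z‖ ^ 2 = ‖w - x‖ ^ 2 + 2 * (r * inner ℝ (w - x) n) + r ^ 2 := by
      rw [e1, norm_add_sq_real, inner_smul_right, norm_smul, hnn, Real.norm_eq_abs,
        abs_of_pos hr, mul_one]
    rw [hwz] at e2
    have hpos' : 0 < ‖w - x‖ := norm_pos_iff.mpr (sub_ne_zero.mpr hwx)
    have e3 : r * inner ℝ (w - x) n < 0 := by nlinarith
    have e4 : inner ℝ n (w - x) < 0 := by
      rw [real_inner_comm]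
      by_contra hcon
      rw [not_lt] at hcon
      have := mul_nonneg hr.le hcon
      linarith
    have e5 : fderiv ℝ u x (w - x) < 0 := by
      rw [fderiv_eq_inner_gdir hpos]
      exact mul_neg_of_pos_of_neg hpos e4
    exact (lt_of_fderiv_neg hqc hxB hwB hd e5).le
  exact slope_ge_of_max_sphere hu hr (hball.trans hBΩ) hxs hmax hd

end

end Vale.Agent.Lib.P080
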