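import Mathlib
import Vale.Agent.Lib.P080.Slope
import Vale.Agent.Lib.P080.QuasiConcave

namespace Vale.Agent.Lib.P080

open Filter Topology Set Metric

section

variable {E : Type*} [NormedAddCommGroup E] [InnerProductSpace ℝ E] [CompleteSpace E]

omit [InnerProductSpace ℝ E] [CompleteSpace E] in
/-- First-order expansion with explicit error at a point of differentiability. -/
theorem exists_taylor1 {F : Type*} [NormedAddCommGroup F] [NormedSpace ℝ F] {u : F → ℝ} {x₀ : F}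
    (hd : DifferentiableAt ℝ u x₀) {c : ℝ} (hc : 0 < c) :
    ∃ δ > 0, ∀ h : F, ‖h‖ < δ → |u (x₀ + h) - u x₀ - fderiv ℝ u x₀ h| ≤ c * ‖h‖ := by
  have hlo := hd.hasFDerivAt
  rw [hasFDerivAt_iff_isLittleO_nhds_zero] at hlo
  have h2 := Asymptotics.isLittleO_iff.mp hlo hc
  obtain ⟨δ₁, hδ₁, hP⟩ := Metric.eventually_nhds_iff.mp h2
  refine ⟨δ₁, hδ₁, fun h hh => ?_⟩
  have h3 := hP (y := h) (by rw [dist_zero_right]; exact hh)
  rwa [Real.norm_eq_abs] at h3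

variable [ProperSpace E]

/-- Upper semicontinuity of the slope of a differentiable infinity-harmonic function. -/
theorem slope_usc {u : E → ℝ} {Ω : Set E} (hΩ : IsOpen Ω)
    (hu : IsInfinityHarmonicOn u Ω) (hdiff : ∀ x ∈ Ω, DifferentiableAt ℝ u x)
    {x₀ : E} (hx₀ : x₀ ∈ Ω) {η : ℝ} (hη : 0 < η) :
    ∃ δ > 0, ∀ x, ‖x - x₀‖ < δ → ‖fderiv ℝ u x‖ ≤ ‖fderiv ℝ u x₀‖ + η := by
  obtain ⟨ρ₁, hρ₁, hρ₁sub⟩ := Metric.isOpen_iff.mp hΩ x₀ hx₀
  have hc : 0 < η / 4 := by positivity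
  obtain ⟨δ₁, hδ₁, hP⟩ := exists_taylor1 (hdiff x₀ hx₀) hc
  set L := fderiv ℝ u x₀ with hL
  have hsmall : ∀ y : E, ‖y - x₀‖ < δ₁ → |u y - u x₀ - L (y - x₀)| ≤ η / 4 * ‖y - x₀‖ := by
    intro y hy
    have h3 := hP (y - x₀) hy
    rwa [add_sub_cancel] at h3
  set r := min δ₁ ρ₁ / 4 with hr
  have hm : 0 < min δ₁ ρ₁ := lt_min hδ₁ hρ₁
  have hrpos : 0 < r := by positivity
  have hrδ : 2 * r < δ₁ := by
    have : min δ₁ ρ₁ ≤ δ₁ := min_le_left _ _
    rw [hr]; linarith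
  have hrρ : 2 * r < ρ₁ := by
    have : min δ₁ ρ₁ ≤ ρ₁ := min_le_right _ _
    rw [hr]; linarith
  refine ⟨r, hrpos, fun x hx => ?_⟩
  rcases (norm_nonneg (fderiv ℝ u x)).eq_or_lt with hz | hpos
  · rw [← hz]
    have := norm_nonneg L
    linarith
  · have hbx : closedBall x r ⊆ Ω := by
      intro y hy
      apply hρ₁sub
      rw [mem_closedBall] at hy
      rw [mem_ball]
      have := dist_triangle y x x₀
      rw [dist_eq_norm x x₀] at this
      linarith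
    have hxΩ : x ∈ Ω := hbx (mem_closedBall_self hrpos.le)
    obtain ⟨y, hy, hasc⟩ := exists_ascent hu hrpos hbx (hdiff x hxΩ) hpos
    have hyx : ‖y - x‖ = r := by
      rw [← dist_eq_norm]; exact mem_sphere.mp hy
    have hyx₀ : ‖y - x₀‖ ≤ 2 * r := by
      have e : y - x₀ = (y - x) + (x - x₀) := by abel
      rw [e]
      have := norm_add_le (y - x) (x - x₀)
      linarith
    have h3 := (abs_le.mp (hsmall y (by linarith))).2
    have h4 := (abs_le.mp (hsmall x (by linarith))).1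
    have h5 : L (y - x₀) - L (x - x₀) = L (y - x) := by
      rw [← map_sub]; congr 1; abel
    have h6 : L (y - x) ≤ ‖L‖ * r := by
      have := L.le_opNorm (y - x)
      rw [hyx, Real.norm_eq_abs] at this
      exact le_trans (le_abs_self _) this
    have b1 : η / 4 * ‖y - x₀‖ ≤ η / 4 * (2 * r) := mul_le_mul_of_nonneg_left hyx₀ hc.le
    have b2 : η / 4 * ‖x - x₀‖ ≤ η / 4 * r := mul_le_mul_of_nonneg_left hx.le hc.le
    have h7 : r * ‖fderiv ℝ u x‖ ≤ r * (‖L‖ + 3 * η / 4) := by nlinarith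
    have h8 : ‖fderiv ℝ u x‖ ≤ ‖L‖ + 3 * η / 4 := le_of_mul_le_mul_left h7 hrpos
    linarith

omit [NormedAddCommGroup E] [InnerProductSpace ℝ E] [CompleteSpace E] [ProperSpace E] in
theorem qc_arith {a β ε : ℝ} (hε : 0 < ε) (hβε : β * ε ^ 2 = 8) (ha_le : a ≤ 1)
    (ha_ge : -1 ≤ a) (h5 : -(1 / 4 : ℝ) < a - β * (1 - a ^ 2)) : 1 - ε ^ 2 / 2 ≤ a := by
  have hε2 : 0 < ε ^ 2 := by positivity
  have hβpos : 0 < β := by
    by_contra hcon
    rw [not_lt] at hcon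
    nlinarith
  by_contra hcon
  rw [not_le] at hcon
  by_cases hcase : a ≤ -1 / 2
  · have : 0 ≤ β * (1 - a ^ 2) := mul_nonneg hβpos.le (by nlinarith)
    linarith
  · rw [not_le] at hcase
    have h7 : ε ^ 2 / 4 < 1 - a ^ 2 := by
      nlinarith [mul_pos (sub_pos.mpr hcon) (by linarith : (0 : ℝ) < 1 + a),
        mul_pos hε2 (by linarith : (0 : ℝ) < a + 1 / 2)]
    have h8 : β * (ε ^ 2 / 4) < β * (1 - a ^ 2) := mul_lt_mul_of_pos_left h7 hβpos
    have h9 : β * (ε ^ 2 / 4) = 2 := by linarith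
    linarith

omit [ProperSpace E] in
/-- Quasi-concavity forces the gradient direction to be continuous at a non-critical point. -/
theorem gdir_close_qc {u : E → ℝ} {x₀ : E} {ρ : ℝ} (hρ : 0 < ρ) (hqc : QCOn u (ball x₀ ρ))
    (hd₀ : DifferentiableAt ℝ u x₀) (hpos₀ : 0 < ‖fderiv ℝ u x₀‖) {ε : ℝ} (hε : 0 < ε) :
    ∃ δ > 0, ∀ x, ‖x - x₀‖ < δ → DifferentiableAt ℝ u x → 0 < ‖fderiv ℝ u x‖ →
      ‖gdir u x - gdir u x₀‖ ≤ ε := by
  set e := gdir u x₀ with he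
  set s₀ := ‖fderiv ℝ u x₀‖ with hs₀
  have hen : ‖e‖ = 1 := gdir_norm hpos₀
  set β := 8 / ε ^ 2 with hβ
  have hβpos : 0 < β := by positivity
  set K := 1 + 2 * β with hK
  have hKpos : 0 < K := by positivity
  have hc : 0 < s₀ / (2 * K) := by positivity
  obtain ⟨δ₁, hδ₁, hP⟩ := exists_taylor1 hd₀ hc
  have hm : 0 < min δ₁ ρ := lt_min hδ₁ hρ
  set t := min δ₁ ρ / (2 * K) with ht
  have htpos : 0 < t := by positivity
  have htK : t * K = min δ₁ ρ / 2 := by rw [ht]; field_simp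
  have htK1 : t * K < δ₁ := by
    have : min δ₁ ρ ≤ δ₁ := min_le_left _ _
    rw [htK]; linarith
  have htK2 : t * K < ρ := by
    have : min δ₁ ρ ≤ ρ := min_le_right _ _
    rw [htK]; linarith
  have hts : 0 < t * s₀ := mul_pos htpos hpos₀
  have hcont : ∀ᶠ x in 𝓝 x₀, u x < u x₀ + t * s₀ / 2 :=
    hd₀.continuousAt.eventually (gt_mem_nhds (by linarith))
  obtain ⟨δ₂, hδ₂, hP₂⟩ := Metric.eventually_nhds_iff.mp hcont
  refine ⟨min δ₂ (min ρ (t / 4)), lt_min hδ₂ (lt_min hρ (by positivity)),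
    fun x hx hdx hposx => ?_⟩
  have hx2 : ‖x - x₀‖ < δ₂ := lt_of_lt_of_le hx (min_le_left _ _)
  have hxρ : ‖x - x₀‖ < ρ := lt_of_lt_of_le hx ((min_le_right _ _).trans (min_le_left _ _))
  have hxt : ‖x - x₀‖ < t / 4 :=
    lt_of_lt_of_le hx ((min_le_right _ _).trans (min_le_right _ _))
  set n := gdir u x with hn
  have hnn : ‖n‖ = 1 := gdir_norm hposx
  set a := inner ℝ n e with ha
  have ha1 : |a| ≤ 1 := by
    have := abs_real_inner_le_norm n e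
    rwa [hnn, hen, mul_one] at this
  have ha_le : a ≤ 1 := (abs_le.mp ha1).2
  have ha_ge : -1 ≤ a := (abs_le.mp ha1).1
  set v := e - β • (n - a • e) with hv
  have hen' : inner ℝ e n = a := by rw [ha, real_inner_comm]
  have hev : inner ℝ e v = 1 := by
    rw [hv, inner_sub_right, inner_smul_right, inner_sub_right, inner_smul_right,
      real_inner_self_eq_norm_sq, hen, hen']
    ring
  have hnv : inner ℝ n v = a - β * (1 - a ^ 2) := by
    rw [hv, inner_sub_right, inner_smul_right, inner_sub_right, inner_smul_right,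
      real_inner_self_eq_norm_sq, hnn]
    ring
  have hvn : ‖v‖ ≤ K := by
    have h1 : ‖n - a • e‖ ≤ 2 := by
      calc ‖n - a • e‖ ≤ ‖n‖ + ‖a • e‖ := norm_sub_le _ _
        _ = 1 + |a| := by rw [hnn, norm_smul, hen, mul_one, Real.norm_eq_abs]
        _ ≤ 2 := by linarith
    calc ‖v‖ ≤ ‖e‖ + ‖β • (n - a • e)‖ := norm_sub_le _ _
      _ = 1 + β * ‖n - a • e‖ := by rw [hen, norm_smul, Real.norm_eq_abs, abs_of_pos hβpos]
      _ ≤ 1 + β * 2 := by
          have := mul_le_mul_of_nonneg_left h1 hβpos.le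
          linarith
      _ = K := by rw [hK]; ring
  set p := x₀ + t • v with hp
  have htv : ‖t • v‖ ≤ t * K := by
    rw [norm_smul, Real.norm_eq_abs, abs_of_pos htpos]
    exact mul_le_mul_of_nonneg_left hvn htpos.le
  have hpB : p ∈ ball x₀ ρ := by
    rw [mem_ball, dist_eq_norm, hp, add_sub_cancel_left]
    linarith
  have hxB : x ∈ ball x₀ ρ := by
    rw [mem_ball, dist_eq_norm]; exact hxρ
  have hup : u x₀ + t * s₀ / 2 ≤ u p := by
    have h1 := (abs_le.mp (hP (t • v) (by linarith))).1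
    have h2 : fderiv ℝ u x₀ (t • v) = t * s₀ := by
      rw [map_smul, fderiv_eq_inner_gdir hpos₀, ← he, hev, smul_eq_mul, mul_one]
    rw [h2] at h1
    have h3 : s₀ / (2 * K) * ‖t • v‖ ≤ s₀ / (2 * K) * (t * K) :=
      mul_le_mul_of_nonneg_left htv hc.le
    have h4 : s₀ / (2 * K) * (t * K) = t * s₀ / 2 := by field_simp
    rw [hp]
    linarith
  have hux : u x < u x₀ + t * s₀ / 2 := hP₂ (by rw [dist_eq_norm]; exact hx2)
  have h0 : 0 ≤ fderiv ℝ u x (p - x) := by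
    by_contra hcon
    rw [not_le] at hcon
    have := lt_of_fderiv_neg hqc hxB hpB hdx hcon
    linarith
  rw [fderiv_eq_inner_gdir hposx, ← hn] at h0
  have h1 : 0 ≤ inner ℝ n (p - x) := by
    by_contra hcon
    rw [not_le] at hcon
    have := mul_neg_of_pos_of_neg hposx hcon
    linarith
  have h2 : inner ℝ n (p - x) = inner ℝ n (x₀ - x) + t * (a - β * (1 - a ^ 2)) := by
    have : p - x = (x₀ - x) + t • v := by rw [hp]; abel
    rw [this, inner_add_right, inner_smul_right, hnv]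
  have h3 : inner ℝ n (x₀ - x) ≤ ‖x - x₀‖ := by
    have := real_inner_le_norm n (x₀ - x)
    rwa [hnn, one_mul, norm_sub_rev] at this
  have h4 : -(1 / 4 : ℝ) * t < t * (a - β * (1 - a ^ 2)) := by linarith
  have h5 : -(1 / 4 : ℝ) < a - β * (1 - a ^ 2) := by
    by_contra hcon
    rw [not_lt] at hcon
    have := mul_le_mul_of_nonneg_left hcon htpos.le
    linarith
  have hβε : β * ε ^ 2 = 8 := by rw [hβ]; field_simp
  have h6 : 1 - ε ^ 2 / 2 ≤ a := qc_arith hε hβε ha_le ha_ge h5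
  have h10 : ‖n - e‖ ^ 2 = 2 - 2 * a := by
    rw [norm_sub_sq_real, hnn, hen]; ring
  have h11 : ‖n - e‖ ^ 2 ≤ ε ^ 2 := by rw [h10]; linarith
  exact (sq_le_sq₀ (norm_nonneg _) hε.le).mp h11

/-- Lower semicontinuity of the slope at a non-critical point along non-critical points, for
a quasi-concave infinity-harmonic function. -/
theorem slope_lsc_qc {u : E → ℝ} {Ω : Set E} (hu : IsInfinityHarmonicOn u Ω)
    (hdiff : ∀ x ∈ Ω, DifferentiableAt ℝ u x) {x₀ : E} {ρ : ℝ} (hρ : 0 < ρ)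
    (hsub : ball x₀ ρ ⊆ Ω) (hqc : QCOn u (ball x₀ ρ)) (hpos₀ : 0 < ‖fderiv ℝ u x₀‖)
    {η : ℝ} (hη : 0 < η) :
    ∃ δ > 0, ∀ x, ‖x - x₀‖ < δ → 0 < ‖fderiv ℝ u x‖ →
      ‖fderiv ℝ u x₀‖ - η ≤ ‖fderiv ℝ u x‖ := by
  have hx₀ : x₀ ∈ Ω := hsub (mem_ball_self hρ)
  set e := gdir u x₀ with he
  set s₀ := ‖fderiv ℝ u x₀‖ with hs₀
  have hen : ‖e‖ = 1 := gdir_norm hpos₀
  have hc : 0 < η / 4 := by positivity
  obtain ⟨δ₁, hδ₁, hP⟩ := exists_taylor1 (hdiff x₀ hx₀) hc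
  have hm : 0 < min δ₁ ρ := lt_min hδ₁ hρ
  set r := min δ₁ ρ / 4 with hr
  have hrpos : 0 < r := by positivity
  have hrδ : r < δ₁ := by
    have : min δ₁ ρ ≤ δ₁ := min_le_left _ _
    rw [hr]; linarith
  have hrρ : 4 * r ≤ ρ := by
    have : min δ₁ ρ ≤ ρ := min_le_right _ _
    rw [hr]; linarith
  set z₀ := x₀ - r • e with hz₀
  have hre : ‖r • e‖ = r := by
    rw [norm_smul, hen, Real.norm_eq_abs, abs_of_pos hrpos, mul_one]
  have hz₀B : z₀ ∈ ball x₀ ρ := by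
    rw [mem_ball, dist_eq_norm, hz₀, sub_sub_cancel_left, norm_neg, hre]; linarith
  have hcr : 0 < η / 4 * r := mul_pos hc hrpos
  have hdrop : r * s₀ - η / 4 * r ≤ u x₀ - u z₀ := by
    have h1 := (abs_le.mp (hP (-(r • e)) (by rw [norm_neg, hre]; exact hrδ))).2
    have h2 : fderiv ℝ u x₀ (-(r • e)) = -(r * s₀) := by
      rw [map_neg, map_smul, fderiv_eq_inner_gdir hpos₀, ← he, real_inner_self_eq_norm_sq,
        hen, smul_eq_mul]
      ring
    rw [h2, norm_neg, hre, ← sub_eq_add_neg, ← hz₀] at h1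
    linarith
  have hc3 : ∀ᶠ y in 𝓝 z₀, u y < u z₀ + η / 4 * r :=
    (hdiff z₀ (hsub hz₀B)).continuousAt.eventually (gt_mem_nhds (by linarith))
  obtain ⟨δ₃, hδ₃, hP₃⟩ := Metric.eventually_nhds_iff.mp hc3
  have hc2 : ∀ᶠ x in 𝓝 x₀, u x₀ - η / 4 * r < u x :=
    (hdiff x₀ hx₀).continuousAt.eventually (lt_mem_nhds (by linarith))
  obtain ⟨δ₂, hδ₂, hP₂⟩ := Metric.eventually_nhds_iff.mp hc2
  obtain ⟨δ₅, hδ₅, hP₅⟩ := gdir_close_qc hρ hqc (hdiff x₀ hx₀) hpos₀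
    (by positivity : 0 < δ₃ / (2 * r))
  refine ⟨min (min δ₂ (δ₃ / 2)) (min δ₅ r),
    lt_min (lt_min hδ₂ (by positivity)) (lt_min hδ₅ hrpos), fun x hx hposx => ?_⟩
  have hx2 : ‖x - x₀‖ < δ₂ := lt_of_lt_of_le hx ((min_le_left _ _).trans (min_le_left _ _))
  have hx3 : ‖x - x₀‖ < δ₃ / 2 :=
    lt_of_lt_of_le hx ((min_le_left _ _).trans (min_le_right _ _))
  have hx5 : ‖x - x₀‖ < δ₅ := lt_of_lt_of_le hx ((min_le_right _ _).trans (min_le_left _ _))
  have hxr : ‖x - x₀‖ < r := lt_of_lt_of_le hx ((min_le_right _ _).trans (min_le_right _ _))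
  have hxB : x ∈ ball x₀ ρ := by rw [mem_ball, dist_eq_norm]; linarith
  have hdx := hdiff x (hsub hxB)
  have hclose := hP₅ x hx5 hdx hposx
  have hnn : ‖gdir u x‖ = 1 := gdir_norm hposx
  have hrn : ‖r • gdir u x‖ = r := by
    rw [norm_smul, hnn, Real.norm_eq_abs, abs_of_pos hrpos, mul_one]
  have hyz : ‖(x - r • gdir u x) - z₀‖ < δ₃ := by
    have e1 : (x - r • gdir u x) - z₀ = (x - x₀) - r • (gdir u x - e) := by
      rw [hz₀, smul_sub]; abel
    have e2 : ‖r • (gdir u x - e)‖ ≤ δ₃ / 2 := by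
      rw [norm_smul, Real.norm_eq_abs, abs_of_pos hrpos]
      calc r * ‖gdir u x - e‖ ≤ r * (δ₃ / (2 * r)) :=
            mul_le_mul_of_nonneg_left hclose hrpos.le
        _ = δ₃ / 2 := by field_simp
    rw [e1]
    have := norm_sub_le (x - x₀) (r • (gdir u x - e))
    linarith
  have huy : u (x - r • gdir u x) < u z₀ + η / 4 * r :=
    hP₃ (by rw [dist_eq_norm]; exact hyz)
  have hux : u x₀ - η / 4 * r < u x := hP₂ (by rw [dist_eq_norm]; exact hx2)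
  have hball : closedBall (x - r • gdir u x) r ⊆ ball x₀ ρ := by
    intro w hw
    rw [mem_closedBall, dist_eq_norm] at hw
    rw [mem_ball, dist_eq_norm]
    have e1 : w - x₀ = (w - (x - r • gdir u x)) - r • gdir u x + (x - x₀) := by abel
    rw [e1]
    have h1 := norm_add_le ((w - (x - r • gdir u x)) - r • gdir u x) (x - x₀)
    have h2 := norm_sub_le (w - (x - r • gdir u x)) (r • gdir u x)
    linarith
  have hstar := star_slope hu hsub hqc hrpos hdx hposx hball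
  have h7 : r * (s₀ - η) ≤ r * ‖fderiv ℝ u x‖ := by nlinarith
  exact le_of_mul_le_mul_left h7 hrpos

/-- Inside a region where non-critical points have slope bounded below, a point at which
non-critical points accumulate is non-critical. -/
theorem noncrit_of_frequently {u : E → ℝ} {Ω : Set E} (hΩ : IsOpen Ω)
    (hu : IsInfinityHarmonicOn u Ω) (hdiff : ∀ x ∈ Ω, DifferentiableAt ℝ u x)
    {y : E} (hy : y ∈ Ω) {c : ℝ} (hc : 0 < c) {G : Set E} (hG : G ∈ 𝓝 y)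
    (hlow : ∀ x ∈ G, fderiv ℝ u x ≠ 0 → c ≤ ‖fderiv ℝ u x‖)
    (hfreq : ∃ᶠ x in 𝓝 y, fderiv ℝ u x ≠ 0) : fderiv ℝ u y ≠ 0 := by
  obtain ⟨δ, hδ, hP⟩ := slope_usc hΩ hu hdiff hy (half_pos hc)
  have hev : ∀ᶠ x in 𝓝 y, x ∈ G ∧ ‖fderiv ℝ u x‖ ≤ ‖fderiv ℝ u y‖ + c / 2 := by
    have h1 : ∀ᶠ x in 𝓝 y, ‖x - y‖ < δ := by
      filter_upwards [Metric.ball_mem_nhds y hδ] with x hx
      rwa [mem_ball, dist_eq_norm] at hx
    filter_upwards [hG, h1] with x hx1 hx2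
    exact ⟨hx1, hP x hx2⟩
  obtain ⟨x, hx, hx1, hx2⟩ := (hfreq.and_eventually hev).exists
  have := hlow x hx1 hx
  intro h0
  rw [h0, norm_zero] at hx2
  linarith

/-- Near a non-critical point of a quasi-concave infinity-harmonic function there are no
critical points. -/
theorem noncrit_near_qc {u : E → ℝ} {Ω : Set E} (hΩ : IsOpen Ω)
    (hu : IsInfinityHarmonicOn u Ω) (hdiff : ∀ x ∈ Ω, DifferentiableAt ℝ u x) {x₀ : E} {ρ : ℝ}
    (hρ : 0 < ρ) (hsub : ball x₀ ρ ⊆ Ω) (hqc : QCOn u (ball x₀ ρ))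
    (hpos₀ : 0 < ‖fderiv ℝ u x₀‖) :
    ∃ δ > 0, ∀ x, ‖x - x₀‖ < δ → 0 < ‖fderiv ℝ u x‖ := by
  have hx₀ : x₀ ∈ Ω := hsub (mem_ball_self hρ)
  obtain ⟨δ₆, hδ₆, hP₆⟩ := slope_lsc_qc hu hdiff hρ hsub hqc hpos₀ (half_pos hpos₀)
  obtain ⟨δ₅, hδ₅, hP₅⟩ := gdir_close_qc hρ hqc (hdiff x₀ hx₀) hpos₀ one_pos
  obtain ⟨δ₁, hδ₁, hP⟩ := exists_taylor1 (hdiff x₀ hx₀) (half_pos hpos₀)
  have hen : ‖gdir u x₀‖ = 1 := gdir_norm hpos₀
  have hLe : fderiv ℝ u x₀ (gdir u x₀) = ‖fderiv ℝ u x₀‖ := by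
    rw [fderiv_eq_inner_gdir hpos₀, real_inner_self_eq_norm_sq, hen]; ring
  obtain ⟨e, he⟩ : ∃ e, e = gdir u x₀ := ⟨_, rfl⟩
  obtain ⟨s₀, hs₀⟩ : ∃ s₀, s₀ = ‖fderiv ℝ u x₀‖ := ⟨_, rfl⟩
  rw [← he] at hP₅ hen hLe
  rw [← hs₀] at hP₆ hP hLe hpos₀
  obtain ⟨R, hR⟩ : ∃ R, R = min δ₅ (min δ₆ ρ) := ⟨_, rfl⟩
  have hRpos : 0 < R := by rw [hR]; exact lt_min hδ₅ (lt_min hδ₆ hρ)
  have hR5 : R ≤ δ₅ := by rw [hR]; exact min_le_left _ _
  have hR6 : R ≤ δ₆ := by rw [hR]; exact (min_le_right _ _).trans (min_le_left _ _)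
  have hRρ : R ≤ ρ := by rw [hR]; exact (min_le_right _ _).trans (min_le_right _ _)
  have hGΩ : ball x₀ R ⊆ Ω := (ball_subset_ball hRρ).trans hsub
  have hlow : ∀ x ∈ ball x₀ R, fderiv ℝ u x ≠ 0 → s₀ / 2 ≤ ‖fderiv ℝ u x‖ := by
    intro x hx hne
    rw [mem_ball, dist_eq_norm] at hx
    have := hP₆ x (by linarith) (norm_pos_iff.mpr hne)
    linarith
  have hdir : ∀ x ∈ ball x₀ R, fderiv ℝ u x ≠ 0 → 0 < fderiv ℝ u x e := by
    intro x hx hne
    have hxΩ := hGΩ hx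
    rw [mem_ball, dist_eq_norm] at hx
    have hposx : 0 < ‖fderiv ℝ u x‖ := norm_pos_iff.mpr hne
    have h1 := hP₅ x (by linarith) (hdiff x hxΩ) hposx
    have hnn : ‖gdir u x‖ = 1 := gdir_norm hposx
    have h2 : ‖gdir u x - e‖ ^ 2 = 2 - 2 * inner ℝ (gdir u x) e := by
      rw [norm_sub_sq_real, hnn, hen]; ring
    have h3 : ‖gdir u x - e‖ ^ 2 ≤ 1 := by
      have := norm_nonneg (gdir u x - e)
      nlinarith
    have h4 : 0 < inner ℝ (gdir u x) e := by linarith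
    rw [fderiv_eq_inner_gdir hposx]
    exact mul_pos hposx h4
  obtain ⟨T, hT⟩ : ∃ T, T = min δ₁ R / 2 := ⟨_, rfl⟩
  have hm : 0 < min δ₁ R := lt_min hδ₁ hRpos
  have hTpos : 0 < T := by rw [hT]; positivity
  have hTδ : T < δ₁ := by
    have : min δ₁ R ≤ δ₁ := min_le_left _ _
    rw [hT]; linarith
  have hTR : T < R := by
    have : min δ₁ R ≤ R := min_le_right _ _
    rw [hT]; linarith
  have hTe : ‖T • e‖ = T := by
    rw [norm_smul, hen, Real.norm_eq_abs, abs_of_pos hTpos, mul_one]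
  have hz₁G : x₀ - T • e ∈ ball x₀ R := by
    rw [mem_ball, dist_eq_norm, sub_sub_cancel_left, norm_neg, hTe]; exact hTR
  have hdrop : u (x₀ - T • e) ≤ u x₀ - T * s₀ / 2 := by
    have h1 := (abs_le.mp (hP (-(T • e)) (by rw [norm_neg, hTe]; exact hTδ))).2
    have h2 : fderiv ℝ u x₀ (-(T • e)) = -(T * s₀) := by
      rw [map_neg, map_smul, hLe, smul_eq_mul]
    rw [h2, norm_neg, hTe, ← sub_eq_add_neg] at h1
    linarith
  have hTs : 0 < T * s₀ := mul_pos hTpos hpos₀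
  have hc2 : ∀ᶠ x in 𝓝 x₀, u x₀ - T * s₀ / 4 < u x :=
    (hdiff x₀ hx₀).continuousAt.eventually (lt_mem_nhds (by linarith))
  have hc3 : ∀ᶠ x in 𝓝 x₀, u (x - T • e) < u (x₀ - T • e) + T * s₀ / 4 := by
    have h1 : ∀ᶠ y in 𝓝 (x₀ - T • e), u y < u (x₀ - T • e) + T * s₀ / 4 :=
      (hdiff _ (hGΩ hz₁G)).continuousAt.eventually (gt_mem_nhds (by linarith))
    have h2 : Tendsto (fun x : E => x - T • e) (𝓝 x₀) (𝓝 (x₀ - T • e)) :=
      (continuous_id.sub continuous_const).tendsto x₀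
    exact h2.eventually h1
  obtain ⟨δ₇, hδ₇, hP₇⟩ := Metric.eventually_nhds_iff.mp (hc2.and hc3)
  refine ⟨min δ₇ (R - T), lt_min hδ₇ (by linarith), fun x hx => ?_⟩
  have hx7 : ‖x - x₀‖ < δ₇ := lt_of_lt_of_le hx (min_le_left _ _)
  have hxRT : ‖x - x₀‖ < R - T := lt_of_lt_of_le hx (min_le_right _ _)
  by_contra hcrit
  have hx0 : fderiv ℝ u x = 0 := norm_le_zero_iff.mp (not_lt.mp hcrit)
  obtain ⟨hux, huT⟩ := hP₇ (by rw [dist_eq_norm]; exact hx7)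
  have hmem : ∀ s ∈ Icc (0 : ℝ) T, x - s • e ∈ ball x₀ R := by
    intro s hs
    rw [mem_ball, dist_eq_norm]
    have e1 : x - s • e - x₀ = (x - x₀) - s • e := by abel
    have h1 := norm_sub_le (x - x₀) (s • e)
    have h2 : ‖s • e‖ = s := by
      rw [norm_smul, hen, Real.norm_eq_abs, abs_of_nonneg hs.1, mul_one]
    rw [e1]
    linarith [hs.2]
  have hline : ∀ s : ℝ, HasDerivAt (fun s : ℝ => x - s • e) (-e) s := by
    intro s
    have := ((hasDerivAt_id s).smul_const e).const_sub x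
    simpa using this
  have hφ : ∀ s ∈ Icc (0 : ℝ) T,
      HasDerivAt (fun s : ℝ => u (x - s • e)) (-(fderiv ℝ u (x - s • e) e)) s := by
    intro s hs
    have h1 := (hdiff _ (hGΩ (hmem s hs))).hasFDerivAt.comp_hasDerivAt s (hline s)
    rw [map_neg] at h1
    exact h1
  have hφc : ∀ b ∈ Icc (0 : ℝ) T, ContinuousOn (fun s : ℝ => u (x - s • e)) (Icc 0 b) := by
    intro b hb s hs
    exact (hφ s ⟨hs.1, hs.2.trans hb.2⟩).continuousAt.continuousWithinAt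
  obtain ⟨A, hAdef⟩ : ∃ A : Set ℝ, A = {s | s ∈ Icc (0 : ℝ) T ∧ fderiv ℝ u (x - s • e) ≠ 0} :=
    ⟨_, rfl⟩
  have hAsub : A ⊆ Icc (0 : ℝ) T := by
    intro s hs
    rw [hAdef] at hs
    exact hs.1
  have hAbdd : BddBelow A := ⟨0, fun s hs => (hAsub hs).1⟩
  have hA : A.Nonempty := by
    by_contra hA
    rw [not_nonempty_iff_eq_empty] at hA
    have hz : ∀ s ∈ Icc (0 : ℝ) T, fderiv ℝ u (x - s • e) = 0 := by
      intro s hs
      by_contra h
      have : s ∈ A := by rw [hAdef]; exact ⟨hs, h⟩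
      rw [hA] at this
      exact this
    have hconst := constant_of_has_deriv_right_zero (f := fun s : ℝ => u (x - s • e))
      (hφc T (right_mem_Icc.mpr hTpos.le)) (fun s hs => by
        have h1 := hφ s ⟨hs.1, hs.2.le⟩
        rw [hz s ⟨hs.1, hs.2.le⟩, _root_.zero_apply, neg_zero] at h1
        exact h1.hasDerivWithinAt) T (right_mem_Icc.mpr hTpos.le)
    simp only [zero_smul, sub_zero] at hconst
    linarith
  have hs₁cl : sInf A ∈ closure A := csInf_mem_closure hA hAbdd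
  have hs₁I : sInf A ∈ Icc (0 : ℝ) T := closure_minimal hAsub isClosed_Icc hs₁cl
  obtain ⟨s₁, hs₁⟩ : ∃ s₁, s₁ = sInf A := ⟨_, rfl⟩
  rw [← hs₁] at hs₁cl hs₁I
  have hqG : x - s₁ • e ∈ ball x₀ R := hmem s₁ hs₁I
  have hq : fderiv ℝ u (x - s₁ • e) ≠ 0 := by
    apply noncrit_of_frequently hΩ hu hdiff (hGΩ hqG) (half_pos hpos₀)
      (isOpen_ball.mem_nhds hqG) hlow
    have h1 : ∃ᶠ s in 𝓝 s₁, s ∈ A := mem_closure_iff_frequently.mp hs₁cl
    have h2 : Tendsto (fun s : ℝ => x - s • e) (𝓝 s₁) (𝓝 (x - s₁ • e)) :=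
      (hline s₁).continuousAt.tendsto
    refine h2.frequently (h1.mono (fun s hs => ?_))
    rw [hAdef] at hs
    exact hs.2
  have hs₁pos : 0 < s₁ := by
    rcases hs₁I.1.eq_or_lt with h | h
    · exfalso
      apply hq
      rw [← h, zero_smul, sub_zero]
      exact hx0
    · exact h
  have hzero : ∀ s ∈ Ico (0 : ℝ) s₁, fderiv ℝ u (x - s • e) = 0 := by
    intro s hs
    by_contra h
    have hsA : s ∈ A := by
      rw [hAdef]; exact ⟨⟨hs.1, hs.2.le.trans hs₁I.2⟩, h⟩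
    have := csInf_le hAbdd hsA
    rw [← hs₁] at this
    linarith [hs.2]
  have hconst := constant_of_has_deriv_right_zero (f := fun s : ℝ => u (x - s • e))
    (hφc s₁ hs₁I) (fun s hs => by
      have h1 := hφ s ⟨hs.1, hs.2.le.trans hs₁I.2⟩
      rw [hzero s hs, _root_.zero_apply, neg_zero] at h1
      exact h1.hasDerivWithinAt)
  have hd1 : HasDerivWithinAt (fun s : ℝ => u (x - s • e)) (-(fderiv ℝ u (x - s₁ • e) e))
      (Icc 0 s₁) s₁ := (hφ s₁ hs₁I).hasDerivWithinAt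
  have hd2 : HasDerivWithinAt (fun s : ℝ => u (x - s • e)) 0 (Icc 0 s₁) s₁ :=
    (hasDerivWithinAt_const s₁ (Icc (0 : ℝ) s₁) (u (x - (0 : ℝ) • e))).congr
      (fun s hs => hconst s hs) (hconst s₁ (right_mem_Icc.mpr hs₁pos.le))
  have huniq := (uniqueDiffOn_Icc hs₁pos s₁ (right_mem_Icc.mpr hs₁pos.le)).eq_deriv _ hd1 hd2
  have := hdir _ hqG hq
  linarith

/-- The derivative of a quasi-concave differentiable infinity-harmonic function is continuous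
at every point. -/
theorem fderiv_continuousAt_qc {u : E → ℝ} {Ω : Set E} (hΩ : IsOpen Ω)
    (hu : IsInfinityHarmonicOn u Ω) (hdiff : ∀ x ∈ Ω, DifferentiableAt ℝ u x) {x₀ : E} {ρ : ℝ}
    (hρ : 0 < ρ) (hsub : ball x₀ ρ ⊆ Ω) (hqc : QCOn u (ball x₀ ρ)) :
    ContinuousAt (fderiv ℝ u) x₀ := by
  have hx₀ : x₀ ∈ Ω := hsub (mem_ball_self hρ)
  by_cases h0 : fderiv ℝ u x₀ = 0
  · exact fderiv_continuousAt_of_zero hΩ hu hdiff hx₀ h0
  have hpos : 0 < ‖fderiv ℝ u x₀‖ := norm_pos_iff.mpr h0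
  rw [Metric.continuousAt_iff]
  intro ε hε
  obtain ⟨δa, hδa, hPa⟩ := slope_usc hΩ hu hdiff hx₀ (by positivity : 0 < ε / 8)
  obtain ⟨δb, hδb, hPb⟩ := slope_lsc_qc hu hdiff hρ hsub hqc hpos (by positivity : 0 < ε / 8)
  obtain ⟨δc, hδc, hPc⟩ := gdir_close_qc hρ hqc (hdiff x₀ hx₀) hpos
    (by positivity : 0 < ε / (2 * ‖fderiv ℝ u x₀‖))
  obtain ⟨δd, hδd, hPd⟩ := noncrit_near_qc hΩ hu hdiff hρ hsub hqc hpos
  refine ⟨min (min δa δb) (min δc (min δd ρ)),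
    lt_min (lt_min hδa hδb) (lt_min hδc (lt_min hδd hρ)), fun x hx => ?_⟩
  rw [dist_eq_norm] at hx
  have hxa : ‖x - x₀‖ < δa := lt_of_lt_of_le hx ((min_le_left _ _).trans (min_le_left _ _))
  have hxb : ‖x - x₀‖ < δb := lt_of_lt_of_le hx ((min_le_left _ _).trans (min_le_right _ _))
  have hxc : ‖x - x₀‖ < δc := lt_of_lt_of_le hx ((min_le_right _ _).trans (min_le_left _ _))
  have hxd : ‖x - x₀‖ < δd :=
    lt_of_lt_of_le hx ((min_le_right _ _).trans ((min_le_right _ _).trans (min_le_left _ _)))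
  have hxρ : ‖x - x₀‖ < ρ :=
    lt_of_lt_of_le hx ((min_le_right _ _).trans ((min_le_right _ _).trans (min_le_right _ _)))
  have hxB : x ∈ ball x₀ ρ := by rw [mem_ball, dist_eq_norm]; exact hxρ
  have hposx := hPd x hxd
  have h1 := hPa x hxa
  have h2 := hPb x hxb hposx
  have h3 := hPc x hxc (hdiff x (hsub hxB)) hposx
  have hS' : |‖fderiv ℝ u x‖ - ‖fderiv ℝ u x₀‖| ≤ ε / 8 :=
    abs_le.mpr ⟨by linarith, by linarith⟩
  rw [dist_eq_norm, fderiv_eq_toDual u x, fderiv_eq_toDual u x₀, ← map_sub,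
    LinearIsometryEquiv.norm_map, gradient_eq_smul_gdir hposx, gradient_eq_smul_gdir hpos]
  have e : ‖fderiv ℝ u x‖ • gdir u x - ‖fderiv ℝ u x₀‖ • gdir u x₀
      = (‖fderiv ℝ u x‖ - ‖fderiv ℝ u x₀‖) • gdir u x
        + ‖fderiv ℝ u x₀‖ • (gdir u x - gdir u x₀) := by
    rw [sub_smul, smul_sub]; abel
  rw [e]
  have hfin : ‖fderiv ℝ u x₀‖ * (ε / (2 * ‖fderiv ℝ u x₀‖)) = ε / 2 := by
    field_simp
  calc ‖(‖fderiv ℝ u x‖ - ‖fderiv ℝ u x₀‖) • gdir u x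
          + ‖fderiv ℝ u x₀‖ • (gdir u x - gdir u x₀)‖
      ≤ ‖(‖fderiv ℝ u x‖ - ‖fderiv ℝ u x₀‖) • gdir u x‖
          + ‖‖fderiv ℝ u x₀‖ • (gdir u x - gdir u x₀)‖ := norm_add_le _ _
    _ = |‖fderiv ℝ u x‖ - ‖fderiv ℝ u x₀‖| + ‖fderiv ℝ u x₀‖ * ‖gdir u x - gdir u x₀‖ := by
        rw [norm_smul, norm_smul, gdir_norm hposx, mul_one, Real.norm_eq_abs,
          Real.norm_eq_abs, abs_of_pos hpos]
    _ ≤ ε / 8 + ‖fderiv ℝ u x₀‖ * (ε / (2 * ‖fderiv ℝ u x₀‖)) :=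
        add_le_add hS' (mul_le_mul_of_nonneg_left h3 hpos.le)
    _ < ε := by rw [hfin]; linarith

/-- A differentiable infinity-harmonic function that is, near every point, quasi-concave or
quasi-convex along segments is continuously differentiable. -/
theorem contDiffOn_of_locally_qc {u : E → ℝ} {Ω : Set E} (hΩ : IsOpen Ω)
    (hu : IsInfinityHarmonicOn u Ω) (hdiff : ∀ x ∈ Ω, DifferentiableAt ℝ u x)
    (hloc : ∀ x₀ ∈ Ω, ∃ ρ > (0 : ℝ), ball x₀ ρ ⊆ Ω ∧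
      (QCOn u (ball x₀ ρ) ∨ QCOn (fun x => -u x) (ball x₀ ρ))) :
    ContDiffOn ℝ 1 u Ω := by
  have h1 : (1 : WithTop ℕ∞) = 0 + 1 := (zero_add 1).symm
  rw [h1, contDiffOn_succ_iff_fderiv_of_isOpen hΩ]
  refine ⟨fun x hx => (hdiff x hx).differentiableWithinAt, by simp, ?_⟩
  rw [contDiffOn_zero]
  intro x hx
  obtain ⟨ρ, hρ, hsub, hqc | hqc⟩ := hloc x hx
  · exact (fderiv_continuousAt_qc hΩ hu hdiff hρ hsub hqc).continuousWithinAt
  · have h2 := fderiv_continuousAt_qc hΩ hu.neg (fun y hy => (hdiff y hy).neg) hρ hsub hqc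
    have h3 : fderiv ℝ (fun x => -u x) = fun x => -fderiv ℝ u x := by
      funext y
      exact fderiv_neg
    rw [h3] at h2
    have h4 : ContinuousAt (fderiv ℝ u) x := by
      have h5 := h2.neg
      have h6 : (-fun x => -fderiv ℝ u x) = fderiv ℝ u := by
        funext y
        simp
      rwa [h6] at h5
    exact h4.continuousWithinAt

end

end Vale.Agent.Lib.P080
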