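import Mathlib
import Vale.Agent.Lib.P080.QuasiConcaveB
import Vale.Agent.Lib.P080.QCScale
import Vale.Agent.Lib.P080.QCLimit

namespace Vale.Agent.Lib.P080

open Filter Topology Set Metric

section

variable {E : Type*} [NormedAddCommGroup E] [InnerProductSpace ℝ E]

/-- Quasi-concavity pins the approximating directions at two scales (ordered scales). -/
theorem pin_qc_aux {u : E → ℝ} {x : E} {R : ℝ} (hqc : QCOn u (ball x R)) {S : ℝ} (hS : 0 < S)
    {η ρ ρ' : ℝ} (hρ' : 0 < ρ') (hρ'ρ : ρ' ≤ ρ) (hρR : ρ < R) {n n' : E}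
    (hn : ‖n‖ = 1) (hn' : ‖n'‖ = 1)
    (happ : ∀ h : E, ‖h‖ ≤ ρ → |u (x + h) - u x - S * inner ℝ n h| ≤ η * ρ)
    (happ' : ∀ h : E, ‖h‖ ≤ ρ' → |u (x + h) - u x - S * inner ℝ n' h| ≤ η * ρ') :
    S * ‖n - n'‖ ≤ 2 * η := by
  by_contra hcon
  rw [not_le] at hcon
  have hρpos : 0 < ρ := lt_of_lt_of_le hρ' hρ'ρ
  obtain ⟨D, hD⟩ : ∃ D, D = ‖n - n'‖ := ⟨_, rfl⟩
  rw [← hD] at hcon
  have hD0 : 0 ≤ D := by rw [hD]; exact norm_nonneg _
  have hη0 : 0 ≤ η := by
    have h0 := happ 0 (by rw [norm_zero]; exact hρpos.le)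
    simp only [add_zero, sub_self, inner_zero_right, mul_zero, abs_zero] at h0
    by_contra hneg
    rw [not_le] at hneg
    nlinarith
  have hDpos : 0 < D := by
    by_contra h
    rw [not_lt] at h
    have : D = 0 := le_antisymm h hD0
    rw [this, mul_zero] at hcon
    linarith
  have hinner : inner ℝ n n' = 1 - D ^ 2 / 2 := by
    have := norm_sub_sq_real n n'
    rw [hn, hn', ← hD] at this
    linarith
  obtain ⟨w, hw⟩ : ∃ w, w = (1 / D) • (n - n') := ⟨_, rfl⟩
  have hwn : ‖w‖ = 1 := by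
    rw [hw, norm_smul, ← hD, Real.norm_eq_abs, abs_of_pos (by positivity)]
    field_simp
  have h1 : inner ℝ n w = D / 2 := by
    rw [hw, inner_smul_right, inner_sub_right, real_inner_self_eq_norm_sq, hn, hinner]
    field_simp
    ring
  have h2 : inner ℝ n' w = -(D / 2) := by
    rw [hw, inner_smul_right, inner_sub_right, real_inner_self_eq_norm_sq, hn', real_inner_comm,
      hinner]
    field_simp
    ring
  have hy : |u (x + ρ • w) - u x - S * inner ℝ n (ρ • w)| ≤ η * ρ :=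
    happ _ (by rw [norm_smul, hwn, Real.norm_eq_abs, abs_of_pos hρpos, mul_one])
  have hy' : |u (x + ρ' • w) - u x - S * inner ℝ n' (ρ' • w)| ≤ η * ρ' :=
    happ' _ (by rw [norm_smul, hwn, Real.norm_eq_abs, abs_of_pos hρ', mul_one])
  rw [inner_smul_right, h1] at hy
  rw [inner_smul_right, h2] at hy'
  have e1 : u x < u (x + ρ • w) := by
    have := (abs_le.mp hy).1
    nlinarith
  have e2 : u (x + ρ' • w) < u x := by
    have := (abs_le.mp hy').2
    nlinarith
  have hxB : x ∈ ball x R := mem_ball_self (by linarith)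
  have hyB : x + ρ • w ∈ ball x R := by
    rw [mem_ball, dist_eq_norm, add_sub_cancel_left, norm_smul, hwn, Real.norm_eq_abs,
      abs_of_pos hρpos, mul_one]
    exact hρR
  have hseg : x + ρ' • w ∈ segment ℝ x (x + ρ • w) := by
    refine ⟨1 - ρ' / ρ, ρ' / ρ, ?_, by positivity, by ring, ?_⟩
    · rw [sub_nonneg, div_le_one hρpos]; exact hρ'ρ
    · rw [smul_add, ← add_assoc, ← add_smul, smul_smul]
      have e3 : ρ' / ρ * ρ = ρ' := by field_simp
      have e4 : 1 - ρ' / ρ + ρ' / ρ = 1 := by ring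
      rw [e3, e4, one_smul]
  have := hqc x hxB _ hyB _ hseg
  rw [min_eq_left e1.le] at this
  linarith

/-- Quasi-concavity pins the approximating directions at two scales. -/
theorem pin_qc {u : E → ℝ} {x : E} {R : ℝ} (hqc : QCOn u (ball x R)) {S : ℝ} (hS : 0 < S)
    (η ρ ρ' : ℝ) (hρ : 0 < ρ) (hρR : ρ < R) (hρ' : 0 < ρ') (hρ'R : ρ' < R) (n n' : E)
    (hn : ‖n‖ = 1) (hn' : ‖n'‖ = 1)
    (happ : ∀ h : E, ‖h‖ ≤ ρ → |u (x + h) - u x - S * inner ℝ n h| ≤ η * ρ)
    (happ' : ∀ h : E, ‖h‖ ≤ ρ' → |u (x + h) - u x - S * inner ℝ n' h| ≤ η * ρ') :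
    S * ‖n - n'‖ ≤ 2 * η := by
  rcases le_total ρ' ρ with h | h
  · exact pin_qc_aux hqc hS hρ' h hρR hn hn' happ happ'
  · rw [norm_sub_rev]
    exact pin_qc_aux hqc hS hρ h hρ'R hn' hn happ' happ

theorem hasFDerivAt_zero_of_lip {u : E → ℝ} {x : E}
    (hlip : ∀ ε > 0, ∃ r₀ > 0, ∀ y ∈ closedBall x r₀, ∀ z ∈ closedBall x r₀,
      u z - u y ≤ ε * ‖z - y‖) : HasFDerivAt u (0 : E →L[ℝ] ℝ) x := by
  rw [hasFDerivAt_iff_isLittleO_nhds_zero, Asymptotics.isLittleO_iff]
  intro c hc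
  obtain ⟨r₀, hr₀, h⟩ := hlip c hc
  have hev : ∀ᶠ h' in 𝓝 (0 : E), ‖h'‖ < r₀ := by
    filter_upwards [Metric.ball_mem_nhds (0 : E) hr₀] with h' hh'
    rwa [mem_ball, dist_zero_right] at hh'
  filter_upwards [hev] with h' hh'
  have hx : x ∈ closedBall x r₀ := mem_closedBall_self hr₀.le
  have hxh : x + h' ∈ closedBall x r₀ := by
    rw [mem_closedBall, dist_eq_norm, add_sub_cancel_left]; exact hh'.le
  have h1 := h x hx (x + h') hxh
  have h2 := h (x + h') hxh x hx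
  rw [add_sub_cancel_left] at h1
  have e : x - (x + h') = -h' := by abel
  rw [e, norm_neg] at h2
  simp only [_root_.zero_apply, sub_zero]
  rw [Real.norm_eq_abs, abs_le]
  constructor <;> linarith

variable [CompleteSpace E] [ProperSpace E]

theorem exists_slope_upper {u : E → ℝ} {Ω : Set E} (hu : IsInfinityHarmonicOn u Ω) {x : E}
    {r₁ : ℝ} (hr₁ : 0 < r₁) (hball : closedBall x (2 * r₁) ⊆ Ω) :
    ∃ S : ℝ, 0 ≤ S ∧ (∀ r ∈ Ioc (0 : ℝ) r₁, ∃ p ∈ closedBall x r, S * r ≤ u p - u x) ∧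
      (∀ ε > 0, ∃ r₀ > 0, ∀ y ∈ closedBall x r₀, ∀ z ∈ closedBall x r₀,
        u z - u y ≤ (S + ε) * ‖z - y‖) := by
  have hK : IsCompact (closedBall x (2 * r₁)) := isCompact_closedBall x (2 * r₁)
  have hcK : ContinuousOn u (closedBall x (2 * r₁)) := hu.1.mono hball
  have hmaxex : ∀ r ∈ Ioc (0 : ℝ) r₁, ∃ p ∈ closedBall x r,
      ∀ w ∈ closedBall x r, u w ≤ u p := by
    intro r hr
    have hsub : closedBall x r ⊆ closedBall x (2 * r₁) :=
      closedBall_subset_closedBall (by linarith [hr.2])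
    obtain ⟨p, hp, hmax⟩ := (isCompact_closedBall x r).exists_isMaxOn
      ⟨x, mem_closedBall_self hr.1.le⟩ (hcK.mono hsub)
    exact ⟨p, hp, fun w hw => hmax hw⟩
  obtain ⟨Φ, hΦ⟩ : ∃ Φ : Set ℝ, Φ = {c | ∃ r ∈ Ioc (0 : ℝ) r₁, ∃ p ∈ closedBall x r,
      (∀ w ∈ closedBall x r, u w ≤ u p) ∧ c = (u p - u x) / r} := ⟨_, rfl⟩
  have hΦne : Φ.Nonempty := by
    obtain ⟨p, hp, hmax⟩ := hmaxex r₁ ⟨hr₁, le_rfl⟩
    exact ⟨(u p - u x) / r₁, by rw [hΦ]; exact ⟨r₁, ⟨hr₁, le_rfl⟩, p, hp, hmax, rfl⟩⟩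
  have hΦ0 : ∀ c ∈ Φ, 0 ≤ c := by
    intro c hc
    rw [hΦ] at hc
    obtain ⟨r, hr, p, hp, hmax, rfl⟩ := hc
    have := hmax x (mem_closedBall_self hr.1.le)
    exact div_nonneg (by linarith) hr.1.le
  have hΦbdd : BddBelow Φ := ⟨0, fun c hc => hΦ0 c hc⟩
  refine ⟨sInf Φ, le_csInf hΦne hΦ0, ?_, ?_⟩
  · intro r hr
    obtain ⟨p, hp, hmax⟩ := hmaxex r hr
    refine ⟨p, hp, ?_⟩
    have hmem : (u p - u x) / r ∈ Φ := by rw [hΦ]; exact ⟨r, hr, p, hp, hmax, rfl⟩
    have := csInf_le hΦbdd hmem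
    rwa [le_div_iff₀ hr.1] at this
  · intro ε hε
    obtain ⟨c, hc, hclt⟩ := exists_lt_of_csInf_lt hΦne (by linarith : sInf Φ < sInf Φ + ε / 2)
    rw [hΦ] at hc
    obtain ⟨r, hr, p, hp, hmax, rfl⟩ := hc
    obtain ⟨S, hSdef⟩ : ∃ S, S = sInf Φ := ⟨_, rfl⟩
    rw [← hSdef] at hclt ⊢
    have hrpos := hr.1
    have hup : u p - u x < (S + ε / 2) * r := by rwa [div_lt_iff₀ hrpos] at hclt
    have huc := hK.uniformContinuousOn_of_continuous hcK
    rw [Metric.uniformContinuousOn_iff] at huc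
    obtain ⟨δ, hδ, hucδ⟩ := huc (ε * r / 8) (by positivity)
    obtain ⟨τ, hτ⟩ : ∃ τ, τ = min (min (r / 2) (δ / 2)) r₁ := ⟨_, rfl⟩
    have hτpos : 0 < τ := by
      rw [hτ]; exact lt_min (lt_min (by positivity) (by positivity)) hr₁
    have hτr : τ ≤ r / 2 := by rw [hτ]; exact (min_le_left _ _).trans (min_le_left _ _)
    have hτδ : τ < δ := by
      have : τ ≤ δ / 2 := by rw [hτ]; exact (min_le_left _ _).trans (min_le_right _ _)
      linarith
    have hτr₁ : τ ≤ r₁ := by rw [hτ]; exact min_le_right _ _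
    have hbig : closedBall x (r + τ) ⊆ closedBall x (2 * r₁) :=
      closedBall_subset_closedBall (by linarith [hr.2])
    have hU : ∀ w ∈ closedBall x (r + τ), u w ≤ u p + ε * r / 8 := by
      intro w hw
      have hpos8 : 0 < ε * r / 8 := by positivity
      by_cases hwr : ‖w - x‖ ≤ r
      · have := hmax w (by rw [mem_closedBall, dist_eq_norm]; exact hwr)
        linarith
      · rw [not_le] at hwr
        have hwpos : 0 < ‖w - x‖ := lt_trans hrpos hwr
        obtain ⟨w', hw'⟩ : ∃ w', w' = x + (r / ‖w - x‖) • (w - x) := ⟨_, rfl⟩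
        have hw'x : ‖w' - x‖ = r := by
          rw [hw', add_sub_cancel_left, norm_smul, Real.norm_eq_abs, abs_of_pos (by positivity)]
          field_simp
        have hw'mem : w' ∈ closedBall x r := by rw [mem_closedBall, dist_eq_norm, hw'x]
        have hww' : dist w w' < δ := by
          rw [dist_eq_norm]
          have e : w - w' = (1 - r / ‖w - x‖) • (w - x) := by
            rw [hw', sub_smul, one_smul]; abel
          have h0 : 0 ≤ 1 - r / ‖w - x‖ := by
            rw [sub_nonneg, div_le_one hwpos]; exact hwr.le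
          rw [e, norm_smul, Real.norm_eq_abs, abs_of_nonneg h0]
          have e2 : (1 - r / ‖w - x‖) * ‖w - x‖ = ‖w - x‖ - r := by field_simp
          rw [e2]
          have := mem_closedBall.mp hw
          rw [dist_eq_norm] at this
          linarith
        have h1 := hucδ w (hbig hw) w'
          (closedBall_subset_closedBall (by linarith [hr.2]) hw'mem) hww'
        rw [Real.dist_eq] at h1
        have h2 := (abs_lt.mp h1).2
        have h3 := hmax w' hw'mem
        linarith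
    refine ⟨τ, hτpos, fun y hy z hz => ?_⟩
    have hyx : ‖y - x‖ ≤ τ := by
      have := mem_closedBall.mp hy
      rwa [dist_eq_norm] at this
    have hzx : ‖z - x‖ ≤ τ := by
      have := mem_closedBall.mp hz
      rwa [dist_eq_norm] at this
    have hyball : closedBall y r ⊆ closedBall x (r + τ) := by
      intro w hw
      rw [mem_closedBall] at hw ⊢
      have := dist_triangle w y x
      rw [dist_eq_norm y x] at this
      linarith
    have hyK : y ∈ closedBall x (2 * r₁) := closedBall_subset_closedBall (by linarith) hy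
    have hxK : x ∈ closedBall x (2 * r₁) := mem_closedBall_self (by linarith)
    have hyU : u y ≤ u p + ε * r / 8 :=
      hU y (closedBall_subset_closedBall (by linarith) hy)
    have hxy : u x - u y < ε * r / 8 := by
      have h1 := hucδ x hxK y hyK (by rw [dist_comm, dist_eq_norm]; linarith)
      rw [Real.dist_eq] at h1
      exact (abs_lt.mp h1).2
    obtain ⟨M, hM⟩ : ∃ M, M = (u p + ε * r / 8 - u y) / r := ⟨_, rfl⟩
    have hM0 : 0 ≤ M := by rw [hM]; exact div_nonneg (by linarith) hrpos.le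
    have hMr : M * r = u p + ε * r / 8 - u y := by rw [hM]; field_simp
    have hsph : ∀ w ∈ sphere y r, u w ≤ u y + M * r := by
      intro w hw
      have := hU w (hyball (sphere_subset_closedBall hw))
      linarith
    have hzy : z ∈ closedBall y r := by
      rw [mem_closedBall, dist_eq_norm]
      have e : z - y = (z - x) - (y - x) := by abel
      rw [e]
      have := norm_sub_le (z - x) (y - x)
      linarith
    have hcone := cone_above hu hrpos hM0 (hyball.trans (hbig.trans hball)) hsph z hzy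
    have hMle : M ≤ S + ε := by
      have h5 : M * r < (S + ε) * r := by nlinarith
      exact le_of_lt (lt_of_mul_lt_mul_right h5 hrpos.le)
    have := mul_le_mul_of_nonneg_right hMle (norm_nonneg (z - y))
    linarith

theorem exists_slope {u : E → ℝ} {Ω : Set E} (hΩ : IsOpen Ω) (hu : IsInfinityHarmonicOn u Ω)
    {x : E} (hx : x ∈ Ω) :
    ∃ S : ℝ, 0 ≤ S ∧ ∃ r₁ > 0,
      (∀ r ∈ Ioc (0 : ℝ) r₁, (∃ p ∈ closedBall x r, S * r ≤ u p - u x) ∧
        (∃ q ∈ closedBall x r, S * r ≤ u x - u q)) ∧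
      (∀ ε > 0, ∃ r₀ > 0, ∀ y ∈ closedBall x r₀, ∀ z ∈ closedBall x r₀,
        u z - u y ≤ (S + ε) * ‖z - y‖) := by
  obtain ⟨ρ₁, hρ₁, hρ₁sub⟩ := Metric.isOpen_iff.mp hΩ x hx
  have hr₁ : 0 < ρ₁ / 4 := by positivity
  have hball : closedBall x (2 * (ρ₁ / 4)) ⊆ Ω :=
    (closedBall_subset_ball (by linarith)).trans hρ₁sub
  obtain ⟨Sp, hSp0, hascp, hlipp⟩ := exists_slope_upper hu hr₁ hball
  obtain ⟨Sm, hSm0, hascm, hlipm⟩ := exists_slope_upper hu.neg hr₁ hball
  have h1 : Sp ≤ Sm := by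
    apply le_of_forall_pos_le_add
    intro ε hε
    obtain ⟨r₀, hr₀, hl⟩ := hlipm ε hε
    obtain ⟨r, hr⟩ : ∃ r, r = min r₀ (ρ₁ / 4) := ⟨_, rfl⟩
    have hrpos : 0 < r := by rw [hr]; exact lt_min hr₀ hr₁
    obtain ⟨p, hp, hpu⟩ := hascp r ⟨hrpos, by rw [hr]; exact min_le_right _ _⟩
    have hp' : p ∈ closedBall x r₀ :=
      closedBall_subset_closedBall (by rw [hr]; exact min_le_left _ _) hp
    have h3 := hl p hp' x (mem_closedBall_self hr₀.le)
    have hpx : ‖x - p‖ ≤ r := by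
      have := mem_closedBall.mp hp
      rwa [dist_comm, dist_eq_norm] at this
    have h4 : (Sm + ε) * ‖x - p‖ ≤ (Sm + ε) * r := mul_le_mul_of_nonneg_left hpx (by linarith)
    have h5 : Sp * r ≤ (Sm + ε) * r := by linarith
    exact le_of_mul_le_mul_right h5 hrpos
  have h2 : Sm ≤ Sp := by
    apply le_of_forall_pos_le_add
    intro ε hε
    obtain ⟨r₀, hr₀, hl⟩ := hlipp ε hε
    obtain ⟨r, hr⟩ : ∃ r, r = min r₀ (ρ₁ / 4) := ⟨_, rfl⟩
    have hrpos : 0 < r := by rw [hr]; exact lt_min hr₀ hr₁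
    obtain ⟨q, hq, hqu⟩ := hascm r ⟨hrpos, by rw [hr]; exact min_le_right _ _⟩
    have hq' : q ∈ closedBall x r₀ :=
      closedBall_subset_closedBall (by rw [hr]; exact min_le_left _ _) hq
    have h3 := hl q hq' x (mem_closedBall_self hr₀.le)
    have hqx : ‖x - q‖ ≤ r := by
      have := mem_closedBall.mp hq
      rwa [dist_comm, dist_eq_norm] at this
    have h4 : (Sp + ε) * ‖x - q‖ ≤ (Sp + ε) * r := mul_le_mul_of_nonneg_left hqx (by linarith)
    have h5 : Sm * r ≤ (Sp + ε) * r := by linarith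
    exact le_of_mul_le_mul_right h5 hrpos
  have hS : Sm = Sp := le_antisymm h2 h1
  refine ⟨Sp, hSp0, ρ₁ / 4, hr₁, fun r hr => ⟨hascp r hr, ?_⟩, hlipp⟩
  obtain ⟨q, hq, hqu⟩ := hascm r hr
  refine ⟨q, hq, ?_⟩
  rw [hS] at hqu
  linarith

/-- A quasi-concave infinity-harmonic function is differentiable. -/
theorem differentiableAt_of_qc {u : E → ℝ} {Ω : Set E} (hΩ : IsOpen Ω)
    (hu : IsInfinityHarmonicOn u Ω) {x₀ : E} {ρ : ℝ} (hρ : 0 < ρ) (hsub : ball x₀ ρ ⊆ Ω)
    (hqc : QCOn u (ball x₀ ρ)) : DifferentiableAt ℝ u x₀ := by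
  have hx₀ : x₀ ∈ Ω := hsub (mem_ball_self hρ)
  obtain ⟨S, hS0, r₁, hr₁, hasc, hlip⟩ := exists_slope hΩ hu hx₀
  rcases hS0.eq_or_lt with h0 | hSpos
  · refine (hasFDerivAt_zero_of_lip (fun ε hε => ?_)).differentiableAt
    obtain ⟨r₀, hr₀, h⟩ := hlip ε hε
    refine ⟨r₀, hr₀, fun y hy z hz => ?_⟩
    have := h y hy z hz
    rw [← h0, zero_add] at this
    exact this
  · obtain ⟨g, hg⟩ := hasFDerivAt_of_scale_approx hSpos hρ
      (fun η hη => exists_scale_approx hSpos hr₁ hasc hlip hη) (pin_qc hqc hSpos)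
    exact hg.differentiableAt

/-- An infinity-harmonic function that is, near every point, quasi-concave or quasi-convex
along segments is continuously differentiable. -/
theorem contDiffOn_of_locally_qc' {u : E → ℝ} {Ω : Set E} (hΩ : IsOpen Ω)
    (hu : IsInfinityHarmonicOn u Ω)
    (hloc : ∀ x₀ ∈ Ω, ∃ ρ > (0 : ℝ), ball x₀ ρ ⊆ Ω ∧
      (QCOn u (ball x₀ ρ) ∨ QCOn (fun x => -u x) (ball x₀ ρ))) :
    ContDiffOn ℝ 1 u Ω := by
  refine contDiffOn_of_locally_qc hΩ hu (fun x hx => ?_) hloc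
  obtain ⟨ρ, hρ, hsub, hqc | hqc⟩ := hloc x hx
  · exact differentiableAt_of_qc hΩ hu hρ hsub hqc
  · have h1 := differentiableAt_of_qc hΩ hu.neg hρ hsub hqc
    have h2 := h1.neg
    have h3 : (-fun x => -u x) = u := by
      funext y
      simp
    rwa [h3] at h2

end

end Vale.Agent.Lib.P080
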