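import Mathlib
import Vale.Agent.Lib.P080.QCDiff

namespace Vale.Agent.Lib.P080

open Filter Topology Set Metric

section

variable {E : Type*} [NormedAddCommGroup E] [InnerProductSpace ℝ E] [CompleteSpace E]
  [ProperSpace E]

/-- Strong maximum principle on half the radius: if the centre of a ball is a maximum point
of a differentiable infinity-harmonic function, the function is constant on the ball of half
the radius. -/
theorem eq_of_max_ball {u : E → ℝ} {Ω : Set E} (hu : IsInfinityHarmonicOn u Ω) {y : E} {s : ℝ}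
    (hball : ball y s ⊆ Ω) (hd : DifferentiableAt ℝ u y)
    (hmax : ∀ w ∈ ball y s, u w ≤ u y) : ∀ z ∈ ball y (s / 2), u z = u y := by
  intro z hz
  have hs : 0 < s := by
    have := mem_ball.mp hz
    have h0 := dist_nonneg (x := z) (y := y)
    linarith
  have hloc : IsLocalMax u y := by
    filter_upwards [ball_mem_nhds y hs] with w hw
    exact hmax w hw
  have h0 : fderiv ℝ u y = 0 := hloc.fderiv_eq_zero
  by_cases hzy : z = y
  · rw [hzy]
  have hr : 0 < dist y z := dist_pos.mpr (Ne.symm hzy)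
  have hrs : dist y z < s / 2 := by rw [dist_comm]; exact mem_ball.mp hz
  have hsubs : closedBall z (dist y z) ⊆ ball y s := by
    intro w hw
    rw [mem_closedBall] at hw
    rw [mem_ball]
    have := dist_triangle w z y
    rw [dist_comm z y] at this
    linarith
  have hys : y ∈ sphere z (dist y z) := by rw [mem_sphere]
  have h1 := slope_ge_of_max_sphere hu hr (hsubs.trans hball) hys
    (fun w hw => hmax w (hsubs (sphere_subset_closedBall hw))) hd
  rw [h0, norm_zero, mul_zero] at h1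
  have h2 := hmax z (ball_subset_ball (by linarith) hz)
  linarith

/-- Strong maximum principle on a preconnected open set. -/
theorem eq_of_max_preconnected {u : E → ℝ} {Ω : Set E} (hu : IsInfinityHarmonicOn u Ω)
    (hdiff : ∀ x ∈ Ω, DifferentiableAt ℝ u x) {V : Set E} (hV : IsOpen V)
    (hVc : IsPreconnected V) (hVΩ : V ⊆ Ω) {m : ℝ} (hmax : ∀ w ∈ V, u w ≤ m) {c : E}
    (hc : c ∈ V) (hcm : u c = m) : ∀ z ∈ V, u z = m := by
  have hkey : ∀ x ∈ V, u x = m → ∀ᶠ w in 𝓝 x, u w = m := by
    intro x hx hxm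
    obtain ⟨s, hs, hsV⟩ := Metric.isOpen_iff.mp hV x hx
    have h1 := eq_of_max_ball hu (hsV.trans hVΩ) (hdiff x (hVΩ hx))
      (fun w hw => by rw [hxm]; exact hmax w (hsV hw))
    filter_upwards [ball_mem_nhds x (half_pos hs)] with w hw
    rw [h1 w hw, hxm]
  have hcont : ContinuousOn u V := hu.1.mono hVΩ
  have hU1 : IsOpen {x | ∀ᶠ w in 𝓝 x, u w = m} := by
    rw [isOpen_iff_mem_nhds]
    intro x hx
    exact eventually_eventually_nhds.mpr hx
  have hU2 : IsOpen (V ∩ u ⁻¹' Iio m) := hcont.isOpen_inter_preimage hV isOpen_Iio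
  have hdisj : Disjoint {x | ∀ᶠ w in 𝓝 x, u w = m} (V ∩ u ⁻¹' Iio m) := by
    rw [Set.disjoint_left]
    intro x hx1 hx2
    have h3 : u x = m := hx1.self_of_nhds
    have h4 : u x < m := hx2.2
    linarith
  have hcov : V ⊆ {x | ∀ᶠ w in 𝓝 x, u w = m} ∪ (V ∩ u ⁻¹' Iio m) := by
    intro x hx
    rcases (hmax x hx).eq_or_lt with h | h
    · left; exact hkey x hx h
    · right; exact ⟨hx, h⟩
  have hne : (V ∩ {x | ∀ᶠ w in 𝓝 x, u w = m}).Nonempty := ⟨c, hc, hkey c hc hcm⟩
  have hsub := hVc.subset_left_of_subset_union hU1 hU2 hdisj hcov hne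
  intro z hz
  exact (hsub hz).self_of_nhds

/-- A critical point of a quasi-concave differentiable infinity-harmonic function has a
neighbourhood on which the function is constant. -/
theorem eventually_const_of_crit_qc {u : E → ℝ} {Ω : Set E} (hu : IsInfinityHarmonicOn u Ω)
    (hdiff : ∀ x ∈ Ω, DifferentiableAt ℝ u x) {y : E} {ρ : ℝ} (hρ : 0 < ρ)
    (hsub : ball y ρ ⊆ Ω) (hqc : QCOn u (ball y ρ)) (h0 : fderiv ℝ u y = 0) :
    ∀ᶠ x in 𝓝 y, u x = u y := by
  have hyΩ : y ∈ Ω := hsub (mem_ball_self hρ)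
  have hdy := hdiff y hyΩ
  by_cases hloc : ∀ w ∈ ball y (ρ / 2), u w ≤ u y
  · have h1 := eq_of_max_ball hu ((ball_subset_ball (by linarith)).trans hsub) hdy hloc
    filter_upwards [ball_mem_nhds y (by positivity : 0 < ρ / 2 / 2)] with x hx
    exact h1 x hx
  · push Not at hloc
    obtain ⟨c₀, hc₀, hc₀u⟩ := hloc
    obtain ⟨C, hCdef⟩ : ∃ C : Set E, C = ball y ρ ∩ u ⁻¹' Ioi (u y) := ⟨_, rfl⟩
    have hcont : ContinuousOn u (ball y ρ) := hu.1.mono hsub
    have hCopen : IsOpen C := by
      rw [hCdef]; exact hcont.isOpen_inter_preimage isOpen_ball isOpen_Ioi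
    have hCconv : Convex ℝ C := by
      rw [convex_iff_segment_subset]
      intro a ha b hb w hw
      rw [hCdef] at ha hb ⊢
      have hwB : w ∈ ball y ρ := (convex_ball y ρ).segment_subset ha.1 hb.1 hw
      refine ⟨hwB, ?_⟩
      have := hqc a ha.1 b hb.1 w hw
      have h1 : u y < min (u a) (u b) := lt_min ha.2 hb.2
      exact lt_of_lt_of_le h1 this
    have hyC : y ∉ C := by
      rw [hCdef]
      intro h
      have h2 : u y < u y := h.2
      exact lt_irrefl _ h2
    obtain ⟨f, hf⟩ := geometric_hahn_banach_open_point hCconv hCopen hyC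
    have hc₀B : c₀ ∈ ball y ρ := ball_subset_ball (by linarith) hc₀
    have hc₀C : c₀ ∈ C := by rw [hCdef]; exact ⟨hc₀B, hc₀u⟩
    obtain ⟨g, hg⟩ : ∃ g : E, ∀ a, f a = inner ℝ g a :=
      ⟨(InnerProductSpace.toDual ℝ E).symm f, fun a => by
        rw [InnerProductSpace.toDual_symm_apply]⟩
    have hgne : g ≠ 0 := by
      intro h
      have := hf c₀ hc₀C
      rw [hg, hg, h, inner_zero_left, inner_zero_left] at this
      exact lt_irrefl _ this
    have hgpos : 0 < ‖g‖ := norm_pos_iff.mpr hgne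
    obtain ⟨ν, hν⟩ : ∃ ν : E, ν = (-(1 / ‖g‖)) • g := ⟨_, rfl⟩
    have hνn : ‖ν‖ = 1 := by
      rw [hν, norm_smul, norm_neg, Real.norm_eq_abs, abs_of_pos (by positivity)]
      field_simp
    have hνν : inner ℝ ν ν = 1 := by rw [real_inner_self_eq_norm_sq, hνn]; norm_num
    have hνC : ∀ a ∈ C, 0 < inner ℝ ν (a - y) := by
      intro a ha
      have := hf a ha
      rw [hg, hg] at this
      rw [hν, real_inner_smul_left, inner_sub_right]
      have h2 : inner ℝ g a - inner ℝ g y < 0 := by linarith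
      have h3 : 0 < 1 / ‖g‖ := by positivity
      nlinarith
    have hHm : ∀ a ∈ ball y ρ, inner ℝ ν (a - y) ≤ 0 → u a ≤ u y := by
      intro a ha hle
      by_contra hcon
      rw [not_le] at hcon
      have haC : a ∈ C := by rw [hCdef]; exact ⟨ha, hcon⟩
      have := hνC a haC
      linarith
    obtain ⟨V, hVdef⟩ : ∃ V : Set E,
        V = ball y ρ ∩ {a | inner ℝ ν (a - y) < 0} := ⟨_, rfl⟩
    have hVopen : IsOpen V := by
      rw [hVdef]
      have hc2 : Continuous fun a : E => inner ℝ ν (a - y) := by fun_prop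
      exact isOpen_ball.inter (isOpen_lt hc2 continuous_const)
    have hVconv : Convex ℝ V := by
      rw [hVdef]
      refine (convex_ball y ρ).inter ?_
      rw [convex_iff_segment_subset]
      intro a ha b hb w hw
      obtain ⟨ta, tb, hta, htb, htab, rfl⟩ := hw
      show inner ℝ ν (ta • a + tb • b - y) < 0
      have e : ta • a + tb • b - y = ta • (a - y) + tb • (b - y) := by
        rw [smul_sub, smul_sub]
        have : y = ta • y + tb • y := by rw [← add_smul, htab, one_smul]
        nth_rewrite 1 [this]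
        abel
      rw [e, inner_add_right, inner_smul_right, inner_smul_right]
      have ha' : inner ℝ ν (a - y) < 0 := ha
      have hb' : inner ℝ ν (b - y) < 0 := hb
      rcases hta.eq_or_lt with h | h
      · have htb1 : tb = 1 := by linarith
        rw [← h, htb1]; linarith
      · nlinarith
    have hVmax : ∀ w ∈ V, u w ≤ u y := by
      intro w hw
      rw [hVdef] at hw
      exact hHm w hw.1 (le_of_lt hw.2)
    obtain ⟨r, hr⟩ : ∃ r : ℝ, r = ρ / 4 := ⟨_, rfl⟩
    have hrpos : 0 < r := by rw [hr]; positivity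
    have hrρ : 2 * r < ρ := by rw [hr]; linarith
    obtain ⟨z, hz⟩ : ∃ z, z = y - r • ν := ⟨_, rfl⟩
    have hzy : z - y = -(r • ν) := by rw [hz]; abel
    have hrν : ‖r • ν‖ = r := by
      rw [norm_smul, hνn, Real.norm_eq_abs, abs_of_pos hrpos, mul_one]
    have hzV : z ∈ V := by
      rw [hVdef]
      refine ⟨?_, ?_⟩
      · rw [mem_ball, dist_eq_norm, hzy, norm_neg, hrν]; linarith
      · show inner ℝ ν (z - y) < 0
        rw [hzy, inner_neg_right, inner_smul_right, hνν]
        linarith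
    have hys : y ∈ sphere z r := by
      rw [mem_sphere, dist_eq_norm]
      have : y - z = r • ν := by rw [hz]; abel
      rw [this, hrν]
    have hcb : ∀ w ∈ closedBall z r, w ∈ ball y ρ ∧ inner ℝ ν (w - y) ≤ 0 := by
      intro w hw
      rw [mem_closedBall, dist_eq_norm] at hw
      have e : w - y = (w - z) + -(r • ν) := by rw [← hzy]; abel
      constructor
      · rw [mem_ball, dist_eq_norm, e]
        have h1 := norm_add_le (w - z) (-(r • ν))
        rw [norm_neg, hrν] at h1
        linarith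
      · rw [e, inner_add_right, inner_neg_right, inner_smul_right, hνν]
        have h1 := real_inner_le_norm ν (w - z)
        rw [hνn, one_mul] at h1
        linarith
    have hzu : u z = u y := by
      have h1 := slope_ge_of_max_sphere hu hrpos (fun w hw => hsub (hcb w hw).1) hys
        (fun w hw => hHm w (hcb w (sphere_subset_closedBall hw)).1
          (hcb w (sphere_subset_closedBall hw)).2) hdy
      rw [h0, norm_zero, mul_zero] at h1
      have h2 := hVmax z hzV
      linarith
    have hVsub : V ⊆ ball y ρ := by rw [hVdef]; exact inter_subset_left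
    have hVconst := eq_of_max_preconnected hu hdiff hVopen hVconv.isPreconnected
      (hVsub.trans hsub) hVmax hzV hzu
    obtain ⟨κ, hκ⟩ : ∃ κ : ℝ, κ = inner ℝ ν (c₀ - y) := ⟨_, rfl⟩
    have hκpos : 0 < κ := by rw [hκ]; exact hνC c₀ hc₀C
    obtain ⟨δ, hδ⟩ : ∃ δ : ℝ, δ = min (κ / 2) (ρ / 4) := ⟨_, rfl⟩
    have hδpos : 0 < δ := by rw [hδ]; exact lt_min (by positivity) (by positivity)
    have hδρ : δ ≤ ρ / 4 := by rw [hδ]; exact min_le_right _ _
    have hδκ : δ ≤ κ / 2 := by rw [hδ]; exact min_le_left _ _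
    have hmin : ∀ x ∈ ball y δ, -u x ≤ -u y := by
      intro x hx
      rw [mem_ball, dist_eq_norm] at hx
      obtain ⟨a, ha⟩ : ∃ a, a = x + (x - c₀) := ⟨_, rfl⟩
      have hay : a - y = (2 : ℝ) • (x - y) - (c₀ - y) := by rw [ha, two_smul]; abel
      have hc₀y : ‖c₀ - y‖ < ρ / 2 := by
        have := mem_ball.mp hc₀
        rwa [dist_eq_norm] at this
      have haB : a ∈ ball y ρ := by
        rw [mem_ball, dist_eq_norm, hay]
        have h1 := norm_sub_le ((2 : ℝ) • (x - y)) (c₀ - y)
        rw [norm_smul, Real.norm_eq_abs, abs_of_pos (by norm_num : (0 : ℝ) < 2)] at h1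
        linarith
      have haV : a ∈ V := by
        rw [hVdef]
        refine ⟨haB, ?_⟩
        show inner ℝ ν (a - y) < 0
        rw [hay, inner_sub_right, inner_smul_right, ← hκ]
        have h1 := real_inner_le_norm ν (x - y)
        rw [hνn, one_mul] at h1
        linarith
      have hau : u a = u y := hVconst a haV
      have hxseg : x ∈ segment ℝ a c₀ := by
        refine ⟨1 / 2, 1 / 2, by norm_num, by norm_num, by norm_num, ?_⟩
        rw [ha, ← smul_add]
        have e2 : x + (x - c₀) + c₀ = (2 : ℝ) • x := by rw [two_smul]; abel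
        rw [e2, smul_smul]
        norm_num
      have := hqc a haB c₀ hc₀B x hxseg
      rw [hau, min_eq_left hc₀u.le] at this
      linarith
    have h2 := eq_of_max_ball hu.neg
      ((ball_subset_ball (by linarith : δ ≤ ρ)).trans hsub) hdy.neg hmin
    filter_upwards [ball_mem_nhds y (half_pos hδpos)] with x hx
    have := h2 x hx
    linarith

/-- Differentiability under the local quasi-concave or quasi-convex hypothesis. -/
theorem differentiableAt_of_locally_qc {u : E → ℝ} {Ω : Set E} (hΩ : IsOpen Ω)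
    (hu : IsInfinityHarmonicOn u Ω)
    (hloc : ∀ x₀ ∈ Ω, ∃ ρ > (0 : ℝ), ball x₀ ρ ⊆ Ω ∧
      (QCOn u (ball x₀ ρ) ∨ QCOn (fun x => -u x) (ball x₀ ρ))) :
    ∀ x ∈ Ω, DifferentiableAt ℝ u x := by
  intro x hx
  obtain ⟨ρ, hρ, hsub, hqc | hqc⟩ := hloc x hx
  · exact differentiableAt_of_qc hΩ hu hρ hsub hqc
  · have h1 := differentiableAt_of_qc hΩ hu.neg hρ hsub hqc
    have h2 := h1.neg
    have h3 : (-fun x => -u x) = u := by
      funext y
      simp
    rwa [h3] at h2

/-- Under the local quasi-concave or quasi-convex hypothesis, every critical point of an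
infinity-harmonic function has a neighbourhood on which the function is constant. -/
theorem eventually_const_of_crit_locally_qc {u : E → ℝ} {Ω : Set E} (hΩ : IsOpen Ω)
    (hu : IsInfinityHarmonicOn u Ω)
    (hloc : ∀ x₀ ∈ Ω, ∃ ρ > (0 : ℝ), ball x₀ ρ ⊆ Ω ∧
      (QCOn u (ball x₀ ρ) ∨ QCOn (fun x => -u x) (ball x₀ ρ)))
    {x : E} (hx : x ∈ Ω) (h0 : fderiv ℝ u x = 0) : ∀ᶠ y in 𝓝 x, u y = u x := by
  have hdiff := differentiableAt_of_locally_qc hΩ hu hloc
  obtain ⟨ρ, hρ, hsub, hqc | hqc⟩ := hloc x hx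
  · exact eventually_const_of_crit_qc hu hdiff hρ hsub hqc h0
  · have h1 : fderiv ℝ (fun x => -u x) x = 0 := by
      have : fderiv ℝ (fun x => -u x) x = -fderiv ℝ u x := fderiv_neg
      rw [this, h0, neg_zero]
    have h2 := eventually_const_of_crit_qc hu.neg (fun y hy => (hdiff y hy).neg) hρ hsub hqc h1
    filter_upwards [h2] with y hy
    linarith

/-- Under the local quasi-concave or quasi-convex hypothesis on a connected open set, an
infinity-harmonic function is constant or has no critical point. -/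
theorem const_or_noncrit_of_locally_qc {u : E → ℝ} {Ω : Set E} (hΩ : IsOpen Ω)
    (hΩc : IsPreconnected Ω) (hu : IsInfinityHarmonicOn u Ω)
    (hloc : ∀ x₀ ∈ Ω, ∃ ρ > (0 : ℝ), ball x₀ ρ ⊆ Ω ∧
      (QCOn u (ball x₀ ρ) ∨ QCOn (fun x => -u x) (ball x₀ ρ))) :
    (∀ x ∈ Ω, ∀ y ∈ Ω, u x = u y) ∨ (∀ x ∈ Ω, fderiv ℝ u x ≠ 0) := by
  have hdiff := differentiableAt_of_locally_qc hΩ hu hloc
  have hC1 := contDiffOn_of_locally_qc' hΩ hu hloc
  have hcont : ContinuousOn (fderiv ℝ u) Ω := hC1.continuousOn_fderiv_of_isOpen hΩ le_rfl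
  have hU1 : IsOpen {x | ∀ᶠ w in 𝓝 x, fderiv ℝ u w = 0} := by
    rw [isOpen_iff_mem_nhds]
    intro x hx
    exact eventually_eventually_nhds.mpr hx
  have hU2 : IsOpen (Ω ∩ fderiv ℝ u ⁻¹' {0}ᶜ) :=
    hcont.isOpen_inter_preimage hΩ isOpen_compl_singleton
  have hdisj : Disjoint {x | ∀ᶠ w in 𝓝 x, fderiv ℝ u w = 0} (Ω ∩ fderiv ℝ u ⁻¹' {0}ᶜ) := by
    rw [Set.disjoint_left]
    intro x hx1 hx2
    exact hx2.2 hx1.self_of_nhds
  have hcov : Ω ⊆ {x | ∀ᶠ w in 𝓝 x, fderiv ℝ u w = 0} ∪ (Ω ∩ fderiv ℝ u ⁻¹' {0}ᶜ) := by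
    intro x hx
    by_cases h0 : fderiv ℝ u x = 0
    · left
      have h1 := eventually_const_of_crit_locally_qc hΩ hu hloc hx h0
      have h2 := eventually_eventually_nhds.mpr h1
      filter_upwards [h2] with w hw
      have h3 : u =ᶠ[𝓝 w] fun _ => u x := hw
      rw [h3.fderiv_eq]
      simp
    · right
      exact ⟨hx, h0⟩
  by_cases hne : (Ω ∩ (Ω ∩ fderiv ℝ u ⁻¹' {0}ᶜ)).Nonempty
  · right
    have hsub := hΩc.subset_right_of_subset_union hU1 hU2 hdisj hcov hne
    intro x hx
    exact (hsub hx).2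
  · left
    have hz : ∀ x ∈ Ω, fderiv ℝ u x = 0 := by
      intro x hx
      by_contra h
      exact hne ⟨x, hx, hx, h⟩
    intro x hx y hy
    exact hΩ.is_const_of_fderiv_eq_zero hΩc
      (fun z hz' => (hdiff z hz').differentiableWithinAt) (fun z hz' => hz z hz') hx hy

end

end Vale.Agent.Lib.P080
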