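import Mathlib
import Vale.Agent.Lib.P080.QCCrit
import Vale.Agent.Lib.P080.ExplicitGeom

namespace Vale.Agent.Lib.P080

open Filter Topology Set Metric

section

variable {E : Type*} [NormedAddCommGroup E] [InnerProductSpace ℝ E] [CompleteSpace E]
  [ProperSpace E]

omit [InnerProductSpace ℝ E] [CompleteSpace E] [ProperSpace E] in
/-- Lipschitz bound from a gradient bound on a ball. -/
theorem explicit_lip [NormedSpace ℝ E] {u : E → ℝ} {z₀ : E} {R M : ℝ}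
    (hdiff : ∀ z ∈ ball z₀ R, DifferentiableAt ℝ u z)
    (hM : ∀ z ∈ ball z₀ R, ‖fderiv ℝ u z‖ ≤ M) :
    ∀ p ∈ ball z₀ R, ∀ q ∈ ball z₀ R, u q - u p ≤ M * ‖q - p‖ := by
  intro p hp q hq
  have h1 := (convex_ball z₀ R).norm_image_sub_le_of_norm_fderiv_le hdiff hM hp hq
  rw [Real.norm_eq_abs] at h1
  exact (le_abs_self _).trans h1

/-- A quasi-concave infinity-harmonic function on a ball whose derivative does not vanish at
the centre has nowhere vanishing derivative on the ball. -/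
theorem explicit_nonvanishing {u : E → ℝ} {Ω : Set E} (hu : IsInfinityHarmonicOn u Ω)
    {z₀ : E} {R : ℝ} (hR : 0 < R) (hsub : ball z₀ R ⊆ Ω) (hqc : QCOn u (ball z₀ R))
    (hG₀ : 0 < ‖fderiv ℝ u z₀‖) : ∀ z ∈ ball z₀ R, fderiv ℝ u z ≠ 0 := by
  have hz₀B : z₀ ∈ ball z₀ R := mem_ball_self hR
  have hloc : ∀ x₀ ∈ ball z₀ R, ∃ ρ > (0 : ℝ), ball x₀ ρ ⊆ ball z₀ R ∧
      (QCOn u (ball x₀ ρ) ∨ QCOn (fun x => -u x) (ball x₀ ρ)) := by
    intro x₀ hx₀
    obtain ⟨ρ, hρ, hρsub⟩ := Metric.isOpen_iff.mp isOpen_ball x₀ hx₀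
    exact ⟨ρ, hρ, hρsub, Or.inl (fun x hx y hy w hw => hqc x (hρsub hx) y (hρsub hy) w hw)⟩
  have hu' : IsInfinityHarmonicOn u (ball z₀ R) :=
    ⟨hu.1.mono hsub, fun φ w hw => hu.2.1 φ w (hsub hw), fun φ w hw => hu.2.2 φ w (hsub hw)⟩
  rcases const_or_noncrit_of_locally_qc isOpen_ball (convex_ball z₀ R).isPreconnected
    hu' hloc with hc | hc
  · exfalso
    have hev : u =ᶠ[𝓝 z₀] fun _ => u z₀ := by
      filter_upwards [isOpen_ball.mem_nhds hz₀B] with w hw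
      exact hc w hw z₀ hz₀B
    have h1 : fderiv ℝ u z₀ = 0 := by
      rw [hev.fderiv_eq]
      exact fderiv_const_apply (u z₀)
    rw [h1, norm_zero] at hG₀
    exact lt_irrefl _ hG₀
  · exact hc

omit [ProperSpace E] in
/-- Direction step: the gradient direction at `z` points towards the far ascent point. -/
theorem explicit_point_dir {u : E → ℝ} {z₀ x₁ z : E} {r d M ε : ℝ} (hr : 0 < r) (hd0 : 0 < d)
    (hqc : QCOn u (ball z₀ (3 * r))) (hε0 : 0 ≤ ε) (hκ : ε + 2 * d / r ≤ 1) (hMpos : 0 < M)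
    (hlip : ∀ p ∈ ball z₀ (3 * r), ∀ q ∈ ball z₀ (3 * r), u q - u p ≤ M * ‖q - p‖)
    (hx₁n : ‖x₁ - z₀‖ = r) (hup : r * ((1 - ε) * M) ≤ u x₁ - u z₀)
    (hzd : ‖z - z₀‖ < d) (hdz : DifferentiableAt ℝ u z) (hGpos : 0 < ‖fderiv ℝ u z‖) :
    ‖r • gdir u z - (x₁ - z₀)‖ ≤ r * √(2 * (ε + 2 * d / r)) := by
  have hdr0 : 0 < 2 * d / r := by positivity
  have hdr : d ≤ r / 2 := by
    have h1 : 2 * d / r ≤ 1 := by linarith
    rw [div_le_one hr] at h1
    linarith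
  have hz₀B : z₀ ∈ ball z₀ (3 * r) := mem_ball_self (by positivity)
  have hx₁B : x₁ ∈ ball z₀ (3 * r) := by rw [mem_ball, dist_eq_norm]; linarith
  have hzd' : ‖z₀ - z‖ < d := by rw [← norm_neg, neg_sub]; exact hzd
  have hzB : z ∈ ball z₀ (3 * r) := by rw [mem_ball, dist_eq_norm]; linarith
  have hνn : ‖gdir u z‖ = 1 := gdir_norm hGpos
  have hz1 : u z - u z₀ ≤ M * d :=
    (hlip z₀ hz₀B z hzB).trans (mul_le_mul_of_nonneg_left hzd.le hMpos.le)
  obtain ⟨σ, hσM⟩ : ∃ σ : ℝ, σ * M = u x₁ - u z := ⟨(u x₁ - u z) / M, by field_simp⟩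
  have hσge : r * (1 - ε) - d ≤ σ := by
    have h1 : M * (r * (1 - ε) - d) ≤ M * σ := by linarith
    exact le_of_mul_le_mul_left h1 hMpos
  have hσ0 : 0 ≤ σ := by
    have h2 : 2 * d / r * r = 2 * d := by field_simp
    have h3 : 2 * d ≤ r * (1 - ε) := by nlinarith
    linarith
  have hx₁z : ‖x₁ - z‖ ≤ r + d := by
    have e1 : x₁ - z = (x₁ - z₀) + (z₀ - z) := by abel
    rw [e1]
    exact (norm_add_le _ _).trans (by linarith)
  have hσle : σ ≤ r + d := by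
    have h1 := hlip z hzB x₁ hx₁B
    have h2 : M * σ ≤ M * (r + d) := by nlinarith
    exact le_of_mul_le_mul_left h2 hMpos
  have hσn : ‖σ • gdir u z‖ = σ := by
    rw [norm_smul, hνn, Real.norm_eq_abs, abs_of_nonneg hσ0, mul_one]
  have hwB : x₁ - σ • gdir u z ∈ ball z₀ (3 * r) := by
    rw [mem_ball, dist_eq_norm]
    have e1 : x₁ - σ • gdir u z - z₀ = (x₁ - z₀) - σ • gdir u z := by abel
    rw [e1]
    have h2 := norm_sub_le (x₁ - z₀) (σ • gdir u z)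
    linarith
  have hinner : σ ≤ inner ℝ (gdir u z) (x₁ - z) := by
    by_contra hcon
    have hcon' := not_le.mp hcon
    have hneg : fderiv ℝ u z ((x₁ - σ • gdir u z) - z) < 0 := by
      rw [fderiv_eq_inner_gdir hGpos]
      have e1 : x₁ - σ • gdir u z - z = (x₁ - z) - σ • gdir u z := by abel
      have h1 : inner ℝ (gdir u z) (x₁ - σ • gdir u z - z)
          = inner ℝ (gdir u z) (x₁ - z) - σ := by
        rw [e1, inner_sub_right, inner_smul_right, real_inner_self_eq_norm_sq, hνn]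
        ring
      rw [h1]
      exact mul_neg_of_pos_of_neg hGpos (by linarith)
    have hlt := lt_of_fderiv_neg hqc hzB hwB hdz hneg
    have h3 := hlip (x₁ - σ • gdir u z) hwB x₁ hx₁B
    have e2 : x₁ - (x₁ - σ • gdir u z) = σ • gdir u z := by abel
    rw [e2, hσn] at h3
    linarith
  have hdir : r * (1 - (ε + 2 * d / r)) ≤ inner ℝ (gdir u z) (x₁ - z₀) := by
    have e3 : x₁ - z₀ = (x₁ - z) + (z - z₀) := by abel
    have h4 : -‖z - z₀‖ ≤ inner ℝ (gdir u z) (z - z₀) := by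
      have h5 := abs_real_inner_le_norm (gdir u z) (z - z₀)
      rw [hνn, one_mul] at h5
      exact (abs_le.mp h5).1
    rw [e3, inner_add_right]
    have h6 : r * (1 - (ε + 2 * d / r)) = r * (1 - ε) - 2 * d := by
      field_simp
      ring
    rw [h6]
    linarith
  exact explicit_dir hr hνn hx₁n hdir

/-- Lower bound for the slope at `z`. -/
theorem explicit_point_low {u : E → ℝ} {Ω : Set E} (hu : IsInfinityHarmonicOn u Ω)
    {z₀ x₁ m z : E} {r d M ε : ℝ} (hr : 0 < r) (hd0 : 0 < d) (hsub : ball z₀ (3 * r) ⊆ Ω)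
    (hqc : QCOn u (ball z₀ (3 * r))) (hε0 : 0 ≤ ε) (hκ : ε + 2 * d / r ≤ 1) (hMpos : 0 < M)
    (hlip : ∀ p ∈ ball z₀ (3 * r), ∀ q ∈ ball z₀ (3 * r), u q - u p ≤ M * ‖q - p‖)
    (hmn : ‖z₀ - m‖ = r) (hdn : r * ((1 - ε) * M) ≤ u z₀ - u m)
    (hAA : ‖(x₁ - z₀) - (z₀ - m)‖ ≤ r * √(8 * ε))
    (hzd : ‖z - z₀‖ < d) (hdz : DifferentiableAt ℝ u z) (hGpos : 0 < ‖fderiv ℝ u z‖)
    (hνA : ‖r • gdir u z - (x₁ - z₀)‖ ≤ r * √(2 * (ε + 2 * d / r))) :
    M * (1 - (ε + 2 * d / r) - √(8 * ε) - √(2 * (ε + 2 * d / r))) ≤ ‖fderiv ℝ u z‖ := by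
  have hdr0 : 0 < 2 * d / r := by positivity
  have hdr : d ≤ r / 2 := by
    have h1 : 2 * d / r ≤ 1 := by linarith
    rw [div_le_one hr] at h1
    linarith
  have hz₀B : z₀ ∈ ball z₀ (3 * r) := mem_ball_self (by positivity)
  have hmB : m ∈ ball z₀ (3 * r) := by rw [mem_ball, dist_comm, dist_eq_norm]; linarith
  have hzd' : ‖z₀ - z‖ < d := by rw [← norm_neg, neg_sub]; exact hzd
  have hzB : z ∈ ball z₀ (3 * r) := by rw [mem_ball, dist_eq_norm]; linarith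
  have hνn : ‖gdir u z‖ = 1 := gdir_norm hGpos
  have hz2 : u z₀ - u z ≤ M * d :=
    (hlip z hzB z₀ hz₀B).trans (mul_le_mul_of_nonneg_left hzd'.le hMpos.le)
  have hrν : ‖r • gdir u z‖ = r := by
    rw [norm_smul, hνn, Real.norm_eq_abs, abs_of_pos hr, mul_one]
  have hcball : closedBall (z - r • gdir u z) r ⊆ ball z₀ (3 * r) := by
    intro w hw
    rw [mem_closedBall, dist_eq_norm] at hw
    rw [mem_ball, dist_eq_norm]
    have e4 : w - z₀ = (w - (z - r • gdir u z)) + ((z - z₀) - r • gdir u z) := by abel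
    rw [e4]
    have h1 := norm_add_le (w - (z - r • gdir u z)) ((z - z₀) - r • gdir u z)
    have h2 := norm_sub_le (z - z₀) (r • gdir u z)
    linarith
  have hstar := star_slope hu hsub hqc hr hdz hGpos hcball
  have hcB : z - r • gdir u z ∈ ball z₀ (3 * r) := hcball (mem_closedBall_self hr.le)
  have hcm : u (z - r • gdir u z) - u m
      ≤ M * (d + r * √(8 * ε) + r * √(2 * (ε + 2 * d / r))) := by
    refine (hlip m hmB _ hcB).trans (mul_le_mul_of_nonneg_left ?_ hMpos.le)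
    have e5 : z - r • gdir u z - m
        = (z - z₀) - (((x₁ - z₀) - (z₀ - m)) + (r • gdir u z - (x₁ - z₀))) := by abel
    rw [e5]
    have h1 := norm_sub_le (z - z₀) (((x₁ - z₀) - (z₀ - m)) + (r • gdir u z - (x₁ - z₀)))
    have h2 := norm_add_le ((x₁ - z₀) - (z₀ - m)) (r • gdir u z - (x₁ - z₀))
    linarith
  have h5 : r * (M * (1 - (ε + 2 * d / r) - √(8 * ε) - √(2 * (ε + 2 * d / r))))
      ≤ r * ‖fderiv ℝ u z‖ := by
    have h6 : r * (M * (1 - (ε + 2 * d / r) - √(8 * ε) - √(2 * (ε + 2 * d / r))))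
        = r * ((1 - ε) * M) - M * d
          - M * (d + r * √(8 * ε) + r * √(2 * (ε + 2 * d / r))) := by
      field_simp
      ring
    rw [h6]
    linarith
  exact le_of_mul_le_mul_left h5 hr

omit [CompleteSpace E] [ProperSpace E] in
/-- Final assembly at one point. -/
theorem explicit_point_final {ν A : E} {G r M ε κ : ℝ} (hr : 0 < r) (hMpos : 0 < M)
    (hν : ‖ν‖ = 1) (hε0 : 0 ≤ ε) (hεκ : ε ≤ κ) (hκ : κ ≤ 1) (hGM : G ≤ M)
    (hGlow : M * (1 - κ - √(8 * ε) - √(2 * κ)) ≤ G)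
    (hνA : ‖r • ν - A‖ ≤ r * √(2 * κ)) :
    ‖G • ν - M • (1 / r) • A‖ ≤ 7 * M * √κ := by
  have h1 : (M / r) • (r • ν) = M • ν := by
    rw [smul_smul]
    congr 1
    field_simp
  have h2 : M • (1 / r) • A = (M / r) • A := by
    rw [smul_smul]
    congr 1
    ring
  have e6 : G • ν - M • (1 / r) • A = (G - M) • ν + (M / r) • (r • ν - A) := by
    rw [h2, smul_sub, h1, sub_smul]
    abel
  rw [e6]
  have h7 : ‖(G - M) • ν‖ = M - G := by
    rw [norm_smul, hν, mul_one, Real.norm_eq_abs, abs_of_nonpos (by linarith)]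
    ring
  have h8 : ‖(M / r) • (r • ν - A)‖ ≤ M * √(2 * κ) := by
    rw [norm_smul, Real.norm_eq_abs, abs_of_pos (by positivity)]
    have h9 : M / r * (r * √(2 * κ)) = M * √(2 * κ) := by
      field_simp
    rw [← h9]
    exact mul_le_mul_of_nonneg_left hνA (by positivity)
  have h10 := explicit_arith hε0 hεκ hκ
  have h11 := norm_add_le ((G - M) • ν) ((M / r) • (r • ν - A))
  have h12 : M * (κ + √(8 * ε) + 2 * √(2 * κ)) ≤ M * (7 * √κ) :=
    mul_le_mul_of_nonneg_left h10 hMpos.le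
  linarith

/-- One-scale estimate. If `u` is infinity-harmonic and quasi-concave on the ball of radius
`3 r` around `z₀`, with `‖Du‖ ≤ M` there and `‖Du(z₀)‖ ≥ (1 - ε) M`, then on the ball of radius
`d` around `z₀` the gradient is within `7 M √(ε + 2 d / r)` of `M e` for one unit vector
`e`. -/
theorem explicit_one_scale {u : E → ℝ} {Ω : Set E} (hu : IsInfinityHarmonicOn u Ω)
    {z₀ : E} {r d M ε : ℝ} (hr : 0 < r) (hd0 : 0 < d) (hsub : ball z₀ (3 * r) ⊆ Ω)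
    (hqc : QCOn u (ball z₀ (3 * r)))
    (hdiff : ∀ z ∈ ball z₀ (3 * r), DifferentiableAt ℝ u z)
    (hM : ∀ z ∈ ball z₀ (3 * r), ‖fderiv ℝ u z‖ ≤ M)
    (hε0 : 0 ≤ ε) (hκ : ε + 2 * d / r ≤ 1) (hMpos : 0 < M)
    (h0 : (1 - ε) * M ≤ ‖fderiv ℝ u z₀‖) :
    ∃ e : E, ‖e‖ = 1 ∧ ∀ z ∈ ball z₀ d,
      ‖gradient u z - M • e‖ ≤ 7 * M * √(ε + 2 * d / r) := by
  have hdr0 : 0 < 2 * d / r := by positivity
  have hε1 : ε < 1 := by linarith
  have hdr : d ≤ r / 2 := by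
    have h1 : 2 * d / r ≤ 1 := by linarith
    rw [div_le_one hr] at h1
    linarith
  have h3r : (0 : ℝ) < 3 * r := by positivity
  have hz₀B : z₀ ∈ ball z₀ (3 * r) := mem_ball_self h3r
  have hcb : closedBall z₀ r ⊆ Ω := fun w hw => hsub (by
    rw [mem_ball]; rw [mem_closedBall] at hw; linarith)
  have hG₀ : 0 < ‖fderiv ℝ u z₀‖ :=
    lt_of_lt_of_le (mul_pos (by linarith) hMpos) h0
  obtain ⟨x₁, hx₁s, hx₁⟩ := exists_ascent hu hr hcb (hdiff z₀ hz₀B) hG₀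
  obtain ⟨m, hms, hm⟩ := exists_descent hu hr hcb (hdiff z₀ hz₀B) hG₀
  have hx₁n : ‖x₁ - z₀‖ = r := by rw [← dist_eq_norm]; exact mem_sphere.mp hx₁s
  have hmn : ‖z₀ - m‖ = r := by rw [← dist_eq_norm, dist_comm]; exact mem_sphere.mp hms
  have hx₁B : x₁ ∈ ball z₀ (3 * r) := by rw [mem_ball, dist_eq_norm]; linarith
  have hmB : m ∈ ball z₀ (3 * r) := by rw [mem_ball, dist_comm, dist_eq_norm]; linarith
  have hlip := explicit_lip hdiff hM
  have hnz := explicit_nonvanishing hu h3r hsub hqc hG₀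
  have hup : r * ((1 - ε) * M) ≤ u x₁ - u z₀ :=
    le_trans (mul_le_mul_of_nonneg_left h0 hr.le) hx₁
  have hdn : r * ((1 - ε) * M) ≤ u z₀ - u m :=
    le_trans (mul_le_mul_of_nonneg_left h0 hr.le) hm
  have hAA : ‖(x₁ - z₀) - (z₀ - m)‖ ≤ r * √(8 * ε) := by
    apply explicit_antipodal hr hx₁n hmn hε0 hε1.le
    have h1 := hlip m hmB x₁ hx₁B
    have h2 : (x₁ - z₀) + (z₀ - m) = x₁ - m := by abel
    rw [h2]
    have h3 : M * (2 * r * (1 - ε)) ≤ M * ‖x₁ - m‖ := by linarith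
    exact le_of_mul_le_mul_left h3 hMpos
  refine ⟨(1 / r) • (x₁ - z₀), ?_, ?_⟩
  · rw [norm_smul, hx₁n, Real.norm_eq_abs, abs_of_pos (by positivity)]
    field_simp
  intro z hz
  have hzd : ‖z - z₀‖ < d := by rw [← dist_eq_norm]; exact mem_ball.mp hz
  have hzB : z ∈ ball z₀ (3 * r) := by rw [mem_ball, dist_eq_norm]; linarith
  have hdz := hdiff z hzB
  have hGpos : 0 < ‖fderiv ℝ u z‖ := norm_pos_iff.mpr (hnz z hzB)
  have hνA := explicit_point_dir hr hd0 hqc hε0 hκ hMpos hlip hx₁n hup hzd hdz hGpos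
  have hGlow := explicit_point_low hu hr hd0 hsub hqc hε0 hκ hMpos hlip hmn hdn hAA hzd hdz hGpos hνA
  rw [gradient_eq_smul_gdir hGpos]
  exact explicit_point_final hr hMpos (gdir_norm hGpos) hε0 (by linarith) hκ (hM z hzB)
    hGlow hνA

end

end Vale.Agent.Lib.P080
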