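import Mathlib
import Vale.Agent.Lib.P080.ExplicitScale

namespace Vale.Agent.Lib.P080

open Filter Topology Set Metric

section

variable {E : Type*} [NormedAddCommGroup E] [InnerProductSpace ℝ E] [CompleteSpace E]
  [ProperSpace E]

/-- Explicit local modulus of continuity of the derivative of a quasi-concave
infinity-harmonic function: descending induction over the scales `ρ₀ / (24 n²) ^ k`. -/
theorem explicit_local {u : E → ℝ} {Ω : Set E} (hu : IsInfinityHarmonicOn u Ω)
    {y : E} {ρ₀ M₀ : ℝ} (hρ₀ : 0 < ρ₀) (hM₀ : 0 < M₀) (hsub : ball y ρ₀ ⊆ Ω)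
    (hqc : QCOn u (ball y ρ₀))
    (hdiff : ∀ z ∈ ball y ρ₀, DifferentiableAt ℝ u z)
    (hM : ∀ z ∈ ball y ρ₀, ‖fderiv ℝ u z‖ ≤ M₀) {n : ℕ} (hn : 2 ≤ n) :
    ∀ z ∈ ball y (ρ₀ / (24 * (n : ℝ) ^ 2) ^ (n ^ 3)),
      ∀ z' ∈ ball y (ρ₀ / (24 * (n : ℝ) ^ 2) ^ (n ^ 3)),
        ‖fderiv ℝ u z - fderiv ℝ u z'‖ ≤ 20 * M₀ / n := by
  have hn0 : (0 : ℝ) < n := by exact_mod_cast (by omega : 0 < n)
  have hn2 : (2 : ℝ) ≤ n := by exact_mod_cast hn
  have hn3 : (0 : ℝ) < (n : ℝ) ^ 3 := by positivity
  obtain ⟨Kc, hKc⟩ : ∃ Kc : ℝ, Kc = 24 * (n : ℝ) ^ 2 := ⟨_, rfl⟩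
  rw [← hKc]
  have hKc96 : 96 ≤ Kc := by rw [hKc]; nlinarith
  have hKc0 : 0 < Kc := by linarith
  have hKc1 : 1 ≤ Kc := by linarith
  have hρpos : ∀ k : ℕ, 0 < ρ₀ / Kc ^ k := fun k => div_pos hρ₀ (pow_pos hKc0 k)
  have hρmono : ∀ k l : ℕ, k ≤ l → ρ₀ / Kc ^ l ≤ ρ₀ / Kc ^ k := by
    intro k l hkl
    exact div_le_div_of_nonneg_left hρ₀.le (pow_pos hKc0 k) (pow_le_pow_right₀ hKc1 hkl)
  have hρsucc : ∀ k : ℕ, ρ₀ / Kc ^ (k + 1) = ρ₀ / Kc ^ k / Kc := by
    intro k
    rw [pow_succ, div_div]
  have key : ∀ k : ℕ, k ≤ n ^ 3 →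
      (∀ z ∈ ball y (ρ₀ / Kc ^ k), ‖fderiv ℝ u z‖ ≤ M₀ * (1 - (k : ℝ) / (n : ℝ) ^ 3)) ∨
      (∀ z ∈ ball y (ρ₀ / Kc ^ (n ^ 3)), ∀ z' ∈ ball y (ρ₀ / Kc ^ (n ^ 3)),
        ‖fderiv ℝ u z - fderiv ℝ u z'‖ ≤ 20 * M₀ / n) := by
    intro k
    induction k with
    | zero =>
      intro _
      left
      intro z hz
      have h := hM z (by simpa using hz)
      simpa using h
    | succ k ih =>
      intro hk
      rcases ih (by omega) with h1 | h2
      · obtain ⟨L, hL⟩ : ∃ L : ℝ, L = M₀ * (1 - (k : ℝ) / (n : ℝ) ^ 3) := ⟨_, rfl⟩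
        rw [← hL] at h1
        have hkN : (k : ℝ) + 1 ≤ (n : ℝ) ^ 3 := by exact_mod_cast hk
        have hLpos : 0 < L := by
          rw [hL]
          apply mul_pos hM₀
          rw [sub_pos, div_lt_one hn3]
          linarith
        have hLM : L ≤ M₀ := by
          rw [hL]
          have h0 : 0 ≤ (k : ℝ) / (n : ℝ) ^ 3 := by positivity
          nlinarith
        have hlast : ball y (ρ₀ / Kc ^ (n ^ 3)) ⊆ ball y (ρ₀ / Kc ^ (k + 1)) :=
          ball_subset_ball (hρmono _ _ hk)
        have hk1k : ball y (ρ₀ / Kc ^ (k + 1)) ⊆ ball y (ρ₀ / Kc ^ k) :=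
          ball_subset_ball (hρmono _ _ (Nat.le_succ k))
        by_cases hcase : L < M₀ / n
        · right
          intro z hz z' hz'
          have a1 := h1 z (hk1k (hlast hz))
          have a2 := h1 z' (hk1k (hlast hz'))
          have a3 : ‖fderiv ℝ u z - fderiv ℝ u z'‖ ≤ ‖fderiv ℝ u z‖ + ‖fderiv ℝ u z'‖ :=
            norm_sub_le _ _
          have a4 : 2 * (M₀ / n) ≤ 20 * M₀ / n := by
            rw [mul_div_assoc]
            have h0 : 0 ≤ M₀ / n := by positivity
            linarith
          linarith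
        · have hcase' : M₀ / n ≤ L := not_lt.mp hcase
          by_cases hall : ∀ z ∈ ball y (ρ₀ / Kc ^ (k + 1)),
              ‖fderiv ℝ u z‖ ≤ M₀ * (1 - ((k + 1 : ℕ) : ℝ) / (n : ℝ) ^ 3)
          · left
            exact hall
          · right
            push Not at hall
            obtain ⟨zs, hzs, hzs2⟩ := hall
            have hlow : (1 - 1 / (n : ℝ) ^ 2) * L ≤ ‖fderiv ℝ u zs‖ := by
              have e1 : M₀ * (1 - ((k + 1 : ℕ) : ℝ) / (n : ℝ) ^ 3)
                  = L - M₀ / (n : ℝ) ^ 3 := by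
                rw [hL]
                push_cast
                field_simp
                ring
              have e2 : M₀ / (n : ℝ) ^ 3 ≤ L / (n : ℝ) ^ 2 := by
                have e : M₀ / (n : ℝ) ^ 3 = (M₀ / n) / (n : ℝ) ^ 2 := by
                  field_simp
                rw [e]
                exact div_le_div_of_nonneg_right hcase' (by positivity)
              have e3 : (1 - 1 / (n : ℝ) ^ 2) * L = L - L / (n : ℝ) ^ 2 := by ring
              linarith
            obtain ⟨ρk, hρk⟩ : ∃ ρk : ℝ, ρk = ρ₀ / Kc ^ k := ⟨_, rfl⟩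
            have hρk0 : 0 < ρk := by rw [hρk]; exact hρpos k
            have hρk1 : ρ₀ / Kc ^ (k + 1) = ρk / Kc := by rw [hρk]; exact hρsucc k
            have hρkle : ρk ≤ ρ₀ := by
              rw [hρk]
              simpa using hρmono 0 k (Nat.zero_le k)
            rw [hρk1] at hzs hlast
            rw [← hρk] at h1
            have hzsd : dist zs y < ρk / Kc := mem_ball.mp hzs
            have hKc2 : ρk / Kc ≤ ρk / 2 :=
              div_le_div_of_nonneg_left hρk0.le (by norm_num) (by linarith)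
            have hsub1 : ball zs (3 * (ρk / 6)) ⊆ ball y ρk := by
              intro w hw
              rw [mem_ball] at hw ⊢
              have h3 : dist w y ≤ dist w zs + dist zs y := dist_triangle _ _ _
              linarith
            have hsub0 : ball y ρk ⊆ ball y ρ₀ := ball_subset_ball hρkle
            have hκe : 1 / (n : ℝ) ^ 2 + 2 * (2 * (ρk / Kc)) / (ρk / 6) = 2 / (n : ℝ) ^ 2 := by
              rw [hKc]
              field_simp
              ring
            have hκ : 1 / (n : ℝ) ^ 2 + 2 * (2 * (ρk / Kc)) / (ρk / 6) ≤ 1 := by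
              rw [hκe, div_le_one (by positivity)]
              nlinarith
            have hsc := explicit_one_scale hu (z₀ := zs) (r := ρk / 6) (d := 2 * (ρk / Kc))
              (M := L) (ε := 1 / (n : ℝ) ^ 2)
              (by positivity) (by positivity) ((hsub1.trans hsub0).trans hsub)
              (fun a ha b hb w hw => hqc a (hsub0 (hsub1 ha)) b (hsub0 (hsub1 hb)) w hw)
              (fun z hz => hdiff z (hsub0 (hsub1 hz)))
              (fun z hz => h1 z (hsub1 hz))
              (by positivity) hκ hLpos hlow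
            obtain ⟨e, he, hball⟩ := hsc
            rw [hκe] at hball
            have hsq : √(2 / (n : ℝ) ^ 2) = √2 / n := by
              rw [Real.sqrt_div (by norm_num), Real.sqrt_sq hn0.le]
            intro z hz z' hz'
            have hzb : ∀ w ∈ ball y (ρ₀ / Kc ^ (n ^ 3)), w ∈ ball zs (2 * (ρk / Kc)) := by
              intro w hw
              have hw1 := hlast hw
              rw [mem_ball] at hw1 ⊢
              have h3 : dist w zs ≤ dist w y + dist y zs := dist_triangle _ _ _
              rw [dist_comm y zs] at h3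
              linarith
            have g1 := hball z (hzb z hz)
            have g2 := hball z' (hzb z' hz')
            have e1 : ‖fderiv ℝ u z - fderiv ℝ u z'‖ = ‖gradient u z - gradient u z'‖ := by
              rw [fderiv_eq_toDual u z, fderiv_eq_toDual u z', ← map_sub,
                LinearIsometryEquiv.norm_map]
            have e2 : ‖gradient u z - gradient u z'‖
                ≤ ‖gradient u z - L • e‖ + ‖gradient u z' - L • e‖ := by
              have e0 : gradient u z - gradient u z'
                  = (gradient u z - L • e) - (gradient u z' - L • e) := by abel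
              rw [e0]
              exact norm_sub_le _ _
            have e3 : 7 * L * (√2 / n) + 7 * L * (√2 / n) ≤ 20 * M₀ / n := by
              have hs2 := explicit_sqrt_two
              have e0 : 7 * L * (√2 / n) + 7 * L * (√2 / n) = (14 * √2) * L / n := by ring
              rw [e0]
              apply div_le_div_of_nonneg_right _ hn0.le
              nlinarith [Real.sqrt_nonneg 2]
            rw [hsq] at g1 g2
            rw [e1]
            linarith
      · right
        exact h2
  rcases key (n ^ 3) le_rfl with h1 | h2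
  · intro z hz z' hz'
    have e : M₀ * (1 - ((n ^ 3 : ℕ) : ℝ) / (n : ℝ) ^ 3) = 0 := by
      push_cast
      rw [div_self hn3.ne']
      ring
    have hz0 : ‖fderiv ℝ u z‖ ≤ 0 := by
      have h := h1 z hz
      linarith
    have hz0' : ‖fderiv ℝ u z'‖ ≤ 0 := by
      have h := h1 z' hz'
      linarith
    have a3 : ‖fderiv ℝ u z - fderiv ℝ u z'‖ ≤ ‖fderiv ℝ u z‖ + ‖fderiv ℝ u z'‖ :=
      norm_sub_le _ _
    have a4 : 0 ≤ 20 * M₀ / n := by positivity
    linarith
  · exact h2

end

end Vale.Agent.Lib.P080
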