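import Mathlib
import Vale.Agent.Lib.P080.Slope

namespace Vale.Agent.Lib.P080

open Filter Topology Set Metric

variable {E : Type*} [NormedAddCommGroup E] [InnerProductSpace ℝ E] [CompleteSpace E]
  [ProperSpace E]

omit [CompleteSpace E] [ProperSpace E] in
/-- The square of a `C²` function which vanishes to first order at `z` has vanishing first
and second derivatives at `z`. -/
theorem stab_sq_jet {N : E → ℝ} {z : E} (hN : ContDiff ℝ 2 N) (h0 : N z = 0)
    (h1 : fderiv ℝ N z = 0) :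
    fderiv ℝ (fun x => N x * N x) z = 0 ∧
      fderiv ℝ (fderiv ℝ (fun x => N x * N x)) z = 0 := by
  have hNd : Differentiable ℝ N := hN.differentiable (by norm_num)
  have hd : ∀ x, HasFDerivAt (fun x => N x * N x)
      (N x • fderiv ℝ N x + N x • fderiv ℝ N x) x := fun x =>
    (hNd x).hasFDerivAt.mul (hNd x).hasFDerivAt
  constructor
  · rw [(hd z).fderiv, h0]
    simp
  · have hfun : fderiv ℝ (fun x => N x * N x)
        = fun x => N x • fderiv ℝ N x + N x • fderiv ℝ N x :=
      funext fun x => (hd x).fderiv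
    rw [hfun]
    have hN' : DifferentiableAt ℝ (fderiv ℝ N) z :=
      (hN.fderiv_right (m := 1) (by norm_num)).differentiable (by norm_num) z
    have hs : HasFDerivAt (fun x => N x • fderiv ℝ N x) (0 : E →L[ℝ] (E →L[ℝ] ℝ)) z := by
      have h := (hNd z).hasFDerivAt.smul hN'.hasFDerivAt
      rw [h0, h1] at h
      have e : (0 : ℝ) • fderiv ℝ (fderiv ℝ N) z
          + (0 : E →L[ℝ] ℝ).smulRight (0 : E →L[ℝ] ℝ) = 0 := by
        ext a b
        simp
      rw [e] at h
      exact h
    have hsum := hs.add hs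
    rw [add_zero] at hsum
    exact hsum.fderiv

/-- The maximum half of the stability of viscosity solutions under uniform approximation. -/
theorem stab_max {u : E → ℝ} {Ω : Set E} (hΩ : IsOpen Ω)
    (happ : ∀ ε > 0, ∃ v : E → ℝ, IsInfinityHarmonicOn v Ω ∧ ∀ x ∈ Ω, |v x - u x| ≤ ε)
    (φ : E → ℝ) (z : E) (hz : z ∈ Ω) (hφ : ContDiffAt ℝ 2 φ z)
    (hmax : IsLocalMax (fun x => u x - φ x) z) : 0 ≤ infLaplacian φ z := by
  by_contra hneg
  rw [not_le] at hneg
  obtain ⟨N, hNdef⟩ : ∃ N : E → ℝ, ∀ x, N x = ‖x - z‖ ^ 2 :=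
    ⟨fun x => ‖x - z‖ ^ 2, fun _ => rfl⟩
  have hNcd : ContDiff ℝ 2 N := by
    have e : N = fun x => ‖x - z‖ ^ 2 := funext hNdef
    rw [e]
    exact (contDiff_norm_sq ℝ).comp (contDiff_id.sub contDiff_const)
  have hN0 : N z = 0 := by
    rw [hNdef]
    simp
  have hNmin : IsLocalMin N z := by
    apply Filter.Eventually.of_forall
    intro x
    rw [hN0, hNdef]
    positivity
  have hN1 : fderiv ℝ N z = 0 := hNmin.fderiv_eq_zero
  obtain ⟨hq1, hq2⟩ := stab_sq_jet hNcd hN0 hN1
  have hqcd : ContDiff ℝ 2 (fun x => N x * N x) := hNcd.mul hNcd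
  obtain ⟨ψ, hψdef⟩ : ∃ ψ : E → ℝ, ∀ x, ψ x = φ x + N x * N x :=
    ⟨fun x => φ x + N x * N x, fun _ => rfl⟩
  have hψe : ψ = fun x => φ x + N x * N x := funext hψdef
  have hψcd : ContDiffAt ℝ 2 ψ z := by
    rw [hψe]
    exact hφ.add hqcd.contDiffAt
  -- the perturbation does not change the infinity Laplacian at `z`
  have hφd : DifferentiableAt ℝ φ z := hφ.differentiableAt (by norm_num)
  have hqd : Differentiable ℝ (fun x => N x * N x) := hqcd.differentiable (by norm_num)
  have hfd : fderiv ℝ ψ z = fderiv ℝ φ z := by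
    rw [hψe, fderiv_fun_add hφd (hqd z), hq1, add_zero]
  have hgrad : gradient ψ z = gradient φ z := by
    unfold gradient
    rw [hfd]
  have hφ2 : DifferentiableAt ℝ (fderiv ℝ φ) z :=
    (hφ.fderiv_right (m := 1) (by norm_num)).differentiableAt (by norm_num)
  have hq2d : DifferentiableAt ℝ (fderiv ℝ (fun x => N x * N x)) z :=
    (hqcd.fderiv_right (m := 1) (by norm_num)).differentiable (by norm_num) z
  have hev : fderiv ℝ ψ =ᶠ[𝓝 z]
      fun x => fderiv ℝ φ x + fderiv ℝ (fun x => N x * N x) x := by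
    filter_upwards [hφ.eventually (by norm_num)] with x hx
    rw [hψe]
    exact fderiv_fun_add (hx.differentiableAt (by norm_num)) (hqd x)
  have hffd : fderiv ℝ (fderiv ℝ ψ) z = fderiv ℝ (fderiv ℝ φ) z := by
    rw [hev.fderiv_eq, fderiv_fun_add hφ2 hq2d, hq2, add_zero]
  have hlap : infLaplacian ψ z = infLaplacian φ z := by
    unfold infLaplacian
    rw [hffd, hgrad]
  -- continuity of the infinity Laplacian of the perturbed function at `z`
  have hc1 : ContinuousAt (fderiv ℝ ψ) z :=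
    (hψcd.fderiv_right (m := 1) (by norm_num)).continuousAt
  have hc2 : ContinuousAt (fderiv ℝ (fderiv ℝ ψ)) z :=
    ((hψcd.fderiv_right (m := 1) (by norm_num)).fderiv_right (m := 0)
      (by norm_num)).continuousAt
  have hc3 : ContinuousAt (fun x => gradient ψ x) z := by
    have h : ContinuousAt (fun x => (InnerProductSpace.toDual ℝ E).symm (fderiv ℝ ψ x)) z :=
      (InnerProductSpace.toDual ℝ E).symm.continuous.continuousAt.comp hc1
    exact h
  have hcI : ContinuousAt (fun x => infLaplacian ψ x) z := by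
    have h : ContinuousAt
        (fun x => fderiv ℝ (fderiv ℝ ψ) x (gradient ψ x) (gradient ψ x)) z :=
      (hc2.clm_apply hc3).clm_apply hc3
    exact h
  -- a closed ball on which everything holds
  have hneg' : infLaplacian ψ z < 0 := by
    rw [hlap]
    exact hneg
  have hev1 : ∀ᶠ x in 𝓝 z, ContDiffAt ℝ 2 ψ x := hψcd.eventually (by norm_num)
  have hev2 : ∀ᶠ x in 𝓝 z, infLaplacian ψ x < 0 :=
    hcI.tendsto.eventually (gt_mem_nhds hneg')
  have hev3 : ∀ᶠ x in 𝓝 z, x ∈ Ω := hΩ.mem_nhds hz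
  have hall := hev1.and (hev2.and (hev3.and hmax))
  rw [Metric.eventually_nhds_iff] at hall
  obtain ⟨ε0, hε0, hball⟩ := hall
  obtain ⟨r, hr⟩ : ∃ r : ℝ, r = ε0 / 2 := ⟨_, rfl⟩
  have hr0 : 0 < r := by
    rw [hr]
    linarith
  have hP : ∀ x ∈ closedBall z r, ContDiffAt ℝ 2 ψ x ∧ infLaplacian ψ x < 0 ∧ x ∈ Ω ∧
      u x - φ x ≤ u z - φ z := by
    intro x hx
    rw [mem_closedBall] at hx
    exact hball (by rw [hr] at hx; linarith)
  -- the approximant and its maximum point
  obtain ⟨v, hv, hvu⟩ := happ (r ^ 4 / 4) (by positivity)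
  have hgc : ContinuousOn (fun x => v x - ψ x) (closedBall z r) := by
    apply ContinuousOn.sub
    · exact hv.1.mono (fun x hx => (hP x hx).2.2.1)
    · intro x hx
      exact ((hP x hx).1.continuousAt).continuousWithinAt
  have hzmem : z ∈ closedBall z r := mem_closedBall_self hr0.le
  obtain ⟨z1, hz1, hz1max⟩ := (isCompact_closedBall z r).exists_isMaxOn ⟨z, hzmem⟩ hgc
  have hψz : ψ z = φ z := by
    rw [hψdef, hN0]
    ring
  have hlt : dist z1 z < r := by
    by_contra hnot
    have heq : dist z1 z = r := le_antisymm (mem_closedBall.mp hz1) (not_lt.mp hnot)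
    have hNz1 : N z1 = r ^ 2 := by
      rw [hNdef, ← dist_eq_norm, heq]
    have h1 := (hP z1 hz1).2.2.2
    have h2 := hvu z1 (hP z1 hz1).2.2.1
    have h3 := hvu z hz
    have h4 : v z - ψ z ≤ v z1 - ψ z1 := hz1max hzmem
    have h5 : ψ z1 = φ z1 + r ^ 4 := by
      rw [hψdef, hNz1]
      ring
    rw [abs_le] at h2 h3
    have hr4 : 0 < r ^ 4 := by positivity
    rw [hψz, h5] at h4
    linarith [h2.1, h2.2, h3.1, h3.2]
  have hz1ball : z1 ∈ ball z r := mem_ball.mpr hlt
  have hnhds : closedBall z r ∈ 𝓝 z1 :=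
    Filter.mem_of_superset (isOpen_ball.mem_nhds hz1ball) ball_subset_closedBall
  have hloc : IsLocalMax (fun x => v x - ψ x) z1 := hz1max.isLocalMax hnhds
  have hfinal := hv.2.1 ψ z1 (hP z1 hz1).2.2.1 (hP z1 hz1).1 hloc
  exact absurd hfinal (not_le.mpr (hP z1 hz1).2.1)

/-- Stability of viscosity solutions of the infinity Laplace equation under uniform
approximation. -/
theorem isInfinityHarmonicOn_of_uniform_approx {u : E → ℝ} {Ω : Set E} (hΩ : IsOpen Ω)
    (hcont : ContinuousOn u Ω)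
    (happ : ∀ ε > 0, ∃ v : E → ℝ, IsInfinityHarmonicOn v Ω ∧ ∀ x ∈ Ω, |v x - u x| ≤ ε) :
    IsInfinityHarmonicOn u Ω := by
  refine ⟨hcont, fun φ z hz hφ hmax => stab_max hΩ happ φ z hz hφ hmax, ?_⟩
  intro φ z hz hφ hmin
  have happ' : ∀ ε > 0, ∃ v : E → ℝ, IsInfinityHarmonicOn v Ω ∧
      ∀ x ∈ Ω, |v x - (fun x => -u x) x| ≤ ε := by
    intro ε hε
    obtain ⟨v, hv, hvu⟩ := happ ε hε
    refine ⟨fun x => -v x, hv.neg, fun x hx => ?_⟩
    have h := hvu x hx
    have e : -v x - -u x = -(v x - u x) := by ring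
    show |-v x - -u x| ≤ ε
    rw [e, abs_neg]
    exact h
  have hmax : IsLocalMax (fun x => (fun x => -u x) x - (fun x => -φ x) x) z := by
    filter_upwards [hmin] with y hy
    have hy' : u z - φ z ≤ u y - φ y := hy
    show -u y - -φ y ≤ -u z - -φ z
    linarith
  have h := stab_max hΩ happ' (fun x => -φ x) z hz hφ.neg hmax
  rw [infLaplacian_neg'] at h
  linarith

end Vale.Agent.Lib.P080
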