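import Mathlib
import Vale.Agent.Lib.P080.QuasiConcaveB

namespace Vale.Agent.Lib.P080

open Filter Topology Set Metric

variable {E : Type*} [NormedAddCommGroup E] [InnerProductSpace ℝ E] [CompleteSpace E]
  [ProperSpace E]

omit [CompleteSpace E] [ProperSpace E] in
/-- Geometry of an inner touching ball: for `‖a - b‖ = R` and `0 ≤ t ≤ R` the point
`z = a - t e`, `e = (a - b) / R`, satisfies `‖e‖ = 1`, `‖z - b‖ = R - t` and `‖a - z‖ = t`. -/
theorem slopeLo_geom {a b : E} {R t : ℝ} (hR : 0 < R) (hab : ‖a - b‖ = R) (ht0 : 0 ≤ t)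
    (htR : t ≤ R) :
    ‖(1 / R) • (a - b)‖ = 1 ∧ ‖a - t • ((1 / R) • (a - b)) - b‖ = R - t ∧
      ‖a - (a - t • ((1 / R) • (a - b)))‖ = t := by
  have he : ‖(1 / R) • (a - b)‖ = 1 := by
    rw [norm_smul, hab, Real.norm_of_nonneg (by positivity)]
    field_simp
  refine ⟨he, ?_, ?_⟩
  · have h2 : R • ((1 / R) • (a - b)) = a - b := by
      rw [smul_smul, mul_one_div_cancel hR.ne', one_smul]
    have h1 : a - t • ((1 / R) • (a - b)) - b = (R - t) • ((1 / R) • (a - b)) := by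
      rw [sub_smul, h2]
      abel
    rw [h1, norm_smul, he, mul_one, Real.norm_of_nonneg (by linarith)]
  · have h1 : a - (a - t • ((1 / R) • (a - b))) = t • ((1 / R) • (a - b)) := by abel
    rw [h1, norm_smul, he, mul_one, Real.norm_of_nonneg ht0]

theorem slope_lower_of_uniform {Ω : Set E} (hΩ : IsOpen Ω) {U : ℕ → E → ℝ} {u : E → ℝ}
    (hU : ∀ n, IsInfinityHarmonicOn (U n) Ω) (hucont : ContinuousOn u Ω)
    (hconv : TendstoUniformlyOn U u atTop Ω)
    {x c : ℕ → E} {x₀ c₀ : E} (hx : Tendsto x atTop (𝓝 x₀)) (hc : Tendsto c atTop (𝓝 c₀))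
    {R : ℝ} (hR : 0 < R) (hxc : ∀ n, ‖x n - c n‖ = R) (hball : ∀ n, closedBall (c n) R ⊆ Ω)
    (hball₀ : closedBall c₀ R ⊆ Ω)
    (hmax : ∀ n, ∀ w ∈ closedBall (c n) R, U n w ≤ U n (x n))
    (hdn : ∀ n, DifferentiableAt ℝ (U n) (x n))
    {S : ℝ} (hd : HasFDerivAt u (S • innerSL ℝ ((1 / R) • (x₀ - c₀))) x₀) {η : ℝ} (hη : 0 < η) :
    ∀ᶠ n in atTop, S - η ≤ ‖fderiv ℝ (U n) (x n)‖ := by
  have _hΩ := hΩ
  have hnorm₀ : ‖x₀ - c₀‖ = R := by
    have h1 : Tendsto (fun n => ‖x n - c n‖) atTop (𝓝 ‖x₀ - c₀‖) := (hx.sub hc).norm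
    have h2 : (fun n => ‖x n - c n‖) = fun _ => R := funext hxc
    rw [h2] at h1
    exact tendsto_nhds_unique h1 tendsto_const_nhds
  obtain ⟨e₀, he₀⟩ : ∃ e₀ : E, e₀ = (1 / R) • (x₀ - c₀) := ⟨_, rfl⟩
  rw [← he₀] at hd
  have hη4 : 0 < η / 4 := by positivity
  have hev := hd.isLittleO.def hη4
  obtain ⟨δ₁, hδ₁, hδ⟩ := Metric.eventually_nhds_iff.mp hev
  obtain ⟨t, ht⟩ : ∃ t : ℝ, t = min (δ₁ / 2) R := ⟨_, rfl⟩
  have ht0 : 0 < t := by
    rw [ht]
    exact lt_min (by positivity) hR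
  have htR : t ≤ R := by
    rw [ht]
    exact min_le_right _ _
  have htδ : t < δ₁ := by
    have h1 : t ≤ δ₁ / 2 := by
      rw [ht]
      exact min_le_left _ _
    linarith
  obtain ⟨hen₀, hz₀c, hz₀x⟩ := slopeLo_geom hR hnorm₀ ht0.le htR
  rw [← he₀] at hen₀ hz₀c hz₀x
  obtain ⟨z₀, hz₀⟩ : ∃ z₀ : E, z₀ = x₀ - t • e₀ := ⟨_, rfl⟩
  rw [← hz₀] at hz₀c hz₀x
  have hx₀Ω : x₀ ∈ Ω := hball₀ (by rw [mem_closedBall, dist_eq_norm, hnorm₀])
  have hz₀Ω : z₀ ∈ Ω := hball₀ (by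
    rw [mem_closedBall, dist_eq_norm, hz₀c]
    linarith)
  have hval : u z₀ ≤ u x₀ - S * t + η / 4 * t := by
    have hdist : dist z₀ x₀ < δ₁ := by
      rw [dist_comm, dist_eq_norm, hz₀x]
      exact htδ
    have h1 := hδ hdist
    have h2 : (S • innerSL ℝ e₀) (z₀ - x₀) = -(S * t) := by
      have h3 : z₀ - x₀ = -(t • e₀) := by
        rw [hz₀]
        abel
      rw [h3]
      show S * inner ℝ e₀ (-(t • e₀)) = -(S * t)
      rw [inner_neg_right, inner_smul_right, real_inner_self_eq_norm_sq, hen₀]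
      ring
    rw [h2, norm_sub_rev z₀ x₀, hz₀x, Real.norm_eq_abs] at h1
    have h4 := (abs_le.mp h1).2
    linarith
  have hgeom := fun n => slopeLo_geom hR (hxc n) ht0.le htR
  obtain ⟨z, hz⟩ : ∃ z : ℕ → E, z = fun n => x n - t • ((1 / R) • (x n - c n)) := ⟨_, rfl⟩
  have hzc : ∀ n, ‖z n - c n‖ = R - t := fun n => by
    rw [hz]
    exact (hgeom n).2.1
  have hzx : ∀ n, ‖x n - z n‖ = t := fun n => by
    rw [hz]
    exact (hgeom n).2.2
  have hzlim : Tendsto z atTop (𝓝 z₀) := by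
    rw [hz, hz₀, he₀]
    exact hx.sub (((hx.sub hc).const_smul (1 / R)).const_smul t)
  have hxΩ : ∀ n, x n ∈ Ω := fun n =>
    hball n (by rw [mem_closedBall, dist_eq_norm, hxc n])
  have hzball : ∀ n, closedBall (z n) t ⊆ closedBall (c n) R := by
    intro n w hw
    rw [mem_closedBall] at hw ⊢
    have h1 := dist_triangle w (z n) (c n)
    rw [dist_eq_norm (z n) (c n), hzc n] at h1
    linarith
  have hzΩ : ∀ n, z n ∈ Ω := fun n => hball n (hzball n (mem_closedBall_self ht0.le))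
  have hslope : ∀ n, U n (x n) - U n (z n) ≤ t * ‖fderiv ℝ (U n) (x n)‖ := by
    intro n
    refine slope_ge_of_max_sphere (hU n) ht0 ((hzball n).trans (hball n)) ?_ ?_ (hdn n)
    · rw [mem_sphere, dist_eq_norm, hzx n]
    · intro w hw
      exact hmax n w (hzball n (sphere_subset_closedBall hw))
  have hUx : Tendsto (fun n => U n (x n)) atTop (𝓝 (u x₀)) :=
    hconv.tendsto_comp (hucont x₀ hx₀Ω)
      (tendsto_nhdsWithin_iff.mpr ⟨hx, Eventually.of_forall hxΩ⟩)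
  have hUz : Tendsto (fun n => U n (z n)) atTop (𝓝 (u z₀)) :=
    hconv.tendsto_comp (hucont z₀ hz₀Ω)
      (tendsto_nhdsWithin_iff.mpr ⟨hzlim, Eventually.of_forall hzΩ⟩)
  have hε : 0 < η / 8 * t := by positivity
  have ev1 := hUx.eventually (eventually_gt_nhds (show u x₀ - η / 8 * t < u x₀ by linarith))
  have ev2 := hUz.eventually (eventually_lt_nhds (show u z₀ < u z₀ + η / 8 * t by linarith))
  filter_upwards [ev1, ev2] with n h1n h2n
  have h3 := hslope n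
  have h4 : t * (S - η / 2) < t * ‖fderiv ℝ (U n) (x n)‖ := by
    have e : t * (S - η / 2) = S * t - η / 4 * t - η / 8 * t - η / 8 * t := by ring
    rw [e]
    linarith
  have h5 := lt_of_mul_lt_mul_left h4 ht0.le
  linarith

end Vale.Agent.Lib.P080
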