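import Mathlib
import Vale.Agent.Lib.P080.QuasiConcaveB

namespace Vale.Agent.Lib.P080

open Filter Topology Set Metric

/-- A real continuous linear functional bounded above by `M` on unit vectors has norm at most
`M`. -/
theorem slopeUp_opNorm_le {F : Type*} [NormedAddCommGroup F] [NormedSpace ℝ F] (f : F →L[ℝ] ℝ)
    {M : ℝ} (hM : 0 ≤ M) (h : ∀ v : F, ‖v‖ = 1 → f v ≤ M) : ‖f‖ ≤ M := by
  refine ContinuousLinearMap.opNorm_le_of_unit_norm hM (fun v hv => ?_)
  rw [Real.norm_eq_abs, abs_le]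
  constructor
  · have h1 := h (-v) (by rw [norm_neg]; exact hv)
    rw [map_neg] at h1
    linarith
  · exact h v hv

/-- Choice of a small radius. -/
theorem slopeUp_theta {N η r : ℝ} (hN : 0 ≤ N) (hη : 0 < η) (hr : 0 < r) :
    ∃ θ : ℝ, 0 < θ ∧ θ ≤ r ∧ (N + η / 4) * θ ≤ η * r / 16 := by
  have hc : 0 < N + η / 4 := by linarith
  refine ⟨min r (η * r / (16 * (N + η / 4))), lt_min hr (by positivity), min_le_left _ _, ?_⟩
  calc (N + η / 4) * min r (η * r / (16 * (N + η / 4)))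
      ≤ (N + η / 4) * (η * r / (16 * (N + η / 4))) :=
        mul_le_mul_of_nonneg_left (min_le_right _ _) hc.le
    _ = η * r / 16 := by field_simp

variable {E : Type*} [NormedAddCommGroup E] [InnerProductSpace ℝ E] [CompleteSpace E]
  [ProperSpace E]

/-- Joint upper semicontinuity of the gradient norm of infinity-harmonic functions under
uniform convergence. -/
theorem slope_upper_of_uniform {Ω : Set E} (hΩ : IsOpen Ω) {U : ℕ → E → ℝ} {u : E → ℝ}
    (hU : ∀ n, IsInfinityHarmonicOn (U n) Ω) (hucont : ContinuousOn u Ω)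
    (hconv : TendstoUniformlyOn U u atTop Ω)
    {x : ℕ → E} {x₀ : E} (hx₀ : x₀ ∈ Ω) (hx : Tendsto x atTop (𝓝 x₀))
    (hd : DifferentiableAt ℝ u x₀)
    (hdn : ∀ n, DifferentiableAt ℝ (U n) (x n)) {η : ℝ} (hη : 0 < η) :
    ∀ᶠ n in atTop, ‖fderiv ℝ (U n) (x n)‖ ≤ ‖fderiv ℝ u x₀‖ + η := by
  have _hucont := hucont
  obtain ⟨Lf, hLf⟩ : ∃ Lf : E →L[ℝ] ℝ, Lf = fderiv ℝ u x₀ := ⟨_, rfl⟩
  obtain ⟨N, hNdef⟩ : ∃ N : ℝ, N = ‖Lf‖ := ⟨_, rfl⟩
  have hN : 0 ≤ N := by
    rw [hNdef]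
    exact norm_nonneg _
  rw [← hLf, ← hNdef]
  obtain ⟨δ₁, hδ₁, htay⟩ := exists_taylor1 hd (c := η / 4) (by linarith)
  rw [← hLf] at htay
  obtain ⟨ρ, hρ, hρΩ⟩ := Metric.isOpen_iff.mp hΩ x₀ hx₀
  obtain ⟨r, hrdef⟩ : ∃ r : ℝ, r = min δ₁ ρ / 4 := ⟨_, rfl⟩
  have hr : 0 < r := by
    rw [hrdef]
    have h1 : 0 < min δ₁ ρ := lt_min hδ₁ hρ
    linarith
  have hrδ : 4 * r ≤ δ₁ := by
    rw [hrdef]
    have h1 := min_le_left δ₁ ρ
    linarith
  have hrρ : 4 * r ≤ ρ := by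
    rw [hrdef]
    have h1 := min_le_right δ₁ ρ
    linarith
  obtain ⟨θ, hθ, hθr, hθ2⟩ := slopeUp_theta hN hη hr
  have hηr : 0 < η * r := mul_pos hη hr
  have e1 : ∀ᶠ n in atTop, x n ∈ ball x₀ θ := hx.eventually (ball_mem_nhds x₀ hθ)
  have e2 : ∀ᶠ n in atTop, ∀ y ∈ Ω, dist (u y) (U n y) < η * r / 32 :=
    Metric.tendstoUniformlyOn_iff.mp hconv (η * r / 32) (by linarith)
  have e3 : ∀ᶠ n in atTop, u (x n) ∈ ball (u x₀) (η * r / 16) :=
    (hd.continuousAt.tendsto.comp hx).eventually (ball_mem_nhds (u x₀) (by linarith))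
  filter_upwards [e1, e2, e3] with n h1 h2 h3
  have hxn : dist (x n) x₀ < θ := mem_ball.mp h1
  have hM : 0 ≤ N + η / 2 := by linarith
  have hball : closedBall (x n) r ⊆ Ω := by
    intro y hy
    apply hρΩ
    rw [mem_ball]
    have h4 : dist y x₀ ≤ dist y (x n) + dist (x n) x₀ := dist_triangle _ _ _
    have h5 : dist y (x n) ≤ r := mem_closedBall.mp hy
    linarith
  have hxnΩ : x n ∈ Ω := hball (mem_closedBall_self hr.le)
  have hlow : u x₀ - η * r / 16 - η * r / 32 ≤ U n (x n) := by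
    have h4 := h2 (x n) hxnΩ
    rw [Real.dist_eq, abs_lt] at h4
    have h5 := mem_ball.mp h3
    rw [Real.dist_eq, abs_lt] at h5
    linarith [h4.1, h4.2, h5.1, h5.2]
  have hsph : ∀ w ∈ sphere (x n) r, U n w ≤ U n (x n) + (N + η / 2) * r := by
    intro w hw
    have hwΩ : w ∈ Ω := hball (sphere_subset_closedBall hw)
    have hwr : dist w (x n) = r := mem_sphere.mp hw
    obtain ⟨h, hh⟩ : ∃ h : E, h = w - x₀ := ⟨_, rfl⟩
    have hnorm : ‖h‖ ≤ r + θ := by
      rw [hh, ← dist_eq_norm]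
      have h4 : dist w x₀ ≤ dist w (x n) + dist (x n) x₀ := dist_triangle _ _ _
      linarith
    have hnorm0 : 0 ≤ ‖h‖ := norm_nonneg h
    have hlt : ‖h‖ < δ₁ := by linarith
    have ht := htay h hlt
    have hw' : x₀ + h = w := by
      rw [hh]
      abel
    rw [hw', abs_le] at ht
    have hop : Lf h ≤ N * ‖h‖ := by
      have h4 : ‖Lf h‖ ≤ ‖Lf‖ * ‖h‖ := Lf.le_opNorm h
      rw [Real.norm_eq_abs, ← hNdef] at h4
      exact (le_abs_self _).trans h4
    have h6 := h2 w hwΩ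
    rw [Real.dist_eq, abs_lt] at h6
    have h7 : (N + η / 4) * ‖h‖ ≤ (N + η / 4) * (r + θ) :=
      mul_le_mul_of_nonneg_left hnorm (by linarith)
    have h8 : (N + η / 4) * (r + θ) = N * r + η * r / 4 + (N + η / 4) * θ := by ring
    have h9 : (N + η / 4) * ‖h‖ = N * ‖h‖ + η / 4 * ‖h‖ := by ring
    have h10 : (N + η / 2) * r = N * r + η * r / 2 := by ring
    linarith [ht.1, ht.2, h6.1, h6.2]
  have hcone := cone_above (hU n) hr hM hball hsph
  refine (slopeUp_opNorm_le _ hM (fun v hv => ?_)).trans (by linarith)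
  refine fderiv_le_of_slope_le (hdn n) hr (fun t ht => ?_)
  have hy : x n + t • v ∈ closedBall (x n) r := by
    rw [mem_closedBall, dist_eq_norm, add_sub_cancel_left, norm_smul, hv, mul_one,
      Real.norm_eq_abs, abs_of_pos ht.1]
    exact ht.2
  have h4 := hcone _ hy
  rw [add_sub_cancel_left, norm_smul, hv, mul_one, Real.norm_eq_abs, abs_of_pos ht.1] at h4
  exact h4

end Vale.Agent.Lib.P080
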