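import Mathlib
import Vale.Agent.Lib.P080.Slope

/-!
Maximum principle on balls for viscosity infinity-harmonic functions.

The maximum of an infinity-harmonic function over a closed ball is attained on the boundary
sphere.  The proof compares with the barrier `-γ |y - p|²` centred at a point `p` outside the
ball.
-/

namespace Vale.Agent.Lib.P080

open Filter Topology Set Metric

/-- In a nontrivial normed space there is a point at any prescribed distance from `z`. -/
theorem maxSphere_exists_point {E : Type*} [NormedAddCommGroup E] [NormedSpace ℝ E]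
    [Nontrivial E] (z : E) {ρ : ℝ} (hρ : 0 ≤ ρ) : ∃ p : E, ‖p - z‖ = ρ := by
  obtain ⟨v, hv⟩ := exists_ne (0 : E)
  refine ⟨z + (ρ / ‖v‖) • v, ?_⟩
  have hvn : 0 < ‖v‖ := norm_pos_iff.mpr hv
  rw [add_sub_cancel_left, norm_smul, Real.norm_eq_abs, abs_of_nonneg (div_nonneg hρ hvn.le)]
  exact div_mul_cancel₀ ρ hvn.ne'

/-- Maximum principle: the maximum of a viscosity infinity-harmonic function over a closed ball
is attained on the boundary sphere. -/
theorem exists_max_on_sphere {E : Type*} [NormedAddCommGroup E] [InnerProductSpace ℝ E]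
    [CompleteSpace E] [ProperSpace E] [Nontrivial E] {u : E → ℝ} {Ω : Set E}
    (hu : IsInfinityHarmonicOn u Ω) {z : E} {R : ℝ} (hR : 0 < R) (hball : closedBall z R ⊆ Ω) :
    ∃ x ∈ sphere z R, ∀ w ∈ closedBall z R, u w ≤ u x := by
  obtain ⟨q, hq⟩ := maxSphere_exists_point z hR.le
  have hne : (sphere z R).Nonempty := ⟨q, by rw [mem_sphere, dist_eq_norm]; exact hq⟩
  have hcont : ContinuousOn u (sphere z R) :=
    hu.1.mono (sphere_subset_closedBall.trans hball)
  obtain ⟨x, hx, hmax⟩ := (isCompact_sphere z R).exists_isMaxOn hne hcont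
  refine ⟨x, hx, ?_⟩
  intro w hw
  by_contra hcon
  rw [not_le] at hcon
  obtain ⟨m, hm⟩ : ∃ m : ℝ, m = u w - u x := ⟨_, rfl⟩
  have hmpos : 0 < m := by rw [hm]; linarith
  obtain ⟨p, hp⟩ := maxSphere_exists_point z (by positivity : (0 : ℝ) ≤ 2 * R)
  obtain ⟨γ, hγ⟩ : ∃ γ : ℝ, γ = m / (2 * (3 * R) ^ 2) := ⟨_, rfl⟩
  have hγpos : 0 < γ := by rw [hγ]; positivity
  have hγR : γ * (3 * R) ^ 2 = m / 2 := by
    rw [hγ]
    field_simp
  have hbd : ∀ y ∈ closedBall z R, R ≤ ‖y - p‖ ∧ ‖y - p‖ ≤ 3 * R := by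
    intro y hy
    have h1 : ‖y - z‖ ≤ R := by
      have := mem_closedBall.mp hy
      rwa [dist_eq_norm] at this
    constructor
    · have h2 : p - z = (y - z) - (y - p) := by abel
      have h3 := norm_sub_le (y - z) (y - p)
      rw [← h2, hp] at h3
      linarith
    · have h2 : y - p = (y - z) - (p - z) := by abel
      have h3 := norm_sub_le (y - z) (p - z)
      rw [← h2, hp] at h3
      linarith
  have hcontF : ContinuousOn (fun y => u y - barrier p 0 0 γ y) (closedBall z R) :=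
    (hu.1.mono hball).sub (barrier_continuous p 0 0 γ).continuousOn
  obtain ⟨y₁, hy₁, hy₁max⟩ := (isCompact_closedBall z R).exists_isMaxOn
    ⟨z, mem_closedBall_self hR.le⟩ hcontF
  have hFw : u w ≤ u w - barrier p 0 0 γ w := by
    unfold barrier
    have h0 : 0 ≤ γ * ‖w - p‖ ^ 2 := by positivity
    linarith
  have hFy₁ : u w ≤ u y₁ - barrier p 0 0 γ y₁ := le_trans hFw (hy₁max hw)
  have hns : y₁ ∉ sphere z R := by
    intro hs
    have h1 : u y₁ ≤ u x := hmax hs
    have h2 := (hbd y₁ hy₁).2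
    have h3 : ‖y₁ - p‖ ^ 2 ≤ (3 * R) ^ 2 := pow_le_pow_left₀ (norm_nonneg _) h2 2
    have h4 := mul_le_mul_of_nonneg_left h3 hγpos.le
    rw [hγR] at h4
    unfold barrier at hFy₁
    linarith
  have hyb : y₁ ∈ ball z R := by
    rw [mem_ball]
    have h1 := mem_closedBall.mp hy₁
    have h2 : dist y₁ z ≠ R := fun h => hns (mem_sphere.mpr h)
    exact lt_of_le_of_ne h1 h2
  have hloc : IsLocalMax (fun y => u y - barrier p 0 0 γ y) y₁ := by
    filter_upwards [isOpen_ball.mem_nhds hyb] with y hy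
    exact hy₁max (ball_subset_closedBall hy)
  have hpos : 0 < ‖y₁ - p‖ := lt_of_lt_of_le hR (hbd y₁ hy₁).1
  have hyp : y₁ ≠ p := by
    intro h
    rw [h, sub_self, norm_zero] at hpos
    exact lt_irrefl 0 hpos
  have h1 := hu.2.1 (barrier p 0 0 γ) y₁ (hball hy₁) (barrier_contDiffAt p 0 0 γ hyp) hloc
  rw [barrier_infLaplacian p 0 0 γ hyp] at h1
  have hneg : 0 - 2 * γ * ‖y₁ - p‖ < 0 := by
    have := mul_pos (mul_pos two_pos hγpos) hpos
    linarith
  have h2 : 0 < (0 - 2 * γ * ‖y₁ - p‖) ^ 2 := by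
    rw [sq]
    exact mul_pos_of_neg_of_neg hneg hneg
  have h3 := mul_pos hγpos h2
  linarith

end Vale.Agent.Lib.P080
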