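import Mathlib

namespace Vale.Agent.Lib.P080

open Set Metric

/-- `x` is a maximum point of `u` over some closed ball of radius `R` contained in `Ω` that has
`x` on its boundary sphere. -/
def IsSummit {E : Type*} [PseudoMetricSpace E] (u : E → ℝ) (Ω : Set E) (R : ℝ) (x : E) : Prop :=
  ∃ c : E, dist x c = R ∧ closedBall c R ⊆ Ω ∧ ∀ w ∈ closedBall c R, u w ≤ u x

/-- `x` is a minimum point of `u` over some closed ball of radius `R` contained in `Ω` that has
`x` on its boundary sphere. -/
def IsPit {E : Type*} [PseudoMetricSpace E] (u : E → ℝ) (Ω : Set E) (R : ℝ) (x : E) : Prop :=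
  ∃ c : E, dist x c = R ∧ closedBall c R ⊆ Ω ∧ ∀ w ∈ closedBall c R, u x ≤ u w

theorem isPit_iff_isSummit_neg {E : Type*} [PseudoMetricSpace E] (u : E → ℝ) (Ω : Set E)
    (R : ℝ) (x : E) : IsPit u Ω R x ↔ IsSummit (fun y => -u y) Ω R x := by
  unfold IsPit IsSummit
  simp only [neg_le_neg_iff]

end Vale.Agent.Lib.P080
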