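import Mathlib

namespace Vale.Agent.Lib.P080

open Filter Topology Set Metric

/-- Real-variable step: a lower bound on `a - β (1 - a ^ 2)` forces `a` to be close to `1`. -/
lemma summitDir_real {ε β a : ℝ} (hε : 0 < ε) (hβ : β * ε ^ 2 = 8) (ha1 : -1 ≤ a) (ha2 : a ≤ 1)
    (h : -1 / 4 < a - β * (1 - a ^ 2)) : 1 - ε ^ 2 / 2 ≤ a := by
  by_contra hcon
  have hcon' : a < 1 - ε ^ 2 / 2 := lt_of_not_ge hcon
  have hε2 : 0 < ε ^ 2 := by positivity
  have hβpos : 0 < β := by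
    by_contra hb
    have hb' : β ≤ 0 := le_of_not_gt hb
    nlinarith
  have h1a : 0 ≤ 1 - a ^ 2 := by nlinarith
  by_cases hcase : a ≤ -1 / 2
  · have h0 : 0 ≤ β * (1 - a ^ 2) := mul_nonneg hβpos.le h1a
    linarith
  · have hcase' : -1 / 2 < a := lt_of_not_ge hcase
    have h2 : ε ^ 2 / 4 < 1 - a ^ 2 := by
      have e1 : 1 - a ^ 2 = (1 - a) * (1 + a) := by ring
      rw [e1]
      have h5 : (1 - a) * (1 / 2) ≤ (1 - a) * (1 + a) :=
        mul_le_mul_of_nonneg_left (by linarith) (by linarith)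
      linarith
    have h3 : β * (ε ^ 2 / 4) < β * (1 - a ^ 2) := mul_lt_mul_of_pos_left h2 hβpos
    have h4 : β * (ε ^ 2 / 4) = 2 := by
      rw [← mul_div_assoc, hβ]
      norm_num
    linarith

variable {E : Type*} [NormedAddCommGroup E] [InnerProductSpace ℝ E]

lemma summitDir_inner_e_v {n e : E} (he : ‖e‖ = 1) (β : ℝ) :
    inner ℝ e (e - β • (n - inner ℝ n e • e)) = 1 := by
  have hee : inner ℝ e e = (1 : ℝ) := by
    rw [real_inner_self_eq_norm_sq, he]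
    norm_num
  rw [inner_sub_right, inner_smul_right, inner_sub_right, inner_smul_right, hee,
    real_inner_comm n e]
  ring

lemma summitDir_inner_n_v {n e : E} (hn : ‖n‖ = 1) (β : ℝ) :
    inner ℝ n (e - β • (n - inner ℝ n e • e))
      = inner ℝ n e - β * (1 - inner ℝ n e ^ 2) := by
  have hnn : inner ℝ n n = (1 : ℝ) := by
    rw [real_inner_self_eq_norm_sq, hn]
    norm_num
  rw [inner_sub_right, inner_smul_right, inner_sub_right, inner_smul_right, hnn]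
  ring

lemma summitDir_norm_v {n e : E} (hn : ‖n‖ = 1) (he : ‖e‖ = 1) {β : ℝ} (hβ : 0 ≤ β) :
    ‖e - β • (n - inner ℝ n e • e)‖ ≤ 1 + 2 * β := by
  have ha : |inner ℝ n e| ≤ 1 := by
    have h := abs_real_inner_le_norm n e
    rw [hn, he, mul_one] at h
    exact h
  have h1 : ‖n - inner ℝ n e • e‖ ≤ 2 := by
    calc ‖n - inner ℝ n e • e‖ ≤ ‖n‖ + ‖inner ℝ n e • e‖ := norm_sub_le _ _
      _ = 1 + |inner ℝ n e| := by rw [hn, norm_smul, he, Real.norm_eq_abs, mul_one]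
      _ ≤ 2 := by linarith
  calc ‖e - β • (n - inner ℝ n e • e)‖ ≤ ‖e‖ + ‖β • (n - inner ℝ n e • e)‖ := norm_sub_le _ _
    _ = 1 + β * ‖n - inner ℝ n e • e‖ := by
        rw [he, norm_smul, Real.norm_eq_abs, abs_of_nonneg hβ]
    _ ≤ 1 + 2 * β := by
        have h2 := mul_le_mul_of_nonneg_left h1 hβ
        linarith

/-- Geometric step: a point `x₀ + t v` outside the ball, with `x` on the sphere close to `x₀`,
bounds the inner product of the unit normal with `v` from below. -/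
lemma summitDir_geom {x₀ x c n v : E} {R t K g : ℝ} (hR : 0 < R) (ht : 0 < t) (hK : 1 ≤ K)
    (hn : ‖n‖ = 1) (hRn : R • n = x - c) (hx : ‖x - x₀‖ < t / 8) (hv : ‖v‖ ≤ K)
    (hg : inner ℝ n v = g) (htR : 16 * t * K ^ 2 ≤ R)
    (hp : R < ‖x₀ + t • v - c‖) : -1 / 4 < g := by
  have hq : x₀ + t • v - c = (x₀ - x + t • v) + R • n := by
    rw [hRn]
    abel
  have hsq : ‖x₀ + t • v - c‖ ^ 2
      = ‖x₀ - x + t • v‖ ^ 2 + 2 * (R * inner ℝ (x₀ - x + t • v) n) + R ^ 2 := by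
    rw [hq, norm_add_sq_real, inner_smul_right, norm_smul, hn, Real.norm_eq_abs,
      abs_of_pos hR, mul_one]
  have hlt : R ^ 2 < ‖x₀ + t • v - c‖ ^ 2 := by
    have h0 : 0 < ‖x₀ + t • v - c‖ - R := by linarith
    have h1 : 0 < ‖x₀ + t • v - c‖ + R := by linarith
    nlinarith [mul_pos h0 h1]
  have hin : inner ℝ (x₀ - x + t • v) n ≤ t / 8 + t * g := by
    rw [inner_add_left, real_inner_smul_left, real_inner_comm n v, hg]
    have h1 : inner ℝ (x₀ - x) n ≤ ‖x₀ - x‖ * ‖n‖ := real_inner_le_norm _ _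
    rw [hn, mul_one, norm_sub_rev] at h1
    linarith
  have hnq : ‖x₀ - x + t • v‖ ≤ 2 * t * K := by
    calc ‖x₀ - x + t • v‖ ≤ ‖x₀ - x‖ + ‖t • v‖ := norm_add_le _ _
      _ = ‖x - x₀‖ + t * ‖v‖ := by
          rw [norm_sub_rev, norm_smul, Real.norm_eq_abs, abs_of_pos ht]
      _ ≤ t / 8 + t * K := by
          have h2 := mul_le_mul_of_nonneg_left hv ht.le
          linarith
      _ ≤ 2 * t * K := by
          have h3 : t * 1 ≤ t * K := mul_le_mul_of_nonneg_left hK ht.le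
          linarith
  have hnq2 : ‖x₀ - x + t • v‖ ^ 2 ≤ (2 * t * K) ^ 2 :=
    pow_le_pow_left₀ (norm_nonneg _) hnq 2
  have h1 : (2 * t * K) ^ 2 ≤ t * R / 4 := by
    have h2 := mul_le_mul_of_nonneg_left htR (by positivity : (0 : ℝ) ≤ t / 4)
    nlinarith
  have h2 : 2 * (R * inner ℝ (x₀ - x + t • v) n) ≤ 2 * (R * (t / 8 + t * g)) := by
    have h3 := mul_le_mul_of_nonneg_left hin hR.le
    linarith
  have h3 : 0 < t * R * (1 / 2 + 2 * g) := by
    have e : t * R * (1 / 2 + 2 * g) = t * R / 4 + 2 * (R * (t / 8 + t * g)) := by ring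
    rw [e]
    linarith
  by_contra hneg
  have h4 : 1 / 2 + 2 * g ≤ 0 := by linarith
  nlinarith [mul_pos ht hR]

theorem summit_dir_close_core {E : Type*} [NormedAddCommGroup E] [InnerProductSpace ℝ E]
    {u : E → ℝ} {x₀ e : E} {s₀ R : ℝ} (hR : 0 < R) (hs₀ : 0 < s₀) (he : ‖e‖ = 1)
    (hd : HasFDerivAt u (s₀ • innerSL ℝ e) x₀) {ε : ℝ} (hε : 0 < ε) :
    ∃ δ > 0, ∀ x c : E, ‖x - x₀‖ < δ → ‖x - c‖ = R → (∀ w ∈ closedBall c R, u w ≤ u x) →
      ‖(1 / R) • (x - c) - e‖ ≤ ε := by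
  obtain ⟨β, hβ⟩ : ∃ β : ℝ, β = 8 / ε ^ 2 := ⟨_, rfl⟩
  have hβpos : 0 < β := by
    rw [hβ]
    positivity
  have hβε : β * ε ^ 2 = 8 := by
    rw [hβ]
    field_simp
  obtain ⟨K, hK⟩ : ∃ K : ℝ, K = 1 + 2 * β := ⟨_, rfl⟩
  have hK1 : 1 ≤ K := by
    rw [hK]
    linarith
  have hKpos : 0 < K := by linarith
  have hlo := hasFDerivAt_iff_isLittleO_nhds_zero.mp hd
  have hc : 0 < s₀ / (2 * K) := by positivity
  have hev := (Asymptotics.isLittleO_iff.mp hlo) hc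
  obtain ⟨δ₁, hδ₁, hδ₁'⟩ := Metric.eventually_nhds_iff.mp hev
  obtain ⟨t, ht⟩ : ∃ t : ℝ, t = min (δ₁ / (2 * K)) (R / (16 * K ^ 2)) := ⟨_, rfl⟩
  have htpos : 0 < t := by
    rw [ht]
    exact lt_min (by positivity) (by positivity)
  have ht1 : t * K ≤ δ₁ / 2 := by
    have h1 : t ≤ δ₁ / (2 * K) := by
      rw [ht]
      exact min_le_left _ _
    calc t * K ≤ δ₁ / (2 * K) * K := mul_le_mul_of_nonneg_right h1 hKpos.le
      _ = δ₁ / 2 := by field_simp
  have ht2 : 16 * t * K ^ 2 ≤ R := by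
    have h1 : t ≤ R / (16 * K ^ 2) := by
      rw [ht]
      exact min_le_right _ _
    have h2 : t * (16 * K ^ 2) ≤ R / (16 * K ^ 2) * (16 * K ^ 2) :=
      mul_le_mul_of_nonneg_right h1 (by positivity)
    have h3 : R / (16 * K ^ 2) * (16 * K ^ 2) = R := by field_simp
    linarith
  obtain ⟨δ₂, hδ₂, hδ₂'⟩ :=
    (Metric.continuousAt_iff.mp hd.continuousAt) (t * s₀ / 2) (by positivity)
  refine ⟨min δ₂ (t / 8), lt_min hδ₂ (by positivity), ?_⟩
  intro x c hx hxc hmax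
  have hx2 : ‖x - x₀‖ < δ₂ := lt_of_lt_of_le hx (min_le_left _ _)
  have hx8 : ‖x - x₀‖ < t / 8 := lt_of_lt_of_le hx (min_le_right _ _)
  obtain ⟨n, hn⟩ : ∃ n : E, n = (1 / R) • (x - c) := ⟨_, rfl⟩
  rw [← hn]
  have hn1 : ‖n‖ = 1 := by
    rw [hn, norm_smul, hxc, Real.norm_eq_abs, abs_of_pos (by positivity)]
    field_simp
  have hRn : R • n = x - c := by
    rw [hn, smul_smul]
    have h1 : R * (1 / R) = 1 := by field_simp
    rw [h1, one_smul]
  obtain ⟨v, hv⟩ : ∃ v : E, v = e - β • (n - inner ℝ n e • e) := ⟨_, rfl⟩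
  have hvK : ‖v‖ ≤ K := by
    rw [hv, hK]
    exact summitDir_norm_v hn1 he hβpos.le
  have hev1 : inner ℝ e v = (1 : ℝ) := by
    rw [hv]
    exact summitDir_inner_e_v he β
  have hnv : inner ℝ n v = inner ℝ n e - β * (1 - inner ℝ n e ^ 2) := by
    rw [hv]
    exact summitDir_inner_n_v hn1 β
  have htv : ‖t • v‖ ≤ t * K := by
    rw [norm_smul, Real.norm_eq_abs, abs_of_pos htpos]
    exact mul_le_mul_of_nonneg_left hvK htpos.le
  have htv' : dist (t • v) 0 < δ₁ := by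
    rw [dist_zero_right]
    linarith
  have hb := hδ₁' htv'
  have hval : (s₀ • innerSL ℝ e) (t • v) = s₀ * t := by
    rw [smul_apply, innerSL_apply_apply, inner_smul_right, hev1, smul_eq_mul,
      mul_one]
  rw [hval, Real.norm_eq_abs] at hb
  have hb2 : s₀ / (2 * K) * ‖t • v‖ ≤ t * s₀ / 2 := by
    calc s₀ / (2 * K) * ‖t • v‖ ≤ s₀ / (2 * K) * (t * K) :=
          mul_le_mul_of_nonneg_left htv hc.le
      _ = t * s₀ / 2 := by field_simp
  have hup : u x₀ + t * s₀ / 2 ≤ u (x₀ + t • v) := by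
    have h1 := (abs_le.mp (hb.trans hb2)).1
    linarith
  have hux : u x < u x₀ + t * s₀ / 2 := by
    have h1 := hδ₂' (show dist x x₀ < δ₂ by rw [dist_eq_norm]; exact hx2)
    rw [Real.dist_eq] at h1
    have h2 := (abs_lt.mp h1).2
    linarith
  have hpc : R < ‖x₀ + t • v - c‖ := by
    by_contra hcon
    have hmem : x₀ + t • v ∈ closedBall c R := by
      rw [mem_closedBall, dist_eq_norm]
      exact le_of_not_gt hcon
    have h1 := hmax _ hmem
    linarith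
  have hg := summitDir_geom hR htpos hK1 hn1 hRn hx8 hvK hnv ht2 hpc
  have ha1 : -1 ≤ inner ℝ n e ∧ inner ℝ n e ≤ 1 := by
    have h1 := abs_real_inner_le_norm n e
    rw [hn1, he, mul_one] at h1
    exact abs_le.mp h1
  have ha := summitDir_real hε hβε ha1.1 ha1.2 hg
  have hfin : ‖n - e‖ ^ 2 ≤ ε ^ 2 := by
    rw [norm_sub_sq_real, hn1, he]
    linarith
  by_contra hcon
  have hlt : ε < ‖n - e‖ := lt_of_not_ge hcon
  nlinarith [mul_pos (sub_pos.mpr hlt) (add_pos_of_pos_of_nonneg hε (norm_nonneg (n - e)))]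

end Vale.Agent.Lib.P080
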