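import Mathlib
import Vale.Agent.Lib.P080.QCDiff
import Vale.Agent.Lib.P080.SummitDir
import Vale.Agent.Lib.P080.MaxSphere
import Vale.Agent.Lib.P080.SummitDefs

namespace Vale.Agent.Lib.P080

open Filter Topology Set Metric

section

variable {E : Type*} [NormedAddCommGroup E] [InnerProductSpace ℝ E]

/-- A linear approximation at scale `ρ` at a maximum point of a touching ball has its
direction pinned to the normal of the ball. -/
theorem pin_ball {u : E → ℝ} {x c : E} {R S η ρ : ℝ} (hR : 0 < R) (hS : 0 < S) (hρ : 0 < ρ)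
    (hxc : ‖x - c‖ = R) (hmax : ∀ w ∈ closedBall c R, u w ≤ u x) {n : E} (hn : ‖n‖ = 1)
    (happ : ∀ h : E, ‖h‖ ≤ ρ → |u (x + h) - u x - S * inner ℝ n h| ≤ η * ρ) :
    S * ‖n - (1 / R) • (x - c)‖ ≤ 2 * η ∨ ‖n - (1 / R) • (x - c)‖ < ρ / R := by
  by_contra hcon
  push Not at hcon
  obtain ⟨h1, h2⟩ := hcon
  obtain ⟨m, hm⟩ : ∃ m, m = (1 / R) • (x - c) := ⟨_, rfl⟩
  rw [← hm] at h1 h2
  have hmn : ‖m‖ = 1 := by
    rw [hm, norm_smul, hxc, Real.norm_eq_abs, abs_of_pos (by positivity)]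
    field_simp
  have hxcm : x - c = R • m := by
    rw [hm, smul_smul]
    have : R * (1 / R) = 1 := by field_simp
    rw [this, one_smul]
  obtain ⟨D, hD⟩ : ∃ D, D = ‖n - m‖ := ⟨_, rfl⟩
  rw [← hD] at h1 h2
  have hDpos : 0 < D := lt_of_lt_of_le (by positivity) h2
  have hinner : inner ℝ n m = 1 - D ^ 2 / 2 := by
    have := norm_sub_sq_real n m
    rw [hn, hmn, ← hD] at this
    linarith
  obtain ⟨w, hw⟩ : ∃ w, w = (1 / D) • (n - m) := ⟨_, rfl⟩
  have hwn : ‖w‖ = 1 := by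
    rw [hw, norm_smul, ← hD, Real.norm_eq_abs, abs_of_pos (by positivity)]
    field_simp
  have e1 : inner ℝ n w = D / 2 := by
    rw [hw, inner_smul_right, inner_sub_right, real_inner_self_eq_norm_sq, hn, hinner]
    field_simp
    ring
  have e2 : inner ℝ m w = -(D / 2) := by
    rw [hw, inner_smul_right, inner_sub_right, real_inner_self_eq_norm_sq, hmn, real_inner_comm,
      hinner]
    field_simp
    ring
  have hy := happ (ρ • w) (by rw [norm_smul, hwn, Real.norm_eq_abs, abs_of_pos hρ, mul_one])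
  rw [inner_smul_right, e1] at hy
  have hgt : u x < u (x + ρ • w) := by
    have h3 := (abs_le.mp hy).1
    have h4 : 0 < ρ * (S * D - 2 * η) := mul_pos hρ (by linarith)
    nlinarith
  have hmem : x + ρ • w ∈ closedBall c R := by
    rw [mem_closedBall, dist_eq_norm]
    have e3 : x + ρ • w - c = R • m + ρ • w := by rw [← hxcm]; abel
    have e4 : ‖R • m + ρ • w‖ ^ 2 = R ^ 2 - ρ * R * D + ρ ^ 2 := by
      rw [norm_add_sq_real, norm_smul, norm_smul, hmn, hwn, inner_smul_left, inner_smul_right,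
        e2, Real.norm_eq_abs, Real.norm_eq_abs, abs_of_pos hR, abs_of_pos hρ]
      simp
      ring
    have h5 : ρ ≤ D * R := by rwa [div_le_iff₀ hR] at h2
    have h6 : ‖R • m + ρ • w‖ ^ 2 ≤ R ^ 2 := by
      rw [e4]
      nlinarith
    rw [e3]
    exact (sq_le_sq₀ (norm_nonneg _) hR.le).mp h6
  have := hmax _ hmem
  linarith

end

section

variable {E : Type*} [NormedAddCommGroup E] [InnerProductSpace ℝ E] [CompleteSpace E]
  [ProperSpace E]

/-- An infinity-harmonic function is differentiable at every maximum point of a touching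
ball, with gradient a nonnegative multiple of the outer normal of the ball. -/
theorem hasFDerivAt_summit {u : E → ℝ} {Ω : Set E} (hΩ : IsOpen Ω)
    (hu : IsInfinityHarmonicOn u Ω) {x c : E} {R : ℝ} (hR : 0 < R) (hx : x ∈ Ω)
    (hxc : ‖x - c‖ = R) (hmax : ∀ w ∈ closedBall c R, u w ≤ u x) :
    ∃ S : ℝ, 0 ≤ S ∧ HasFDerivAt u (S • innerSL ℝ ((1 / R) • (x - c))) x := by
  obtain ⟨S, hS0, r₁, hr₁, hasc, hlip⟩ := exists_slope hΩ hu hx
  refine ⟨S, hS0, ?_⟩
  rcases hS0.eq_or_lt with h0 | hSpos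
  · rw [← h0, zero_smul]
    refine hasFDerivAt_zero_of_lip (fun ε hε => ?_)
    obtain ⟨r₀, hr₀, h⟩ := hlip ε hε
    refine ⟨r₀, hr₀, fun y hy z hz => ?_⟩
    have := h y hy z hz
    rwa [← h0, zero_add] at this
  · rw [hasFDerivAt_iff_isLittleO_nhds_zero, Asymptotics.isLittleO_iff]
    intro c' hc'
    obtain ⟨ρ₀, hρ₀, hex⟩ := exists_scale_approx hSpos hr₁ hasc hlip
      (by positivity : 0 < c' / 3)
    have hδ : 0 < min ρ₀ (2 * (c' / 3) * R / S) := lt_min hρ₀ (by positivity)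
    have hev : ∀ᶠ h in 𝓝 (0 : E), ‖h‖ < min ρ₀ (2 * (c' / 3) * R / S) := by
      filter_upwards [Metric.ball_mem_nhds (0 : E) hδ] with h hh
      rwa [mem_ball, dist_zero_right] at hh
    filter_upwards [hev] with h hh
    by_cases hzero : h = 0
    · rw [hzero]; simp
    have hρpos : 0 < ‖h‖ := norm_pos_iff.mpr hzero
    obtain ⟨n, hn, happ⟩ := hex ‖h‖ ⟨hρpos, (lt_of_lt_of_le hh (min_le_left _ _)).le⟩
    have hpin := pin_ball hR hSpos hρpos hxc hmax hn happ
    obtain ⟨m, hm⟩ : ∃ m, m = (1 / R) • (x - c) := ⟨_, rfl⟩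
    rw [← hm] at hpin ⊢
    have hclose : S * ‖n - m‖ ≤ 2 * (c' / 3) := by
      rcases hpin with h1 | h1
      · exact h1
      · have h2 : ‖h‖ < 2 * (c' / 3) * R / S := lt_of_lt_of_le hh (min_le_right _ _)
        rw [lt_div_iff₀ hSpos] at h2
        rw [lt_div_iff₀ hR] at h1
        nlinarith
    have h5 := happ h le_rfl
    have e : (S • innerSL ℝ m) h = S * inner ℝ n h - S * inner ℝ (n - m) h := by
      simp only [_root_.smul_apply, innerSL_apply_apply, smul_eq_mul, inner_sub_left]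
      ring
    rw [e, Real.norm_eq_abs]
    have h6 : |S * inner ℝ (n - m) h| ≤ 2 * (c' / 3) * ‖h‖ := by
      rw [abs_mul, abs_of_pos hSpos]
      have h7 := abs_real_inner_le_norm (n - m) h
      have h8 : S * |inner ℝ (n - m) h| ≤ S * (‖n - m‖ * ‖h‖) :=
        mul_le_mul_of_nonneg_left h7 hSpos.le
      have h9 : S * ‖n - m‖ * ‖h‖ ≤ 2 * (c' / 3) * ‖h‖ :=
        mul_le_mul_of_nonneg_right hclose (norm_nonneg h)
      linarith
    have h7 : u (x + h) - u x - (S * inner ℝ n h - S * inner ℝ (n - m) h)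
        = (u (x + h) - u x - S * inner ℝ n h) + S * inner ℝ (n - m) h := by ring
    rw [h7]
    calc |(u (x + h) - u x - S * inner ℝ n h) + S * inner ℝ (n - m) h|
        ≤ |u (x + h) - u x - S * inner ℝ n h| + |S * inner ℝ (n - m) h| := abs_add_le _ _
      _ ≤ c' / 3 * ‖h‖ + 2 * (c' / 3) * ‖h‖ := add_le_add h5 h6
      _ = c' * ‖h‖ := by ring

/-- Upper semicontinuity of the slope, needing differentiability only at the two points. -/
theorem slope_usc' {u : E → ℝ} {Ω : Set E} (hΩ : IsOpen Ω)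
    (hu : IsInfinityHarmonicOn u Ω) {x₀ : E} (hx₀ : x₀ ∈ Ω) (hd₀ : DifferentiableAt ℝ u x₀)
    {η : ℝ} (hη : 0 < η) :
    ∃ δ > 0, ∀ x, ‖x - x₀‖ < δ → DifferentiableAt ℝ u x →
      ‖fderiv ℝ u x‖ ≤ ‖fderiv ℝ u x₀‖ + η := by
  obtain ⟨ρ₁, hρ₁, hρ₁sub⟩ := Metric.isOpen_iff.mp hΩ x₀ hx₀
  have hc : 0 < η / 4 := by positivity
  obtain ⟨δ₁, hδ₁, hP⟩ := exists_taylor1 hd₀ hc
  obtain ⟨L, hL⟩ : ∃ L, L = fderiv ℝ u x₀ := ⟨_, rfl⟩
  rw [← hL] at hP ⊢
  have hsmall : ∀ y : E, ‖y - x₀‖ < δ₁ → |u y - u x₀ - L (y - x₀)| ≤ η / 4 * ‖y - x₀‖ := by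
    intro y hy
    have h3 := hP (y - x₀) hy
    rwa [add_sub_cancel] at h3
  obtain ⟨r, hr⟩ : ∃ r, r = min δ₁ ρ₁ / 4 := ⟨_, rfl⟩
  have hm : 0 < min δ₁ ρ₁ := lt_min hδ₁ hρ₁
  have hrpos : 0 < r := by rw [hr]; positivity
  have hrδ : 2 * r < δ₁ := by
    have : min δ₁ ρ₁ ≤ δ₁ := min_le_left _ _
    rw [hr]; linarith
  have hrρ : 2 * r < ρ₁ := by
    have : min δ₁ ρ₁ ≤ ρ₁ := min_le_right _ _
    rw [hr]; linarith
  refine ⟨r, hrpos, fun x hx hdx => ?_⟩
  rcases (norm_nonneg (fderiv ℝ u x)).eq_or_lt with hz | hpos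
  · rw [← hz]
    have := norm_nonneg L
    linarith
  · have hbx : closedBall x r ⊆ Ω := by
      intro y hy
      apply hρ₁sub
      rw [mem_closedBall] at hy
      rw [mem_ball]
      have := dist_triangle y x x₀
      rw [dist_eq_norm x x₀] at this
      linarith
    obtain ⟨y, hy, hasc⟩ := exists_ascent hu hrpos hbx hdx hpos
    have hyx : ‖y - x‖ = r := by
      rw [← dist_eq_norm]; exact mem_sphere.mp hy
    have hyx₀ : ‖y - x₀‖ ≤ 2 * r := by
      have e : y - x₀ = (y - x) + (x - x₀) := by abel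
      rw [e]
      have := norm_add_le (y - x) (x - x₀)
      linarith
    have h3 := (abs_le.mp (hsmall y (by linarith))).2
    have h4 := (abs_le.mp (hsmall x (by linarith))).1
    have h5 : L (y - x₀) - L (x - x₀) = L (y - x) := by
      rw [← map_sub]; congr 1; abel
    have h6 : L (y - x) ≤ ‖L‖ * r := by
      have := L.le_opNorm (y - x)
      rw [hyx, Real.norm_eq_abs] at this
      exact le_trans (le_abs_self _) this
    have b1 : η / 4 * ‖y - x₀‖ ≤ η / 4 * (2 * r) := mul_le_mul_of_nonneg_left hyx₀ hc.le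
    have b2 : η / 4 * ‖x - x₀‖ ≤ η / 4 * r := mul_le_mul_of_nonneg_left hx.le hc.le
    have h7 : r * ‖fderiv ℝ u x‖ ≤ r * (‖L‖ + 3 * η / 4) := by nlinarith
    have h8 : ‖fderiv ℝ u x‖ ≤ ‖L‖ + 3 * η / 4 := le_of_mul_le_mul_left h7 hrpos
    linarith

omit [ProperSpace E] in
theorem hasFDerivAt_inner_gdir {u : E → ℝ} {x₀ : E} (hd₀ : DifferentiableAt ℝ u x₀)
    (hpos₀ : 0 < ‖fderiv ℝ u x₀‖) :
    HasFDerivAt u (‖fderiv ℝ u x₀‖ • innerSL ℝ (gdir u x₀)) x₀ := by
  have h1 : fderiv ℝ u x₀ = ‖fderiv ℝ u x₀‖ • innerSL ℝ (gdir u x₀) := by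
    ext h
    rw [fderiv_eq_inner_gdir hpos₀]
    simp only [_root_.smul_apply, innerSL_apply_apply, smul_eq_mul]
  rw [← h1]
  exact hd₀.hasFDerivAt

/-- Lower bound for the slope at maximum points of touching balls near a non-critical
point. -/
theorem summit_slope_lsc {u : E → ℝ} {Ω : Set E} (hΩ : IsOpen Ω)
    (hu : IsInfinityHarmonicOn u Ω) {x₀ : E} (hx₀ : x₀ ∈ Ω) (hd₀ : DifferentiableAt ℝ u x₀)
    (hpos₀ : 0 < ‖fderiv ℝ u x₀‖) {R : ℝ} (hR : 0 < R) {η : ℝ} (hη : 0 < η) :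
    ∃ δ > 0, ∀ x c : E, ‖x - x₀‖ < δ → ‖x - c‖ = R → closedBall c R ⊆ Ω →
      (∀ w ∈ closedBall c R, u w ≤ u x) → DifferentiableAt ℝ u x →
      ‖fderiv ℝ u x₀‖ - η ≤ ‖fderiv ℝ u x‖ := by
  have hen : ‖gdir u x₀‖ = 1 := gdir_norm hpos₀
  have hd := hasFDerivAt_inner_gdir hd₀ hpos₀
  have hLe : fderiv ℝ u x₀ (gdir u x₀) = ‖fderiv ℝ u x₀‖ := by
    rw [fderiv_eq_inner_gdir hpos₀, real_inner_self_eq_norm_sq, hen]; ring
  obtain ⟨ρ₁, hρ₁, hρ₁sub⟩ := Metric.isOpen_iff.mp hΩ x₀ hx₀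
  have hc : 0 < η / 4 := by positivity
  obtain ⟨δ₁, hδ₁, hP⟩ := exists_taylor1 hd₀ hc
  obtain ⟨e, he⟩ : ∃ e, e = gdir u x₀ := ⟨_, rfl⟩
  obtain ⟨s₀, hs₀⟩ : ∃ s₀, s₀ = ‖fderiv ℝ u x₀‖ := ⟨_, rfl⟩
  rw [← he] at hen hd hLe
  rw [← hs₀] at hd hLe hpos₀ ⊢
  obtain ⟨r, hr⟩ : ∃ r, r = min (min δ₁ ρ₁) R / 4 := ⟨_, rfl⟩
  have hm : 0 < min (min δ₁ ρ₁) R := lt_min (lt_min hδ₁ hρ₁) hR
  have hrpos : 0 < r := by rw [hr]; positivity
  have hrδ : r < δ₁ := by
    have : min (min δ₁ ρ₁) R ≤ δ₁ := (min_le_left _ _).trans (min_le_left _ _)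
    rw [hr]; linarith
  have hrρ : r < ρ₁ := by
    have : min (min δ₁ ρ₁) R ≤ ρ₁ := (min_le_left _ _).trans (min_le_right _ _)
    rw [hr]; linarith
  have hrR : r ≤ R := by
    have : min (min δ₁ ρ₁) R ≤ R := min_le_right _ _
    rw [hr]; linarith
  have hre : ‖r • e‖ = r := by
    rw [norm_smul, hen, Real.norm_eq_abs, abs_of_pos hrpos, mul_one]
  have hz₀Ω : x₀ - r • e ∈ Ω := by
    apply hρ₁sub
    rw [mem_ball, dist_eq_norm, sub_sub_cancel_left, norm_neg, hre]; exact hrρ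
  have hcr : 0 < η / 4 * r := mul_pos hc hrpos
  have hdrop : r * s₀ - η / 4 * r ≤ u x₀ - u (x₀ - r • e) := by
    have h1 := (abs_le.mp (hP (-(r • e)) (by rw [norm_neg, hre]; exact hrδ))).2
    have h2 : fderiv ℝ u x₀ (-(r • e)) = -(r * s₀) := by
      rw [map_neg, map_smul, hLe, smul_eq_mul]
    rw [h2, norm_neg, hre, ← sub_eq_add_neg] at h1
    linarith
  have hc3 : ∀ᶠ y in 𝓝 (x₀ - r • e), u y < u (x₀ - r • e) + η / 4 * r :=
    (hu.1.continuousAt (hΩ.mem_nhds hz₀Ω)).eventually (gt_mem_nhds (by linarith))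
  obtain ⟨δ₃, hδ₃, hP₃⟩ := Metric.eventually_nhds_iff.mp hc3
  have hc2 : ∀ᶠ x in 𝓝 x₀, u x₀ - η / 4 * r < u x :=
    hd₀.continuousAt.eventually (lt_mem_nhds (by linarith))
  obtain ⟨δ₂, hδ₂, hP₂⟩ := Metric.eventually_nhds_iff.mp hc2
  obtain ⟨δ₅, hδ₅, hP₅⟩ := summit_dir_close_core hR hpos₀ hen hd
    (by positivity : 0 < δ₃ / (2 * r))
  refine ⟨min (min δ₂ (δ₃ / 2)) δ₅, lt_min (lt_min hδ₂ (by positivity)) hδ₅,
    fun x c hx hxc hball hmax hdx => ?_⟩
  have hx2 : ‖x - x₀‖ < δ₂ := lt_of_lt_of_le hx ((min_le_left _ _).trans (min_le_left _ _))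
  have hx3 : ‖x - x₀‖ < δ₃ / 2 :=
    lt_of_lt_of_le hx ((min_le_left _ _).trans (min_le_right _ _))
  have hx5 : ‖x - x₀‖ < δ₅ := lt_of_lt_of_le hx (min_le_right _ _)
  have hclose := hP₅ x c hx5 hxc hmax
  obtain ⟨n, hn⟩ : ∃ n, n = (1 / R) • (x - c) := ⟨_, rfl⟩
  rw [← hn] at hclose
  have hnn : ‖n‖ = 1 := by
    rw [hn, norm_smul, hxc, Real.norm_eq_abs, abs_of_pos (by positivity)]
    field_simp
  have hxcn : x - c = R • n := by
    rw [hn, smul_smul]
    have : R * (1 / R) = 1 := by field_simp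
    rw [this, one_smul]
  have hrn : ‖r • n‖ = r := by
    rw [norm_smul, hnn, Real.norm_eq_abs, abs_of_pos hrpos, mul_one]
  have hyz : ‖(x - r • n) - (x₀ - r • e)‖ < δ₃ := by
    have e1 : (x - r • n) - (x₀ - r • e) = (x - x₀) - r • (n - e) := by
      rw [smul_sub]; abel
    have e2 : ‖r • (n - e)‖ ≤ δ₃ / 2 := by
      rw [norm_smul, Real.norm_eq_abs, abs_of_pos hrpos]
      calc r * ‖n - e‖ ≤ r * (δ₃ / (2 * r)) := mul_le_mul_of_nonneg_left hclose hrpos.le
        _ = δ₃ / 2 := by field_simp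
    rw [e1]
    have := norm_sub_le (x - x₀) (r • (n - e))
    linarith
  have huy : u (x - r • n) < u (x₀ - r • e) + η / 4 * r :=
    hP₃ (by rw [dist_eq_norm]; exact hyz)
  have hux : u x₀ - η / 4 * r < u x := hP₂ (by rw [dist_eq_norm]; exact hx2)
  have hsmall : closedBall (x - r • n) r ⊆ closedBall c R := by
    intro w hw
    rw [mem_closedBall, dist_eq_norm] at hw ⊢
    have e1 : w - c = (w - (x - r • n)) + (R - r) • n := by
      have : (R - r) • n = (x - c) - r • n := by rw [hxcn, sub_smul]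
      rw [this]; abel
    rw [e1]
    have h1 := norm_add_le (w - (x - r • n)) ((R - r) • n)
    have h2 : ‖(R - r) • n‖ = R - r := by
      rw [norm_smul, hnn, Real.norm_eq_abs, abs_of_nonneg (by linarith), mul_one]
    linarith
  have hxs : x ∈ sphere (x - r • n) r := by
    rw [mem_sphere, dist_eq_norm]
    have : x - (x - r • n) = r • n := by abel
    rw [this, hrn]
  have hstar := slope_ge_of_max_sphere hu hrpos (hsmall.trans hball) hxs
    (fun w hw => hmax w (hsmall (sphere_subset_closedBall hw))) hdx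
  have h7 : r * (s₀ - η) ≤ r * ‖fderiv ℝ u x‖ := by nlinarith
  exact le_of_mul_le_mul_left h7 hrpos

omit [CompleteSpace E] [ProperSpace E] in
theorem norm_smul_innerSL_sub_le (S s : ℝ) (n e : E) :
    ‖S • innerSL ℝ n - s • innerSL ℝ e‖ ≤ ‖S • n - s • e‖ := by
  refine ContinuousLinearMap.opNorm_le_bound _ (norm_nonneg _) (fun h => ?_)
  have e1 : (S • innerSL ℝ n - s • innerSL ℝ e) h = inner ℝ (S • n - s • e) h := by
    simp only [_root_.sub_apply, _root_.smul_apply, innerSL_apply_apply, smul_eq_mul,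
      inner_sub_left, real_inner_smul_left]
  rw [e1]
  exact norm_inner_le_norm _ _

/-- The derivative of an infinity-harmonic function is continuous at `x₀` along the set of
maximum points of touching balls of radius `R`. -/
theorem fderiv_continuousWithinAt_summit {u : E → ℝ} {Ω : Set E} (hΩ : IsOpen Ω)
    (hu : IsInfinityHarmonicOn u Ω) {R : ℝ} (hR : 0 < R) {x₀ : E} (hx₀ : x₀ ∈ Ω)
    (hd₀ : DifferentiableAt ℝ u x₀) :
    ContinuousWithinAt (fderiv ℝ u) {x | IsSummit u Ω R x} x₀ := by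
  rw [Metric.continuousWithinAt_iff]
  intro ε hε
  have hsummit : ∀ x, IsSummit u Ω R x → ∃ c : E, ∃ S : ℝ, ‖x - c‖ = R ∧ closedBall c R ⊆ Ω ∧
      (∀ w ∈ closedBall c R, u w ≤ u x) ∧ 0 ≤ S ∧
      HasFDerivAt u (S • innerSL ℝ ((1 / R) • (x - c))) x := by
    intro x hx
    obtain ⟨c, hdist, hball, hmax⟩ := hx
    have hxc : ‖x - c‖ = R := by rw [← dist_eq_norm]; exact hdist
    have hxΩ : x ∈ Ω := hball (by rw [mem_closedBall, hdist])
    obtain ⟨S, hS0, hS⟩ := hasFDerivAt_summit hΩ hu hR hxΩ hxc hmax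
    exact ⟨c, S, hxc, hball, hmax, hS0, hS⟩
  by_cases h0 : fderiv ℝ u x₀ = 0
  · obtain ⟨δ, hδ, hP⟩ := slope_usc' hΩ hu hx₀ hd₀ (half_pos hε)
    refine ⟨δ, hδ, fun x hx hdist => ?_⟩
    obtain ⟨c, S, hxc, hball, hmax, hS0, hS⟩ := hsummit x hx
    rw [dist_eq_norm] at hdist
    have h1 := hP x hdist hS.differentiableAt
    rw [h0, norm_zero, zero_add] at h1
    rw [h0, dist_zero_right]
    linarith
  · have hpos : 0 < ‖fderiv ℝ u x₀‖ := norm_pos_iff.mpr h0
    have hen : ‖gdir u x₀‖ = 1 := gdir_norm hpos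
    have hd := hasFDerivAt_inner_gdir hd₀ hpos
    obtain ⟨δa, hδa, hPa⟩ := slope_usc' hΩ hu hx₀ hd₀ (by positivity : 0 < ε / 8)
    obtain ⟨δb, hδb, hPb⟩ := summit_slope_lsc hΩ hu hx₀ hd₀ hpos hR (by positivity : 0 < ε / 8)
    obtain ⟨δc, hδc, hPc⟩ := summit_dir_close_core hR hpos hen hd
      (by positivity : 0 < ε / (2 * ‖fderiv ℝ u x₀‖))
    refine ⟨min (min δa δb) δc, lt_min (lt_min hδa hδb) hδc, fun x hx hdist => ?_⟩
    rw [dist_eq_norm] at hdist
    have hxa : ‖x - x₀‖ < δa := lt_of_lt_of_le hdist ((min_le_left _ _).trans (min_le_left _ _))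
    have hxb : ‖x - x₀‖ < δb :=
      lt_of_lt_of_le hdist ((min_le_left _ _).trans (min_le_right _ _))
    have hxc' : ‖x - x₀‖ < δc := lt_of_lt_of_le hdist (min_le_right _ _)
    obtain ⟨c, S, hxc, hball, hmax, hS0, hS⟩ := hsummit x hx
    have h1 := hPa x hxa hS.differentiableAt
    have h2 := hPb x c hxb hxc hball hmax hS.differentiableAt
    have h3 := hPc x c hxc' hxc hmax
    obtain ⟨n, hn⟩ : ∃ n, n = (1 / R) • (x - c) := ⟨_, rfl⟩
    rw [← hn] at hS h3
    have hnn : ‖n‖ = 1 := by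
      rw [hn, norm_smul, hxc, Real.norm_eq_abs, abs_of_pos (by positivity)]
      field_simp
    have hfx : fderiv ℝ u x = S • innerSL ℝ n := hS.fderiv
    have hSn : ‖fderiv ℝ u x‖ = S := by
      rw [hfx, norm_smul, innerSL_apply_norm, hnn, mul_one, Real.norm_eq_abs, abs_of_nonneg hS0]
    rw [hSn] at h1 h2
    obtain ⟨s₀, hs₀⟩ : ∃ s₀, s₀ = ‖fderiv ℝ u x₀‖ := ⟨_, rfl⟩
    obtain ⟨e, he⟩ : ∃ e, e = gdir u x₀ := ⟨_, rfl⟩
    rw [← hs₀] at h1 h2 h3 hd hpos
    rw [← he] at h3 hd hen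
    rw [dist_eq_norm, hfx, hd.fderiv]
    have h4 : ‖S • n - s₀ • e‖ ≤ ε / 8 + ε / 2 := by
      have e1 : S • n - s₀ • e = (S - s₀) • n + s₀ • (n - e) := by
        rw [sub_smul, smul_sub]; abel
      rw [e1]
      have h5 := norm_add_le ((S - s₀) • n) (s₀ • (n - e))
      rw [norm_smul, norm_smul, hnn, mul_one, Real.norm_eq_abs, Real.norm_eq_abs,
        abs_of_pos hpos] at h5
      have h6 : |S - s₀| ≤ ε / 8 := abs_le.mpr ⟨by linarith, by linarith⟩
      have h7 : s₀ * ‖n - e‖ ≤ s₀ * (ε / (2 * s₀)) := mul_le_mul_of_nonneg_left h3 hpos.le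
      have h8 : s₀ * (ε / (2 * s₀)) = ε / 2 := by field_simp
      linarith
    have h9 := norm_smul_innerSL_sub_le S s₀ n e
    linarith

/-- An infinity-harmonic function is differentiable at every maximum point and at every
minimum point of a touching ball. -/
theorem differentiableAt_of_summit_or_pit {u : E → ℝ} {Ω : Set E} (hΩ : IsOpen Ω)
    (hu : IsInfinityHarmonicOn u Ω) {R : ℝ} (hR : 0 < R) {x : E}
    (hx : IsSummit u Ω R x ∨ IsPit u Ω R x) : DifferentiableAt ℝ u x := by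
  have key : ∀ v : E → ℝ, IsInfinityHarmonicOn v Ω → IsSummit v Ω R x →
      DifferentiableAt ℝ v x := by
    intro v hv hs
    obtain ⟨c, hdist, hball, hmax⟩ := hs
    have hxc : ‖x - c‖ = R := by rw [← dist_eq_norm]; exact hdist
    have hxΩ : x ∈ Ω := hball (by rw [mem_closedBall, hdist])
    obtain ⟨S, hS0, hS⟩ := hasFDerivAt_summit hΩ hv hR hxΩ hxc hmax
    exact hS.differentiableAt
  rcases hx with hx | hx
  · exact key u hu hx
  · have h1 := key (fun y => -u y) hu.neg ((isPit_iff_isSummit_neg u Ω R x).mp hx)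
    have h2 := h1.neg
    have h3 : (-fun y => -u y) = u := by
      funext y
      simp
    rwa [h3] at h2

/-- The derivative of an infinity-harmonic function is continuous on the set of maximum and
minimum points of touching balls of radius `R`. -/
theorem fderiv_continuousOn_summit_pit {u : E → ℝ} {Ω : Set E} (hΩ : IsOpen Ω)
    (hu : IsInfinityHarmonicOn u Ω) {R : ℝ} (hR : 0 < R) :
    ContinuousOn (fderiv ℝ u) {x | IsSummit u Ω R x ∨ IsPit u Ω R x} := by
  intro x₀ hx₀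
  have hd₀ := differentiableAt_of_summit_or_pit hΩ hu hR hx₀
  have hx₀Ω : x₀ ∈ Ω := by
    rcases hx₀ with ⟨c, hdist, hball, _⟩ | ⟨c, hdist, hball, _⟩
    · exact hball (by rw [mem_closedBall, hdist])
    · exact hball (by rw [mem_closedBall, hdist])
  have h1 := fderiv_continuousWithinAt_summit hΩ hu hR hx₀Ω hd₀
  have h2 := fderiv_continuousWithinAt_summit hΩ hu.neg hR hx₀Ω hd₀.neg
  have h3 : fderiv ℝ (fun y => -u y) = fun y => -fderiv ℝ u y := by
    funext y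
    exact fderiv_neg
  rw [h3] at h2
  have h4 : ContinuousWithinAt (fderiv ℝ u) {x | IsSummit (fun y => -u y) Ω R x} x₀ := by
    have h5 := h2.neg
    have h6 : (-fun y => -fderiv ℝ u y) = fderiv ℝ u := by
      funext y
      simp
    rwa [h6] at h5
  have h7 : {x | IsSummit u Ω R x ∨ IsPit u Ω R x}
      = {x | IsSummit u Ω R x} ∪ {x | IsSummit (fun y => -u y) Ω R x} := by
    ext x
    simp only [mem_setOf_eq, mem_union, isPit_iff_isSummit_neg]
  rw [h7]
  exact continuousWithinAt_union.mpr ⟨h1, h4⟩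

/-- Every closed ball of radius `R` inside `Ω` carries a maximum point and a minimum point of
`u` on its boundary sphere. -/
theorem exists_summit_pit_on_sphere [Nontrivial E] {u : E → ℝ} {Ω : Set E}
    (hu : IsInfinityHarmonicOn u Ω) {R : ℝ} (hR : 0 < R) {z : E} (hball : closedBall z R ⊆ Ω) :
    (∃ x ∈ sphere z R, IsSummit u Ω R x) ∧ (∃ x ∈ sphere z R, IsPit u Ω R x) := by
  constructor
  · obtain ⟨x, hx, hmax⟩ := exists_max_on_sphere hu hR hball
    exact ⟨x, hx, z, mem_sphere.mp hx, hball, hmax⟩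
  · obtain ⟨x, hx, hmax⟩ := exists_max_on_sphere hu.neg hR hball
    refine ⟨x, hx, (isPit_iff_isSummit_neg u Ω R x).mpr ⟨z, mem_sphere.mp hx, hball, hmax⟩⟩

/-- On an open set consisting of maximum or minimum points of touching balls of radius `R`,
an infinity-harmonic function is continuously differentiable. -/
theorem contDiffOn_of_subset_summit_pit {u : E → ℝ} {Ω : Set E} (hΩ : IsOpen Ω)
    (hu : IsInfinityHarmonicOn u Ω) {R : ℝ} (hR : 0 < R) {U : Set E} (hU : IsOpen U)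
    (hUG : U ⊆ {x | IsSummit u Ω R x ∨ IsPit u Ω R x}) : ContDiffOn ℝ 1 u U := by
  have h1 : (1 : WithTop ℕ∞) = 0 + 1 := (zero_add 1).symm
  rw [h1, contDiffOn_succ_iff_fderiv_of_isOpen hU]
  refine ⟨fun x hx => (differentiableAt_of_summit_or_pit hΩ hu hR (hUG hx)).differentiableWithinAt,
    by simp, ?_⟩
  rw [contDiffOn_zero]
  exact (fderiv_continuousOn_summit_pit hΩ hu hR).mono hUG

end

end Vale.Agent.Lib.P080
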