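import Mathlib
import Vale.Agent.Lib.P080.Summit
import Vale.Agent.Lib.P080.SlopeUpper
import Vale.Agent.Lib.P080.SlopeLower

namespace Vale.Agent.Lib.P080

open Filter Topology Set Metric

variable {E : Type*} [NormedAddCommGroup E] [InnerProductSpace ℝ E] [CompleteSpace E]
  [ProperSpace E]

/-- Gradients at maximum points of touching balls converge under uniform convergence of
infinity-harmonic functions, convergence of the points and convergence of the centres. -/
theorem tendsto_fderiv_summit {Ω : Set E} (hΩ : IsOpen Ω) {U : ℕ → E → ℝ} {u : E → ℝ}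
    (hU : ∀ n, IsInfinityHarmonicOn (U n) Ω) (hu : IsInfinityHarmonicOn u Ω)
    (hconv : TendstoUniformlyOn U u atTop Ω)
    {x c : ℕ → E} {x₀ c₀ : E} (hx : Tendsto x atTop (𝓝 x₀)) (hc : Tendsto c atTop (𝓝 c₀))
    {R : ℝ} (hR : 0 < R) (hxc : ∀ n, ‖x n - c n‖ = R) (hball : ∀ n, closedBall (c n) R ⊆ Ω)
    (hball₀ : closedBall c₀ R ⊆ Ω)
    (hmax : ∀ n, ∀ w ∈ closedBall (c n) R, U n w ≤ U n (x n)) :
    Tendsto (fun n => fderiv ℝ (U n) (x n)) atTop (𝓝 (fderiv ℝ u x₀)) := by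
  have hxc₀ : ‖x₀ - c₀‖ = R := by
    have h1 : Tendsto (fun n => ‖x n - c n‖) atTop (𝓝 ‖x₀ - c₀‖) := (hx.sub hc).norm
    have h2 : Tendsto (fun n => ‖x n - c n‖) atTop (𝓝 R) := by
      simp only [hxc]
      exact tendsto_const_nhds
    exact tendsto_nhds_unique h1 h2
  have hx₀ : x₀ ∈ Ω := hball₀ (by rw [mem_closedBall, dist_eq_norm, hxc₀])
  have hxn : ∀ n, x n ∈ Ω := fun n => hball n (by rw [mem_closedBall, dist_eq_norm, hxc n])
  have hmax₀ : ∀ w ∈ closedBall c₀ R, u w ≤ u x₀ := by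
    intro w hw
    have hwn : ∀ n, w + (c n - c₀) ∈ closedBall (c n) R := by
      intro n
      rw [mem_closedBall, dist_eq_norm] at hw ⊢
      have e : w + (c n - c₀) - c n = w - c₀ := by abel
      rw [e]
      exact hw
    have hwt : Tendsto (fun n => w + (c n - c₀)) atTop (𝓝 w) := by
      have h := (hc.sub_const c₀).const_add w
      simpa using h
    have h1 : Tendsto (fun n => U n (w + (c n - c₀))) atTop (𝓝 (u w)) :=
      hconv.tendsto_comp (hu.1 w (hball₀ hw))
        (tendsto_nhdsWithin_iff.mpr ⟨hwt, Eventually.of_forall fun n => hball n (hwn n)⟩)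
    have h2 : Tendsto (fun n => U n (x n)) atTop (𝓝 (u x₀)) :=
      hconv.tendsto_comp (hu.1 x₀ hx₀)
        (tendsto_nhdsWithin_iff.mpr ⟨hx, Eventually.of_forall hxn⟩)
    exact le_of_tendsto_of_tendsto' h1 h2 (fun n => hmax n _ (hwn n))
  obtain ⟨S, hS0, hdS⟩ := hasFDerivAt_summit hΩ hu hR hx₀ hxc₀ hmax₀
  have hdn : ∀ n, ∃ Sn : ℝ, 0 ≤ Sn ∧
      HasFDerivAt (U n) (Sn • innerSL ℝ ((1 / R) • (x n - c n))) (x n) :=
    fun n => hasFDerivAt_summit hΩ (hU n) hR (hxn n) (hxc n) (hmax n)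
  choose Sn hSn0 hSn using hdn
  have hdiff : ∀ n, DifferentiableAt ℝ (U n) (x n) := fun n => (hSn n).differentiableAt
  have hRinv : ‖(1 / R : ℝ)‖ * R = 1 := by
    rw [Real.norm_of_nonneg (by positivity)]
    field_simp
  have hen : ∀ n, ‖(1 / R) • (x n - c n)‖ = 1 := by
    intro n
    rw [norm_smul, hxc n, hRinv]
  have he₀ : ‖(1 / R) • (x₀ - c₀)‖ = 1 := by
    rw [norm_smul, hxc₀, hRinv]
  have hnorm : ∀ n, ‖fderiv ℝ (U n) (x n)‖ = Sn n := by
    intro n
    rw [(hSn n).fderiv, norm_smul, innerSL_apply_norm, hen n, mul_one,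
      Real.norm_of_nonneg (hSn0 n)]
  have hnorm₀ : ‖fderiv ℝ u x₀‖ = S := by
    rw [hdS.fderiv, norm_smul, innerSL_apply_norm, he₀, mul_one, Real.norm_of_nonneg hS0]
  have hS : Tendsto Sn atTop (𝓝 S) := by
    refine tendsto_order.2 ⟨fun a ha => ?_, fun a ha => ?_⟩
    · have hη : 0 < (S - a) / 2 := by linarith
      have h := slope_lower_of_uniform hΩ hU hu.1 hconv hx hc hR hxc hball hball₀ hmax hdiff
        hdS hη
      filter_upwards [h] with n hn
      rw [hnorm n] at hn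
      linarith
    · have hη : 0 < (a - S) / 2 := by linarith
      have h := slope_upper_of_uniform hΩ hU hu.1 hconv hx₀ hx hdS.differentiableAt hdiff hη
      filter_upwards [h] with n hn
      rw [hnorm n, hnorm₀] at hn
      linarith
  have he : Tendsto (fun n => (1 / R) • (x n - c n)) atTop (𝓝 ((1 / R) • (x₀ - c₀))) :=
    (hx.sub hc).const_smul _
  have hin : Tendsto (fun n => innerSL ℝ ((1 / R) • (x n - c n))) atTop
      (𝓝 (innerSL ℝ ((1 / R) • (x₀ - c₀)))) :=
    ((innerSL ℝ (E := E)).continuous.tendsto _).comp he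
  have hfin : Tendsto (fun n => Sn n • innerSL ℝ ((1 / R) • (x n - c n))) atTop
      (𝓝 (S • innerSL ℝ ((1 / R) • (x₀ - c₀)))) := hS.smul hin
  rw [hdS.fderiv]
  have e : (fun n => fderiv ℝ (U n) (x n))
      = fun n => Sn n • innerSL ℝ ((1 / R) • (x n - c n)) := by
    funext n
    exact (hSn n).fderiv
  rw [e]
  exact hfin

/-- The same at minimum points of touching balls. -/
theorem tendsto_fderiv_pit {Ω : Set E} (hΩ : IsOpen Ω) {U : ℕ → E → ℝ} {u : E → ℝ}
    (hU : ∀ n, IsInfinityHarmonicOn (U n) Ω) (hu : IsInfinityHarmonicOn u Ω)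
    (hconv : TendstoUniformlyOn U u atTop Ω)
    {x c : ℕ → E} {x₀ c₀ : E} (hx : Tendsto x atTop (𝓝 x₀)) (hc : Tendsto c atTop (𝓝 c₀))
    {R : ℝ} (hR : 0 < R) (hxc : ∀ n, ‖x n - c n‖ = R) (hball : ∀ n, closedBall (c n) R ⊆ Ω)
    (hball₀ : closedBall c₀ R ⊆ Ω)
    (hmin : ∀ n, ∀ w ∈ closedBall (c n) R, U n (x n) ≤ U n w) :
    Tendsto (fun n => fderiv ℝ (U n) (x n)) atTop (𝓝 (fderiv ℝ u x₀)) := by
  have hconv' : TendstoUniformlyOn (fun n y => -U n y) (fun y => -u y) atTop Ω := by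
    rw [Metric.tendstoUniformlyOn_iff] at hconv ⊢
    intro ε hε
    filter_upwards [hconv ε hε] with n hn y hy
    have := hn y hy
    rw [Real.dist_eq] at this ⊢
    have e : -u y - -U n y = -(u y - U n y) := by ring
    rw [e, abs_neg]
    exact this
  have h := tendsto_fderiv_summit hΩ (U := fun n y => -U n y) (u := fun y => -u y)
    (fun n => (hU n).neg) hu.neg hconv' hx hc hR hxc hball hball₀
    (fun n w hw => neg_le_neg (hmin n w hw))
  have e1 : ∀ n, fderiv ℝ (fun y => -U n y) (x n) = -fderiv ℝ (U n) (x n) := fun n => fderiv_neg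
  have e2 : fderiv ℝ (fun y => -u y) x₀ = -fderiv ℝ u x₀ := fderiv_neg
  simp only [e1] at h
  rw [e2] at h
  have h2 := h.neg
  simpa using h2

end Vale.Agent.Lib.P080
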