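import Mathlib
import Vale.Agent.Lib.P080.SummitConv
import Vale.Agent.Lib.P080.Ascoli
import Vale.Agent.Lib.P080.Stability

namespace Vale.Agent.Lib.P080

open Filter Topology Set Metric

variable {E : Type*} [NormedAddCommGroup E] [InnerProductSpace ℝ E] [CompleteSpace E]
  [ProperSpace E]

/-- One-sided Lipschitz bound for bounded infinity-harmonic functions, from comparison with
cones. -/
theorem sub_le_of_bounded {u : E → ℝ} {Ω : Set E} (hu : IsInfinityHarmonicOn u Ω)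
    (hbd : ∀ x ∈ Ω, |u x| ≤ 1) {r : ℝ} (hr : 0 < r) {x y : E} (hx : closedBall x r ⊆ Ω)
    (hy : y ∈ Ω) : u y - u x ≤ 2 / r * ‖y - x‖ := by
  have hxΩ : x ∈ Ω := hx (mem_closedBall_self hr.le)
  have hux := abs_le.mp (hbd x hxΩ)
  by_cases h : ‖y - x‖ ≤ r
  · have hM : (0 : ℝ) ≤ 2 / r := by positivity
    have hsph : ∀ w ∈ sphere x r, u w ≤ u x + 2 / r * r := by
      intro w hw
      have hw' := abs_le.mp (hbd w (hx (sphere_subset_closedBall hw)))
      have e : 2 / r * r = 2 := by field_simp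
      rw [e]
      linarith
    have h1 := cone_above hu hr hM hx hsph y (by rw [mem_closedBall, dist_eq_norm]; exact h)
    linarith
  · push Not at h
    have huy := abs_le.mp (hbd y hy)
    have h2 : 2 < 2 / r * ‖y - x‖ := by
      rw [div_mul_eq_mul_div, lt_div_iff₀ hr]
      linarith
    linarith

omit [ProperSpace E] in
/-- Restriction of an infinity-harmonic function to a smaller set. -/
theorem isInfinityHarmonicOn_subset {u : E → ℝ} {Ω Ω' : Set E} (hu : IsInfinityHarmonicOn u Ω)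
    (h : Ω' ⊆ Ω) : IsInfinityHarmonicOn u Ω' :=
  ⟨hu.1.mono h, fun φ z hz => hu.2.1 φ z (h hz), fun φ z hz => hu.2.2 φ z (h hz)⟩

omit [NormedAddCommGroup E] [InnerProductSpace ℝ E] [CompleteSpace E] [ProperSpace E] in
/-- Reindexing a uniformly convergent sequence. -/
theorem tendstoUniformlyOn_reindex {X : Type*} {U : ℕ → X → ℝ} {g : X → ℝ} {s : Set X}
    (h : TendstoUniformlyOn U g atTop s) {σ : ℕ → ℕ} (hσ : Tendsto σ atTop atTop) :
    TendstoUniformlyOn (fun k => U (σ k)) g atTop s :=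
  fun v hv => hσ.eventually (h v hv)

omit [InnerProductSpace ℝ E] [CompleteSpace E] [ProperSpace E] in
theorem closedBall_subset_ball_of_norm_le {ρ₁ R : ℝ} (hρ : 1 / 2 + 2 * R < ρ₁) {p : E}
    (hp : ‖p‖ ≤ 1 / 2 + R) : closedBall p R ⊆ ball (0 : E) ρ₁ := by
  intro w hw
  rw [mem_closedBall, dist_eq_norm] at hw
  rw [mem_ball, dist_zero_right]
  have h1 : ‖w‖ ≤ ‖w - p‖ + ‖p‖ := by simpa using norm_add_le (w - p) p
  linarith

omit [InnerProductSpace ℝ E] [CompleteSpace E] [ProperSpace E] in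
theorem norm_centre_le {R : ℝ} {p c : E} (hp : ‖p‖ ≤ 1 / 2) (hc : ‖p - c‖ = R) :
    ‖c‖ ≤ 1 / 2 + R := by
  have h1 : ‖c‖ ≤ ‖p‖ + ‖p - c‖ := by
    have h := norm_sub_le p (p - c)
    simpa using h
  linarith

/-- Subsequence extraction when all points are maximum points of touching balls. -/
theorem exists_subseq_fderiv_summit {ρ₁ R : ℝ} (hR : 0 < R) (hρ : 1 / 2 + 2 * R < ρ₁)
    {U : ℕ → E → ℝ} {g : E → ℝ}
    (hU : ∀ n, IsInfinityHarmonicOn (U n) (ball 0 ρ₁)) (hg : IsInfinityHarmonicOn g (ball 0 ρ₁))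
    (hconv : TendstoUniformlyOn U g atTop (ball 0 ρ₁))
    {x c : ℕ → E} {x₀ : E} (hx : Tendsto x atTop (𝓝 x₀)) (hxn : ∀ n, ‖x n‖ ≤ 1 / 2)
    (hcR : ∀ n, ‖x n - c n‖ = R)
    (hmax : ∀ n, ∀ w ∈ closedBall (c n) R, U n w ≤ U n (x n)) :
    ∃ ψ : ℕ → ℕ, StrictMono ψ ∧
      Tendsto (fun k => fderiv ℝ (U (ψ k)) (x (ψ k))) atTop (𝓝 (fderiv ℝ g x₀)) := by
  have hcn : ∀ n, ‖c n‖ ≤ 1 / 2 + R := fun n => norm_centre_le (hxn n) (hcR n)
  obtain ⟨c₀, hc₀, ψ, hψ, hcψ⟩ := (isCompact_closedBall (0 : E) (1 / 2 + R)).tendsto_subseq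
    (x := c) (fun k => by rw [mem_closedBall, dist_zero_right]; exact hcn k)
  rw [mem_closedBall, dist_zero_right] at hc₀
  refine ⟨ψ, hψ, ?_⟩
  exact tendsto_fderiv_summit (U := fun k => U (ψ k)) (x := fun k => x (ψ k))
    (c := fun k => c (ψ k)) isOpen_ball (fun k => hU (ψ k)) hg
    (tendstoUniformlyOn_reindex hconv hψ.tendsto_atTop) (hx.comp hψ.tendsto_atTop) hcψ hR
    (fun k => hcR (ψ k)) (fun k => closedBall_subset_ball_of_norm_le hρ (hcn (ψ k)))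
    (closedBall_subset_ball_of_norm_le hρ hc₀) (fun k => hmax (ψ k))

/-- Subsequence extraction when all points are minimum points of touching balls. -/
theorem exists_subseq_fderiv_pit {ρ₁ R : ℝ} (hR : 0 < R) (hρ : 1 / 2 + 2 * R < ρ₁)
    {U : ℕ → E → ℝ} {g : E → ℝ}
    (hU : ∀ n, IsInfinityHarmonicOn (U n) (ball 0 ρ₁)) (hg : IsInfinityHarmonicOn g (ball 0 ρ₁))
    (hconv : TendstoUniformlyOn U g atTop (ball 0 ρ₁))
    {x c : ℕ → E} {x₀ : E} (hx : Tendsto x atTop (𝓝 x₀)) (hxn : ∀ n, ‖x n‖ ≤ 1 / 2)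
    (hcR : ∀ n, ‖x n - c n‖ = R)
    (hmin : ∀ n, ∀ w ∈ closedBall (c n) R, U n (x n) ≤ U n w) :
    ∃ ψ : ℕ → ℕ, StrictMono ψ ∧
      Tendsto (fun k => fderiv ℝ (U (ψ k)) (x (ψ k))) atTop (𝓝 (fderiv ℝ g x₀)) := by
  have hcn : ∀ n, ‖c n‖ ≤ 1 / 2 + R := fun n => norm_centre_le (hxn n) (hcR n)
  obtain ⟨c₀, hc₀, ψ, hψ, hcψ⟩ := (isCompact_closedBall (0 : E) (1 / 2 + R)).tendsto_subseq
    (x := c) (fun k => by rw [mem_closedBall, dist_zero_right]; exact hcn k)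
  rw [mem_closedBall, dist_zero_right] at hc₀
  refine ⟨ψ, hψ, ?_⟩
  exact tendsto_fderiv_pit (U := fun k => U (ψ k)) (x := fun k => x (ψ k))
    (c := fun k => c (ψ k)) isOpen_ball (fun k => hU (ψ k)) hg
    (tendstoUniformlyOn_reindex hconv hψ.tendsto_atTop) (hx.comp hψ.tendsto_atTop) hcψ hR
    (fun k => hcR (ψ k)) (fun k => closedBall_subset_ball_of_norm_le hρ (hcn (ψ k)))
    (closedBall_subset_ball_of_norm_le hρ hc₀) (fun k => hmin (ψ k))

/-- Gradients at maximum or minimum points of touching balls converge under uniform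
convergence. -/
theorem tendsto_fderiv_endpoint {ρ₁ R : ℝ} (hR : 0 < R) (hρ : 1 / 2 + 2 * R < ρ₁)
    {U : ℕ → E → ℝ} {g : E → ℝ}
    (hU : ∀ n, IsInfinityHarmonicOn (U n) (ball 0 ρ₁)) (hg : IsInfinityHarmonicOn g (ball 0 ρ₁))
    (hconv : TendstoUniformlyOn U g atTop (ball 0 ρ₁))
    {x : ℕ → E} {x₀ : E} (hx : Tendsto x atTop (𝓝 x₀)) (hxn : ∀ n, ‖x n‖ ≤ 1 / 2)
    (hend : ∀ n, ∃ c : E, ‖x n - c‖ = R ∧ ((∀ w ∈ closedBall c R, U n w ≤ U n (x n)) ∨
      (∀ w ∈ closedBall c R, U n (x n) ≤ U n w))) :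
    Tendsto (fun n => fderiv ℝ (U n) (x n)) atTop (𝓝 (fderiv ℝ g x₀)) := by
  choose c hcR hcase using hend
  refine tendsto_of_subseq_tendsto fun ns hns => ?_
  by_cases hf : ∃ᶠ k in atTop, ∀ w ∈ closedBall (c (ns k)) R, U (ns k) w ≤ U (ns k) (x (ns k))
  · obtain ⟨φ, hφ, hP⟩ := extraction_of_frequently_atTop hf
    have hτ : Tendsto (fun k => ns (φ k)) atTop atTop := hns.comp hφ.tendsto_atTop
    obtain ⟨ψ, hψ, hT⟩ := exists_subseq_fderiv_summit (U := fun k => U (ns (φ k)))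
      (x := fun k => x (ns (φ k))) (c := fun k => c (ns (φ k))) hR hρ (fun k => hU _) hg
      (tendstoUniformlyOn_reindex hconv hτ) (hx.comp hτ) (fun k => hxn _) (fun k => hcR _) hP
    exact ⟨fun k => φ (ψ k), hT⟩
  · rw [not_frequently] at hf
    have hf2 : ∀ᶠ k in atTop,
        ∀ w ∈ closedBall (c (ns k)) R, U (ns k) (x (ns k)) ≤ U (ns k) w := by
      filter_upwards [hf] with k hk
      rcases hcase (ns k) with h | h
      · exact absurd h hk
      · exact h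
    obtain ⟨φ, hφ, hP⟩ := extraction_of_eventually_atTop hf2
    have hτ : Tendsto (fun k => ns (φ k)) atTop atTop := hns.comp hφ.tendsto_atTop
    obtain ⟨ψ, hψ, hT⟩ := exists_subseq_fderiv_pit (U := fun k => U (ns (φ k)))
      (x := fun k => x (ns (φ k))) (c := fun k => c (ns (φ k))) hR hρ (fun k => hU _) hg
      (tendstoUniformlyOn_reindex hconv hτ) (hx.comp hτ) (fun k => hxn _) (fun k => hcR _) hP
    exact ⟨fun k => φ (ψ k), hT⟩

/-- Uniform modulus of continuity of the gradient along maximum and minimum points of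
touching balls of radius `R`, for all infinity-harmonic functions bounded by one on the unit
ball. -/
theorem uniform_endpoint_estimate {R : ℝ} (hR : 0 < R) (hR4 : R < 1 / 4) {ε : ℝ} (hε : 0 < ε) :
    ∃ δ > 0, ∀ u : E → ℝ, IsInfinityHarmonicOn u (ball 0 1) →
      (∀ x ∈ ball (0 : E) 1, |u x| ≤ 1) → ∀ x y : E, ‖x‖ ≤ 1 / 2 → ‖y‖ ≤ 1 / 2 →
      (IsSummit u (ball 0 1) R x ∨ IsPit u (ball 0 1) R x) →
      (IsSummit u (ball 0 1) R y ∨ IsPit u (ball 0 1) R y) →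
      ‖x - y‖ < δ → ‖fderiv ℝ u x - fderiv ℝ u y‖ < ε := by
  by_contra hcon
  push Not at hcon
  have hseq : ∀ n : ℕ, ∃ u : E → ℝ, ∃ x y : E, IsInfinityHarmonicOn u (ball 0 1) ∧
      (∀ z ∈ ball (0 : E) 1, |u z| ≤ 1) ∧ ‖x‖ ≤ 1 / 2 ∧ ‖y‖ ≤ 1 / 2 ∧
      (IsSummit u (ball 0 1) R x ∨ IsPit u (ball 0 1) R x) ∧
      (IsSummit u (ball 0 1) R y ∨ IsPit u (ball 0 1) R y) ∧
      ‖x - y‖ < 1 / ((n : ℝ) + 1) ∧ ε ≤ ‖fderiv ℝ u x - fderiv ℝ u y‖ := by
    intro n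
    obtain ⟨u, hu, hbd, x, y, hx, hy, hex, hey, hxy, hge⟩ :=
      hcon (1 / ((n : ℝ) + 1)) (by positivity)
    exact ⟨u, x, y, hu, hbd, hx, hy, hex, hey, hxy, hge⟩
  choose U x y hU hbd hxn hyn hex hey hxy hge using hseq
  obtain ⟨ρ₁, hρ₁def⟩ : ∃ ρ₁ : ℝ, ρ₁ = 3 / 4 + R := ⟨_, rfl⟩
  have hρ : 1 / 2 + 2 * R < ρ₁ := by rw [hρ₁def]; linarith
  have hρ1 : ρ₁ < 1 := by rw [hρ₁def]; linarith
  have hρ0 : 0 < ρ₁ := by rw [hρ₁def]; linarith
  obtain ⟨r, hrdef⟩ : ∃ r : ℝ, r = (1 - ρ₁) / 2 := ⟨_, rfl⟩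
  have hr : 0 < r := by rw [hrdef]; linarith
  have hKsub : closedBall (0 : E) ρ₁ ⊆ ball (0 : E) 1 := closedBall_subset_ball hρ1
  have hballr : ∀ p ∈ closedBall (0 : E) ρ₁, closedBall p r ⊆ ball (0 : E) 1 := by
    intro p hp w hw
    rw [mem_closedBall, dist_zero_right] at hp
    rw [mem_closedBall, dist_eq_norm] at hw
    rw [mem_ball, dist_zero_right]
    have h1 : ‖w‖ ≤ ‖w - p‖ + ‖p‖ := by simpa using norm_add_le (w - p) p
    rw [hrdef] at hw
    linarith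
  have hlip : ∀ n, ∀ p ∈ closedBall (0 : E) ρ₁, ∀ q ∈ closedBall (0 : E) ρ₁,
      |U n p - U n q| ≤ 2 / r * dist p q := by
    intro n p hp q hq
    have h1 := sub_le_of_bounded (hU n) (hbd n) hr (hballr q hq) (hKsub hp)
    have h2 := sub_le_of_bounded (hU n) (hbd n) hr (hballr p hp) (hKsub hq)
    rw [dist_eq_norm]
    rw [norm_sub_rev] at h2
    rw [abs_le]
    constructor <;> linarith
  obtain ⟨φ₁, hφ₁, g, hgK, hunif⟩ := exists_uniform_subseq (isCompact_closedBall (0 : E) ρ₁) U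
    (fun n p hp => hbd n p (hKsub hp)) hlip
  have hunif' : TendstoUniformlyOn (fun n => U (φ₁ n)) g atTop (ball (0 : E) ρ₁) :=
    hunif.mono ball_subset_closedBall
  have hUmono : ∀ n, IsInfinityHarmonicOn (U n) (ball (0 : E) ρ₁) :=
    fun n => isInfinityHarmonicOn_subset (hU n) (ball_subset_ball hρ1.le)
  have hg : IsInfinityHarmonicOn g (ball (0 : E) ρ₁) := by
    refine isInfinityHarmonicOn_of_uniform_approx isOpen_ball (hgK.mono ball_subset_closedBall)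
      (fun ε' hε' => ?_)
    obtain ⟨n, hn⟩ := (Metric.tendstoUniformlyOn_iff.mp hunif' ε' hε').exists
    refine ⟨U (φ₁ n), hUmono _, fun p hp => ?_⟩
    have h1 := hn p hp
    rw [Real.dist_eq] at h1
    rw [abs_sub_comm]
    exact h1.le
  obtain ⟨x₀, -, φ₂, hφ₂, hxconv⟩ := (isCompact_closedBall (0 : E) (1 / 2)).tendsto_subseq
    (x := fun k => x (φ₁ k)) (fun k => by rw [mem_closedBall, dist_zero_right]; exact hxn _)
  have hσ : Tendsto (fun k => φ₁ (φ₂ k)) atTop atTop :=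
    hφ₁.tendsto_atTop.comp hφ₂.tendsto_atTop
  have hxy0 : Tendsto (fun n => x n - y n) atTop (𝓝 0) := by
    rw [tendsto_zero_iff_norm_tendsto_zero]
    refine squeeze_zero (fun n => norm_nonneg _) (fun n => (hxy n).le) ?_
    exact tendsto_one_div_add_atTop_nhds_zero_nat
  have hyconv : Tendsto (fun k => y (φ₁ (φ₂ k))) atTop (𝓝 x₀) := by
    have h1 : Tendsto (fun k => x (φ₁ (φ₂ k)) - (x (φ₁ (φ₂ k)) - y (φ₁ (φ₂ k)))) atTop
        (𝓝 (x₀ - 0)) := hxconv.sub (hxy0.comp hσ)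
    simpa using h1
  have hconvσ : TendstoUniformlyOn (fun k => U (φ₁ (φ₂ k))) g atTop (ball (0 : E) ρ₁) :=
    tendstoUniformlyOn_reindex hunif' hφ₂.tendsto_atTop
  have hendpt : ∀ (v : E → ℝ) (p : E), (IsSummit v (ball 0 1) R p ∨ IsPit v (ball 0 1) R p) →
      ∃ c : E, ‖p - c‖ = R ∧ ((∀ w ∈ closedBall c R, v w ≤ v p) ∨
        (∀ w ∈ closedBall c R, v p ≤ v w)) := by
    intro v p h
    rcases h with ⟨c, hc, -, hm⟩ | ⟨c, hc, -, hm⟩
    · exact ⟨c, by rw [← dist_eq_norm]; exact hc, Or.inl hm⟩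
    · exact ⟨c, by rw [← dist_eq_norm]; exact hc, Or.inr hm⟩
  have hX := tendsto_fderiv_endpoint (U := fun k => U (φ₁ (φ₂ k)))
    (x := fun k => x (φ₁ (φ₂ k))) hR hρ (fun k => hUmono _) hg hconvσ hxconv (fun k => hxn _)
    (fun k => hendpt _ _ (hex _))
  have hY := tendsto_fderiv_endpoint (U := fun k => U (φ₁ (φ₂ k)))
    (x := fun k => y (φ₁ (φ₂ k))) hR hρ (fun k => hUmono _) hg hconvσ hyconv (fun k => hyn _)
    (fun k => hendpt _ _ (hey _))
  have hdiff := (hX.sub hY).norm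
  rw [sub_self, norm_zero] at hdiff
  obtain ⟨k, hk⟩ := ((tendsto_order.1 hdiff).2 ε hε).exists
  have := hge (φ₁ (φ₂ k))
  linarith

end Vale.Agent.Lib.P080
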