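import Mathlib
import Vale.Agent.Lib.P080.ExplicitIter
import Vale.Agent.Lib.P080.Uniform

namespace Vale.Agent.Lib.P080

open Filter Topology Set Metric

section

variable {E : Type*} [NormedAddCommGroup E] [InnerProductSpace ℝ E] [CompleteSpace E]
  [ProperSpace E]

omit [InnerProductSpace ℝ E] [CompleteSpace E] [ProperSpace E] in
private lemma explicit_closedBall_sub {w : E} (hw : w ∈ ball (0 : E) (3 / 4)) :
    closedBall w (1 / 4) ⊆ ball (0 : E) 1 := by
  intro p hp
  rw [mem_closedBall, dist_eq_norm] at hp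
  rw [mem_ball, dist_zero_right] at hw ⊢
  have h1 : ‖p‖ ≤ ‖p - w‖ + ‖w‖ := by
    have h2 := norm_add_le (p - w) w
    rw [sub_add_cancel] at h2
    exact h2
  linarith

/-- The quasi-concave case of `explicit_unit`. -/
private lemma explicit_unit_qc {u : E → ℝ} (hu : IsInfinityHarmonicOn u (ball 0 1))
    (hbd : ∀ x ∈ ball (0 : E) 1, |u x| ≤ 1)
    (hq : QuasiconcaveOn ℝ (ball (0 : E) 1) u)
    {x y : E} (hx : ‖x‖ ≤ 1 / 2) (hy : ‖y‖ ≤ 1 / 2) :
    DifferentiableAt ℝ u x ∧ DifferentiableAt ℝ u y ∧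
      ∀ n : ℕ, 0 < n → ‖x - y‖ * (4 * (24 * (n : ℝ) ^ 2) ^ (n ^ 3)) < 1 →
        ‖fderiv ℝ u x - fderiv ℝ u y‖ ≤ 160 / n := by
  -- quasi-concavity along segments
  have hQC : QCOn u (ball (0 : E) 1) := by
    intro a ha b hb w hw
    have hc := hq (min (u a) (u b))
    have ha' : a ∈ {z | z ∈ ball (0 : E) 1 ∧ min (u a) (u b) ≤ u z} := ⟨ha, min_le_left _ _⟩
    have hb' : b ∈ {z | z ∈ ball (0 : E) 1 ∧ min (u a) (u b) ≤ u z} := ⟨hb, min_le_right _ _⟩
    exact (hc.segment_subset ha' hb' hw).2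
  have hQCsub : ∀ B : Set E, B ⊆ ball (0 : E) 1 → QCOn u B :=
    fun B hB a ha b hb w hw => hQC a (hB ha) b (hB hb) w hw
  -- differentiability
  have hdiff : ∀ z ∈ ball (0 : E) 1, DifferentiableAt ℝ u z := by
    apply differentiableAt_of_locally_qc isOpen_ball hu
    intro x₀ hx₀
    obtain ⟨ε, hε, hsub⟩ := Metric.isOpen_iff.mp isOpen_ball x₀ hx₀
    exact ⟨ε, hε, hsub, Or.inl (hQCsub _ hsub)⟩
  -- gradient bound
  have hgrad : ∀ z ∈ ball (0 : E) (3 / 4), ‖fderiv ℝ u z‖ ≤ 8 := by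
    intro z hz
    have hz1 : z ∈ ball (0 : E) 1 := explicit_closedBall_sub hz (mem_closedBall_self (by norm_num))
    apply (hdiff z hz1).hasFDerivAt.le_of_lip' (by norm_num)
    filter_upwards [isOpen_ball.mem_nhds hz] with w hw
    have hw1 : w ∈ ball (0 : E) 1 := explicit_closedBall_sub hw (mem_closedBall_self (by norm_num))
    have h1 := sub_le_of_bounded hu hbd (r := 1 / 4) (by norm_num)
      (explicit_closedBall_sub hz) hw1
    have h2 := sub_le_of_bounded hu hbd (r := 1 / 4) (by norm_num)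
      (explicit_closedBall_sub hw) hz1
    rw [norm_sub_rev z w] at h2
    have e : (2 : ℝ) / (1 / 4) = 8 := by norm_num
    rw [e] at h1 h2
    rw [Real.norm_eq_abs, abs_le]
    constructor <;> linarith
  have hx34 : x ∈ ball (0 : E) (3 / 4) := by
    rw [mem_ball, dist_zero_right]
    linarith
  have hy34 : y ∈ ball (0 : E) (3 / 4) := by
    rw [mem_ball, dist_zero_right]
    linarith
  have hx1 : x ∈ ball (0 : E) 1 := explicit_closedBall_sub hx34 (mem_closedBall_self (by norm_num))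
  have hy1 : y ∈ ball (0 : E) 1 := explicit_closedBall_sub hy34 (mem_closedBall_self (by norm_num))
  refine ⟨hdiff x hx1, hdiff y hy1, ?_⟩
  intro n hn hsmall
  rcases Nat.lt_or_ge n 2 with hlt | hge
  · have hn1 : n = 1 := by omega
    subst hn1
    have h1 := hgrad x hx34
    have h2 := hgrad y hy34
    have h3 := norm_sub_le (fderiv ℝ u x) (fderiv ℝ u y)
    norm_num
    linarith
  · -- the ball around y
    have hball34 : ball y (1 / 4) ⊆ ball (0 : E) (3 / 4) := by
      intro p hp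
      rw [mem_ball, dist_eq_norm] at hp
      rw [mem_ball, dist_zero_right]
      have h1 : ‖p‖ ≤ ‖p - y‖ + ‖y‖ := by
        have h2 := norm_add_le (p - y) y
        rw [sub_add_cancel] at h2
        exact h2
      linarith
    have hball1 : ball y (1 / 4) ⊆ ball (0 : E) 1 := fun p hp =>
      explicit_closedBall_sub (hball34 hp) (mem_closedBall_self (by norm_num))
    have hP : (0 : ℝ) < (24 * (n : ℝ) ^ 2) ^ (n ^ 3) := by positivity
    have key := explicit_local hu (y := y) (ρ₀ := 1 / 4) (M₀ := 8) (by norm_num) (by norm_num)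
      hball1 (hQCsub _ hball1) (fun z hz => hdiff z (hball1 hz))
      (fun z hz => hgrad z (hball34 hz)) hge
    have hxmem : x ∈ ball y (1 / 4 / (24 * (n : ℝ) ^ 2) ^ (n ^ 3)) := by
      rw [mem_ball, dist_eq_norm, lt_div_iff₀ hP]
      linarith
    have hymem : y ∈ ball y (1 / 4 / (24 * (n : ℝ) ^ 2) ^ (n ^ 3)) :=
      mem_ball_self (by positivity)
    have h := key x hxmem y hymem
    have e : (20 : ℝ) * 8 / n = 160 / n := by norm_num
    rw [e] at h
    exact h

/-- Explicit interior modulus of continuity of the derivative for quasi-concave or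
quasi-convex infinity-harmonic functions on the unit ball with `|u| ≤ 1`. -/
theorem explicit_unit {u : E → ℝ} (hu : IsInfinityHarmonicOn u (ball 0 1))
    (hbd : ∀ x ∈ ball (0 : E) 1, |u x| ≤ 1)
    (hq : QuasiconcaveOn ℝ (ball (0 : E) 1) u ∨ QuasiconvexOn ℝ (ball (0 : E) 1) u)
    {x y : E} (hx : ‖x‖ ≤ 1 / 2) (hy : ‖y‖ ≤ 1 / 2) :
    DifferentiableAt ℝ u x ∧ DifferentiableAt ℝ u y ∧
      ∀ n : ℕ, 0 < n → ‖x - y‖ * (4 * (24 * (n : ℝ) ^ 2) ^ (n ^ 3)) < 1 →
        ‖fderiv ℝ u x - fderiv ℝ u y‖ ≤ 160 / n := by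
  rcases hq with hq | hq
  · exact explicit_unit_qc hu hbd hq hx hy
  · have hbd' : ∀ z ∈ ball (0 : E) 1, |(fun z => -u z) z| ≤ 1 := by
      intro z hz
      show |-u z| ≤ 1
      rw [abs_neg]
      exact hbd z hz
    have hq' : QuasiconcaveOn ℝ (ball (0 : E) 1) (fun z => -u z) := by
      intro r
      have hc := hq (-r)
      have hset : {z | z ∈ ball (0 : E) 1 ∧ r ≤ -u z} = {z | z ∈ ball (0 : E) 1 ∧ u z ≤ -r} := by
        ext z
        simp only [Set.mem_ofPred_eq]
        constructor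
        · rintro ⟨h1, h2⟩
          exact ⟨h1, by linarith⟩
        · rintro ⟨h1, h2⟩
          exact ⟨h1, by linarith⟩
      rw [hset]
      exact hc
    obtain ⟨hdx, hdy, hmod⟩ := explicit_unit_qc hu.neg hbd' hq' hx hy
    refine ⟨differentiableAt_fun_neg_iff.mp hdx, differentiableAt_fun_neg_iff.mp hdy, ?_⟩
    intro n hn hsmall
    have h := hmod n hn hsmall
    rw [fderiv_fun_neg, fderiv_fun_neg, neg_sub_neg, norm_sub_rev] at h
    exact h

end

end Vale.Agent.Lib.P080
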