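import Mathlib
import Vale.Agent.Lib.P080.Slope

namespace Vale.Agent.Lib.P080

open Filter Topology Set Metric

/-- Composition with the inverse of a linear isometry preserves twice continuous
differentiability at a point. -/
theorem isoInv_contDiffAt {E F : Type*} [NormedAddCommGroup E] [InnerProductSpace ℝ E]
    [NormedAddCommGroup F] [InnerProductSpace ℝ F]
    (Φ : F ≃ₗᵢ[ℝ] E) {φ : F → ℝ} {z : F} (hφ : ContDiffAt ℝ 2 φ z) :
    ContDiffAt ℝ 2 (fun x : E => φ (Φ.symm x)) (Φ z) := by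
  have h1 : ContDiffAt ℝ 2 (fun x : E => Φ.symm x) (Φ z) := Φ.symm.contDiff.contDiffAt
  have h2 : ContDiffAt ℝ 2 φ (Φ.symm (Φ z)) := by
    rw [Φ.symm_apply_apply]
    exact hφ
  exact h2.comp (Φ z) h1

/-- The gradient transforms by the isometry. -/
theorem isoInv_gradient {E F : Type*} [NormedAddCommGroup E]
    [InnerProductSpace ℝ E] [CompleteSpace E] [NormedAddCommGroup F] [InnerProductSpace ℝ F]
    [CompleteSpace F] (Φ : F ≃ₗᵢ[ℝ] E) {φ : F → ℝ} {z : F} (hφ : DifferentiableAt ℝ φ z) :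
    gradient (fun x : E => φ (Φ.symm x)) (Φ z) = Φ (gradient φ z) := by
  have hd : HasFDerivAt (fun x : E => φ (Φ.symm x))
      ((fderiv ℝ φ z).comp (Φ.symm.toContinuousLinearEquiv : E →L[ℝ] F)) (Φ z) := by
    have h1 : HasFDerivAt φ (fderiv ℝ φ z) (Φ.symm (Φ z)) := by
      rw [Φ.symm_apply_apply]
      exact hφ.hasFDerivAt
    exact h1.comp (Φ z) (Φ.symm.toContinuousLinearEquiv.hasFDerivAt)
  have hEq : (InnerProductSpace.toDual ℝ E) (Φ (gradient φ z))
      = (fderiv ℝ φ z).comp (Φ.symm.toContinuousLinearEquiv : E →L[ℝ] F) := by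
    ext h
    rw [InnerProductSpace.toDual_apply_apply, ContinuousLinearMap.comp_apply]
    have e1 : inner ℝ (Φ (gradient φ z)) h = inner ℝ (gradient φ z) (Φ.symm h) := by
      rw [← Φ.inner_map_map, Φ.apply_symm_apply]
    rw [e1]
    unfold gradient
    rw [InnerProductSpace.toDual_symm_apply]
    rfl
  have hgrad : HasGradientAt (fun x : E => φ (Φ.symm x)) (Φ (gradient φ z)) (Φ z) := by
    rw [hasGradientAt_iff_hasFDerivAt, hEq]
    exact hd
  exact hgrad.gradient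

/-- The infinity Laplacian is invariant under linear isometries. -/
theorem isoInv_infLaplacian {E F : Type*} [NormedAddCommGroup E]
    [InnerProductSpace ℝ E] [CompleteSpace E] [NormedAddCommGroup F] [InnerProductSpace ℝ F]
    [CompleteSpace F] (Φ : F ≃ₗᵢ[ℝ] E) {φ : F → ℝ} {z : F} (hφ : ContDiffAt ℝ 2 φ z) :
    infLaplacian (fun x : E => φ (Φ.symm x)) (Φ z) = infLaplacian φ z := by
  rw [infLaplacian_eq_deriv_deriv (isoInv_contDiffAt Φ hφ), infLaplacian_eq_deriv_deriv hφ,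
    isoInv_gradient Φ (hφ.differentiableAt (by norm_num))]
  simp only [map_add, map_smul, LinearIsometryEquiv.symm_apply_apply]

theorem isInfinityHarmonicOn_comp_isometry {E F : Type*} [NormedAddCommGroup E]
    [InnerProductSpace ℝ E] [CompleteSpace E] [NormedAddCommGroup F] [InnerProductSpace ℝ F]
    [CompleteSpace F] (Φ : F ≃ₗᵢ[ℝ] E) {u : E → ℝ} {Ω : Set E}
    (hu : IsInfinityHarmonicOn u Ω) : IsInfinityHarmonicOn (fun y => u (Φ y)) (Φ ⁻¹' Ω) := by
  obtain ⟨hc, hmax, hmin⟩ := hu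
  have ht : ∀ z : F, Tendsto (fun x : E => Φ.symm x) (𝓝 (Φ z)) (𝓝 z) := by
    intro z
    have h1 := Φ.symm.continuous.tendsto (Φ z)
    rw [Φ.symm_apply_apply] at h1
    exact h1
  refine ⟨?_, ?_, ?_⟩
  · exact hc.comp Φ.continuous.continuousOn (fun y hy => hy)
  · intro φ z hz hφ hloc
    rw [← isoInv_infLaplacian Φ hφ]
    apply hmax (fun x : E => φ (Φ.symm x)) (Φ z) hz (isoInv_contDiffAt Φ hφ)
    have hloc' : ∀ᶠ y in 𝓝 z, u (Φ y) - φ y ≤ u (Φ z) - φ z := hloc
    have hev := (ht z).eventually hloc'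
    show ∀ᶠ x in 𝓝 (Φ z), u x - φ (Φ.symm x) ≤ u (Φ z) - φ (Φ.symm (Φ z))
    filter_upwards [hev] with x hx
    rw [Φ.apply_symm_apply] at hx
    rw [Φ.symm_apply_apply]
    exact hx
  · intro φ z hz hφ hloc
    rw [← isoInv_infLaplacian Φ hφ]
    apply hmin (fun x : E => φ (Φ.symm x)) (Φ z) hz (isoInv_contDiffAt Φ hφ)
    have hloc' : ∀ᶠ y in 𝓝 z, u (Φ z) - φ z ≤ u (Φ y) - φ y := hloc
    have hev := (ht z).eventually hloc'
    show ∀ᶠ x in 𝓝 (Φ z), u (Φ z) - φ (Φ.symm (Φ z)) ≤ u x - φ (Φ.symm x)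
    filter_upwards [hev] with x hx
    rw [Φ.apply_symm_apply] at hx
    rw [Φ.symm_apply_apply]
    exact hx

end Vale.Agent.Lib.P080
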