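import Mathlib
import Vale.Agent.Lib.P080.Summit

namespace Vale.Agent.Lib.P080

open Filter Topology Set Metric

variable {E : Type*} [NormedAddCommGroup E] [InnerProductSpace ℝ E] [CompleteSpace E]
  [ProperSpace E]

omit [CompleteSpace E] [ProperSpace E] in
/-- Every vector is normed by some unit vector. -/
lemma qcSummit_exists_unit [Nontrivial E] (g : E) :
    ∃ m : E, ‖m‖ = 1 ∧ inner ℝ g m = ‖g‖ := by
  by_cases hg : g = 0
  · obtain ⟨v, hv⟩ := exists_ne (0 : E)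
    have hpos : 0 < ‖v‖ := norm_pos_iff.mpr hv
    refine ⟨(1 / ‖v‖) • v, ?_, ?_⟩
    · rw [norm_smul, Real.norm_eq_abs, abs_of_pos (one_div_pos.mpr hpos)]
      field_simp
    · rw [hg, inner_zero_left, norm_zero]
  · have hpos : 0 < ‖g‖ := norm_pos_iff.mpr hg
    refine ⟨(1 / ‖g‖) • g, ?_, ?_⟩
    · rw [norm_smul, Real.norm_eq_abs, abs_of_pos (one_div_pos.mpr hpos)]
      field_simp
    · rw [inner_smul_right, real_inner_self_eq_norm_sq]
      field_simp

theorem isSummit_of_quasiconcaveOn [Nontrivial E] {u : E → ℝ} {x₀ : E} {ρ : ℝ}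
    (hcont : ContinuousOn u (ball x₀ ρ)) (hqc : QuasiconcaveOn ℝ (ball x₀ ρ) u) {x : E} {R : ℝ}
    (hR : 0 < R) (hx : dist x x₀ + 2 * R < ρ) : IsSummit u (ball x₀ ρ) R x := by
  have _hP : ProperSpace E := inferInstance
  have hconv : Convex ℝ {y ∈ ball x₀ ρ | u x < u y} := hqc.convex_gt (u x)
  have hopen : IsOpen {y ∈ ball x₀ ρ | u x < u y} :=
    hcont.isOpen_inter_preimage isOpen_ball isOpen_Ioi
  have hxA : x ∉ {y ∈ ball x₀ ρ | u x < u y} := fun h => lt_irrefl _ h.2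
  obtain ⟨f, hf⟩ := geometric_hahn_banach_open_point hconv hopen hxA
  obtain ⟨g, hg⟩ : ∃ g : E, g = (InnerProductSpace.toDual ℝ E).symm f := ⟨_, rfl⟩
  have hfg : ∀ y, f y = inner ℝ g y := by
    intro y
    rw [hg, InnerProductSpace.toDual_symm_apply]
  obtain ⟨m, hm1, hm2⟩ := qcSummit_exists_unit g
  have hcx : dist (x + R • m) x = R := by
    rw [dist_eq_norm, add_sub_cancel_left, norm_smul, hm1, Real.norm_eq_abs, abs_of_pos hR,
      mul_one]
  have hsub : closedBall (x + R • m) R ⊆ ball x₀ ρ := by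
    intro w hw
    rw [mem_closedBall] at hw
    rw [mem_ball]
    have h2 := dist_triangle w (x + R • m) x
    have h3 := dist_triangle w x x₀
    linarith
  refine ⟨x + R • m, ?_, hsub, ?_⟩
  · rw [dist_comm]
    exact hcx
  · intro w hw
    by_contra hcon
    have hlt : u x < u w := lt_of_not_ge hcon
    have h1 := hf w ⟨hsub hw, hlt⟩
    rw [hfg, hfg] at h1
    rw [mem_closedBall, dist_eq_norm] at hw
    have h2 : inner ℝ g w = inner ℝ g (w - (x + R • m)) + inner ℝ g x + R * ‖g‖ := by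
      rw [← hm2, ← inner_smul_right, ← inner_add_right, ← inner_add_right]
      congr 1
      abel
    have h3 : -(‖g‖ * ‖w - (x + R • m)‖) ≤ inner ℝ g (w - (x + R • m)) :=
      (abs_le.mp (abs_real_inner_le_norm g (w - (x + R • m)))).1
    have h4 : ‖g‖ * ‖w - (x + R • m)‖ ≤ ‖g‖ * R := mul_le_mul_of_nonneg_left hw (norm_nonneg g)
    linarith

theorem isPit_of_quasiconvexOn [Nontrivial E] {u : E → ℝ} {x₀ : E} {ρ : ℝ}
    (hcont : ContinuousOn u (ball x₀ ρ)) (hqc : QuasiconvexOn ℝ (ball x₀ ρ) u) {x : E} {R : ℝ}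
    (hR : 0 < R) (hx : dist x x₀ + 2 * R < ρ) : IsPit u (ball x₀ ρ) R x := by
  rw [isPit_iff_isSummit_neg]
  refine isSummit_of_quasiconcaveOn hcont.neg ?_ hR hx
  intro r
  have h := hqc (-r)
  have e : {y | y ∈ ball x₀ ρ ∧ r ≤ -u y} = {y | y ∈ ball x₀ ρ ∧ u y ≤ -r} := by
    ext y
    constructor
    · rintro ⟨h1, h2⟩
      exact ⟨h1, by linarith⟩
    · rintro ⟨h1, h2⟩
      exact ⟨h1, by linarith⟩
  show Convex ℝ {y | y ∈ ball x₀ ρ ∧ r ≤ -u y}
  rw [e]
  exact h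

end Vale.Agent.Lib.P080
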