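import Mathlib
import Vale.Agent.Lib.P080.Slope

/-!
# Scaling invariance of the viscosity infinity Laplace equation

If `u` is infinity-harmonic on `Ω`, then `x ↦ a * u (b + l • x) + m` (with `a, l > 0`) is
infinity-harmonic on the rescaled domain.
-/

namespace Vale.Agent.Lib.P080

open Filter Topology Set Metric

section

variable {E : Type*} [NormedAddCommGroup E] [InnerProductSpace ℝ E]

/-- The derivative of the inverse affine map `y ↦ l⁻¹ • (y - b)`. -/
theorem scaleInv_hasFDerivAt (b : E) (l : ℝ) (y : E) :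
    HasFDerivAt (fun y : E => l⁻¹ • (y - b)) (l⁻¹ • ContinuousLinearMap.id ℝ E) y := by
  have h1 : HasFDerivAt (fun y : E => y - b) (ContinuousLinearMap.id ℝ E) y :=
    (hasFDerivAt_id y).sub_const b
  exact h1.const_smul l⁻¹

theorem scaleInv_apply (b : E) {l : ℝ} (hl : l ≠ 0) (z : E) :
    l⁻¹ • (b + l • z - b) = z := by
  rw [add_sub_cancel_left, smul_smul, inv_mul_cancel₀ hl, one_smul]

theorem scaleInv_back (b : E) {l : ℝ} (hl : l ≠ 0) (y : E) :
    b + l • (l⁻¹ • (y - b)) = y := by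
  rw [smul_smul, mul_inv_cancel₀ hl, one_smul, add_sub_cancel]

theorem scaleInv_tendsto (b : E) {l : ℝ} (hl : l ≠ 0) (z : E) :
    Tendsto (fun y : E => l⁻¹ • (y - b)) (𝓝 (b + l • z)) (𝓝 z) := by
  have hc : Continuous (fun y : E => l⁻¹ • (y - b)) := by fun_prop
  have h := hc.tendsto (b + l • z)
  rwa [scaleInv_apply b hl z] at h

/-- The derivative of the rescaled test function. -/
theorem scaleInv_hasFDerivAt_test (b : E) (a l m : ℝ) {φ : E → ℝ} {y : E}
    (hφ : DifferentiableAt ℝ φ (l⁻¹ • (y - b))) :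
    HasFDerivAt (fun y : E => a⁻¹ * (φ (l⁻¹ • (y - b)) - m))
      ((a⁻¹ * l⁻¹) • fderiv ℝ φ (l⁻¹ • (y - b))) y := by
  have h1 : HasFDerivAt (fun y : E => φ (l⁻¹ • (y - b)))
      ((fderiv ℝ φ (l⁻¹ • (y - b))).comp (l⁻¹ • ContinuousLinearMap.id ℝ E)) y :=
    hφ.hasFDerivAt.comp y (scaleInv_hasFDerivAt b l y)
  have h2 := (h1.sub_const m).const_mul a⁻¹
  have e : (a⁻¹ * l⁻¹) • fderiv ℝ φ (l⁻¹ • (y - b))
      = a⁻¹ • (fderiv ℝ φ (l⁻¹ • (y - b))).comp (l⁻¹ • ContinuousLinearMap.id ℝ E) := by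
    ext h
    simp [mul_assoc]
  rw [e]
  exact h2

/-- The rescaled test function is twice continuously differentiable. -/
theorem scaleInv_contDiffAt (b : E) (a : ℝ) {l : ℝ} (hl : l ≠ 0) (m : ℝ) {φ : E → ℝ} {z : E}
    (hφ : ContDiffAt ℝ 2 φ z) :
    ContDiffAt ℝ 2 (fun y : E => a⁻¹ * (φ (l⁻¹ • (y - b)) - m)) (b + l • z) := by
  have h1 : ContDiffAt ℝ 2 (fun y : E => l⁻¹ • (y - b)) (b + l • z) :=
    ((contDiff_id.sub contDiff_const).const_smul l⁻¹).contDiffAt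
  have h2 : ContDiffAt ℝ 2 φ (l⁻¹ • (b + l • z - b)) := by
    rw [scaleInv_apply b hl z]
    exact hφ
  have h3 : ContDiffAt ℝ 2 (fun y : E => φ (l⁻¹ • (y - b))) (b + l • z) :=
    h2.comp (b + l • z) h1
  exact contDiffAt_const.mul (h3.sub contDiffAt_const)

end

section

variable {E : Type*} [NormedAddCommGroup E] [InnerProductSpace ℝ E] [CompleteSpace E]

/-- The infinity Laplacian of the rescaled test function. -/
theorem scaleInv_infLaplacian (b : E) (a : ℝ) {l : ℝ} (hl : l ≠ 0) (m : ℝ) {φ : E → ℝ} {z : E}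
    (hφ : ContDiffAt ℝ 2 φ z) :
    infLaplacian (fun y : E => a⁻¹ * (φ (l⁻¹ • (y - b)) - m)) (b + l • z)
      = (a⁻¹ * l⁻¹) ^ 3 * l⁻¹ * infLaplacian φ z := by
  have hTw := scaleInv_apply b hl z
  have hev : ∀ᶠ y in 𝓝 (b + l • z), DifferentiableAt ℝ φ (l⁻¹ • (y - b)) := by
    have h1 : ∀ᶠ x in 𝓝 z, ContDiffAt ℝ 2 φ x := hφ.eventually (by norm_num)
    have h2 := (scaleInv_tendsto b hl z).eventually h1
    filter_upwards [h2] with y hy
    exact hy.differentiableAt (by norm_num)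
  have hfd : fderiv ℝ (fun y : E => a⁻¹ * (φ (l⁻¹ • (y - b)) - m))
      =ᶠ[𝓝 (b + l • z)] fun y => (a⁻¹ * l⁻¹) • fderiv ℝ φ (l⁻¹ • (y - b)) := by
    filter_upwards [hev] with y hy
    exact (scaleInv_hasFDerivAt_test b a l m hy).fderiv
  have hφ2 : DifferentiableAt ℝ (fderiv ℝ φ) z :=
    (hφ.fderiv_right (m := 1) (by norm_num)).differentiableAt (by norm_num)
  have hd2 : HasFDerivAt (fun y : E => (a⁻¹ * l⁻¹) • fderiv ℝ φ (l⁻¹ • (y - b)))
      ((a⁻¹ * l⁻¹) • (fderiv ℝ (fderiv ℝ φ) z).comp (l⁻¹ • ContinuousLinearMap.id ℝ E))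
      (b + l • z) := by
    have h1 : HasFDerivAt (fderiv ℝ φ) (fderiv ℝ (fderiv ℝ φ) z) (l⁻¹ • (b + l • z - b)) := by
      rw [hTw]
      exact hφ2.hasFDerivAt
    exact (h1.comp (b + l • z) (scaleInv_hasFDerivAt b l (b + l • z))).const_smul (a⁻¹ * l⁻¹)
  have hgrad : gradient (fun y : E => a⁻¹ * (φ (l⁻¹ • (y - b)) - m)) (b + l • z)
      = (a⁻¹ * l⁻¹) • gradient φ z := by
    unfold gradient
    rw [hfd.eq_of_nhds, hTw]
    simp
  unfold infLaplacian
  rw [hfd.fderiv_eq, hd2.fderiv, hgrad]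
  simp only [smul_apply, ContinuousLinearMap.comp_apply, map_smul,
    ContinuousLinearMap.id_apply, smul_eq_mul]
  ring

end

theorem isInfinityHarmonicOn_scale {E : Type*} [NormedAddCommGroup E] [InnerProductSpace ℝ E]
    [CompleteSpace E] {u : E → ℝ} {Ω : Set E} (hu : IsInfinityHarmonicOn u Ω) {a l : ℝ}
    (ha : 0 < a) (hl : 0 < l) (b : E) (m : ℝ) :
    IsInfinityHarmonicOn (fun x => a * u (b + l • x) + m) {x | b + l • x ∈ Ω} := by
  obtain ⟨hc, hmax, hmin⟩ := hu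
  have hl0 : l ≠ 0 := hl.ne'
  have ha0 : a ≠ 0 := ha.ne'
  have hainv : 0 < a⁻¹ := inv_pos.mpr ha
  have hK : 0 < (a⁻¹ * l⁻¹) ^ 3 * l⁻¹ := by positivity
  have e1 : ∀ p q : ℝ, p - a⁻¹ * (q - m) = a⁻¹ * (a * p + m - q) := by
    intro p q
    field_simp
    ring
  refine ⟨?_, ?_, ?_⟩
  · have hcont : Continuous (fun x : E => b + l • x) := by fun_prop
    have h1 : ContinuousOn (fun x : E => u (b + l • x)) {x | b + l • x ∈ Ω} :=
      hc.comp hcont.continuousOn (fun x hx => hx)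
    exact (continuousOn_const.mul h1).add continuousOn_const
  · intro φ z hz hφ hloc
    have hloc2 : IsLocalMax (fun y : E => u y - a⁻¹ * (φ (l⁻¹ • (y - b)) - m)) (b + l • z) := by
      have hloc' : ∀ᶠ x in 𝓝 z,
          a * u (b + l • x) + m - φ x ≤ a * u (b + l • z) + m - φ z := hloc
      have hev := (scaleInv_tendsto b hl0 z).eventually hloc'
      show ∀ᶠ y in 𝓝 (b + l • z), u y - a⁻¹ * (φ (l⁻¹ • (y - b)) - m)
        ≤ u (b + l • z) - a⁻¹ * (φ (l⁻¹ • (b + l • z - b)) - m)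
      filter_upwards [hev] with y hy
      rw [scaleInv_back b hl0 y] at hy
      rw [scaleInv_apply b hl0 z, e1, e1]
      exact mul_le_mul_of_nonneg_left hy hainv.le
    have h := hmax (fun y : E => a⁻¹ * (φ (l⁻¹ • (y - b)) - m)) (b + l • z) hz
      (scaleInv_contDiffAt b a hl0 m hφ) hloc2
    rw [scaleInv_infLaplacian b a hl0 m hφ] at h
    exact (mul_nonneg_iff_of_pos_left hK).mp h
  · intro φ z hz hφ hloc
    have hloc2 : IsLocalMin (fun y : E => u y - a⁻¹ * (φ (l⁻¹ • (y - b)) - m)) (b + l • z) := by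
      have hloc' : ∀ᶠ x in 𝓝 z,
          a * u (b + l • z) + m - φ z ≤ a * u (b + l • x) + m - φ x := hloc
      have hev := (scaleInv_tendsto b hl0 z).eventually hloc'
      show ∀ᶠ y in 𝓝 (b + l • z), u (b + l • z) - a⁻¹ * (φ (l⁻¹ • (b + l • z - b)) - m)
        ≤ u y - a⁻¹ * (φ (l⁻¹ • (y - b)) - m)
      filter_upwards [hev] with y hy
      rw [scaleInv_back b hl0 y] at hy
      rw [scaleInv_apply b hl0 z, e1, e1]
      exact mul_le_mul_of_nonneg_left hy hainv.le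
    have h := hmin (fun y : E => a⁻¹ * (φ (l⁻¹ • (y - b)) - m)) (b + l • z) hz
      (scaleInv_contDiffAt b a hl0 m hφ) hloc2
    rw [scaleInv_infLaplacian b a hl0 m hφ] at h
    by_contra hcon
    push Not at hcon
    have := mul_pos hK hcon
    linarith

end Vale.Agent.Lib.P080
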