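import Mathlib
import Vale.Agent.Lib.P080.Uniform
import Vale.Agent.Lib.P080.QCSummit
import Vale.Agent.Lib.P080.ScaleInv

namespace Vale.Agent.Lib.P080

open Filter Topology Set Metric

variable {E : Type*} [NormedAddCommGroup E] [InnerProductSpace ℝ E] [CompleteSpace E]
  [ProperSpace E]

omit [CompleteSpace E] [ProperSpace E] in
theorem quasiconcaveOn_scale {u : E → ℝ} (h : QuasiconcaveOn ℝ univ u)
    {a : ℝ} (ha : 0 < a) (l : ℝ) :
    QuasiconcaveOn ℝ (ball (0 : E) 1) (fun x => a * u (l • x)) := by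
  intro r
  have hc := h (r / a)
  intro x hx y hy α β hα hβ hαβ
  refine ⟨convex_ball (0 : E) 1 hx.1 hy.1 hα hβ hαβ, ?_⟩
  have hx' : l • x ∈ {y ∈ (univ : Set E) | r / a ≤ u y} := by
    refine ⟨mem_univ _, ?_⟩
    rw [div_le_iff₀ ha]
    have := hx.2
    linarith
  have hy' : l • y ∈ {y ∈ (univ : Set E) | r / a ≤ u y} := by
    refine ⟨mem_univ _, ?_⟩
    rw [div_le_iff₀ ha]
    have := hy.2
    linarith
  have h1 := (hc hx' hy' hα hβ hαβ).2
  have e : l • (α • x + β • y) = α • l • x + β • l • y := by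
    rw [smul_add, smul_comm l α x, smul_comm l β y]
  show r ≤ a * u (l • (α • x + β • y))
  rw [e]
  rw [div_le_iff₀ ha] at h1
  linarith

omit [CompleteSpace E] [ProperSpace E] in
theorem quasiconvexOn_scale {u : E → ℝ} (h : QuasiconvexOn ℝ univ u)
    {a : ℝ} (ha : 0 < a) (l : ℝ) :
    QuasiconvexOn ℝ (ball (0 : E) 1) (fun x => a * u (l • x)) := by
  intro r
  have hc := h (r / a)
  intro x hx y hy α β hα hβ hαβ
  refine ⟨convex_ball (0 : E) 1 hx.1 hy.1 hα hβ hαβ, ?_⟩
  have hx' : l • x ∈ {y ∈ (univ : Set E) | u y ≤ r / a} := by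
    refine ⟨mem_univ _, ?_⟩
    rw [le_div_iff₀ ha]
    have := hx.2
    linarith
  have hy' : l • y ∈ {y ∈ (univ : Set E) | u y ≤ r / a} := by
    refine ⟨mem_univ _, ?_⟩
    rw [le_div_iff₀ ha]
    have := hy.2
    linarith
  have h1 := (hc hx' hy' hα hβ hαβ).2
  have e : l • (α • x + β • y) = α • l • x + β • l • y := by
    rw [smul_add, smul_comm l α x, smul_comm l β y]
  show a * u (l • (α • x + β • y)) ≤ r
  rw [e]
  rw [le_div_iff₀ ha] at h1
  linarith

omit [CompleteSpace E] [ProperSpace E] in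
/-- The derivative of `u` at `l • x` from the derivative of `v x = a * u (l • x)` at `x`. -/
theorem hasFDerivAt_of_scale {u : E → ℝ} {a l : ℝ} (ha : 0 < a)
    (hl : 0 < l) {x : E} (hd : DifferentiableAt ℝ (fun z => a * u (l • z)) x) :
    HasFDerivAt u ((a⁻¹ * l⁻¹) • fderiv ℝ (fun z => a * u (l • z)) x) (l • x) := by
  have h1 : HasFDerivAt (fun z => a * u (l • z)) (fderiv ℝ (fun z => a * u (l • z)) x)
      (l⁻¹ • (l • x)) := by
    rw [inv_smul_smul₀ hl.ne']
    exact hd.hasFDerivAt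
  have h2 : HasFDerivAt (fun y : E => l⁻¹ • y) (l⁻¹ • ContinuousLinearMap.id ℝ E) (l • x) :=
    (hasFDerivAt_id (l • x)).const_smul l⁻¹
  have h3 := (h1.comp (l • x) h2).const_mul a⁻¹
  have e : (fun y => a⁻¹ * ((fun z => a * u (l • z)) ∘ fun y : E => l⁻¹ • y) y) = u := by
    funext y
    show a⁻¹ * (a * u (l • l⁻¹ • y)) = u y
    rw [smul_inv_smul₀ hl.ne', ← mul_assoc, inv_mul_cancel₀ ha.ne', one_mul]
  rw [e] at h3
  refine h3.congr_fderiv ?_
  ext w
  simp only [_root_.smul_apply, ContinuousLinearMap.comp_apply, ContinuousLinearMap.id_apply,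
    map_smul, smul_eq_mul]
  ring

/-- Liouville theorem: an entire quasi-concave or quasi-convex infinity-harmonic function of
at most linear growth is affine. -/
theorem affine_of_entire_quasi [Nontrivial E] {u : E → ℝ} (hu : IsInfinityHarmonicOn u univ)
    (hq : QuasiconcaveOn ℝ univ u ∨ QuasiconvexOn ℝ univ u) {A B : ℝ}
    (hgrow : ∀ x, |u x| ≤ A + B * ‖x‖) :
    ∃ (L : E →L[ℝ] ℝ) (c : ℝ), ∀ x, u x = L x + c := by
  obtain ⟨A', hA'def⟩ : ∃ A' : ℝ, A' = max A 0 + 1 := ⟨_, rfl⟩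
  obtain ⟨B', hB'def⟩ : ∃ B' : ℝ, B' = max B 0 := ⟨_, rfl⟩
  have hA' : 0 < A' := by rw [hA'def]; have := le_max_right A 0; linarith
  have hB' : 0 ≤ B' := by rw [hB'def]; exact le_max_right B 0
  have hgrow' : ∀ x, |u x| ≤ A' + B' * ‖x‖ := by
    intro x
    have h1 := hgrow x
    have h2 : A ≤ A' := by rw [hA'def]; have := le_max_left A 0; linarith
    have h3 : B * ‖x‖ ≤ B' * ‖x‖ :=
      mul_le_mul_of_nonneg_right (by rw [hB'def]; exact le_max_left B 0) (norm_nonneg x)
    linarith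
  -- facts about the rescaled functions
  have hscale : ∀ l : ℝ, 1 ≤ l → ∀ a : ℝ, a = (A' + B' * l)⁻¹ →
      0 < a ∧ IsInfinityHarmonicOn (fun z => a * u (l • z)) (ball 0 1) ∧
      (∀ z ∈ ball (0 : E) 1, |a * u (l • z)| ≤ 1) ∧
      (∀ z : E, ‖z‖ ≤ 1 / 2 → IsSummit (fun z => a * u (l • z)) (ball 0 1) (1 / 5) z ∨
        IsPit (fun z => a * u (l • z)) (ball 0 1) (1 / 5) z) := by
    intro l hl a hadef
    have hl0 : 0 < l := by linarith
    have hden : 0 < A' + B' * l := by positivity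
    have ha : 0 < a := by rw [hadef]; exact inv_pos.mpr hden
    have hv : IsInfinityHarmonicOn (fun z => a * u (l • z)) (ball 0 1) := by
      have h1 := isInfinityHarmonicOn_scale hu ha hl0 (0 : E) 0
      simp only [zero_add, add_zero, mem_univ, Set.ofPred_true] at h1
      exact isInfinityHarmonicOn_subset h1 (subset_univ _)
    refine ⟨ha, hv, ?_, ?_⟩
    · intro z hz
      rw [mem_ball, dist_zero_right] at hz
      rw [abs_mul, abs_of_pos ha, hadef, inv_mul_le_iff₀ hden, mul_one]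
      have h1 := hgrow' (l • z)
      rw [norm_smul, Real.norm_of_nonneg hl0.le] at h1
      have h2 : B' * (l * ‖z‖) ≤ B' * l := by
        have : l * ‖z‖ ≤ l * 1 := mul_le_mul_of_nonneg_left hz.le hl0.le
        rw [mul_one] at this
        exact mul_le_mul_of_nonneg_left this hB'
      linarith
    · intro z hz
      have hz' : dist z 0 + 2 * (1 / 5 : ℝ) < 1 := by
        rw [dist_zero_right]
        linarith
      rcases hq with hqc | hqv
      · exact Or.inl (isSummit_of_quasiconcaveOn hv.1 (quasiconcaveOn_scale hqc ha l)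
          (by norm_num) hz')
      · exact Or.inr (isPit_of_quasiconvexOn hv.1 (quasiconvexOn_scale hqv ha l)
          (by norm_num) hz')
  -- differentiability everywhere
  have hdiff : ∀ p : E, DifferentiableAt ℝ u p := by
    intro p
    obtain ⟨l, hldef⟩ : ∃ l : ℝ, l = 2 * ‖p‖ + 1 := ⟨_, rfl⟩
    have hl : 1 ≤ l := by rw [hldef]; have := norm_nonneg p; linarith
    have hl0 : 0 < l := by linarith
    obtain ⟨ha, hv, -, hpt⟩ := hscale l hl _ rfl
    have hz : ‖l⁻¹ • p‖ ≤ 1 / 2 := by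
      rw [norm_smul, Real.norm_of_nonneg (inv_nonneg.mpr hl0.le), inv_mul_le_iff₀ hl0, hldef]
      have := norm_nonneg p
      linarith
    have hd := differentiableAt_of_summit_or_pit isOpen_ball hv (by norm_num) (hpt _ hz)
    have h1 := hasFDerivAt_of_scale ha hl0 hd
    rw [smul_inv_smul₀ hl0.ne'] at h1
    exact h1.differentiableAt
  -- the derivative is constant
  have hconst : ∀ p q : E, fderiv ℝ u p = fderiv ℝ u q := by
    intro p q
    rw [← sub_eq_zero, ← norm_le_zero_iff]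
    refine le_of_forall_pos_lt_add fun η hη => ?_
    rw [zero_add]
    obtain ⟨ε, hεdef⟩ : ∃ ε : ℝ, ε = η / (A' + B') := ⟨_, rfl⟩
    have hAB : 0 < A' + B' := by linarith
    have hε : 0 < ε := by rw [hεdef]; positivity
    obtain ⟨δ, hδ, hest⟩ := uniform_endpoint_estimate (E := E) (R := 1 / 5) (by norm_num)
      (by norm_num) hε
    obtain ⟨l, hldef⟩ : ∃ l : ℝ, l = 2 * ‖p‖ + 2 * ‖q‖ + 1 + ‖p - q‖ / δ := ⟨_, rfl⟩
    have hpq : 0 ≤ ‖p - q‖ / δ := by positivity
    have hl : 1 ≤ l := by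
      rw [hldef]
      have := norm_nonneg p
      have := norm_nonneg q
      linarith
    have hl0 : 0 < l := by linarith
    obtain ⟨ha, hv, hbd, hpt⟩ := hscale l hl _ rfl
    obtain ⟨a, hadef⟩ : ∃ a : ℝ, a = (A' + B' * l)⁻¹ := ⟨_, rfl⟩
    rw [← hadef] at ha hv hbd hpt
    have hzp : ‖l⁻¹ • p‖ ≤ 1 / 2 := by
      rw [norm_smul, Real.norm_of_nonneg (inv_nonneg.mpr hl0.le), inv_mul_le_iff₀ hl0, hldef]
      have := norm_nonneg p
      have := norm_nonneg q
      linarith
    have hzq : ‖l⁻¹ • q‖ ≤ 1 / 2 := by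
      rw [norm_smul, Real.norm_of_nonneg (inv_nonneg.mpr hl0.le), inv_mul_le_iff₀ hl0, hldef]
      have := norm_nonneg p
      have := norm_nonneg q
      linarith
    have hzpq : ‖l⁻¹ • p - l⁻¹ • q‖ < δ := by
      rw [← smul_sub, norm_smul, Real.norm_of_nonneg (inv_nonneg.mpr hl0.le),
        inv_mul_lt_iff₀ hl0]
      have h1 : ‖p - q‖ = ‖p - q‖ / δ * δ := by field_simp
      have h2 : ‖p - q‖ / δ * δ < l * δ := by
        apply mul_lt_mul_of_pos_right _ hδ
        rw [hldef]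
        have := norm_nonneg p
        have := norm_nonneg q
        linarith
      linarith
    have hmain := hest _ hv hbd _ _ hzp hzq (hpt _ hzp) (hpt _ hzq) hzpq
    have hdp := differentiableAt_of_summit_or_pit isOpen_ball hv (by norm_num) (hpt _ hzp)
    have hdq := differentiableAt_of_summit_or_pit isOpen_ball hv (by norm_num) (hpt _ hzq)
    have h1 := hasFDerivAt_of_scale ha hl0 hdp
    have h2 := hasFDerivAt_of_scale ha hl0 hdq
    rw [smul_inv_smul₀ hl0.ne'] at h1 h2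
    rw [h1.fderiv, h2.fderiv, ← smul_sub, norm_smul,
      Real.norm_of_nonneg (by positivity : (0 : ℝ) ≤ a⁻¹ * l⁻¹)]
    have hk : a⁻¹ * l⁻¹ ≤ A' + B' := by
      rw [hadef, inv_inv]
      have h3 : (A' + B' * l) * l⁻¹ = A' * l⁻¹ + B' := by field_simp
      rw [h3]
      have h4 : l⁻¹ ≤ 1 := inv_le_one_of_one_le₀ hl
      have h5 : A' * l⁻¹ ≤ A' * 1 := mul_le_mul_of_nonneg_left h4 hA'.le
      linarith
    have hnn : 0 ≤ ‖fderiv ℝ (fun z => a * u (l • z)) (l⁻¹ • p)
        - fderiv ℝ (fun z => a * u (l • z)) (l⁻¹ • q)‖ := norm_nonneg _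
    calc a⁻¹ * l⁻¹ * ‖fderiv ℝ (fun z => a * u (l • z)) (l⁻¹ • p)
          - fderiv ℝ (fun z => a * u (l • z)) (l⁻¹ • q)‖
        ≤ (A' + B') * ‖fderiv ℝ (fun z => a * u (l • z)) (l⁻¹ • p)
          - fderiv ℝ (fun z => a * u (l • z)) (l⁻¹ • q)‖ :=
          mul_le_mul_of_nonneg_right hk hnn
      _ < (A' + B') * ε := mul_lt_mul_of_pos_left hmain hAB
      _ = η := by rw [hεdef]; field_simp
  -- conclusion
  refine ⟨fderiv ℝ u 0, u 0, fun x => ?_⟩
  have hdw : Differentiable ℝ (fun y => u y - fderiv ℝ u 0 y) :=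
    fun y => (hdiff y).sub (fderiv ℝ u 0).differentiableAt
  have hzero : ∀ y, fderiv ℝ (fun y => u y - fderiv ℝ u 0 y) y = 0 := by
    intro y
    have h1 : HasFDerivAt (fun y => u y - fderiv ℝ u 0 y) (fderiv ℝ u y - fderiv ℝ u 0) y :=
      (hdiff y).hasFDerivAt.sub (fderiv ℝ u 0).hasFDerivAt
    rw [h1.fderiv, hconst y 0, sub_self]
  have h2 := is_const_of_fderiv_eq_zero hdw hzero x 0
  simp only [map_zero, sub_zero] at h2
  linarith

end Vale.Agent.Lib.P080
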