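import Mathlib
import Vale.Agent.Lib.P080.Holder

namespace Vale.Agent.Lib.P080

open Filter Topology Set

variable {d : ℕ}

theorem cube_eq_box (p : Fin d → ℝ) (r : ℝ) :
    cube p r = box (fun i => Ioo (p i - r) (p i + r)) := by
  ext x
  simp only [cube, box, Set.mem_ofPred_eq, mem_Ioo, abs_lt]
  constructor
  · intro h i
    have := h i
    constructor <;> linarith [this.1, this.2]
  · intro h i
    have := h i
    constructor <;> linarith [this.1, this.2]

theorem inc_piece {f g : ℝ → ℝ} {κ α β : ℝ} (hαβ : α ≤ β)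
    (hd : ∀ t ∈ Icc α β, HasDerivAt f (g t) t) (hg : ∀ t ∈ Icc α β, κ ≤ g t) :
    κ * (β - α) ≤ f β - f α := by
  have hcont : ContinuousOn f (Icc α β) :=
    fun t ht => (hd t ht).continuousAt.continuousWithinAt
  have hdiff : DifferentiableOn ℝ f (interior (Icc α β)) := by
    intro t ht
    exact (hd t (interior_subset ht)).differentiableAt.differentiableWithinAt
  have hge : ∀ t ∈ interior (Icc α β), κ ≤ deriv f t := by
    intro t ht
    rw [(hd t (interior_subset ht)).deriv]
    exact hg t (interior_subset ht)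
  exact (convex_Icc α β).mul_sub_le_image_sub_of_le_deriv hcont hdiff hge α
    (left_mem_Icc.mpr hαβ) β (right_mem_Icc.mpr hαβ) hαβ

theorem dec_piece {f g : ℝ → ℝ} {κ α β : ℝ} (hαβ : α ≤ β)
    (hd : ∀ t ∈ Icc α β, HasDerivAt f (g t) t) (hg : ∀ t ∈ Icc α β, g t ≤ -κ) :
    κ * (β - α) ≤ f α - f β := by
  have hcont : ContinuousOn f (Icc α β) :=
    fun t ht => (hd t ht).continuousAt.continuousWithinAt
  have hdiff : DifferentiableOn ℝ f (interior (Icc α β)) := by
    intro t ht
    exact (hd t (interior_subset ht)).differentiableAt.differentiableWithinAt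
  have hle : ∀ t ∈ interior (Icc α β), deriv f t ≤ -κ := by
    intro t ht
    rw [(hd t (interior_subset ht)).deriv]
    exact hg t (interior_subset ht)
  have := (convex_Icc α β).image_sub_le_mul_sub_of_deriv_le hcont hdiff hle α
    (left_mem_Icc.mpr hαβ) β (right_mem_Icc.mpr hαβ) hαβ
  linarith

/-- The constant `c` of a piece is controlled by the oscillation of the piece. -/
theorem osc_piece {f g : ℝ → ℝ} {c p r : ℝ} (hr : 0 < r)
    (hd : ∀ t ∈ Ioo (p - r) (p + r), HasDerivAt f (g t) t)
    (hg : ∀ s ∈ Ioo (p - r) (p + r), ∀ t ∈ Ioo (p - r) (p + r),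
      g t ^ 3 - g s ^ 3 = 3 * c * (t - s)) :
    ∃ s ∈ Ioo (p - r) (p + r), ∃ t ∈ Ioo (p - r) (p + r),
      0 ≤ f s - f t ∧ 27 * |c| * r ^ 4 ≤ 125 * (f s - f t) ^ 3 := by
  set κ := cbrt (|c| * r) with hκ
  have hκ3 : κ ^ 3 = |c| * r := cbrt_pow _
  have hκ0 : 0 ≤ κ := by
    rw [hκ, le_cbrt_iff]
    have : (0 : ℝ) ^ 3 = 0 := by norm_num
    rw [this]; positivity
  have hpI : p ∈ Ioo (p - r) (p + r) := ⟨by linarith, by linarith⟩
  have hR : Icc (p + r / 3) (p + 14 * r / 15) ⊆ Ioo (p - r) (p + r) := by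
    intro t ht
    exact ⟨by linarith [ht.1], by linarith [ht.2]⟩
  have hL : Icc (p - 14 * r / 15) (p - r / 3) ⊆ Ioo (p - r) (p + r) := by
    intro t ht
    exact ⟨by linarith [ht.1], by linarith [ht.2]⟩
  have hRle : p + r / 3 ≤ p + 14 * r / 15 := by linarith
  have hLle : p - 14 * r / 15 ≤ p - r / 3 := by linarith
  have hRmemL : p + r / 3 ∈ Ioo (p - r) (p + r) := hR (left_mem_Icc.mpr hRle)
  have hRmemR : p + 14 * r / 15 ∈ Ioo (p - r) (p + r) := hR (right_mem_Icc.mpr hRle)
  have hLmemL : p - 14 * r / 15 ∈ Ioo (p - r) (p + r) := hL (left_mem_Icc.mpr hLle)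
  have hLmemR : p - r / 3 ∈ Ioo (p - r) (p + r) := hL (right_mem_Icc.mpr hLle)
  have fin : ∀ m : ℝ, κ * (3 * r / 5) ≤ m → 0 ≤ m ∧ 27 * |c| * r ^ 4 ≤ 125 * m ^ 3 := by
    intro m hm
    have h0 : 0 ≤ κ * (3 * r / 5) := by positivity
    refine ⟨le_trans h0 hm, ?_⟩
    have h1 : (κ * (3 * r / 5)) ^ 3 ≤ m ^ 3 := pow_le_pow_left₀ h0 hm 3
    have h2 : (κ * (3 * r / 5)) ^ 3 = κ ^ 3 * (27 * r ^ 3 / 125) := by ring
    rw [h2, hκ3] at h1
    have h3 : |c| * r * (27 * r ^ 3 / 125) = 27 * |c| * r ^ 4 / 125 := by ring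
    rw [h3] at h1
    linarith
  rcases le_or_gt 0 c with hc | hc
  · have habs : |c| = c := abs_of_nonneg hc
    rcases le_or_gt 0 (g p) with hgp | hgp
    · -- case A
      have hge : ∀ t ∈ Icc (p + r / 3) (p + 14 * r / 15), κ ≤ g t := by
        intro t ht
        apply le_of_cube_le
        have h1 := hg p hpI t (hR ht)
        have h2 : 0 ≤ g p ^ 3 := by positivity
        rw [hκ3, habs]
        have h3 : c * r ≤ 3 * c * (t - p) := by nlinarith [ht.1]
        linarith
      have := inc_piece hRle (fun t ht => hd t (hR ht)) hge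
      have h2 : p + 14 * r / 15 - (p + r / 3) = 3 * r / 5 := by ring
      rw [h2] at this
      exact ⟨_, hRmemR, _, hRmemL, fin _ this⟩
    · -- case B
      have hle : ∀ t ∈ Icc (p - 14 * r / 15) (p - r / 3), g t ≤ -κ := by
        intro t ht
        apply le_of_cube_le
        have h1 := hg p hpI t (hL ht)
        have h2 : g p ^ 3 < 0 := by
          have : g p ^ 3 = -((-g p) ^ 3) := by ring
          rw [this]
          have : 0 < (-g p) ^ 3 := pow_pos (by linarith) 3
          linarith
        have e : (-κ) ^ 3 = -(κ ^ 3) := by ring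
        rw [e, hκ3, habs]
        have h3 : 3 * c * (t - p) ≤ -(c * r) := by nlinarith [ht.2]
        linarith
      have := dec_piece hLle (fun t ht => hd t (hL ht)) hle
      have h2 : p - r / 3 - (p - 14 * r / 15) = 3 * r / 5 := by ring
      rw [h2] at this
      exact ⟨_, hLmemL, _, hLmemR, fin _ this⟩
  · have habs : |c| = -c := abs_of_neg hc
    rcases le_or_gt 0 (g p) with hgp | hgp
    · -- case C
      have hge : ∀ t ∈ Icc (p - 14 * r / 15) (p - r / 3), κ ≤ g t := by
        intro t ht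
        apply le_of_cube_le
        have h1 := hg p hpI t (hL ht)
        have h2 : 0 ≤ g p ^ 3 := by positivity
        rw [hκ3, habs]
        have h3 : -c * r ≤ 3 * c * (t - p) := by nlinarith [ht.2]
        linarith
      have := inc_piece hLle (fun t ht => hd t (hL ht)) hge
      have h2 : p - r / 3 - (p - 14 * r / 15) = 3 * r / 5 := by ring
      rw [h2] at this
      exact ⟨_, hLmemR, _, hLmemL, fin _ this⟩
    · -- case D
      have hle : ∀ t ∈ Icc (p + r / 3) (p + 14 * r / 15), g t ≤ -κ := by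
        intro t ht
        apply le_of_cube_le
        have h1 := hg p hpI t (hR ht)
        have h2 : g p ^ 3 < 0 := by
          have : g p ^ 3 = -((-g p) ^ 3) := by ring
          rw [this]
          have : 0 < (-g p) ^ 3 := pow_pos (by linarith) 3
          linarith
        have e : (-κ) ^ 3 = -(κ ^ 3) := by ring
        rw [e, hκ3, habs]
        have h3 : 3 * c * (t - p) ≤ -(-c * r) := by nlinarith [ht.1]
        linarith
      have := dec_piece hRle (fun t ht => hd t (hR ht)) hle
      have h2 : p + 14 * r / 15 - (p + r / 3) = 3 * r / 5 := by ring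
      rw [h2] at this
      exact ⟨_, hRmemL, _, hRmemR, fin _ this⟩

end Vale.Agent.Lib.P080
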