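import Mathlib
import Vale.Agent.Lib.P080.Slope

namespace Vale.Agent.Lib.P080

open Filter Topology Set Metric

section

variable {E : Type*} [NormedAddCommGroup E] [InnerProductSpace ℝ E] [CompleteSpace E]
  [ProperSpace E]

/-- One-sided Lipschitz bound for bounded infinity-harmonic functions, from comparison with
cones. -/
theorem refined_sub_le_of_bounded {u : E → ℝ} {Ω : Set E} (hu : IsInfinityHarmonicOn u Ω)
    (hbd : ∀ x ∈ Ω, |u x| ≤ 1) {r : ℝ} (hr : 0 < r) {x y : E} (hx : closedBall x r ⊆ Ω)
    (hy : y ∈ Ω) : u y - u x ≤ 2 / r * ‖y - x‖ := by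
  have hxΩ : x ∈ Ω := hx (mem_closedBall_self hr.le)
  have hux := abs_le.mp (hbd x hxΩ)
  by_cases h : ‖y - x‖ ≤ r
  · have hM : (0 : ℝ) ≤ 2 / r := by positivity
    have hsph : ∀ w ∈ sphere x r, u w ≤ u x + 2 / r * r := by
      intro w hw
      have hw' := abs_le.mp (hbd w (hx (sphere_subset_closedBall hw)))
      have e : 2 / r * r = 2 := by field_simp
      rw [e]
      linarith
    have h1 := cone_above hu hr hM hx hsph y (by rw [mem_closedBall, dist_eq_norm]; exact h)
    linarith
  · push Not at h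
    have huy := abs_le.mp (hbd y hy)
    have h2 : 2 < 2 / r * ‖y - x‖ := by
      rw [div_mul_eq_mul_div, lt_div_iff₀ hr]
      linarith
    linarith

omit [InnerProductSpace ℝ E] [CompleteSpace E] [ProperSpace E] in
/-- Closed balls of radius `1/4` around points of the ball of radius `3/4` stay in the unit
ball. -/
lemma refined_closedBall_sub {w : E} (hw : w ∈ ball (0 : E) (3 / 4)) :
    closedBall w (1 / 4) ⊆ ball (0 : E) 1 := by
  intro p hp
  rw [mem_closedBall, dist_eq_norm] at hp
  rw [mem_ball, dist_zero_right] at hw ⊢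
  have h1 : ‖p‖ ≤ ‖p - w‖ + ‖w‖ := by
    have h2 := norm_add_le (p - w) w
    rw [sub_add_cancel] at h2
    exact h2
  linarith

end

end Vale.Agent.Lib.P080
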