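import Mathlib
import Vale.Agent.Lib.P080.QCScale
import Vale.Agent.Lib.P080.ExplicitScale
import Vale.Agent.Lib.P080.RefinedBase

namespace Vale.Agent.Lib.P080

/-- Elementary inequality for the direction step. -/
theorem dini_dir_real {θ a ε : ℝ} (hθ : 0 ≤ θ) (ha : 0 ≤ a) (hε : 0 ≤ ε)
    (h : θ ^ 2 ≤ 4 * ε + 2 * (θ + √(8 * ε)) * a + a ^ 2) : θ ≤ 4 * √ε + 3 * a := by
  have hs : 0 ≤ √ε := Real.sqrt_nonneg ε
  have hs2 : √ε ^ 2 = ε := Real.sq_sqrt hε
  have h8 : √(8 * ε) ≤ 3 * √ε := by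
    calc √(8 * ε) ≤ √((3 * √ε) ^ 2) := Real.sqrt_le_sqrt (by rw [mul_pow, hs2]; linarith)
      _ = 3 * √ε := Real.sqrt_sq (by positivity)
  by_contra hcon
  have hcon' := not_le.mp hcon
  have h1 : θ ^ 2 ≤ 4 * √ε ^ 2 + 2 * (θ + 3 * √ε) * a + a ^ 2 := by
    rw [hs2]
    have h2 : 2 * (θ + √(8 * ε)) * a ≤ 2 * (θ + 3 * √ε) * a := by
      apply mul_le_mul_of_nonneg_right _ ha
      linarith
    linarith
  nlinarith [mul_nonneg hs ha, mul_nonneg hs hs, mul_nonneg ha ha]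

/-- Elementary inequality for the slope step. -/
theorem dini_low_real {s a θ₂ : ℝ} (_hs : 0 ≤ s) (ha : 0 ≤ a) (hθ0 : 0 ≤ θ₂)
    (hθ : θ₂ ≤ 7 * s + 3 * a) :
    4 * s ^ 2 + 2 * (3 * s) * a + a ^ 2 + θ₂ ^ 2 / 2 + 2 * (a + θ₂ / 2) ^ 2
      ≤ 110 * s ^ 2 + 36 * a ^ 2 := by
  have h1 : θ₂ ^ 2 ≤ (7 * s + 3 * a) ^ 2 := pow_le_pow_left₀ hθ0 hθ 2
  have h2 : (a + θ₂ / 2) ^ 2 ≤ (a + (7 * s + 3 * a) / 2) ^ 2 :=
    pow_le_pow_left₀ (by positivity) (by linarith) 2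
  nlinarith [sq_nonneg (57 * s - 31 * a), sq_nonneg a, sq_nonneg s]

/-- `√(8 ε) ≤ 3 √ε`. -/
theorem dini_sqrt_eight {ε : ℝ} (hε : 0 ≤ ε) : √(8 * ε) ≤ 3 * √ε := by
  have hs2 : √ε ^ 2 = ε := Real.sq_sqrt hε
  calc √(8 * ε) ≤ √((3 * √ε) ^ 2) := Real.sqrt_le_sqrt (by rw [mul_pow, hs2]; linarith)
    _ = 3 * √ε := Real.sqrt_sq (by positivity)

end Vale.Agent.Lib.P080

namespace Vale.Agent.Lib.P080

open Filter Topology Set Metric

section

variable {E : Type*} [NormedAddCommGroup E] [InnerProductSpace ℝ E] [CompleteSpace E]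
  [ProperSpace E]

omit [ProperSpace E] in
/-- Refined direction step: the error is of first order in `d / r` and of order `√ε`. -/
theorem dini_dir {u : E → ℝ} {z₀ x₁ m z : E} {r d M ε : ℝ} (hr : 0 < r) (hd0 : 0 < d)
    (hMpos : 0 < M) (hqc : QCOn u (ball z₀ (3 * r))) (hε0 : 0 ≤ ε) (hε4 : ε ≤ 1 / 4)
    (hdr : d ≤ r / 6)
    (hlip : ∀ p ∈ ball z₀ (3 * r), ∀ q ∈ ball z₀ (3 * r), u q - u p ≤ M * ‖q - p‖)
    (hx₁n : ‖x₁ - z₀‖ = r) (hmn : ‖z₀ - m‖ = r)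
    (hup : r * ((1 - ε) * M) ≤ u x₁ - u z₀) (hdn : r * ((1 - ε) * M) ≤ u z₀ - u m)
    (hAA : ‖(x₁ - z₀) - (z₀ - m)‖ ≤ r * √(8 * ε))
    (hzd : ‖z - z₀‖ < d) (hdz : DifferentiableAt ℝ u z) (hGpos : 0 < ‖fderiv ℝ u z‖) :
    ‖r • gdir u z - (x₁ - z₀)‖ ≤ r * (4 * √ε + 3 * (d / r)) := by
  have hz₀B : z₀ ∈ ball z₀ (3 * r) := mem_ball_self (by positivity)
  have hx₁B : x₁ ∈ ball z₀ (3 * r) := by rw [mem_ball, dist_eq_norm]; linarith
  have hmB : m ∈ ball z₀ (3 * r) := by rw [mem_ball, dist_comm, dist_eq_norm]; linarith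
  have hzB : z ∈ ball z₀ (3 * r) := by rw [mem_ball, dist_eq_norm]; linarith
  have hνn : ‖gdir u z‖ = 1 := gdir_norm hGpos
  have hδ0 : 0 ≤ ‖z - z₀‖ := norm_nonneg _
  have hs8 : 0 ≤ √(8 * ε) := Real.sqrt_nonneg _
  obtain ⟨σ, hσM⟩ : ∃ σ : ℝ, σ * M = u x₁ - u z := ⟨(u x₁ - u z) / M, by field_simp⟩
  have hXle : inner ℝ (z₀ - m) (z - z₀) ≤ r * ‖z - z₀‖ := by
    have h1 := real_inner_le_norm (z₀ - m) (z - z₀)
    rw [hmn] at h1
    exact h1
  have hzm : ‖z - m‖ ≤ r + inner ℝ (z₀ - m) (z - z₀) / r + ‖z - z₀‖ ^ 2 / (2 * r) := by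
    have h1 := qcscale_norm_sub_le (z₀ - m) (-(z - z₀)) hr hmn.le
    have e1 : z₀ - m - -(z - z₀) = z - m := by abel
    rw [e1, inner_neg_right, norm_neg] at h1
    have e2 : r - -inner ℝ (z₀ - m) (z - z₀) / r = r + inner ℝ (z₀ - m) (z - z₀) / r := by
      ring
    linarith
  have hσge : r * (1 - 2 * ε) - inner ℝ (z₀ - m) (z - z₀) / r - ‖z - z₀‖ ^ 2 / (2 * r)
      ≤ σ := by
    have h1 := hlip m hmB z hzB
    have h2 : M * ‖z - m‖
        ≤ M * (r + inner ℝ (z₀ - m) (z - z₀) / r + ‖z - z₀‖ ^ 2 / (2 * r)) :=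
      mul_le_mul_of_nonneg_left hzm hMpos.le
    have h3 : M * (r * (1 - 2 * ε) - inner ℝ (z₀ - m) (z - z₀) / r
        - ‖z - z₀‖ ^ 2 / (2 * r)) ≤ M * σ := by
      linarith
    exact le_of_mul_le_mul_left h3 hMpos
  have hXr : inner ℝ (z₀ - m) (z - z₀) / r ≤ d := by
    rw [div_le_iff₀ hr]
    nlinarith
  have hδ2 : ‖z - z₀‖ ^ 2 / (2 * r) ≤ d / 12 := by
    rw [div_le_iff₀ (by positivity)]
    nlinarith
  have hσ0 : 0 ≤ σ := by
    nlinarith
  have hx₁z : ‖x₁ - z‖ ≤ r + d := by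
    have e1 : x₁ - z = (x₁ - z₀) - (z - z₀) := by abel
    rw [e1]
    exact (norm_sub_le _ _).trans (by linarith)
  have hσle : σ ≤ r + d := by
    have h1 := hlip z hzB x₁ hx₁B
    have h2 : M * σ ≤ M * (r + d) := by nlinarith
    exact le_of_mul_le_mul_left h2 hMpos
  have hσn : ‖σ • gdir u z‖ = σ := by
    rw [norm_smul, hνn, Real.norm_eq_abs, abs_of_nonneg hσ0, mul_one]
  have hwB : x₁ - σ • gdir u z ∈ ball z₀ (3 * r) := by
    rw [mem_ball, dist_eq_norm]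
    have e1 : x₁ - σ • gdir u z - z₀ = (x₁ - z₀) - σ • gdir u z := by abel
    rw [e1]
    have h2 := norm_sub_le (x₁ - z₀) (σ • gdir u z)
    linarith
  have hinner : σ ≤ inner ℝ (gdir u z) (x₁ - z) := by
    by_contra hcon
    have hcon' := not_le.mp hcon
    have hneg : fderiv ℝ u z ((x₁ - σ • gdir u z) - z) < 0 := by
      rw [fderiv_eq_inner_gdir hGpos]
      have e1 : x₁ - σ • gdir u z - z = (x₁ - z) - σ • gdir u z := by abel
      have h1 : inner ℝ (gdir u z) (x₁ - σ • gdir u z - z)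
          = inner ℝ (gdir u z) (x₁ - z) - σ := by
        rw [e1, inner_sub_right, inner_smul_right, real_inner_self_eq_norm_sq, hνn]
        ring
      rw [h1]
      exact mul_neg_of_pos_of_neg hGpos (by linarith)
    have hlt := lt_of_fderiv_neg hqc hzB hwB hdz hneg
    have h3 := hlip (x₁ - σ • gdir u z) hwB x₁ hx₁B
    have e2 : x₁ - (x₁ - σ • gdir u z) = σ • gdir u z := by abel
    rw [e2, hσn] at h3
    linarith
  have hrν : ‖r • gdir u z‖ = r := by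
    rw [norm_smul, hνn, Real.norm_eq_abs, abs_of_pos hr, mul_one]
  have hT0 : 0 ≤ ‖r • gdir u z - (x₁ - z₀)‖ := norm_nonneg _
  have hνA' : ‖r • gdir u z - (z₀ - m)‖ ≤ ‖r • gdir u z - (x₁ - z₀)‖ + r * √(8 * ε) := by
    have e3 : r • gdir u z - (z₀ - m)
        = (r • gdir u z - (x₁ - z₀)) + ((x₁ - z₀) - (z₀ - m)) := by abel
    rw [e3]
    exact (norm_add_le _ _).trans (by linarith)
  have hY : -((‖r • gdir u z - (x₁ - z₀)‖ + r * √(8 * ε)) * d)
      ≤ inner ℝ (r • gdir u z - (z₀ - m)) (z - z₀) := by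
    have h5 := abs_real_inner_le_norm (r • gdir u z - (z₀ - m)) (z - z₀)
    have h6 := (abs_le.mp h5).1
    have h7 : ‖r • gdir u z - (z₀ - m)‖ * ‖z - z₀‖
        ≤ (‖r • gdir u z - (x₁ - z₀)‖ + r * √(8 * ε)) * d :=
      mul_le_mul hνA' hzd.le hδ0 (by positivity)
    linarith
  have hYe : inner ℝ (r • gdir u z - (z₀ - m)) (z - z₀)
      = r * inner ℝ (gdir u z) (z - z₀) - inner ℝ (z₀ - m) (z - z₀) := by
    rw [inner_sub_left, inner_smul_left]
    simp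
  have hAe : inner ℝ (gdir u z) (x₁ - z₀)
      = inner ℝ (gdir u z) (x₁ - z) + inner ℝ (gdir u z) (z - z₀) := by
    rw [← inner_add_right]
    congr 1
    abel
  have hTsq : ‖r • gdir u z - (x₁ - z₀)‖ ^ 2
      = 2 * r ^ 2 - 2 * r * inner ℝ (gdir u z) (x₁ - z₀) := by
    rw [norm_sub_sq_real, hrν, hx₁n, inner_smul_left]
    simp
    ring
  have hrX : r * (inner ℝ (z₀ - m) (z - z₀) / r) = inner ℝ (z₀ - m) (z - z₀) := by
    field_simp
  have hrδ : 2 * r * (‖z - z₀‖ ^ 2 / (2 * r)) = ‖z - z₀‖ ^ 2 := by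
    field_simp
  have hδd : ‖z - z₀‖ ^ 2 ≤ d ^ 2 := pow_le_pow_left₀ hδ0 hzd.le 2
  have hmain : ‖r • gdir u z - (x₁ - z₀)‖ ^ 2
      ≤ 4 * ε * r ^ 2 + 2 * (‖r • gdir u z - (x₁ - z₀)‖ + r * √(8 * ε)) * d + d ^ 2 := by
    have h8 : r * σ ≤ r * inner ℝ (gdir u z) (x₁ - z) :=
      mul_le_mul_of_nonneg_left hinner hr.le
    have h9 : r * (r * (1 - 2 * ε) - inner ℝ (z₀ - m) (z - z₀) / r
        - ‖z - z₀‖ ^ 2 / (2 * r)) ≤ r * σ :=
      mul_le_mul_of_nonneg_left hσge hr.le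
    rw [hTsq, hAe]
    nlinarith
  have hθ : (‖r • gdir u z - (x₁ - z₀)‖ / r) ^ 2
      ≤ 4 * ε + 2 * (‖r • gdir u z - (x₁ - z₀)‖ / r + √(8 * ε)) * (d / r) + (d / r) ^ 2 := by
    have e4 : 4 * ε + 2 * (‖r • gdir u z - (x₁ - z₀)‖ / r + √(8 * ε)) * (d / r) + (d / r) ^ 2
        = (4 * ε * r ^ 2 + 2 * (‖r • gdir u z - (x₁ - z₀)‖ + r * √(8 * ε)) * d + d ^ 2)
          / r ^ 2 := by
      field_simp
    rw [e4, div_pow]
    exact div_le_div_of_nonneg_right hmain (by positivity)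
  have hfin := dini_dir_real (div_nonneg hT0 hr.le) (div_nonneg hd0.le hr.le) hε0 hθ
  rw [div_le_iff₀ hr] at hfin
  linarith

end

end Vale.Agent.Lib.P080

namespace Vale.Agent.Lib.P080

open Filter Topology Set Metric

section

variable {E : Type*} [NormedAddCommGroup E] [InnerProductSpace ℝ E] [CompleteSpace E]
  [ProperSpace E]

/-- Real arithmetic behind the refined slope step. -/
theorem dini_low_arith {r d s T n₁ n₂ p q nd nh : ℝ} (hr : 0 < r) (hd0 : 0 < d) (hs : 0 ≤ s)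
    (hT0 : 0 ≤ T) (hT : T ≤ r * (7 * s + 3 * (d / r)))
    (hnd0 : 0 ≤ nd) (hnd : nd ≤ d) (hnh0 : 0 ≤ nh) (hnh : nh ≤ T / 2 + d)
    (H1 : n₁ ≤ r - p / r + nd ^ 2 / (2 * r))
    (H2 : n₂ ≤ r / 2 - (-(T ^ 2) / 8 - q / 2) / (r / 2) + nh ^ 2 / (2 * (r / 2)))
    (Hcs : q - p ≤ r * (3 * s) * d) :
    n₁ + n₂ ≤ r * (3 / 2 + 53 * s ^ 2 + 18 * (d / r) ^ 2) := by
  obtain ⟨a, ha⟩ : ∃ a, a = d / r := ⟨_, rfl⟩
  rw [← ha] at hT ⊢
  have ha0 : 0 ≤ a := by rw [ha]; positivity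
  have hda : d = a * r := by rw [ha]; field_simp
  obtain ⟨θ, hθ⟩ : ∃ θ, θ = T / r := ⟨_, rfl⟩
  have hθ0 : 0 ≤ θ := by rw [hθ]; positivity
  have hTθ : T = θ * r := by rw [hθ]; field_simp
  have hθle : θ ≤ 7 * s + 3 * a := by
    rw [hTθ] at hT
    have h1 : θ * r ≤ (7 * s + 3 * a) * r := by linarith
    exact le_of_mul_le_mul_right h1 hr
  have hreal := dini_low_real hs ha0 hθ0 hθle
  have H1' : n₁ * r ≤ r ^ 2 - p + nd ^ 2 / 2 := by
    have h := mul_le_mul_of_nonneg_right H1 hr.le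
    have e : (r - p / r + nd ^ 2 / (2 * r)) * r = r ^ 2 - p + nd ^ 2 / 2 := by
      field_simp
    rw [e] at h
    exact h
  have H2' : n₂ * r ≤ r ^ 2 / 2 + T ^ 2 / 4 + q + nh ^ 2 := by
    have h := mul_le_mul_of_nonneg_right H2 hr.le
    have e : (r / 2 - (-(T ^ 2) / 8 - q / 2) / (r / 2) + nh ^ 2 / (2 * (r / 2))) * r
        = r ^ 2 / 2 + T ^ 2 / 4 + q + nh ^ 2 := by
      field_simp
      ring
    rw [e] at h
    exact h
  have hnd2 : nd ^ 2 ≤ d ^ 2 := pow_le_pow_left₀ hnd0 hnd 2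
  have hnh2 : nh ^ 2 ≤ (T / 2 + d) ^ 2 := pow_le_pow_left₀ hnh0 hnh 2
  have hsum : (n₁ + n₂) * r ≤ (r * (3 / 2 + 53 * s ^ 2 + 18 * a ^ 2)) * r := by
    have e1 : (r * (3 / 2 + 53 * s ^ 2 + 18 * a ^ 2)) * r
        = r ^ 2 * (3 / 2 + 53 * s ^ 2 + 18 * a ^ 2) := by ring
    have e2 : r ^ 2 / 2 + T ^ 2 / 4 + r * (3 * s) * d + d ^ 2 / 2 + (T / 2 + d) ^ 2 + r ^ 2
        = r ^ 2 * (3 / 2 + (4 * s ^ 2 + 2 * (3 * s) * a + a ^ 2 + θ ^ 2 / 2
            + 2 * (a + θ / 2) ^ 2) / 2 - 2 * s ^ 2) := by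
      rw [hTθ, hda]
      ring
    have h3 : r ^ 2 * (3 / 2 + (4 * s ^ 2 + 2 * (3 * s) * a + a ^ 2 + θ ^ 2 / 2
            + 2 * (a + θ / 2) ^ 2) / 2 - 2 * s ^ 2)
        ≤ r ^ 2 * (3 / 2 + 53 * s ^ 2 + 18 * a ^ 2) :=
      mul_le_mul_of_nonneg_left (by linarith) (by positivity)
    rw [e1]
    linarith
  exact le_of_mul_le_mul_right hsum hr

omit [CompleteSpace E] [ProperSpace E] in
/-- Geometry behind the refined slope step: the two chords have total length at most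
`r (3/2 + 53 ε + 18 (d/r)²)`. -/
theorem dini_low_geom {A A' δ ν : E} {r d ε : ℝ} (hr : 0 < r) (hd0 : 0 < d) (hε0 : 0 ≤ ε)
    (hA : ‖A‖ = r) (hA' : ‖A'‖ = r) (hδ : ‖δ‖ ≤ d) (hν : ‖ν‖ = 1)
    (hAA : ‖A - A'‖ ≤ r * √(8 * ε)) (hνA : ‖r • ν - A‖ ≤ r * (4 * √ε + 3 * (d / r))) :
    ‖A - δ‖ + ‖A' + δ - (r / 2) • ν‖ ≤ r * (3 / 2 + 53 * ε + 18 * (d / r) ^ 2) := by
  have hs0 : 0 ≤ √ε := Real.sqrt_nonneg ε
  have hs2 : √ε ^ 2 = ε := Real.sq_sqrt hε0
  have h8 : √(8 * ε) ≤ 3 * √ε := dini_sqrt_eight hε0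
  have hT2le : ‖r • ν - A'‖ ≤ r * (7 * √ε + 3 * (d / r)) := by
    have e : r • ν - A' = (r • ν - A) + (A - A') := by abel
    rw [e]
    have h1 := norm_add_le (r • ν - A) (A - A')
    have h2 : r * √(8 * ε) ≤ r * (3 * √ε) := mul_le_mul_of_nonneg_left h8 hr.le
    linarith
  have hT2sq : ‖r • ν - A'‖ ^ 2 = 2 * r ^ 2 - 2 * (r * inner ℝ ν A') := by
    rw [norm_sub_sq_real, norm_smul, hν, hA', real_inner_smul_left, Real.norm_eq_abs,
      abs_of_pos hr]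
    ring
  have h1 := qcscale_norm_sub_le A δ hr hA.le
  have hhalf : ‖(1 / 2 : ℝ) • A'‖ ≤ r / 2 := by
    rw [norm_smul, hA', Real.norm_eq_abs, abs_of_pos (by norm_num : (0:ℝ) < 1 / 2)]
    linarith
  have h2 := qcscale_norm_sub_le ((1 / 2 : ℝ) • A') ((1 / 2 : ℝ) • (r • ν - A') - δ)
    (half_pos hr) hhalf
  have e2 : (1 / 2 : ℝ) • A' - ((1 / 2 : ℝ) • (r • ν - A') - δ) = A' + δ - (r / 2) • ν := by
    module
  rw [e2] at h2
  have hin : inner ℝ ((1 / 2 : ℝ) • A') ((1 / 2 : ℝ) • (r • ν - A') - δ)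
      = -(‖r • ν - A'‖ ^ 2) / 8 - inner ℝ A' δ / 2 := by
    rw [inner_sub_right, real_inner_smul_left, real_inner_smul_left, real_inner_smul_right,
      inner_sub_right, real_inner_smul_right, real_inner_self_eq_norm_sq, hA', hT2sq,
      real_inner_comm A' ν]
    ring
  rw [hin] at h2
  have hh'n : ‖(1 / 2 : ℝ) • (r • ν - A') - δ‖ ≤ ‖r • ν - A'‖ / 2 + d := by
    have h3 := norm_sub_le ((1 / 2 : ℝ) • (r • ν - A')) δ
    rw [norm_smul, Real.norm_eq_abs, abs_of_pos (by norm_num : (0:ℝ) < 1 / 2)] at h3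
    linarith
  have hcs : inner ℝ A' δ - inner ℝ A δ ≤ r * (3 * √ε) * d := by
    have h3 : inner ℝ (A' - A) δ ≤ ‖A' - A‖ * ‖δ‖ := real_inner_le_norm _ _
    rw [inner_sub_left] at h3
    have h4 : ‖A' - A‖ ≤ r * (3 * √ε) := by
      rw [norm_sub_rev]
      exact hAA.trans (mul_le_mul_of_nonneg_left h8 hr.le)
    have h5 : ‖A' - A‖ * ‖δ‖ ≤ (r * (3 * √ε)) * d :=
      mul_le_mul h4 hδ (norm_nonneg _) (by positivity)
    linarith
  have key := dini_low_arith hr hd0 hs0 (norm_nonneg _) hT2le (norm_nonneg δ) hδ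
    (norm_nonneg _) hh'n h1 h2 hcs
  rw [hs2] at key
  exact key

/-- Refined slope step: the loss is linear in `ε` and quadratic in `d / r`. -/
theorem dini_low {u : E → ℝ} {Ω : Set E} (hu : IsInfinityHarmonicOn u Ω)
    {z₀ x₁ m z : E} {r d M ε : ℝ} (hr : 0 < r) (hd0 : 0 < d) (hsub : ball z₀ (3 * r) ⊆ Ω)
    (hqc : QCOn u (ball z₀ (3 * r))) (hε0 : 0 ≤ ε)
    (hκ : 110 * ε + 36 * (d / r) ^ 2 ≤ 1) (hMpos : 0 < M)
    (hlip : ∀ p ∈ ball z₀ (3 * r), ∀ q ∈ ball z₀ (3 * r), u q - u p ≤ M * ‖q - p‖)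
    (hx₁n : ‖x₁ - z₀‖ = r) (hmn : ‖z₀ - m‖ = r)
    (hup : r * ((1 - ε) * M) ≤ u x₁ - u z₀) (hdn : r * ((1 - ε) * M) ≤ u z₀ - u m)
    (hAA : ‖(x₁ - z₀) - (z₀ - m)‖ ≤ r * √(8 * ε))
    (hzd : ‖z - z₀‖ < d) (hdz : DifferentiableAt ℝ u z) (hGpos : 0 < ‖fderiv ℝ u z‖)
    (hνA : ‖r • gdir u z - (x₁ - z₀)‖ ≤ r * (4 * √ε + 3 * (d / r))) :
    M * (1 - 110 * ε - 36 * (d / r) ^ 2) ≤ ‖fderiv ℝ u z‖ := by
  have hνn : ‖gdir u z‖ = 1 := gdir_norm hGpos
  have hdr : d ≤ r / 6 := by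
    have h1 : d / r ≤ 1 / 6 := by
      by_contra hcon
      have hcon' := not_le.mp hcon
      nlinarith
    rw [div_le_iff₀ hr] at h1
    linarith
  have hz₀B : z₀ ∈ ball z₀ (3 * r) := mem_ball_self (by positivity)
  have hx₁B : x₁ ∈ ball z₀ (3 * r) := by rw [mem_ball, dist_eq_norm]; linarith
  have hmB : m ∈ ball z₀ (3 * r) := by rw [mem_ball, dist_comm, dist_eq_norm]; linarith
  have hzB : z ∈ ball z₀ (3 * r) := by rw [mem_ball, dist_eq_norm]; linarith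
  have hrν : ‖(r / 2) • gdir u z‖ = r / 2 := by
    rw [norm_smul, hνn, Real.norm_eq_abs, abs_of_pos (half_pos hr), mul_one]
  have hcball : closedBall (z - (r / 2) • gdir u z) (r / 2) ⊆ ball z₀ (3 * r) := by
    intro w hw
    rw [mem_closedBall, dist_eq_norm] at hw
    rw [mem_ball, dist_eq_norm]
    have e4 : w - z₀ = (w - (z - (r / 2) • gdir u z)) + ((z - z₀) - (r / 2) • gdir u z) := by
      abel
    rw [e4]
    have h1 := norm_add_le (w - (z - (r / 2) • gdir u z)) ((z - z₀) - (r / 2) • gdir u z)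
    have h2 := norm_sub_le (z - z₀) ((r / 2) • gdir u z)
    linarith
  have hstar := star_slope hu hsub hqc (half_pos hr) hdz hGpos hcball
  have hcB : z - (r / 2) • gdir u z ∈ ball z₀ (3 * r) :=
    hcball (mem_closedBall_self (half_pos hr).le)
  have h_i := hlip z hzB x₁ hx₁B
  have h_ii := hlip m hmB _ hcB
  have hgeo := dini_low_geom (A := x₁ - z₀) (A' := z₀ - m) (δ := z - z₀) (ν := gdir u z)
    hr hd0 hε0 hx₁n hmn hzd.le hνn hAA hνA
  have e5 : x₁ - z₀ - (z - z₀) = x₁ - z := by abel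
  have e6 : z₀ - m + (z - z₀) - (r / 2) • gdir u z = z - (r / 2) • gdir u z - m := by abel
  rw [e5, e6] at hgeo
  have hM := mul_le_mul_of_nonneg_left hgeo hMpos.le
  have h5 : r * (M * (1 - 110 * ε - 36 * (d / r) ^ 2)) ≤ r * ‖fderiv ℝ u z‖ := by
    linarith
  exact le_of_mul_le_mul_left h5 hr

end

end Vale.Agent.Lib.P080

namespace Vale.Agent.Lib.P080

open Filter Topology Set Metric

section

variable {E : Type*} [NormedAddCommGroup E] [InnerProductSpace ℝ E] [CompleteSpace E]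
  [ProperSpace E]

/-- Refined one-scale estimate for quasi-concave infinity-harmonic functions: if
`‖Du‖ ≤ M` on `ball z₀ (3 r)` and `‖Du(z₀)‖ ≥ (1 - ε) M`, then on `ball z₀ d` the slope is at
least `M (1 - 110 ε - 36 (d / r)²)` and the gradient direction is within `4 √ε + 3 d / r` of
one unit vector `e`. -/
theorem dini_one_scale {u : E → ℝ} {Ω : Set E} (hu : IsInfinityHarmonicOn u Ω)
    {z₀ : E} {r d M ε : ℝ} (hr : 0 < r) (hd0 : 0 < d) (hsub : ball z₀ (3 * r) ⊆ Ω)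
    (hqc : QCOn u (ball z₀ (3 * r)))
    (hdiff : ∀ z ∈ ball z₀ (3 * r), DifferentiableAt ℝ u z)
    (hM : ∀ z ∈ ball z₀ (3 * r), ‖fderiv ℝ u z‖ ≤ M)
    (hε0 : 0 ≤ ε) (hε4 : ε ≤ 1 / 4) (hdr : d ≤ r / 6) (hMpos : 0 < M)
    (h0 : (1 - ε) * M ≤ ‖fderiv ℝ u z₀‖) :
    ∃ e : E, ‖e‖ = 1 ∧ ∀ z ∈ ball z₀ d,
      0 < ‖fderiv ℝ u z‖ ∧ ‖gdir u z - e‖ ≤ 4 * √ε + 3 * (d / r) ∧
      M * (1 - 110 * ε - 36 * (d / r) ^ 2) ≤ ‖fderiv ℝ u z‖ := by
  have hε1 : ε < 1 := by linarith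
  have h3r : (0 : ℝ) < 3 * r := by positivity
  have hz₀B : z₀ ∈ ball z₀ (3 * r) := mem_ball_self h3r
  have hcb : closedBall z₀ r ⊆ Ω := fun w hw => hsub (by
    rw [mem_ball]; rw [mem_closedBall] at hw; linarith)
  have hG₀ : 0 < ‖fderiv ℝ u z₀‖ :=
    lt_of_lt_of_le (mul_pos (by linarith) hMpos) h0
  obtain ⟨x₁, hx₁s, hx₁⟩ := exists_ascent hu hr hcb (hdiff z₀ hz₀B) hG₀
  obtain ⟨m, hms, hm⟩ := exists_descent hu hr hcb (hdiff z₀ hz₀B) hG₀
  have hx₁n : ‖x₁ - z₀‖ = r := by rw [← dist_eq_norm]; exact mem_sphere.mp hx₁s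
  have hmn : ‖z₀ - m‖ = r := by rw [← dist_eq_norm, dist_comm]; exact mem_sphere.mp hms
  have hx₁B : x₁ ∈ ball z₀ (3 * r) := by rw [mem_ball, dist_eq_norm]; linarith
  have hmB : m ∈ ball z₀ (3 * r) := by rw [mem_ball, dist_comm, dist_eq_norm]; linarith
  have hlip := explicit_lip hdiff hM
  have hnz := explicit_nonvanishing hu h3r hsub hqc hG₀
  have hup : r * ((1 - ε) * M) ≤ u x₁ - u z₀ :=
    le_trans (mul_le_mul_of_nonneg_left h0 hr.le) hx₁
  have hdn : r * ((1 - ε) * M) ≤ u z₀ - u m :=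
    le_trans (mul_le_mul_of_nonneg_left h0 hr.le) hm
  have hAA : ‖(x₁ - z₀) - (z₀ - m)‖ ≤ r * √(8 * ε) := by
    apply explicit_antipodal hr hx₁n hmn hε0 hε1.le
    have h1 := hlip m hmB x₁ hx₁B
    have h2 : (x₁ - z₀) + (z₀ - m) = x₁ - m := by abel
    rw [h2]
    have h3 : M * (2 * r * (1 - ε)) ≤ M * ‖x₁ - m‖ := by linarith
    exact le_of_mul_le_mul_left h3 hMpos
  refine ⟨(1 / r) • (x₁ - z₀), ?_, ?_⟩
  · rw [norm_smul, hx₁n, Real.norm_eq_abs, abs_of_pos (by positivity)]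
    field_simp
  intro z hz
  have hzd : ‖z - z₀‖ < d := by rw [← dist_eq_norm]; exact mem_ball.mp hz
  have hzB : z ∈ ball z₀ (3 * r) := by rw [mem_ball, dist_eq_norm]; linarith
  have hdz := hdiff z hzB
  have hGpos : 0 < ‖fderiv ℝ u z‖ := norm_pos_iff.mpr (hnz z hzB)
  have hνA := dini_dir hr hd0 hMpos hqc hε0 hε4 hdr hlip hx₁n hmn hup hdn hAA hzd hdz hGpos
  refine ⟨hGpos, ?_, ?_⟩
  · have e2 : (1 / r) • (r • gdir u z) = gdir u z := by
      rw [smul_smul, one_div, inv_mul_cancel₀ hr.ne', one_smul]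
    have e1 : gdir u z - (1 / r) • (x₁ - z₀) = (1 / r) • (r • gdir u z - (x₁ - z₀)) := by
      rw [smul_sub (1 / r) (r • gdir u z) (x₁ - z₀), e2]
    rw [e1, norm_smul, Real.norm_eq_abs, abs_of_pos (by positivity)]
    have h9 : 1 / r * (r * (4 * √ε + 3 * (d / r))) = 4 * √ε + 3 * (d / r) := by
      field_simp
    rw [← h9]
    exact mul_le_mul_of_nonneg_left hνA (by positivity)
  · by_cases hκ : 110 * ε + 36 * (d / r) ^ 2 ≤ 1
    · exact dini_low hu hr hd0 hsub hqc hε0 hκ hMpos hlip hx₁n hmn hup hdn hAA hzd hdz hGpos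
        hνA
    · have hκ' := not_le.mp hκ
      have hneg : M * (1 - 110 * ε - 36 * (d / r) ^ 2) ≤ 0 :=
        mul_nonpos_of_nonneg_of_nonpos hMpos.le (by linarith)
      exact hneg.trans (norm_nonneg _)

end

end Vale.Agent.Lib.P080

namespace Vale.Agent.Lib.P080

open Filter Topology Set Metric

section

variable {E : Type*} [NormedAddCommGroup E] [InnerProductSpace ℝ E] [CompleteSpace E]
  [ProperSpace E]

/-- Arithmetic of the first alternative of the iteration step. -/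
theorem dini_iter_arith_yes {a b M₀ F p : ℝ} (hF : 0 ≤ F)
    (hba : b - a ≤ p * M₀ + 220 * F) :
    b - (b - a) / 220 - a ≤ 219 / 220 * p * M₀ + 220 * F := by
  linarith

/-- Arithmetic of the second alternative of the iteration step. -/
theorem dini_iter_arith_no {a b M₀ F p c : ℝ} (hab : a ≤ b)
    (hc : c ≤ F) (hba : b - a ≤ p * M₀ + 220 * F) :
    b - max a (b - (b - a) / 2 - c) ≤ 219 / 220 * p * M₀ + 220 * F := by
  have h1 : b - (b - a) / 2 - c ≤ max a (b - (b - a) / 2 - c) := le_max_right _ _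
  linarith

/-- Geometric decay of the oscillation of the slope over the scales `ρ₀ / K ^ j`, up to a
floor of order `K⁻²` (a Harnack type iteration). -/
theorem dini_iter {u : E → ℝ} {Ω : Set E} (hu : IsInfinityHarmonicOn u Ω)
    {y : E} {ρ₀ M₀ K : ℝ} (hρ₀ : 0 < ρ₀) (hM₀ : 0 < M₀) (hK : 128 ≤ K)
    (hsub : ball y ρ₀ ⊆ Ω) (hqc : QCOn u (ball y ρ₀))
    (hdiff : ∀ z ∈ ball y ρ₀, DifferentiableAt ℝ u z)
    (hM : ∀ z ∈ ball y ρ₀, ‖fderiv ℝ u z‖ ≤ M₀) (j : ℕ) :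
    ∃ a b : ℝ, 0 ≤ a ∧ a ≤ b ∧ b ≤ M₀ ∧
      (∀ z ∈ ball y (ρ₀ / K ^ j), a ≤ ‖fderiv ℝ u z‖ ∧ ‖fderiv ℝ u z‖ ≤ b) ∧
      b - a ≤ (219 / 220 : ℝ) ^ j * M₀ + 220 * (5184 * M₀ / K ^ 2) := by
  have hK0 : 0 < K := by linarith
  have hK1 : 1 ≤ K := by linarith
  have hF0 : 0 ≤ 5184 * M₀ / K ^ 2 := by positivity
  have hρpos : ∀ k : ℕ, 0 < ρ₀ / K ^ k := fun k => div_pos hρ₀ (pow_pos hK0 k)
  have hρmono : ∀ k l : ℕ, k ≤ l → ρ₀ / K ^ l ≤ ρ₀ / K ^ k := by
    intro k l hkl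
    exact div_le_div_of_nonneg_left hρ₀.le (pow_pos hK0 k) (pow_le_pow_right₀ hK1 hkl)
  have hρsucc : ∀ k : ℕ, ρ₀ / K ^ (k + 1) = ρ₀ / K ^ k / K := by
    intro k
    rw [pow_succ, div_div]
  induction j with
  | zero =>
    refine ⟨0, M₀, le_rfl, hM₀.le, le_rfl, ?_, ?_⟩
    · intro z hz
      have hz' : z ∈ ball y ρ₀ := by simpa using hz
      exact ⟨norm_nonneg _, hM z hz'⟩
    · simp only [pow_zero, one_mul, sub_zero]
      linarith
  | succ j ih =>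
    obtain ⟨a, b, ha0, hab, hbM, hball, hba⟩ := ih
    obtain ⟨ρj, hρj⟩ : ∃ ρj : ℝ, ρj = ρ₀ / K ^ j := ⟨_, rfl⟩
    have hρj0 : 0 < ρj := by rw [hρj]; exact hρpos j
    have hρj1 : ρ₀ / K ^ (j + 1) = ρj / K := by rw [hρj]; exact hρsucc j
    have hρjle : ρj ≤ ρ₀ := by
      rw [hρj]
      simpa using hρmono 0 j (Nat.zero_le j)
    rw [← hρj] at hball
    rw [hρj1]
    have hsubj : ball y (ρj / K) ⊆ ball y ρj :=
      ball_subset_ball (div_le_self hρj0.le hK1)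
    have hpow : (219 / 220 : ℝ) ^ (j + 1) = 219 / 220 * (219 / 220 : ℝ) ^ j := by
      rw [pow_succ]; ring
    rw [hpow]
    obtain ⟨F, hF⟩ : ∃ F : ℝ, F = 5184 * M₀ / K ^ 2 := ⟨_, rfl⟩
    rw [← hF] at hba hF0 ⊢
    obtain ⟨p, hp⟩ : ∃ p : ℝ, p = (219 / 220 : ℝ) ^ j := ⟨_, rfl⟩
    have hp0 : 0 ≤ p := by rw [hp]; positivity
    rw [← hp] at hba ⊢
    by_cases hb0 : b ≤ 0
    · refine ⟨a, b, ha0, hab, hbM, fun z hz => hball z (hsubj hz), ?_⟩
      have h1 : 0 ≤ 219 / 220 * p * M₀ := by positivity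
      linarith
    · have hbpos : 0 < b := not_le.mp hb0
      by_cases hall : ∀ z ∈ ball y (ρj / K), ‖fderiv ℝ u z‖ ≤ b - (b - a) / 220
      · refine ⟨a, b - (b - a) / 220, ha0, by linarith, by linarith,
          fun z hz => ⟨(hball z (hsubj hz)).1, hall z hz⟩, ?_⟩
        exact dini_iter_arith_yes hF0 hba
      · push Not at hall
        obtain ⟨zs, hzs, hzs2⟩ := hall
        obtain ⟨ε, hε⟩ : ∃ ε : ℝ, ε = (b - a) / (220 * b) := ⟨_, rfl⟩
        have hε0 : 0 ≤ ε := by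
          rw [hε]
          exact div_nonneg (by linarith) (by positivity)
        have hεb : ε * b = (b - a) / 220 := by
          rw [hε]
          field_simp
        have hε4 : ε ≤ 1 / 4 := by
          have h1 : ε * b ≤ 1 / 4 * b := by rw [hεb]; linarith
          exact le_of_mul_le_mul_right h1 hbpos
        have hlow : (1 - ε) * b ≤ ‖fderiv ℝ u zs‖ := by
          have e1 : (1 - ε) * b = b - (b - a) / 220 := by
            rw [← hεb]; ring
          rw [e1]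
          exact hzs2.le
        have hzsd : dist zs y < ρj / K := mem_ball.mp hzs
        have hK2 : ρj / K ≤ ρj / 2 :=
          div_le_div_of_nonneg_left hρj0.le (by norm_num) (by linarith)
        have hsub1 : ball zs (3 * (ρj / 6)) ⊆ ball y ρj := by
          intro w hw
          rw [mem_ball] at hw ⊢
          have h3 : dist w y ≤ dist w zs + dist zs y := dist_triangle _ _ _
          linarith
        have hsub0 : ball y ρj ⊆ ball y ρ₀ := ball_subset_ball hρjle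
        have hdr : 2 * (ρj / K) ≤ ρj / 6 / 6 := by
          have h1 : ρj / K ≤ ρj / 72 :=
            div_le_div_of_nonneg_left hρj0.le (by norm_num) (by linarith)
          linarith
        have hdre : 2 * (ρj / K) / (ρj / 6) = 12 / K := by
          field_simp
          ring
        have hsc := dini_one_scale hu (z₀ := zs) (r := ρj / 6) (d := 2 * (ρj / K))
          (M := b) (ε := ε)
          (by positivity) (by positivity) ((hsub1.trans hsub0).trans hsub)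
          (fun x hx x' hx' w hw => hqc x (hsub0 (hsub1 hx)) x' (hsub0 (hsub1 hx')) w hw)
          (fun z hz => hdiff z (hsub0 (hsub1 hz)))
          (fun z hz => (hball z (hsub1 hz)).2)
          hε0 hε4 hdr hbpos hlow
        obtain ⟨e, _, hsc2⟩ := hsc
        rw [hdre] at hsc2
        have hval : b * (1 - 110 * ε - 36 * (12 / K) ^ 2)
            = b - (b - a) / 2 - 5184 * b / K ^ 2 := by
          have e1 : b * (1 - 110 * ε - 36 * (12 / K) ^ 2)
              = b - 110 * (ε * b) - 5184 * b / K ^ 2 := by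
            field_simp
            ring
          rw [e1, hεb]
          ring
        rw [hval] at hsc2
        have hzb : ∀ w ∈ ball y (ρj / K), w ∈ ball zs (2 * (ρj / K)) := by
          intro w hw
          rw [mem_ball] at hw ⊢
          have h3 : dist w zs ≤ dist w y + dist y zs := dist_triangle _ _ _
          rw [dist_comm y zs] at h3
          linarith
        have hcF : 5184 * b / K ^ 2 ≤ F := by
          rw [hF]
          apply div_le_div_of_nonneg_right _ (by positivity)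
          linarith
        have hc0 : 0 ≤ 5184 * b / K ^ 2 := by positivity
        refine ⟨max a (b - (b - a) / 2 - 5184 * b / K ^ 2), b, le_max_of_le_left ha0,
          max_le hab (by linarith), hbM, ?_, ?_⟩
        · intro z hz
          refine ⟨max_le (hball z (hsubj hz)).1 (hsc2 z (hzb z hz)).2.2,
            (hball z (hsubj hz)).2⟩
        · exact dini_iter_arith_no hab hcF hba

end

end Vale.Agent.Lib.P080

namespace Vale.Agent.Lib.P080

open Filter Topology Set Metric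

section

variable {E : Type*} [NormedAddCommGroup E] [InnerProductSpace ℝ E] [CompleteSpace E]
  [ProperSpace E]

omit [CompleteSpace E] [ProperSpace E] in
private lemma dini_smul_sub_le {p q : E} {s t : ℝ} (hp : ‖p‖ = 1) (ht : 0 ≤ t) :
    ‖s • p - t • q‖ ≤ |s - t| + t * ‖p - q‖ := by
  have e0 : s • p - t • q = (s - t) • p + t • (p - q) := by
    rw [sub_smul, smul_sub]
    abel
  rw [e0]
  calc ‖(s - t) • p + t • (p - q)‖ ≤ ‖(s - t) • p‖ + ‖t • (p - q)‖ := norm_add_le _ _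
    _ = |s - t| + t * ‖p - q‖ := by
      rw [norm_smul, norm_smul, hp, mul_one, Real.norm_eq_abs, Real.norm_eq_abs,
        abs_of_nonneg ht]

private lemma dini_local_far {a b s t W M₀ : ℝ} (hat : a ≤ t) (hsb : s ≤ b)
    (htb : t ≤ b) (ht0 : 0 ≤ t) (hbM : b ≤ M₀) (hW : b - a ≤ W) (hfar : b < 4 * (b - t)) :
    s + t ≤ 8 * √(W * M₀) := by
  have hb0 : 0 ≤ b := le_trans ht0 htb
  have hW4 : b / 4 ≤ W := by linarith
  have h1 : (b / 2) ^ 2 ≤ W * M₀ := by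
    have h2 : (b / 4) * b ≤ W * M₀ := mul_le_mul hW4 hbM hb0 (by linarith)
    nlinarith
  have h3 : b / 2 ≤ √(W * M₀) := Real.le_sqrt_of_sq_le h1
  linarith

private lemma dini_local_near {a b s t W M₀ K ε g : ℝ} (has : a ≤ s) (hsb : s ≤ b)
    (hat : a ≤ t) (htb : t ≤ b) (ht0 : 0 < t) (hbM : b ≤ M₀) (hW : b - a ≤ W)
    (hK : 128 ≤ K) (hε : ε = (b - t) / b) (hg : g ≤ 8 * √ε + 36 / K) :
    |s - t| + t * g ≤ W + 8 * √(W * M₀) + 72 * M₀ / K := by
  have hb0 : 0 < b := lt_of_lt_of_le ht0 htb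
  have hK0 : 0 < K := by linarith
  have hM0 : 0 < M₀ := lt_of_lt_of_le hb0 hbM
  have hε0 : 0 ≤ ε := by
    rw [hε]
    exact div_nonneg (by linarith) hb0.le
  have habs : |s - t| ≤ W := by
    rw [abs_le]
    constructor <;> linarith
  have hsq : b * √ε ≤ √(W * M₀) := by
    apply Real.le_sqrt_of_sq_le
    rw [mul_pow, Real.sq_sqrt hε0, hε]
    have e : b ^ 2 * ((b - t) / b) = b * (b - t) := by
      field_simp
    rw [e]
    have h2 : b * (b - t) ≤ M₀ * W := mul_le_mul hbM (by linarith) (by linarith) hM0.le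
    linarith
  have h36 : b * (36 / K) ≤ 72 * M₀ / K := by
    have e : b * (36 / K) = 36 * b / K := by ring
    rw [e]
    apply div_le_div_of_nonneg_right _ hK0.le
    linarith
  have hs0 : 0 ≤ √ε := Real.sqrt_nonneg _
  have h36' : 0 ≤ 36 / K := by positivity
  have hgb : t * g ≤ b * (8 * √ε + 36 / K) := by
    calc t * g ≤ t * (8 * √ε + 36 / K) := mul_le_mul_of_nonneg_left hg ht0.le
      _ ≤ b * (8 * √ε + 36 / K) := mul_le_mul_of_nonneg_right htb (by positivity)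
  have hexp : b * (8 * √ε + 36 / K) = 8 * (b * √ε) + b * (36 / K) := by ring
  linarith

/-- Local estimate for the derivative from the decay of the oscillation of the slope. -/
theorem dini_local {u : E → ℝ} {Ω : Set E} (hu : IsInfinityHarmonicOn u Ω)
    {y : E} {ρ₀ M₀ K W : ℝ} (hρ₀ : 0 < ρ₀) (hM₀ : 0 < M₀) (hK : 128 ≤ K)
    (hsub : ball y ρ₀ ⊆ Ω) (hqc : QCOn u (ball y ρ₀))
    (hdiff : ∀ z ∈ ball y ρ₀, DifferentiableAt ℝ u z)
    (hM : ∀ z ∈ ball y ρ₀, ‖fderiv ℝ u z‖ ≤ M₀) (j : ℕ)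
    (hW : W = (219 / 220 : ℝ) ^ j * M₀ + 220 * (5184 * M₀ / K ^ 2)) :
    ∀ z ∈ ball y (ρ₀ / K ^ (j + 1)),
      ‖fderiv ℝ u z - fderiv ℝ u y‖ ≤ W + 8 * √(W * M₀) + 72 * M₀ / K := by
  have hK0 : 0 < K := by linarith
  have hK1 : 1 ≤ K := by linarith
  obtain ⟨ρj, hρj⟩ : ∃ ρj : ℝ, ρj = ρ₀ / K ^ j := ⟨_, rfl⟩
  have hρj0 : 0 < ρj := by
    rw [hρj]
    exact div_pos hρ₀ (pow_pos hK0 j)
  have hρjle : ρj ≤ ρ₀ := by
    rw [hρj]
    exact div_le_self hρ₀.le (one_le_pow₀ hK1)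
  have hρsucc : ρ₀ / K ^ (j + 1) = ρj / K := by
    rw [hρj, pow_succ, div_div]
  obtain ⟨a, b, ha0, hab, hbM, hball, hosc⟩ := dini_iter hu hρ₀ hM₀ hK hsub hqc hdiff hM j
  rw [← hW] at hosc
  rw [← hρj] at hball
  rw [hρsucc]
  intro z hz
  have hKle : ρj / K ≤ ρj := div_le_self hρj0.le hK1
  have hzj : z ∈ ball y ρj := ball_subset_ball hKle hz
  have hyj : y ∈ ball y ρj := mem_ball_self hρj0
  obtain ⟨haz, hzb⟩ := hball z hzj
  obtain ⟨hay, hyb⟩ := hball y hyj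
  have hW0 : 0 ≤ W := by linarith
  have hsq0 : 0 ≤ √(W * M₀) := Real.sqrt_nonneg _
  have h720 : 0 ≤ 72 * M₀ / K := by positivity
  have htri : ‖fderiv ℝ u z - fderiv ℝ u y‖ ≤ ‖fderiv ℝ u z‖ + ‖fderiv ℝ u y‖ :=
    norm_sub_le _ _
  rcases (norm_nonneg (fderiv ℝ u y)).eq_or_lt with h0 | hpos
  · linarith
  · have hb0 : 0 < b := lt_of_lt_of_le hpos hyb
    by_cases hfar : b < 4 * (b - ‖fderiv ℝ u y‖)
    · have hf := dini_local_far hay hzb hyb hpos.le hbM hosc hfar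
      linarith
    · have hnear : 4 * (b - ‖fderiv ℝ u y‖) ≤ b := not_lt.mp hfar
      obtain ⟨ε, hε⟩ : ∃ ε : ℝ, ε = (b - ‖fderiv ℝ u y‖) / b := ⟨_, rfl⟩
      have hε0 : 0 ≤ ε := by
        rw [hε]
        exact div_nonneg (by linarith) hb0.le
      have hε4 : ε ≤ 1 / 4 := by
        rw [hε, div_le_iff₀ hb0]
        linarith
      have hsub1 : ball y (3 * (ρj / 6)) ⊆ ball y ρj := ball_subset_ball (by linarith)
      have hsub0 : ball y ρj ⊆ ball y ρ₀ := ball_subset_ball hρjle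
      have hdr : ρj / K ≤ ρj / 6 / 6 := by
        rw [div_div]
        exact div_le_div_of_nonneg_left hρj0.le (by norm_num) (by linarith)
      have h0' : (1 - ε) * b ≤ ‖fderiv ℝ u y‖ := by
        have e : (1 - ε) * b = ‖fderiv ℝ u y‖ := by
          rw [hε]
          field_simp
          ring
        exact e.le
      obtain ⟨e, he, hdir⟩ := dini_one_scale hu (z₀ := y) (r := ρj / 6) (d := ρj / K)
        (M := b) (ε := ε)
        (by positivity) (by positivity) ((hsub1.trans hsub0).trans hsub)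
        (fun p hp q hq w hw => hqc p (hsub0 (hsub1 hp)) q (hsub0 (hsub1 hq)) w hw)
        (fun w hw => hdiff w (hsub0 (hsub1 hw)))
        (fun w hw => (hball w (hsub1 hw)).2)
        hε0 hε4 hdr hb0 h0'
      have hdK : ρj / K / (ρj / 6) = 6 / K := by
        field_simp
      rw [hdK] at hdir
      obtain ⟨hzpos, hzdir, -⟩ := hdir z hz
      obtain ⟨-, hydir, -⟩ := hdir y (mem_ball_self (by positivity))
      have e1 : ‖fderiv ℝ u z - fderiv ℝ u y‖ = ‖gradient u z - gradient u y‖ := by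
        rw [fderiv_eq_toDual u z, fderiv_eq_toDual u y, ← map_sub,
          LinearIsometryEquiv.norm_map]
      have e2 : ‖gradient u z - gradient u y‖
          ≤ |‖fderiv ℝ u z‖ - ‖fderiv ℝ u y‖|
            + ‖fderiv ℝ u y‖ * ‖gdir u z - gdir u y‖ := by
        rw [gradient_eq_smul_gdir hzpos, gradient_eq_smul_gdir hpos]
        exact dini_smul_sub_le (gdir_norm hzpos) hpos.le
      have e3 : ‖gdir u z - gdir u y‖ ≤ 8 * √ε + 36 / K := by
        have e0 : gdir u z - gdir u y = (gdir u z - e) - (gdir u y - e) := by abel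
        have e4 : ‖gdir u z - gdir u y‖ ≤ ‖gdir u z - e‖ + ‖gdir u y - e‖ := by
          rw [e0]
          exact norm_sub_le _ _
        have e5 : 3 * (6 / K) + 3 * (6 / K) = 36 / K := by ring
        linarith
      have e6 := dini_local_near haz hzb hay hyb hpos hbM hosc hK hε e3
      rw [e1]
      linarith

end

end Vale.Agent.Lib.P080

namespace Vale.Agent.Lib.P080

open Filter Topology Set Metric

private lemma dini_half : ((219 : ℝ) / 220) ^ 220 ≤ 1 / 2 := by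
  have h1 : (2 : ℝ) ≤ ((220 : ℝ) / 219) ^ 220 := by
    have hb := one_add_mul_le_pow (a := (1 : ℝ) / 219) (by norm_num) 220
    have e : (1 : ℝ) + 1 / 219 = 220 / 219 := by norm_num
    rw [e] at hb
    have e2 : (1 : ℝ) + ((220 : ℕ) : ℝ) * (1 / 219) = 439 / 219 := by norm_num
    rw [e2] at hb
    linarith
  have h2 : ((219 : ℝ) / 220) ^ 220 = 1 / ((220 : ℝ) / 219) ^ 220 := by
    rw [one_div, ← inv_pow]
    norm_num
  rw [h2]
  have hpos : (0 : ℝ) < ((220 : ℝ) / 219) ^ 220 := by positivity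
  rw [div_le_div_iff₀ hpos (by norm_num)]
  linarith

private lemma dini_exp_le {n : ℕ} (hn : 0 < n) :
    (n + 11) * (220 * (2 * n + 1) + 1) ≤ 8000 * n ^ 2 := by
  have h1 : 1 ≤ n := hn
  nlinarith [Nat.mul_le_mul h1 h1]

private lemma dini_num {n : ℕ} {W : ℝ}
    (hW : W = (219 / 220 : ℝ) ^ (220 * (2 * n + 1)) * 8
      + 220 * (5184 * 8 / ((2 : ℝ) ^ (n + 11)) ^ 2)) :
    W + 8 * √(W * 8) + 72 * 8 / (2 : ℝ) ^ (n + 11) ≤ 80 / 2 ^ n := by
  have h2n : (0 : ℝ) < 2 ^ n := by positivity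
  have h2n1 : (1 : ℝ) ≤ 2 ^ n := one_le_pow₀ (by norm_num)
  obtain ⟨t, ht⟩ : ∃ t : ℝ, t = 1 / 2 ^ n := ⟨_, rfl⟩
  have ht0 : 0 < t := by rw [ht]; positivity
  have ht1 : t ≤ 1 := by
    rw [ht, div_le_one h2n]
    exact h2n1
  have hA : (219 / 220 : ℝ) ^ (220 * (2 * n + 1)) ≤ t ^ 2 / 2 := by
    rw [pow_mul]
    have hstep : ((219 / 220 : ℝ) ^ 220) ^ (2 * n + 1) ≤ (1 / 2) ^ (2 * n + 1) :=
      pow_le_pow_left₀ (by positivity) dini_half _
    have e : ((1 : ℝ) / 2) ^ (2 * n + 1) = t ^ 2 / 2 := by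
      rw [ht, pow_succ, mul_comm 2 n, pow_mul, div_pow, div_pow, one_pow, one_pow]
      ring
    rw [e] at hstep
    exact hstep
  have hK : (2 : ℝ) ^ (n + 11) = 2048 * 2 ^ n := by
    rw [pow_add]
    norm_num
    ring
  have hKinv : 1 / (2 : ℝ) ^ (n + 11) = t / 2048 := by
    rw [hK, ht]
    field_simp
  have hB : 220 * (5184 * 8 / ((2 : ℝ) ^ (n + 11)) ^ 2) = 9123840 / 4194304 * t ^ 2 := by
    have e : (5184 : ℝ) * 8 / ((2 : ℝ) ^ (n + 11)) ^ 2
        = 5184 * 8 * (1 / (2 : ℝ) ^ (n + 11)) ^ 2 := by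
      rw [one_div, inv_pow]
      ring
    rw [e, hKinv]
    ring
  have hC : 72 * 8 / (2 : ℝ) ^ (n + 11) = 576 / 2048 * t := by
    have e : (72 : ℝ) * 8 / (2 : ℝ) ^ (n + 11) = 576 * (1 / (2 : ℝ) ^ (n + 11)) := by
      rw [one_div]
      ring
    rw [e, hKinv]
    ring
  have hW0 : 0 ≤ W := by
    rw [hW]
    positivity
  have hWle : W ≤ 8 * t ^ 2 := by
    rw [hW, hB]
    nlinarith [sq_nonneg t]
  have hsq : √(W * 8) ≤ 8 * t := by
    have e : (8 : ℝ) * t = √((8 * t) ^ 2) := (Real.sqrt_sq (by positivity)).symm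
    rw [e]
    apply Real.sqrt_le_sqrt
    nlinarith
  have hgoal : (80 : ℝ) / 2 ^ n = 80 * t := by
    rw [ht]
    ring
  rw [hgoal, hC]
  nlinarith [sq_nonneg t]

section

variable {E : Type*} [NormedAddCommGroup E] [InnerProductSpace ℝ E] [CompleteSpace E]
  [ProperSpace E]

omit [InnerProductSpace ℝ E] [CompleteSpace E] [ProperSpace E] in
private lemma dini_closedBall_sub {w : E} (hw : w ∈ ball (0 : E) (3 / 4)) :
    closedBall w (1 / 4) ⊆ ball (0 : E) 1 := by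
  intro p hp
  rw [mem_closedBall, dist_eq_norm] at hp
  rw [mem_ball, dist_zero_right] at hw ⊢
  have h1 : ‖p‖ ≤ ‖p - w‖ + ‖w‖ := by
    have h2 := norm_add_le (p - w) w
    rw [sub_add_cancel] at h2
    exact h2
  linarith

/-- The quasi-concave case of `dini_unit`. -/
private lemma dini_unit_qc {u : E → ℝ} (hu : IsInfinityHarmonicOn u (ball 0 1))
    (hbd : ∀ x ∈ ball (0 : E) 1, |u x| ≤ 1)
    (hq : QuasiconcaveOn ℝ (ball (0 : E) 1) u)
    {x y : E} (hx : ‖x‖ ≤ 1 / 2) (hy : ‖y‖ ≤ 1 / 2) :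
    DifferentiableAt ℝ u x ∧ DifferentiableAt ℝ u y ∧
      ∀ n : ℕ, 0 < n → ‖x - y‖ * (4 * 2 ^ (8000 * n ^ 2)) < 1 →
        ‖fderiv ℝ u x - fderiv ℝ u y‖ ≤ 80 / 2 ^ n := by
  -- quasi-concavity along segments
  have hQC : QCOn u (ball (0 : E) 1) := by
    intro a ha b hb w hw
    have hc := hq (min (u a) (u b))
    have ha' : a ∈ {z | z ∈ ball (0 : E) 1 ∧ min (u a) (u b) ≤ u z} := ⟨ha, min_le_left _ _⟩
    have hb' : b ∈ {z | z ∈ ball (0 : E) 1 ∧ min (u a) (u b) ≤ u z} := ⟨hb, min_le_right _ _⟩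
    exact (hc.segment_subset ha' hb' hw).2
  have hQCsub : ∀ B : Set E, B ⊆ ball (0 : E) 1 → QCOn u B :=
    fun B hB a ha b hb w hw => hQC a (hB ha) b (hB hb) w hw
  -- differentiability
  have hdiff : ∀ z ∈ ball (0 : E) 1, DifferentiableAt ℝ u z := by
    apply differentiableAt_of_locally_qc isOpen_ball hu
    intro x₀ hx₀
    obtain ⟨ε, hε, hsub⟩ := Metric.isOpen_iff.mp isOpen_ball x₀ hx₀
    exact ⟨ε, hε, hsub, Or.inl (hQCsub _ hsub)⟩
  -- gradient bound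
  have hgrad : ∀ z ∈ ball (0 : E) (3 / 4), ‖fderiv ℝ u z‖ ≤ 8 := by
    intro z hz
    have hz1 : z ∈ ball (0 : E) 1 := dini_closedBall_sub hz (mem_closedBall_self (by norm_num))
    apply (hdiff z hz1).hasFDerivAt.le_of_lip' (by norm_num)
    filter_upwards [isOpen_ball.mem_nhds hz] with w hw
    have hw1 : w ∈ ball (0 : E) 1 := dini_closedBall_sub hw (mem_closedBall_self (by norm_num))
    have h1 := refined_sub_le_of_bounded hu hbd (r := 1 / 4) (by norm_num)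
      (dini_closedBall_sub hz) hw1
    have h2 := refined_sub_le_of_bounded hu hbd (r := 1 / 4) (by norm_num)
      (dini_closedBall_sub hw) hz1
    rw [norm_sub_rev z w] at h2
    have e : (2 : ℝ) / (1 / 4) = 8 := by norm_num
    rw [e] at h1 h2
    rw [Real.norm_eq_abs, abs_le]
    constructor <;> linarith
  have hx34 : x ∈ ball (0 : E) (3 / 4) := by
    rw [mem_ball, dist_zero_right]
    linarith
  have hy34 : y ∈ ball (0 : E) (3 / 4) := by
    rw [mem_ball, dist_zero_right]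
    linarith
  have hx1 : x ∈ ball (0 : E) 1 := dini_closedBall_sub hx34 (mem_closedBall_self (by norm_num))
  have hy1 : y ∈ ball (0 : E) 1 := dini_closedBall_sub hy34 (mem_closedBall_self (by norm_num))
  refine ⟨hdiff x hx1, hdiff y hy1, ?_⟩
  intro n hn hsmall
  -- the ball around y
  have hball34 : ball y (1 / 4) ⊆ ball (0 : E) (3 / 4) := by
    intro p hp
    rw [mem_ball, dist_eq_norm] at hp
    rw [mem_ball, dist_zero_right]
    have h1 : ‖p‖ ≤ ‖p - y‖ + ‖y‖ := by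
      have h2 := norm_add_le (p - y) y
      rw [sub_add_cancel] at h2
      exact h2
    linarith
  have hball1 : ball y (1 / 4) ⊆ ball (0 : E) 1 := fun p hp =>
    dini_closedBall_sub (hball34 hp) (mem_closedBall_self (by norm_num))
  have hK128 : (128 : ℝ) ≤ (2 : ℝ) ^ (n + 11) := by
    have h2n1 : (1 : ℝ) ≤ 2 ^ n := one_le_pow₀ (by norm_num)
    have hK : (2 : ℝ) ^ (n + 11) = 2048 * 2 ^ n := by
      rw [pow_add]
      norm_num
      ring
    rw [hK]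
    linarith
  have key := dini_local hu (y := y) (ρ₀ := 1 / 4) (M₀ := 8) (K := (2 : ℝ) ^ (n + 11))
    (W := (219 / 220 : ℝ) ^ (220 * (2 * n + 1)) * 8
      + 220 * (5184 * 8 / ((2 : ℝ) ^ (n + 11)) ^ 2))
    (by norm_num) (by norm_num) hK128 hball1 (hQCsub _ hball1)
    (fun z hz => hdiff z (hball1 hz)) (fun z hz => hgrad z (hball34 hz))
    (220 * (2 * n + 1)) rfl
  have hP : (0 : ℝ) < ((2 : ℝ) ^ (n + 11)) ^ (220 * (2 * n + 1) + 1) := by positivity
  have hxmem : x ∈ ball y (1 / 4 / ((2 : ℝ) ^ (n + 11)) ^ (220 * (2 * n + 1) + 1)) := by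
    rw [mem_ball, dist_eq_norm, lt_div_iff₀ hP]
    have hle : ((2 : ℝ) ^ (n + 11)) ^ (220 * (2 * n + 1) + 1) ≤ 2 ^ (8000 * n ^ 2) := by
      rw [← pow_mul]
      exact pow_le_pow_right₀ (by norm_num) (dini_exp_le hn)
    have hnn : 0 ≤ ‖x - y‖ := norm_nonneg _
    have hmul := mul_le_mul_of_nonneg_left hle hnn
    linarith
  have h := key x hxmem
  exact le_trans h (dini_num rfl)

/-- Explicit interior modulus of continuity `80 / 2 ^ n` at distance `2 ^ (-8000 n²) / 4` for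
the derivative of quasi-concave or quasi-convex infinity-harmonic functions on the unit ball
with `|u| ≤ 1`. -/
theorem dini_unit {u : E → ℝ} (hu : IsInfinityHarmonicOn u (ball 0 1))
    (hbd : ∀ x ∈ ball (0 : E) 1, |u x| ≤ 1)
    (hq : QuasiconcaveOn ℝ (ball (0 : E) 1) u ∨ QuasiconvexOn ℝ (ball (0 : E) 1) u)
    {x y : E} (hx : ‖x‖ ≤ 1 / 2) (hy : ‖y‖ ≤ 1 / 2) :
    DifferentiableAt ℝ u x ∧ DifferentiableAt ℝ u y ∧
      ∀ n : ℕ, 0 < n → ‖x - y‖ * (4 * 2 ^ (8000 * n ^ 2)) < 1 →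
        ‖fderiv ℝ u x - fderiv ℝ u y‖ ≤ 80 / 2 ^ n := by
  rcases hq with hq | hq
  · exact dini_unit_qc hu hbd hq hx hy
  · have hbd' : ∀ z ∈ ball (0 : E) 1, |(fun z => -u z) z| ≤ 1 := by
      intro z hz
      show |-u z| ≤ 1
      rw [abs_neg]
      exact hbd z hz
    have hq' : QuasiconcaveOn ℝ (ball (0 : E) 1) (fun z => -u z) := by
      intro r
      have hc := hq (-r)
      have hset : {z | z ∈ ball (0 : E) 1 ∧ r ≤ -u z} = {z | z ∈ ball (0 : E) 1 ∧ u z ≤ -r} := by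
        ext z
        simp only [Set.mem_ofPred_eq]
        constructor
        · rintro ⟨h1, h2⟩
          exact ⟨h1, by linarith⟩
        · rintro ⟨h1, h2⟩
          exact ⟨h1, by linarith⟩
      rw [hset]
      exact hc
    obtain ⟨hdx, hdy, hmod⟩ := dini_unit_qc hu.neg hbd' hq' hx hy
    refine ⟨differentiableAt_fun_neg_iff.mp hdx, differentiableAt_fun_neg_iff.mp hdy, ?_⟩
    intro n hn hsmall
    have h := hmod n hn hsmall
    rw [fderiv_fun_neg, fderiv_fun_neg, neg_sub_neg, norm_sub_rev] at h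
    exact h

end

end Vale.Agent.Lib.P080
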