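import Mathlib
import Vale.Agent.Lib.P080.ExplicitGeom

namespace Vale.Agent.Lib.P080

open Filter Topology Set Metric

section

variable {E : Type*} [NormedAddCommGroup E] [InnerProductSpace ℝ E]

/-- Membership in a ball of radius `R` around `c` through `z`, in terms of the unit outer
normal `ν` at `z`. -/
theorem sx_mem_closedBall {z c ν w : E} {R : ℝ} (hR : 0 < R) (hνn : ‖ν‖ = 1)
    (hRν : R • ν = z - c) (hw : ‖w - z‖ ^ 2 + 2 * R * inner ℝ ν (w - z) ≤ 0) :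
    w ∈ closedBall c R := by
  rw [mem_closedBall, dist_eq_norm]
  have e1 : w - c = (w - z) + R • ν := by rw [hRν]; abel
  have h1 : ‖w - c‖ ^ 2 = ‖w - z‖ ^ 2 + 2 * R * inner ℝ ν (w - z) + R ^ 2 := by
    rw [e1, norm_add_sq_real, inner_smul_right, norm_smul, hνn, Real.norm_eq_abs,
      abs_of_pos hR, real_inner_comm]
    ring
  have h2 : ‖w - c‖ ^ 2 ≤ R ^ 2 := by linarith
  exact (abs_le_of_sq_le_sq' h2 hR.le).2

/-- Direction step at a maximum point `z` of a touching ball of radius `R` and centre `c`: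
the outer normal `(z - c) / R` points towards the far ascent point `x₁`. -/
theorem sx_dir {u : E → ℝ} {b x₁ z c : E} {r d L ε R : ℝ} (hr : 0 < r) (hd0 : 0 < d)
    (hL : 0 < L) (hε0 : 0 ≤ ε) (hR : 8 * r ≤ R) (hκ : ε + 2 * d / r + 8 * r / R ≤ 1)
    (hlip : ∀ p ∈ ball b (4 * r), ∀ q ∈ ball b (4 * r), u q - u p ≤ L * ‖q - p‖)
    (hzb : ‖z - b‖ < d) (hx₁n : ‖x₁ - b‖ = r)
    (hup : r * ((1 - ε) * L) ≤ u x₁ - u b)
    (hzc : ‖z - c‖ = R) (hmax : ∀ w ∈ closedBall c R, u w ≤ u z) :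
    ‖r • ((1 / R) • (z - c)) - (x₁ - b)‖ ≤ r * √(2 * (ε + 2 * d / r + 8 * r / R)) := by
  have hRpos : 0 < R := by linarith
  have hrR0 : 0 < 8 * r / R := by positivity
  have hdr0 : 0 < 2 * d / r := by positivity
  have hdr : d ≤ r / 2 := by
    have h1 : 2 * d / r ≤ 1 := by linarith
    rw [div_le_one hr] at h1
    linarith
  obtain ⟨ν, hν⟩ : ∃ ν : E, ν = (1 / R) • (z - c) := ⟨_, rfl⟩
  rw [← hν]
  have hνn : ‖ν‖ = 1 := by
    rw [hν, norm_smul, hzc, Real.norm_eq_abs, abs_of_pos (by positivity)]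
    field_simp
  have hRν : R • ν = z - c := by
    rw [hν, smul_smul]
    have h1 : R * (1 / R) = 1 := by field_simp
    rw [h1, one_smul]
  have hbB : b ∈ ball b (4 * r) := mem_ball_self (by positivity)
  have hzB : z ∈ ball b (4 * r) := by rw [mem_ball, dist_eq_norm]; linarith
  have hx₁B : x₁ ∈ ball b (4 * r) := by rw [mem_ball, dist_eq_norm]; linarith
  have hz1 : u z - u b ≤ L * d :=
    (hlip b hbB z hzB).trans (mul_le_mul_of_nonneg_left hzb.le hL.le)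
  obtain ⟨σ, hσL⟩ : ∃ σ : ℝ, σ * L = u x₁ - u z := ⟨(u x₁ - u z) / L, by field_simp⟩
  have hσge : r * (1 - ε) - d ≤ σ := by
    have h1 : L * (r * (1 - ε) - d) ≤ L * σ := by linarith
    exact le_of_mul_le_mul_left h1 hL
  have h2d : 2 * d < r * (1 - ε) := by
    have h2 : 2 * d / r * r = 2 * d := by field_simp
    nlinarith
  have hσpos : 0 < σ := by linarith
  have hx₁z : ‖x₁ - z‖ ≤ r + d := by
    have e1 : x₁ - z = (x₁ - b) - (z - b) := by abel
    rw [e1]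
    exact (norm_sub_le _ _).trans (by linarith)
  obtain ⟨g, hg⟩ : ∃ g : ℝ, g = inner ℝ ν (x₁ - z) := ⟨_, rfl⟩
  have hstep1 : -(‖x₁ - z‖ ^ 2 / (2 * R)) < g := by
    by_contra hcon
    have hcon' := not_lt.mp hcon
    have hw : x₁ ∈ closedBall c R := by
      apply sx_mem_closedBall hRpos hνn hRν
      rw [← hg]
      have h3 : 2 * R * g ≤ 2 * R * (-(‖x₁ - z‖ ^ 2 / (2 * R))) :=
        mul_le_mul_of_nonneg_left hcon' (by positivity)
      have h4 : 2 * R * (-(‖x₁ - z‖ ^ 2 / (2 * R))) = -(‖x₁ - z‖ ^ 2) := by field_simp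
      linarith
    have h5 := hmax x₁ hw
    have h6 : 0 < σ * L := mul_pos hσpos hL
    linarith
  have hr2R : 8 * r ^ 2 / R ≤ r := by
    rw [div_le_iff₀ hRpos]
    nlinarith
  have hx₁z2 : ‖x₁ - z‖ ^ 2 / (2 * R) < 8 * r ^ 2 / R := by
    have h1 : ‖x₁ - z‖ ^ 2 ≤ (r + d) ^ 2 := pow_le_pow_left₀ (norm_nonneg _) hx₁z 2
    have h2 : (r + d) ^ 2 < 16 * r ^ 2 := by nlinarith
    have h3 : ‖x₁ - z‖ ^ 2 / (2 * R) = (‖x₁ - z‖ ^ 2 / 2) / R := by field_simp
    rw [h3]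
    exact div_lt_div_of_pos_right (by linarith) hRpos
  obtain ⟨τ, hτ⟩ : ∃ τ : ℝ, τ = g + 8 * r ^ 2 / R := ⟨_, rfl⟩
  have hτpos : 0 < τ := by linarith
  have hgle : g ≤ ‖x₁ - z‖ := by
    have h1 := real_inner_le_norm ν (x₁ - z)
    rw [hνn, one_mul] at h1
    rw [hg]
    exact h1
  have hτle : τ ≤ 5 / 2 * r := by linarith
  have hτn : ‖τ • ν‖ = τ := by
    rw [norm_smul, hνn, Real.norm_eq_abs, abs_of_pos hτpos, mul_one]
  have hwB : x₁ - τ • ν ∈ ball b (4 * r) := by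
    rw [mem_ball, dist_eq_norm]
    have e1 : x₁ - τ • ν - b = (x₁ - b) - τ • ν := by abel
    rw [e1]
    have h1 := norm_sub_le (x₁ - b) (τ • ν)
    linarith
  have hwz : ‖x₁ - τ • ν - z‖ ≤ 4 * r := by
    have e1 : x₁ - τ • ν - z = (x₁ - z) - τ • ν := by abel
    rw [e1]
    have h1 := norm_sub_le (x₁ - z) (τ • ν)
    linarith
  have hinw : inner ℝ ν (x₁ - τ • ν - z) = -(8 * r ^ 2 / R) := by
    have e1 : x₁ - τ • ν - z = (x₁ - z) - τ • ν := by abel
    rw [e1, inner_sub_right, inner_smul_right, real_inner_self_eq_norm_sq, hνn, ← hg, hτ]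
    ring
  have hwc : x₁ - τ • ν ∈ closedBall c R := by
    apply sx_mem_closedBall hRpos hνn hRν
    rw [hinw]
    have h5 : ‖x₁ - τ • ν - z‖ ^ 2 ≤ (4 * r) ^ 2 := pow_le_pow_left₀ (norm_nonneg _) hwz 2
    have h6 : 2 * R * -(8 * r ^ 2 / R) = -(16 * r ^ 2) := by
      field_simp
      ring
    rw [h6]
    nlinarith
  have huw := hmax _ hwc
  have hlw := hlip _ hwB x₁ hx₁B
  have e2 : x₁ - (x₁ - τ • ν) = τ • ν := by abel
  rw [e2, hτn] at hlw
  have hστ : σ ≤ τ := by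
    have h7 : L * σ ≤ L * τ := by linarith
    exact le_of_mul_le_mul_left h7 hL
  have hdir : r * (1 - (ε + 2 * d / r + 8 * r / R)) ≤ inner ℝ ν (x₁ - b) := by
    have e3 : x₁ - b = (x₁ - z) + (z - b) := by abel
    have h4 : -‖z - b‖ ≤ inner ℝ ν (z - b) := by
      have h5 := abs_real_inner_le_norm ν (z - b)
      rw [hνn, one_mul] at h5
      exact (abs_le.mp h5).1
    rw [e3, inner_add_right, ← hg]
    have h6 : r * (1 - (ε + 2 * d / r + 8 * r / R)) = r * (1 - ε) - 2 * d - 8 * r ^ 2 / R := by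
      field_simp
      ring
    rw [h6]
    linarith
  exact explicit_dir hr hνn hx₁n hdir

end

end Vale.Agent.Lib.P080
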