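import Mathlib
import Vale.Agent.Lib.P080.QuasiConcave
import Vale.Agent.Lib.P080.ExplicitGeom

namespace Vale.Agent.Lib.P080

open Filter Topology Set Metric

section

variable {E : Type*} [NormedAddCommGroup E] [InnerProductSpace ℝ E] [CompleteSpace E]
  [ProperSpace E]

omit [CompleteSpace E] [ProperSpace E] in
/-- The far ascent vector `x₁ - b` and the far descent vector `a - m` nearly agree. -/
theorem sx_antipodal {u : E → ℝ} {a b x₁ m : E} {r d L ε : ℝ} (hr : 0 < r) (hd0 : 0 < d)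
    (hL : 0 < L) (hε0 : 0 ≤ ε) (hε1 : ε + d / r ≤ 1) (hdr : d ≤ r)
    (hlip : ∀ p ∈ ball b (4 * r), ∀ q ∈ ball b (4 * r), u q - u p ≤ L * ‖q - p‖)
    (hab : ‖a - b‖ < d) (hx₁n : ‖x₁ - b‖ = r) (hmn : ‖a - m‖ = r)
    (hup : r * ((1 - ε) * L) ≤ u x₁ - u b) (hdn : r * ((1 - ε) * L) ≤ u a - u m) :
    ‖(x₁ - b) - (a - m)‖ ≤ r * √(8 * (ε + d / r)) := by
  have hdr0 : 0 ≤ d / r := div_nonneg hd0.le hr.le
  have hrd : r * (d / r) = d := by field_simp
  have hx₁B : x₁ ∈ ball b (4 * r) := by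
    rw [mem_ball, dist_eq_norm, hx₁n]; linarith
  have haB : a ∈ ball b (4 * r) := by
    rw [mem_ball, dist_eq_norm]; linarith
  have hbB : b ∈ ball b (4 * r) := by
    rw [mem_ball, dist_self]; linarith
  have hmB : m ∈ ball b (4 * r) := by
    rw [mem_ball, dist_eq_norm]
    have h1 : ‖m - b‖ ≤ ‖m - a‖ + ‖a - b‖ := by
      have := norm_add_le (m - a) (a - b)
      rwa [sub_add_sub_cancel] at this
    rw [norm_sub_rev m a, hmn] at h1
    linarith
  have h1 : u a - u b ≤ L * ‖a - b‖ := hlip b hbB a haB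
  have h2 : u x₁ - u m ≤ L * ‖x₁ - m‖ := hlip m hmB x₁ hx₁B
  have h3 : L * ‖a - b‖ ≤ L * d := mul_le_mul_of_nonneg_left hab.le hL.le
  have h4 : L * (2 * r * (1 - ε) - ‖a - b‖) ≤ L * ‖x₁ - m‖ := by nlinarith
  have h5 : 2 * r * (1 - ε) - ‖a - b‖ ≤ ‖x₁ - m‖ := le_of_mul_le_mul_left h4 hL
  have h6 : ‖x₁ - m‖ ≤ ‖(x₁ - b) + (a - m)‖ + ‖a - b‖ := by
    have h7 := norm_sub_le ((x₁ - b) + (a - m)) (a - b)
    have e : (x₁ - b) + (a - m) - (a - b) = x₁ - m := by abel
    rwa [e] at h7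
  have h8 : 2 * r * (1 - (ε + d / r)) ≤ ‖(x₁ - b) + (a - m)‖ := by
    have e : 2 * r * (1 - (ε + d / r)) = 2 * r * (1 - ε) - 2 * (r * (d / r)) := by ring
    rw [e, hrd]
    linarith
  exact explicit_antipodal hr hx₁n hmn (by linarith) hε1 h8

/-- Lower bound for the slope at a maximum point `z` of a touching ball. -/
theorem sx_low {u : E → ℝ} {Ω : Set E} (hu : IsInfinityHarmonicOn u Ω)
    {a b x₁ m z c : E} {r d L ε R η₁ η₂ : ℝ} (hr : 0 < r) (hd0 : 0 < d) (hL : 0 < L)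
    (hsub : ball b (4 * r) ⊆ Ω) (hdr : d ≤ r / 2) (hrR : r ≤ R)
    (hlip : ∀ p ∈ ball b (4 * r), ∀ q ∈ ball b (4 * r), u q - u p ≤ L * ‖q - p‖)
    (hab : ‖a - b‖ < d) (hzb : ‖z - b‖ < d) (hmn : ‖a - m‖ = r)
    (hdn : r * ((1 - ε) * L) ≤ u a - u m)
    (hzc : ‖z - c‖ = R) (hmax : ∀ w ∈ closedBall c R, u w ≤ u z)
    (hd : DifferentiableAt ℝ u z)
    (hAA : ‖(x₁ - b) - (a - m)‖ ≤ r * η₁)
    (hνA : ‖r • ((1 / R) • (z - c)) - (x₁ - b)‖ ≤ r * η₂) :
    L * (1 - (ε + 4 * d / r) - η₁ - η₂) ≤ ‖fderiv ℝ u z‖ := by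
  have hR : 0 < R := lt_of_lt_of_le hr hrR
  have hνn : ‖(1 / R) • (z - c)‖ = 1 := by
    rw [norm_smul, hzc, Real.norm_eq_abs, abs_of_pos (by positivity)]
    field_simp
  have hRν : R • ((1 / R) • (z - c)) = z - c := by
    rw [smul_smul]
    have : R * (1 / R) = 1 := by field_simp
    rw [this, one_smul]
  have hc1z : ‖z - (z - r • ((1 / R) • (z - c)))‖ = r := by
    rw [sub_sub_cancel, norm_smul, hνn, Real.norm_eq_abs, abs_of_pos hr, mul_one]
  have hc1c : ‖z - r • ((1 / R) • (z - c)) - c‖ = R - r := by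
    have e : z - r • ((1 / R) • (z - c)) - c = (R - r) • ((1 / R) • (z - c)) := by
      rw [sub_smul, hRν]; abel
    rw [e, norm_smul, hνn, Real.norm_eq_abs, abs_of_nonneg (by linarith), mul_one]
  have hsubR : closedBall (z - r • ((1 / R) • (z - c))) r ⊆ closedBall c R := by
    intro w hw
    rw [mem_closedBall, dist_eq_norm] at hw ⊢
    have h1 := norm_add_le (w - (z - r • ((1 / R) • (z - c))))
      (z - r • ((1 / R) • (z - c)) - c)
    rw [sub_add_sub_cancel, hc1c] at h1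
    linarith
  have hsubB : closedBall (z - r • ((1 / R) • (z - c))) r ⊆ ball b (4 * r) := by
    intro w hw
    rw [mem_closedBall, dist_eq_norm] at hw
    rw [mem_ball, dist_eq_norm]
    have h1 := norm_add_le (w - (z - r • ((1 / R) • (z - c))))
      (z - r • ((1 / R) • (z - c)) - b)
    rw [sub_add_sub_cancel] at h1
    have h2 := norm_add_le (z - r • ((1 / R) • (z - c)) - z) (z - b)
    rw [sub_add_sub_cancel, norm_sub_rev (z - r • ((1 / R) • (z - c))) z, hc1z] at h2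
    linarith
  have hball : closedBall (z - r • ((1 / R) • (z - c))) r ⊆ Ω := hsubB.trans hsub
  have hy : z ∈ sphere (z - r • ((1 / R) • (z - c))) r := by
    rw [mem_sphere, dist_eq_norm, hc1z]
  have hmax' : ∀ w ∈ sphere (z - r • ((1 / R) • (z - c))) r, u w ≤ u z :=
    fun w hw => hmax w (hsubR (sphere_subset_closedBall hw))
  have hslope := slope_ge_of_max_sphere hu hr hball hy hmax' hd
  -- the points in the big ball
  have hc1B : z - r • ((1 / R) • (z - c)) ∈ ball b (4 * r) :=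
    hsubB (mem_closedBall_self hr.le)
  have haB : a ∈ ball b (4 * r) := by
    rw [mem_ball, dist_eq_norm]; linarith
  have hzB : z ∈ ball b (4 * r) := by
    rw [mem_ball, dist_eq_norm]; linarith
  have hmB : m ∈ ball b (4 * r) := by
    rw [mem_ball, dist_eq_norm]
    have h1 : ‖m - b‖ ≤ ‖m - a‖ + ‖a - b‖ := by
      have := norm_add_le (m - a) (a - b)
      rwa [sub_add_sub_cancel] at this
    rw [norm_sub_rev m a, hmn] at h1
    linarith
  have hza : ‖z - a‖ ≤ 2 * d := by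
    have h1 := norm_add_le (z - b) (b - a)
    rw [sub_add_sub_cancel, norm_sub_rev b a] at h1
    linarith
  have hc1m : ‖z - r • ((1 / R) • (z - c)) - m‖ ≤ 2 * d + r * η₁ + r * η₂ := by
    have e : z - r • ((1 / R) • (z - c)) - m
        = (z - a) - ((x₁ - b) - (a - m)) - (r • ((1 / R) • (z - c)) - (x₁ - b)) := by abel
    rw [e]
    have h1 := norm_sub_le ((z - a) - ((x₁ - b) - (a - m)))
      (r • ((1 / R) • (z - c)) - (x₁ - b))
    have h2 := norm_sub_le (z - a) ((x₁ - b) - (a - m))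
    linarith
  have h1 : u (z - r • ((1 / R) • (z - c))) - u m
      ≤ L * ‖z - r • ((1 / R) • (z - c)) - m‖ := hlip m hmB _ hc1B
  have h2 : u a - u z ≤ L * ‖a - z‖ := hlip z hzB a haB
  rw [norm_sub_rev a z] at h2
  have h3 : L * ‖z - r • ((1 / R) • (z - c)) - m‖ ≤ L * (2 * d + r * η₁ + r * η₂) :=
    mul_le_mul_of_nonneg_left hc1m hL.le
  have h4 : L * ‖z - a‖ ≤ L * (2 * d) := mul_le_mul_of_nonneg_left hza hL.le
  have hrd : r * (4 * d / r) = 4 * d := by field_simp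
  have h5 : r * (L * (1 - (ε + 4 * d / r) - η₁ - η₂)) ≤ r * ‖fderiv ℝ u z‖ := by
    have e : r * (L * (1 - (ε + 4 * d / r) - η₁ - η₂))
        = r * ((1 - ε) * L) - L * (r * (4 * d / r)) - L * (r * η₁ + r * η₂) := by ring
    rw [e, hrd]
    linarith
  exact le_of_mul_le_mul_left h5 hr

end

end Vale.Agent.Lib.P080
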