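import Mathlib
import Vale.Agent.Lib.P080.Summit
import Vale.Agent.Lib.P080.ExplicitScale
import Vale.Agent.Lib.P080.SxDir
import Vale.Agent.Lib.P080.SxLow

namespace Vale.Agent.Lib.P080

open Filter Topology Set Metric

section

variable {E : Type*} [NormedAddCommGroup E] [InnerProductSpace ℝ E] [CompleteSpace E]
  [ProperSpace E]

omit [ProperSpace E] in
/-- If the derivative of `u` at `z` is `S` times the inner product with a unit vector `ν` and
`S ≥ 0`, then the norm of the derivative is `S` and the gradient is `S • ν`. -/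
theorem sx_grad_of_hasFDerivAt {u : E → ℝ} {z ν : E} {S : ℝ} (hS0 : 0 ≤ S) (hν : ‖ν‖ = 1)
    (hS : HasFDerivAt u (S • innerSL ℝ ν) z) :
    ‖fderiv ℝ u z‖ = S ∧ gradient u z = S • ν := by
  constructor
  · rw [hS.fderiv, norm_smul, innerSL_apply_norm, hν, mul_one, Real.norm_eq_abs,
      abs_of_nonneg hS0]
  · have e : InnerProductSpace.toDual ℝ E (S • ν) = S • innerSL ℝ ν := by
      ext h
      simp
    have hg : HasGradientAt u (S • ν) z := by
      rw [hasGradientAt_iff_hasFDerivAt, e]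
      exact hS
    exact hg.gradient

omit [CompleteSpace E] [ProperSpace E] in
/-- A derivative at a point of a ball on which `u` is `L`-Lipschitz has norm at most `L`. -/
theorem sx_fderiv_le_of_lip {u : E → ℝ} {b z : E} {ρ L : ℝ} {f' : E →L[ℝ] ℝ} (hL : 0 ≤ L)
    (hz : z ∈ ball b ρ)
    (hlip : ∀ p ∈ ball b ρ, ∀ q ∈ ball b ρ, u q - u p ≤ L * ‖q - p‖)
    (hS : HasFDerivAt u f' z) : ‖f'‖ ≤ L := by
  refine hS.le_of_lip' hL ?_
  filter_upwards [isOpen_ball.mem_nhds hz] with w hw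
  rw [Real.norm_eq_abs, abs_le]
  constructor
  · have h1 := hlip w hw z hz
    rw [← norm_neg, neg_sub] at h1
    linarith
  · exact hlip z hz w hw

/-- One-scale estimate at a maximum point `z` of a touching ball of radius `R`, given the far
ascent point `x₁` from `b` and the far descent point `m` from `a`. -/
theorem sx_core {u : E → ℝ} {Ω : Set E} (hΩ : IsOpen Ω) (hu : IsInfinityHarmonicOn u Ω)
    {a b x₁ m z c : E} {r d L ε R : ℝ} (hr : 0 < r) (hd0 : 0 < d) (hL : 0 < L) (hε0 : 0 ≤ ε)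
    (hsub : ball b (4 * r) ⊆ Ω)
    (hlip : ∀ p ∈ ball b (4 * r), ∀ q ∈ ball b (4 * r), u q - u p ≤ L * ‖q - p‖)
    (hR : 8 * r ≤ R) (hκ : ε + 4 * d / r + 8 * r / R ≤ 1)
    (hab : ‖a - b‖ < d) (hzb : ‖z - b‖ < d)
    (hx₁n : ‖x₁ - b‖ = r) (hmn : ‖a - m‖ = r)
    (hup : r * ((1 - ε) * L) ≤ u x₁ - u b) (hdn : r * ((1 - ε) * L) ≤ u a - u m)
    (hzc : ‖z - c‖ = R) (hmax : ∀ w ∈ closedBall c R, u w ≤ u z) :
    ‖gradient u z - L • (1 / r) • (x₁ - b)‖ ≤ 7 * L * √(ε + 4 * d / r + 8 * r / R) := by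
  have hRpos : 0 < R := by linarith
  have hdr0 : 0 < d / r := by positivity
  have hrR0 : 0 < 8 * r / R := by positivity
  have e4 : 4 * d / r = 4 * (d / r) := by ring
  have e2 : 2 * d / r = 2 * (d / r) := by ring
  have hdr4 : d / r ≤ 1 / 4 := by
    rw [e4] at hκ
    linarith
  have hdr : d ≤ r / 4 := by
    rw [div_le_iff₀ hr] at hdr4
    linarith
  have hzB : z ∈ ball b (4 * r) := by
    rw [mem_ball, dist_eq_norm]
    linarith
  have hz : z ∈ Ω := hsub hzB
  obtain ⟨S, hS0, hS⟩ := hasFDerivAt_summit hΩ hu hRpos hz hzc hmax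
  have hν : ‖(1 / R) • (z - c)‖ = 1 := by
    rw [norm_smul, hzc, Real.norm_eq_abs, abs_of_pos (by positivity)]
    field_simp
  obtain ⟨hnorm, hgrad⟩ := sx_grad_of_hasFDerivAt hS0 hν hS
  have hSL : S ≤ L := by
    have h1 := sx_fderiv_le_of_lip hL.le hzB hlip hS
    rw [← hS.fderiv, hnorm] at h1
    exact h1
  have hκ1 : ε + d / r ≤ ε + 4 * d / r + 8 * r / R := by
    rw [e4]
    linarith
  have hκ2 : ε + 2 * d / r + 8 * r / R ≤ ε + 4 * d / r + 8 * r / R := by
    rw [e4, e2]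
    linarith
  have hκ3 : ε + 4 * d / r ≤ ε + 4 * d / r + 8 * r / R := by linarith
  have hAA := sx_antipodal hr hd0 hL hε0 (hκ1.trans hκ) (by linarith) hlip hab hx₁n hmn hup hdn
  have hνA := sx_dir hr hd0 hL hε0 hR (hκ2.trans hκ) hlip hzb hx₁n hup hzc hmax
  have hlow := sx_low hu hr hd0 hL hsub (by linarith) (by linarith) hlip hab hzb hmn hdn hzc hmax
    hS.differentiableAt hAA hνA
  rw [hnorm] at hlow
  have hs1 : √(8 * (ε + d / r)) ≤ √(8 * (ε + 4 * d / r + 8 * r / R)) :=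
    Real.sqrt_le_sqrt (by linarith)
  have hs2 : √(2 * (ε + 2 * d / r + 8 * r / R)) ≤ √(2 * (ε + 4 * d / r + 8 * r / R)) :=
    Real.sqrt_le_sqrt (by linarith)
  have hκ0 : 0 ≤ ε + 4 * d / r + 8 * r / R := by
    rw [e4]
    linarith
  have hGlow : L * (1 - (ε + 4 * d / r + 8 * r / R) - √(8 * (ε + 4 * d / r + 8 * r / R))
      - √(2 * (ε + 4 * d / r + 8 * r / R))) ≤ S := by
    refine le_trans (mul_le_mul_of_nonneg_left ?_ hL.le) hlow
    linarith
  have hνA' : ‖r • ((1 / R) • (z - c)) - (x₁ - b)‖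
      ≤ r * √(2 * (ε + 4 * d / r + 8 * r / R)) :=
    hνA.trans (mul_le_mul_of_nonneg_left hs2 hr.le)
  rw [hgrad]
  exact explicit_point_final hr hL hν hκ0 le_rfl hκ hSL hGlow hνA'

end

end Vale.Agent.Lib.P080
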