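import Mathlib
import Vale.Agent.Lib.P080.SxCore

namespace Vale.Agent.Lib.P080

open Filter Topology Set Metric

section

variable {E : Type*} [NormedAddCommGroup E] [InnerProductSpace ℝ E] [CompleteSpace E]
  [ProperSpace E]

/-- Cone comparison on a ball on which `u` is maximal at `x₁`: a pair `a, b` with slope at
least `(1 - ε) L` forces the rise from the centre to `x₁` to be at least `r (1 - ε) L`. -/
theorem sx_cone_slope {u : E → ℝ} {Ω : Set E} (hu : IsInfinityHarmonicOn u Ω)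
    {a b x₁ : E} {r L ε : ℝ} (hr : 0 < r) (hball : closedBall b r ⊆ Ω)
    (hx₁ : ∀ w ∈ closedBall b r, u w ≤ u x₁) (ha : a ∈ closedBall b r) (hne : a ≠ b)
    (hpair : (1 - ε) * L * ‖a - b‖ ≤ u a - u b) :
    r * ((1 - ε) * L) ≤ u x₁ - u b := by
  have hb : b ∈ closedBall b r := mem_closedBall_self hr.le
  have h0 : u b ≤ u x₁ := hx₁ b hb
  obtain ⟨M1, hM1⟩ : ∃ M1 : ℝ, M1 * r = u x₁ - u b := ⟨(u x₁ - u b) / r, by field_simp⟩
  have hM0 : 0 ≤ M1 := by
    by_contra hcon
    have h1 := mul_neg_of_neg_of_pos (not_le.mp hcon) hr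
    linarith
  have hcone := cone_above hu hr hM0 hball (fun y hy => by
    have h1 := hx₁ y (sphere_subset_closedBall hy)
    linarith)
  have h1 := hcone a ha
  have hpos : 0 < ‖a - b‖ := norm_pos_iff.mpr (sub_ne_zero.mpr hne)
  have h2 : (1 - ε) * L ≤ M1 := by
    have h3 : (1 - ε) * L * ‖a - b‖ ≤ M1 * ‖a - b‖ := by linarith
    exact le_of_mul_le_mul_right h3 hpos
  calc r * ((1 - ε) * L) ≤ r * M1 := mul_le_mul_of_nonneg_left h2 hr.le
    _ = u x₁ - u b := by rw [mul_comm]; exact hM1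

omit [ProperSpace E] in
/-- The gradient of `-u` is minus the gradient of `u`. -/
theorem sx_gradient_neg (u : E → ℝ) (z : E) :
    gradient (fun x => -u x) z = -gradient u z := by
  unfold gradient
  have h1 : fderiv ℝ (fun x => -u x) z = -fderiv ℝ u z := fderiv_neg
  rw [h1, map_neg]

omit [CompleteSpace E] [ProperSpace E] in
/-- `√(8 t) ≤ 3 √κ` for `0 ≤ t ≤ κ`. -/
theorem sx_sqrt_eight {t κ : ℝ} (htκ : t ≤ κ) (hκ0 : 0 ≤ κ) :
    √(8 * t) ≤ 3 * √κ := by
  calc √(8 * t) ≤ √((3 * √κ) ^ 2) := Real.sqrt_le_sqrt (by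
        rw [mul_pow, Real.sq_sqrt hκ0]
        linarith)
    _ = 3 * √κ := Real.sqrt_sq (by positivity)

omit [CompleteSpace E] [ProperSpace E] in
/-- Assembly of the pit case: a bound for `-g` against the direction of `m - a` and the
antipodal estimate give the bound for `g` against the direction of `x₁ - b`. -/
theorem sx_pit_assemble {g a b x₁ m : E} {r L κ : ℝ} (hr : 0 < r) (hL : 0 < L)
    (h1 : ‖-g - L • (1 / r) • (m - a)‖ ≤ 7 * L * √κ)
    (h2 : ‖(x₁ - b) - (a - m)‖ ≤ r * (3 * √κ)) :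
    ‖g - L • (1 / r) • (x₁ - b)‖ ≤ 10 * L * √κ := by
  have e1 : g - L • (1 / r) • (x₁ - b)
      = -(-g - L • (1 / r) • (m - a)) + (L * (1 / r)) • ((a - m) - (x₁ - b)) := by
    simp only [mul_smul, smul_sub]
    abel
  rw [e1]
  have h3 := norm_add_le (-(-g - L • (1 / r) • (m - a))) ((L * (1 / r)) • ((a - m) - (x₁ - b)))
  rw [norm_neg] at h3
  have h4 : ‖(L * (1 / r)) • ((a - m) - (x₁ - b))‖ ≤ 3 * L * √κ := by
    rw [norm_smul, Real.norm_eq_abs, abs_of_pos (by positivity), norm_sub_rev]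
    have h5 : L * (1 / r) * (r * (3 * √κ)) = 3 * L * √κ := by
      field_simp
    rw [← h5]
    exact mul_le_mul_of_nonneg_left h2 (by positivity)
  linarith

/-- One-scale estimate for all infinity-harmonic functions: if the Lipschitz constant `L` of
`u` on `ball b (5 r)` is attained up to the factor `1 - ε` by a pair `a, b` with `‖a - b‖ < d`,
then at every point `z` of `ball b d` that is a maximum or a minimum point of `u` over a
closed ball of radius `R` having `z` on its sphere, the gradient is within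
`10 L √(ε + 8 d / r + 8 r / R)` of `L e`, for one unit vector `e`. -/
theorem sx_one_scale [Nontrivial E] {u : E → ℝ} {Ω : Set E} (hΩ : IsOpen Ω)
    (hu : IsInfinityHarmonicOn u Ω)
    {a b : E} {r d L ε R : ℝ} (hr : 0 < r) (hd0 : 0 < d) (hL : 0 < L) (hε0 : 0 ≤ ε)
    (hsub : ball b (5 * r) ⊆ Ω)
    (hlip : ∀ p ∈ ball b (5 * r), ∀ q ∈ ball b (5 * r), u q - u p ≤ L * ‖q - p‖)
    (hR : 8 * r ≤ R) (hκ : ε + 8 * d / r + 8 * r / R ≤ 1)
    (hab : ‖a - b‖ < d) (hne : a ≠ b) (hpair : (1 - ε) * L * ‖a - b‖ ≤ u a - u b) :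
    ∃ e : E, ‖e‖ = 1 ∧ ∀ z ∈ ball b d, ∀ c : E, ‖z - c‖ = R →
      ((∀ w ∈ closedBall c R, u w ≤ u z) ∨ (∀ w ∈ closedBall c R, u z ≤ u w)) →
      ‖gradient u z - L • e‖ ≤ 10 * L * √(ε + 8 * d / r + 8 * r / R) := by
  have hR0 : 0 < R := lt_of_lt_of_le (by positivity) hR
  have hrR0 : 0 < 8 * r / R := by positivity
  have hdr0 : 0 < 8 * d / r := by positivity
  have hdr : d ≤ r / 8 := by
    have h1 : 8 * d / r ≤ 1 := by linarith
    rw [div_le_one hr] at h1
    linarith
  have hκ0 : 0 ≤ ε + 8 * d / r + 8 * r / R := by positivity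
  have hballb : closedBall b r ⊆ Ω := fun w hw => hsub (by
    rw [mem_ball]
    rw [mem_closedBall] at hw
    linarith)
  have hballa' : closedBall a r ⊆ ball b (5 * r) := by
    intro w hw
    rw [mem_closedBall, dist_eq_norm] at hw
    rw [mem_ball, dist_eq_norm]
    have e1 : w - b = (w - a) + (a - b) := by abel
    rw [e1]
    have h1 := norm_add_le (w - a) (a - b)
    linarith
  have hballa : closedBall a r ⊆ Ω := fun w hw => hsub (hballa' hw)
  have hsub4 : ball b (4 * r) ⊆ ball b (5 * r) := ball_subset_ball (by linarith)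
  have hsuba4 : ball a (4 * r) ⊆ ball b (5 * r) := by
    intro w hw
    rw [mem_ball, dist_eq_norm] at hw
    rw [mem_ball, dist_eq_norm]
    have e1 : w - b = (w - a) + (a - b) := by abel
    rw [e1]
    have h1 := norm_add_le (w - a) (a - b)
    linarith
  obtain ⟨x₁, hx₁s, hx₁⟩ := exists_max_on_sphere hu hr hballb
  obtain ⟨m, hms, hm⟩ := exists_max_on_sphere hu.neg hr hballa
  have hx₁n : ‖x₁ - b‖ = r := by rw [← dist_eq_norm]; exact mem_sphere.mp hx₁s
  have hmn' : ‖m - a‖ = r := by rw [← dist_eq_norm]; exact mem_sphere.mp hms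
  have hmn : ‖a - m‖ = r := by rw [norm_sub_rev]; exact hmn'
  have hbx₁ : ‖b - x₁‖ = r := by rw [norm_sub_rev]; exact hx₁n
  have hba : ‖b - a‖ = ‖a - b‖ := norm_sub_rev b a
  have haB : a ∈ closedBall b r := by
    rw [mem_closedBall, dist_eq_norm]
    linarith
  have hbA : b ∈ closedBall a r := by
    rw [mem_closedBall, dist_eq_norm, hba]
    linarith
  have hup : r * ((1 - ε) * L) ≤ u x₁ - u b :=
    sx_cone_slope hu hr hballb hx₁ haB hne hpair
  have hdn : r * ((1 - ε) * L) ≤ u a - u m := by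
    have h1 := sx_cone_slope hu.neg (a := b) (b := a) (x₁ := m) (L := L) (ε := ε) hr hballa hm
      hbA (Ne.symm hne) (by rw [hba]; linarith)
    linarith
  refine ⟨(1 / r) • (x₁ - b), ?_, ?_⟩
  · rw [norm_smul, hx₁n, Real.norm_eq_abs, abs_of_pos (by positivity)]
    field_simp
  intro z hz c hzc hcase
  have hzb : ‖z - b‖ < d := by rw [← dist_eq_norm]; exact mem_ball.mp hz
  have hlip4 : ∀ p ∈ ball b (4 * r), ∀ q ∈ ball b (4 * r), u q - u p ≤ L * ‖q - p‖ :=
    fun p hp q hq => hlip p (hsub4 hp) q (hsub4 hq)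
  rcases hcase with hmax | hmin
  · -- summit case
    have hκ4 : ε + 4 * d / r + 8 * r / R ≤ ε + 8 * d / r + 8 * r / R := by
      have h1 : 4 * d / r ≤ 8 * d / r := by
        apply div_le_div_of_nonneg_right _ hr.le
        linarith
      linarith
    have hcore := sx_core hΩ hu (a := a) (b := b) (x₁ := x₁) (m := m) (z := z) (c := c) hr hd0
      hL hε0 (hsub4.trans hsub) hlip4 hR (hκ4.trans hκ) hab hzb hx₁n hmn hup hdn hzc hmax
    have hs : √(ε + 4 * d / r + 8 * r / R) ≤ √(ε + 8 * d / r + 8 * r / R) :=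
      Real.sqrt_le_sqrt hκ4
    have hs0 : 0 ≤ √(ε + 8 * d / r + 8 * r / R) := Real.sqrt_nonneg _
    have h7 : 7 * L * √(ε + 4 * d / r + 8 * r / R) ≤ 7 * L * √(ε + 8 * d / r + 8 * r / R) :=
      mul_le_mul_of_nonneg_left hs (by positivity)
    have h10 : 7 * L * √(ε + 8 * d / r + 8 * r / R) ≤ 10 * L * √(ε + 8 * d / r + 8 * r / R) :=
      mul_le_mul_of_nonneg_right (by linarith) hs0
    linarith
  · -- pit case
    have hlipneg : ∀ p ∈ ball a (4 * r), ∀ q ∈ ball a (4 * r), -u q - -u p ≤ L * ‖q - p‖ := by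
      intro p hp q hq
      have h1 := hlip q (hsuba4 hq) p (hsuba4 hp)
      rw [norm_sub_rev] at h1
      linarith
    have hκ2 : ε + 4 * (2 * d) / r + 8 * r / R ≤ 1 := by
      have e1 : 4 * (2 * d) / r = 8 * d / r := by ring
      rw [e1]
      exact hκ
    have hba2 : ‖b - a‖ < 2 * d := by rw [hba]; linarith
    have hza2 : ‖z - a‖ < 2 * d := by
      have e1 : z - a = (z - b) + (b - a) := by abel
      rw [e1]
      have h1 := norm_add_le (z - b) (b - a)
      rw [hba] at h1
      linarith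
    have hupv : r * ((1 - ε) * L) ≤ -u m - -u a := by linarith
    have hdnv : r * ((1 - ε) * L) ≤ -u b - -u x₁ := by linarith
    have hmaxv : ∀ w ∈ closedBall c R, -u w ≤ -u z := fun w hw => by
      have h1 := hmin w hw
      linarith
    have hcore := sx_core hΩ hu.neg (a := b) (b := a) (x₁ := m) (m := x₁) (z := z) (c := c)
      (d := 2 * d) hr (by positivity) hL hε0 (hsuba4.trans hsub) hlipneg hR hκ2 hba2 hza2 hmn'
      hbx₁ hupv hdnv hzc hmaxv
    rw [sx_gradient_neg] at hcore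
    have e1 : ε + 4 * (2 * d) / r + 8 * r / R = ε + 8 * d / r + 8 * r / R := by ring
    rw [e1] at hcore
    have hε1 : ε + d / r ≤ 1 := by
      have h1 : d / r ≤ 8 * d / r := by
        apply div_le_div_of_nonneg_right _ hr.le
        linarith
      linarith
    have hanti := sx_antipodal (u := u) (a := a) (b := b) (x₁ := x₁) (m := m) hr hd0 hL hε0 hε1
      (by linarith) hlip4 hab hx₁n hmn hup hdn
    have hle : ε + d / r ≤ ε + 8 * d / r + 8 * r / R := by
      have h1 : d / r ≤ 8 * d / r := by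
        apply div_le_div_of_nonneg_right _ hr.le
        linarith
      linarith
    have h3 := sx_sqrt_eight hle hκ0
    have h2 : ‖(x₁ - b) - (a - m)‖ ≤ r * (3 * √(ε + 8 * d / r + 8 * r / R)) :=
      hanti.trans (mul_le_mul_of_nonneg_left h3 hr.le)
    exact sx_pit_assemble hr hL hcore h2

end

end Vale.Agent.Lib.P080
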