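import Mathlib
import Vale.Agent.Lib.P080.QCScale
import Vale.Agent.Lib.P080.SxScale
import Vale.Agent.Lib.P080.RefinedBase

namespace Vale.Agent.Lib.P080

open Filter Topology Set Metric

section

variable {E : Type*} [NormedAddCommGroup E] [InnerProductSpace ℝ E] [CompleteSpace E]
  [ProperSpace E]

omit [InnerProductSpace ℝ E] [CompleteSpace E] [ProperSpace E] in
/-- The centre and the extremality of a touching ball. -/
lemma refined_centre {u : E → ℝ} {Ω : Set E} {R : ℝ} {x : E}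
    (hex : IsSummit u Ω R x ∨ IsPit u Ω R x) :
    ∃ c : E, ‖x - c‖ = R ∧
      ((∀ w ∈ closedBall c R, u w ≤ u x) ∨ (∀ w ∈ closedBall c R, u x ≤ u w)) := by
  rcases hex with hs | hs
  · obtain ⟨c, hd, -, hm⟩ := hs
    refine ⟨c, ?_, Or.inl hm⟩
    rw [← dist_eq_norm]
    exact hd
  · obtain ⟨c, hd, -, hm⟩ := hs
    refine ⟨c, ?_, Or.inr hm⟩
    rw [← dist_eq_norm]
    exact hd

omit [ProperSpace E] in
/-- The gradient at a point of a ball on which `u` is `L`-Lipschitz has norm at most `L`. -/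
theorem refined_grad_le_of_lip {u : E → ℝ} {y z : E} {ρ L : ℝ} (hL : 0 ≤ L)
    (hlip : ∀ p ∈ ball y ρ, ∀ q ∈ ball y ρ, u q - u p ≤ L * ‖q - p‖) (hz : z ∈ ball y ρ) :
    ‖gradient u z‖ ≤ L := by
  rw [gradient_norm]
  by_cases hd : DifferentiableAt ℝ u z
  · exact sx_fderiv_le_of_lip hL hz hlip hd.hasFDerivAt
  · rw [fderiv_zero_of_not_differentiableAt hd, norm_zero]
    exact hL

end

end Vale.Agent.Lib.P080

namespace Vale.Agent.Lib.P080

open Filter Topology Set Metric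

section

variable {E : Type*} [NormedAddCommGroup E] [InnerProductSpace ℝ E] [CompleteSpace E]
  [ProperSpace E]

omit [CompleteSpace E] [ProperSpace E] in
/-- Second order estimate for the distance between the half of a vector `A` of norm `r` and the
half of the difference of another vector `N` of norm `r` with `A`. -/
theorem sx2_half_norm {A N : E} {r : ℝ} (hr : 0 < r) (hA : ‖A‖ = r) (hN : ‖N‖ = r) :
    ‖(1 / 2 : ℝ) • A - (1 / 2 : ℝ) • (N - A)‖ ≤ r / 2 + ‖N - A‖ ^ 2 / (2 * r) := by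
  have hr2 : 0 < r / 2 := by linarith
  have hA2 : ‖(1 / 2 : ℝ) • A‖ ≤ r / 2 := by
    rw [norm_smul, hA, Real.norm_eq_abs, abs_of_pos (by norm_num)]
    linarith
  have h := qcscale_norm_sub_le ((1 / 2 : ℝ) • A) ((1 / 2 : ℝ) • (N - A)) hr2 hA2
  have h1 := norm_sub_sq_real N A
  rw [hN, hA] at h1
  have h2 := real_inner_comm A N
  have hin : inner ℝ ((1 / 2 : ℝ) • A) ((1 / 2 : ℝ) • (N - A)) = -‖N - A‖ ^ 2 / 8 := by
    rw [real_inner_smul_left, real_inner_smul_right, inner_sub_right,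
      real_inner_self_eq_norm_sq, hA]
    linarith
  have hn : ‖(1 / 2 : ℝ) • (N - A)‖ ^ 2 = ‖N - A‖ ^ 2 / 4 := by
    rw [norm_smul, Real.norm_eq_abs, abs_of_pos (by norm_num), mul_pow]
    ring
  rw [hin, hn] at h
  have e : r / 2 - -‖N - A‖ ^ 2 / 8 / (r / 2) + ‖N - A‖ ^ 2 / 4 / (2 * (r / 2))
      = r / 2 + ‖N - A‖ ^ 2 / (2 * r) := by
    field_simp
    ring
  linarith

omit [CompleteSpace E] [ProperSpace E] in
/-- The centre of the inner ball of radius `r / 2` is at distance about `r / 2` from `m`, with a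
quadratic loss in the direction errors. -/
theorem sx2_centre_dist {a b x₁ m z ν : E} {r d η₁ η₂ : ℝ} (hr : 0 < r)
    (hab : ‖a - b‖ < d) (hzb : ‖z - b‖ < d) (hmn : ‖a - m‖ = r) (hν : ‖ν‖ = 1)
    (hAA : ‖(x₁ - b) - (a - m)‖ ≤ r * η₁) (hνA : ‖r • ν - (x₁ - b)‖ ≤ r * η₂) :
    ‖z - (r / 2) • ν - m‖ ≤ 2 * d + r / 2 + r * (η₁ + η₂) ^ 2 / 2 := by
  have hN : ‖r • ν‖ = r := by
    rw [norm_smul, hν, Real.norm_eq_abs, abs_of_pos hr, mul_one]
  have h1 := sx2_half_norm hr hmn hN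
  have hT : ‖r • ν - (a - m)‖ ≤ r * (η₁ + η₂) := by
    have e : r • ν - (a - m) = (r • ν - (x₁ - b)) + ((x₁ - b) - (a - m)) := by abel
    rw [e]
    have h2 := norm_add_le (r • ν - (x₁ - b)) ((x₁ - b) - (a - m))
    linarith
  have hT2 : ‖r • ν - (a - m)‖ ^ 2 ≤ (r * (η₁ + η₂)) ^ 2 :=
    pow_le_pow_left₀ (norm_nonneg _) hT 2
  have hT3 : ‖r • ν - (a - m)‖ ^ 2 / (2 * r) ≤ r * (η₁ + η₂) ^ 2 / 2 := by
    have h3 : ‖r • ν - (a - m)‖ ^ 2 / (2 * r) ≤ (r * (η₁ + η₂)) ^ 2 / (2 * r) :=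
      div_le_div_of_nonneg_right hT2 (by positivity)
    have e : (r * (η₁ + η₂)) ^ 2 / (2 * r) = r * (η₁ + η₂) ^ 2 / 2 := by
      field_simp
    linarith
  have hza : ‖z - a‖ ≤ 2 * d := by
    have h3 := norm_add_le (z - b) (b - a)
    rw [sub_add_sub_cancel, norm_sub_rev b a] at h3
    linarith
  have e : z - (r / 2) • ν - m
      = (z - a) + ((1 / 2 : ℝ) • (a - m) - (1 / 2 : ℝ) • (r • ν - (a - m))) := by
    module
  rw [e]
  have h4 := norm_add_le (z - a)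
    ((1 / 2 : ℝ) • (a - m) - (1 / 2 : ℝ) • (r • ν - (a - m)))
  linarith

/-- The refined slope bound, for a unit vector `ν` with `R • ν = z - c`. -/
theorem sx2_low_aux {u : E → ℝ} {Ω : Set E} (hu : IsInfinityHarmonicOn u Ω)
    {a b x₁ m z c ν : E} {r d L ε R η₁ η₂ : ℝ} (hr : 0 < r) (hL : 0 < L)
    (hsub : ball b (4 * r) ⊆ Ω) (hdr : d ≤ r / 2) (hrR : r ≤ R)
    (hlip : ∀ p ∈ ball b (4 * r), ∀ q ∈ ball b (4 * r), u q - u p ≤ L * ‖q - p‖)
    (hab : ‖a - b‖ < d) (hzb : ‖z - b‖ < d) (hx₁n : ‖x₁ - b‖ = r) (hmn : ‖a - m‖ = r)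
    (hup : r * ((1 - ε) * L) ≤ u x₁ - u b) (hdn : r * ((1 - ε) * L) ≤ u a - u m)
    (hν : ‖ν‖ = 1) (hRν : R • ν = z - c) (hmax : ∀ w ∈ closedBall c R, u w ≤ u z)
    (hd : DifferentiableAt ℝ u z)
    (hAA : ‖(x₁ - b) - (a - m)‖ ≤ r * η₁)
    (hνA : ‖r • ν - (x₁ - b)‖ ≤ r * η₂) :
    L * (1 - 4 * ε - 8 * (d / r) - (η₁ + η₂) ^ 2) ≤ ‖fderiv ℝ u z‖ := by
  have hr2 : 0 < r / 2 := by linarith
  have hc1z : ‖z - (z - (r / 2) • ν)‖ = r / 2 := by
    rw [sub_sub_cancel, norm_smul, hν, Real.norm_eq_abs, abs_of_pos hr2, mul_one]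
  have hc1c : ‖z - (r / 2) • ν - c‖ = R - r / 2 := by
    have e : z - (r / 2) • ν - c = (R - r / 2) • ν := by
      rw [sub_smul, hRν]; abel
    rw [e, norm_smul, hν, Real.norm_eq_abs, abs_of_nonneg (by linarith), mul_one]
  have hsubR : closedBall (z - (r / 2) • ν) (r / 2) ⊆ closedBall c R := by
    intro w hw
    rw [mem_closedBall, dist_eq_norm] at hw ⊢
    have h1 := norm_add_le (w - (z - (r / 2) • ν)) (z - (r / 2) • ν - c)
    rw [sub_add_sub_cancel, hc1c] at h1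
    linarith
  have hsubB : closedBall (z - (r / 2) • ν) (r / 2) ⊆ ball b (4 * r) := by
    intro w hw
    rw [mem_closedBall, dist_eq_norm] at hw
    rw [mem_ball, dist_eq_norm]
    have h1 := norm_add_le (w - (z - (r / 2) • ν)) (z - (r / 2) • ν - b)
    rw [sub_add_sub_cancel] at h1
    have h2 := norm_add_le (z - (r / 2) • ν - z) (z - b)
    rw [sub_add_sub_cancel, norm_sub_rev (z - (r / 2) • ν) z, hc1z] at h2
    linarith
  have hball : closedBall (z - (r / 2) • ν) (r / 2) ⊆ Ω := hsubB.trans hsub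
  have hy : z ∈ sphere (z - (r / 2) • ν) (r / 2) := by
    rw [mem_sphere, dist_eq_norm, hc1z]
  have hmax' : ∀ w ∈ sphere (z - (r / 2) • ν) (r / 2), u w ≤ u z :=
    fun w hw => hmax w (hsubR (sphere_subset_closedBall hw))
  have hslope := slope_ge_of_max_sphere hu hr2 hball hy hmax' hd
  have hc1B : z - (r / 2) • ν ∈ ball b (4 * r) := hsubB (mem_closedBall_self hr2.le)
  have haB : a ∈ ball b (4 * r) := by
    rw [mem_ball, dist_eq_norm]; linarith
  have hzB : z ∈ ball b (4 * r) := by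
    rw [mem_ball, dist_eq_norm]; linarith
  have hbB : b ∈ ball b (4 * r) := by
    rw [mem_ball, dist_self]; linarith
  have hx₁B : x₁ ∈ ball b (4 * r) := by
    rw [mem_ball, dist_eq_norm, hx₁n]; linarith
  have hmB : m ∈ ball b (4 * r) := by
    rw [mem_ball, dist_eq_norm]
    have h1 : ‖m - b‖ ≤ ‖m - a‖ + ‖a - b‖ := by
      have := norm_add_le (m - a) (a - b)
      rwa [sub_add_sub_cancel] at this
    rw [norm_sub_rev m a, hmn] at h1
    linarith
  have hx₁z : ‖x₁ - z‖ ≤ r + d := by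
    have h1 := norm_add_le (x₁ - b) (b - z)
    rw [sub_add_sub_cancel, norm_sub_rev b z, hx₁n] at h1
    linarith
  have hc1m := sx2_centre_dist hr hab hzb hmn hν hAA hνA
  have h1 : u (z - (r / 2) • ν) - u m ≤ L * ‖z - (r / 2) • ν - m‖ := hlip m hmB _ hc1B
  have h2 : u x₁ - u z ≤ L * ‖x₁ - z‖ := hlip z hzB x₁ hx₁B
  have h3 : u a - u b ≤ L * ‖a - b‖ := hlip b hbB a haB
  have h1' : L * ‖z - (r / 2) • ν - m‖ ≤ L * (2 * d + r / 2 + r * (η₁ + η₂) ^ 2 / 2) :=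
    mul_le_mul_of_nonneg_left hc1m hL.le
  have h2' : L * ‖x₁ - z‖ ≤ L * (r + d) := mul_le_mul_of_nonneg_left hx₁z hL.le
  have h3' : L * ‖a - b‖ ≤ L * d := mul_le_mul_of_nonneg_left hab.le hL.le
  have hrd : r * (d / r) = d := by field_simp
  have h5 : r / 2 * (L * (1 - 4 * ε - 8 * (d / r) - (η₁ + η₂) ^ 2))
      ≤ r / 2 * ‖fderiv ℝ u z‖ := by
    have e : r / 2 * (L * (1 - 4 * ε - 8 * (d / r) - (η₁ + η₂) ^ 2))
        = 2 * (r * ((1 - ε) * L)) - L * (r + d) - L * d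
          - L * (2 * d + r / 2 + r * (η₁ + η₂) ^ 2 / 2) + 4 * L * d
          - 4 * L * (r * (d / r)) := by ring
    rw [e, hrd]
    linarith
  exact le_of_mul_le_mul_left h5 hr2

/-- Refined lower bound for the slope at a maximum point `z` of a touching ball: the loss is
linear in `ε` and `d / r` and quadratic in the direction errors `η₁`, `η₂`. -/
theorem sx2_low {u : E → ℝ} {Ω : Set E} (hu : IsInfinityHarmonicOn u Ω)
    {a b x₁ m z c : E} {r d L ε R η₁ η₂ : ℝ} (hr : 0 < r) (hd0 : 0 < d) (hL : 0 < L)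
    (hsub : ball b (4 * r) ⊆ Ω) (hdr : d ≤ r / 2) (hrR : r ≤ R)
    (hlip : ∀ p ∈ ball b (4 * r), ∀ q ∈ ball b (4 * r), u q - u p ≤ L * ‖q - p‖)
    (hab : ‖a - b‖ < d) (hzb : ‖z - b‖ < d) (hx₁n : ‖x₁ - b‖ = r) (hmn : ‖a - m‖ = r)
    (hup : r * ((1 - ε) * L) ≤ u x₁ - u b) (hdn : r * ((1 - ε) * L) ≤ u a - u m)
    (hzc : ‖z - c‖ = R) (hmax : ∀ w ∈ closedBall c R, u w ≤ u z)
    (hd : DifferentiableAt ℝ u z) (hη₁ : 0 ≤ η₁) (hη₂ : 0 ≤ η₂)
    (hAA : ‖(x₁ - b) - (a - m)‖ ≤ r * η₁)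
    (hνA : ‖r • ((1 / R) • (z - c)) - (x₁ - b)‖ ≤ r * η₂) :
    L * (1 - 4 * ε - 8 * (d / r) - (η₁ + η₂) ^ 2) ≤ ‖fderiv ℝ u z‖ := by
  have _ := hd0
  have _ := hη₁
  have _ := hη₂
  have hR : 0 < R := lt_of_lt_of_le hr hrR
  have hνn : ‖(1 / R) • (z - c)‖ = 1 := by
    rw [norm_smul, hzc, Real.norm_eq_abs, abs_of_pos (by positivity)]
    field_simp
  have hRν : R • ((1 / R) • (z - c)) = z - c := by
    rw [smul_smul]
    have : R * (1 / R) = 1 := by field_simp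
    rw [this, one_smul]
  exact sx2_low_aux hu hr hL hsub hdr hrR hlip hab hzb hx₁n hmn hup hdn hνn hRν hmax hd hAA hνA

end

end Vale.Agent.Lib.P080

namespace Vale.Agent.Lib.P080

open Filter Topology Set Metric

section

variable {E : Type*} [NormedAddCommGroup E] [InnerProductSpace ℝ E] [CompleteSpace E]
  [ProperSpace E]

/-- Refined one-scale estimate at a maximum point `z` of a touching ball of radius `R`: slope
lower bound with linear losses, and direction of the gradient. -/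
theorem sx2_core {u : E → ℝ} {Ω : Set E} (hΩ : IsOpen Ω) (hu : IsInfinityHarmonicOn u Ω)
    {a b x₁ m z c : E} {r d L ε R : ℝ} (hr : 0 < r) (hd0 : 0 < d) (hL : 0 < L) (hε0 : 0 ≤ ε)
    (hsub : ball b (4 * r) ⊆ Ω)
    (hlip : ∀ p ∈ ball b (4 * r), ∀ q ∈ ball b (4 * r), u q - u p ≤ L * ‖q - p‖)
    (hR : 8 * r ≤ R) (hκ : ε + 4 * d / r + 8 * r / R ≤ 1)
    (hab : ‖a - b‖ < d) (hzb : ‖z - b‖ < d)
    (hx₁n : ‖x₁ - b‖ = r) (hmn : ‖a - m‖ = r)
    (hup : r * ((1 - ε) * L) ≤ u x₁ - u b) (hdn : r * ((1 - ε) * L) ≤ u a - u m)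
    (hzc : ‖z - c‖ = R) (hmax : ∀ w ∈ closedBall c R, u w ≤ u z) :
    L * (1 - 24 * ε - 32 * (d / r) - 32 * (r / R)) ≤ ‖fderiv ℝ u z‖ ∧
      ‖gradient u z - ‖fderiv ℝ u z‖ • (1 / r) • (x₁ - b)‖
        ≤ ‖fderiv ℝ u z‖ * √(2 * (ε + 2 * d / r + 8 * r / R)) := by
  have hRpos : 0 < R := by linarith
  have hdr0 : 0 < d / r := by positivity
  have hrR1 : 0 < r / R := by positivity
  have e4 : 4 * d / r = 4 * (d / r) := by ring
  have e2 : 2 * d / r = 2 * (d / r) := by ring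
  have e8 : 8 * r / R = 8 * (r / R) := by ring
  have hdr4 : d / r ≤ 1 / 4 := by
    rw [e4, e8] at hκ
    linarith
  have hdr : d ≤ r / 4 := by
    rw [div_le_iff₀ hr] at hdr4
    linarith
  have hzB : z ∈ ball b (4 * r) := by
    rw [mem_ball, dist_eq_norm]
    linarith
  have hz : z ∈ Ω := hsub hzB
  obtain ⟨S, hS0, hS⟩ := hasFDerivAt_summit hΩ hu hRpos hz hzc hmax
  have hν : ‖(1 / R) • (z - c)‖ = 1 := by
    rw [norm_smul, hzc, Real.norm_eq_abs, abs_of_pos (by positivity)]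
    field_simp
  obtain ⟨hnorm, hgrad⟩ := sx_grad_of_hasFDerivAt hS0 hν hS
  have hκ1 : ε + d / r ≤ ε + 4 * d / r + 8 * r / R := by
    rw [e4, e8]
    linarith
  have hκ2 : ε + 2 * d / r + 8 * r / R ≤ ε + 4 * d / r + 8 * r / R := by
    rw [e4, e2]
    linarith
  have hAA := sx_antipodal hr hd0 hL hε0 (hκ1.trans hκ) (by linarith) hlip hab hx₁n hmn hup hdn
  have hνA := sx_dir hr hd0 hL hε0 hR (hκ2.trans hκ) hlip hzb hx₁n hup hzc hmax
  have hlow := sx2_low hu hr hd0 hL hsub (by linarith) (by linarith) hlip hab hzb hx₁n hmn hup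
    hdn hzc hmax hS.differentiableAt (Real.sqrt_nonneg _) (Real.sqrt_nonneg _) hAA hνA
  have h1 : 0 ≤ 8 * (ε + d / r) := by linarith
  have h2 : 0 ≤ 2 * (ε + 2 * d / r + 8 * r / R) := by
    rw [e2, e8]
    linarith
  have hsq1 := Real.sq_sqrt h1
  have hsq2 := Real.sq_sqrt h2
  have hquad : (√(8 * (ε + d / r)) + √(2 * (ε + 2 * d / r + 8 * r / R))) ^ 2
      ≤ 20 * ε + 24 * (d / r) + 32 * (r / R) := by
    have h3 : (√(8 * (ε + d / r)) + √(2 * (ε + 2 * d / r + 8 * r / R))) ^ 2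
        ≤ 2 * √(8 * (ε + d / r)) ^ 2 + 2 * √(2 * (ε + 2 * d / r + 8 * r / R)) ^ 2 := by
      nlinarith [sq_nonneg (√(8 * (ε + d / r)) - √(2 * (ε + 2 * d / r + 8 * r / R)))]
    rw [hsq1, hsq2] at h3
    refine h3.trans (le_of_eq ?_)
    ring
  constructor
  · refine le_trans (mul_le_mul_of_nonneg_left ?_ hL.le) hlow
    linarith
  · rw [hnorm, hgrad]
    have e : ∀ v w : E, S • v - S • (1 / r) • w = (S / r) • (r • v - w) := by
      intro v w
      rw [smul_sub, smul_smul (S / r) r, div_mul_cancel₀ S hr.ne', smul_smul S (1 / r),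
        mul_one_div]
    have hSr : 0 ≤ S / r := div_nonneg hS0 hr.le
    rw [e, norm_smul, Real.norm_eq_abs, abs_of_nonneg hSr]
    calc S / r * ‖r • ((1 / R) • (z - c)) - (x₁ - b)‖
        ≤ S / r * (r * √(2 * (ε + 2 * d / r + 8 * r / R))) :=
          mul_le_mul_of_nonneg_left hνA hSr
      _ = S * √(2 * (ε + 2 * d / r + 8 * r / R)) := by
          field_simp

end

end Vale.Agent.Lib.P080

namespace Vale.Agent.Lib.P080

open Filter Topology Set Metric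

section

variable {E : Type*} [NormedAddCommGroup E] [InnerProductSpace ℝ E] [CompleteSpace E]
  [ProperSpace E]

omit [CompleteSpace E] [ProperSpace E] in
/-- `√(2 t) ≤ (3 / 2) √κ` for `t ≤ κ`, `0 ≤ κ`. -/
theorem sx2_sqrt_two {t κ : ℝ} (htκ : t ≤ κ) (hκ0 : 0 ≤ κ) :
    √(2 * t) ≤ 3 / 2 * √κ := by
  calc √(2 * t) ≤ √((3 / 2 * √κ) ^ 2) := Real.sqrt_le_sqrt (by
        rw [mul_pow, Real.sq_sqrt hκ0]
        linarith)
    _ = 3 / 2 * √κ := Real.sqrt_sq (by positivity)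

omit [CompleteSpace E] [ProperSpace E] in
/-- Assembly of the pit case with the norm `S` of the derivative as the scale: a bound for `-g`
against the direction of `m - a` and the antipodal estimate give the bound for `g` against the
direction of `x₁ - b`. -/
theorem sx2_pit_assemble {g a b x₁ m : E} {r S κ : ℝ} (hr : 0 < r) (hS : 0 ≤ S)
    (h1 : ‖-g - S • (1 / r) • (m - a)‖ ≤ S * (3 / 2 * √κ))
    (h2 : ‖(x₁ - b) - (a - m)‖ ≤ r * (3 * √κ)) :
    ‖g - S • (1 / r) • (x₁ - b)‖ ≤ 5 * S * √κ := by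
  have e1 : g - S • (1 / r) • (x₁ - b)
      = -(-g - S • (1 / r) • (m - a)) + (S * (1 / r)) • ((a - m) - (x₁ - b)) := by
    simp only [mul_smul, smul_sub]
    abel
  rw [e1]
  have h3 := norm_add_le (-(-g - S • (1 / r) • (m - a))) ((S * (1 / r)) • ((a - m) - (x₁ - b)))
  rw [norm_neg] at h3
  have hs0 : 0 ≤ √κ := Real.sqrt_nonneg κ
  have h4 : ‖(S * (1 / r)) • ((a - m) - (x₁ - b))‖ ≤ 3 * S * √κ := by
    rw [norm_smul, Real.norm_eq_abs, abs_of_nonneg (by positivity), norm_sub_rev]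
    have h5 : S * (1 / r) * (r * (3 * √κ)) = 3 * S * √κ := by
      field_simp
    rw [← h5]
    exact mul_le_mul_of_nonneg_left h2 (by positivity)
  have h6 : 0 ≤ S * √κ := mul_nonneg hS hs0
  have h7 : S * (3 / 2 * √κ) = 3 / 2 * (S * √κ) := by ring
  have h8 : 3 * S * √κ = 3 * (S * √κ) := by ring
  have h9 : 5 * S * √κ = 5 * (S * √κ) := by ring
  rw [h7] at h1
  rw [h8] at h4
  rw [h9]
  linarith

/-- Refined one-scale estimate for all infinity-harmonic functions: if the Lipschitz constant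
`L` of `u` on `ball b (5 r)` is attained up to the factor `1 - ε` by a pair `a, b` with
`‖a - b‖ < d`, then at every point `z` of `ball b d` that is a maximum or a minimum point of
`u` over a closed ball of radius `R` having `z` on its sphere, the slope is at least
`L (1 - 24 ε - 64 d / r - 32 r / R)` and the gradient is within `5 ‖Du(z)‖ √(ε + 8 d / r + 8 r / R)`
of `‖Du(z)‖ e`, for one unit vector `e`. -/
theorem sx2_one_scale [Nontrivial E] {u : E → ℝ} {Ω : Set E} (hΩ : IsOpen Ω)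
    (hu : IsInfinityHarmonicOn u Ω)
    {a b : E} {r d L ε R : ℝ} (hr : 0 < r) (hd0 : 0 < d) (hL : 0 < L) (hε0 : 0 ≤ ε)
    (hsub : ball b (5 * r) ⊆ Ω)
    (hlip : ∀ p ∈ ball b (5 * r), ∀ q ∈ ball b (5 * r), u q - u p ≤ L * ‖q - p‖)
    (hR : 8 * r ≤ R) (hκ : ε + 8 * d / r + 8 * r / R ≤ 1)
    (hab : ‖a - b‖ < d) (hne : a ≠ b) (hpair : (1 - ε) * L * ‖a - b‖ ≤ u a - u b) :
    ∃ e : E, ‖e‖ = 1 ∧ ∀ z ∈ ball b d, ∀ c : E, ‖z - c‖ = R →
      ((∀ w ∈ closedBall c R, u w ≤ u z) ∨ (∀ w ∈ closedBall c R, u z ≤ u w)) →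
      L * (1 - 24 * ε - 64 * (d / r) - 32 * (r / R)) ≤ ‖fderiv ℝ u z‖ ∧
      ‖gradient u z - ‖fderiv ℝ u z‖ • e‖
        ≤ 5 * ‖fderiv ℝ u z‖ * √(ε + 8 * d / r + 8 * r / R) := by
  have hR0 : 0 < R := lt_of_lt_of_le (by positivity) hR
  have hrR0 : 0 < 8 * r / R := by positivity
  have hdr0 : 0 < 8 * d / r := by positivity
  have hdr00 : 0 ≤ d / r := div_nonneg hd0.le hr.le
  have hdr : d ≤ r / 8 := by
    have h1 : 8 * d / r ≤ 1 := by linarith
    rw [div_le_one hr] at h1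
    linarith
  have hκ0 : 0 ≤ ε + 8 * d / r + 8 * r / R := by positivity
  have hballb : closedBall b r ⊆ Ω := fun w hw => hsub (by
    rw [mem_ball]
    rw [mem_closedBall] at hw
    linarith)
  have hballa' : closedBall a r ⊆ ball b (5 * r) := by
    intro w hw
    rw [mem_closedBall, dist_eq_norm] at hw
    rw [mem_ball, dist_eq_norm]
    have e1 : w - b = (w - a) + (a - b) := by abel
    rw [e1]
    have h1 := norm_add_le (w - a) (a - b)
    linarith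
  have hballa : closedBall a r ⊆ Ω := fun w hw => hsub (hballa' hw)
  have hsub4 : ball b (4 * r) ⊆ ball b (5 * r) := ball_subset_ball (by linarith)
  have hsuba4 : ball a (4 * r) ⊆ ball b (5 * r) := by
    intro w hw
    rw [mem_ball, dist_eq_norm] at hw
    rw [mem_ball, dist_eq_norm]
    have e1 : w - b = (w - a) + (a - b) := by abel
    rw [e1]
    have h1 := norm_add_le (w - a) (a - b)
    linarith
  obtain ⟨x₁, hx₁s, hx₁⟩ := exists_max_on_sphere hu hr hballb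
  obtain ⟨m, hms, hm⟩ := exists_max_on_sphere hu.neg hr hballa
  have hx₁n : ‖x₁ - b‖ = r := by rw [← dist_eq_norm]; exact mem_sphere.mp hx₁s
  have hmn' : ‖m - a‖ = r := by rw [← dist_eq_norm]; exact mem_sphere.mp hms
  have hmn : ‖a - m‖ = r := by rw [norm_sub_rev]; exact hmn'
  have hbx₁ : ‖b - x₁‖ = r := by rw [norm_sub_rev]; exact hx₁n
  have hba : ‖b - a‖ = ‖a - b‖ := norm_sub_rev b a
  have haB : a ∈ closedBall b r := by
    rw [mem_closedBall, dist_eq_norm]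
    linarith
  have hbA : b ∈ closedBall a r := by
    rw [mem_closedBall, dist_eq_norm, hba]
    linarith
  have hup : r * ((1 - ε) * L) ≤ u x₁ - u b :=
    sx_cone_slope hu hr hballb hx₁ haB hne hpair
  have hdn : r * ((1 - ε) * L) ≤ u a - u m := by
    have h1 := sx_cone_slope hu.neg (a := b) (b := a) (x₁ := m) (L := L) (ε := ε) hr hballa hm
      hbA (Ne.symm hne) (by rw [hba]; linarith)
    linarith
  refine ⟨(1 / r) • (x₁ - b), ?_, ?_⟩
  · rw [norm_smul, hx₁n, Real.norm_eq_abs, abs_of_pos (by positivity)]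
    field_simp
  intro z hz c hzc hcase
  have hzb : ‖z - b‖ < d := by rw [← dist_eq_norm]; exact mem_ball.mp hz
  have hlip4 : ∀ p ∈ ball b (4 * r), ∀ q ∈ ball b (4 * r), u q - u p ≤ L * ‖q - p‖ :=
    fun p hp q hq => hlip p (hsub4 hp) q (hsub4 hq)
  have hS0 : 0 ≤ ‖fderiv ℝ u z‖ := norm_nonneg _
  have hs0 : 0 ≤ √(ε + 8 * d / r + 8 * r / R) := Real.sqrt_nonneg _
  rcases hcase with hmax | hmin
  · -- summit case
    have hκ4 : ε + 4 * d / r + 8 * r / R ≤ ε + 8 * d / r + 8 * r / R := by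
      have h1 : 4 * d / r ≤ 8 * d / r := by
        apply div_le_div_of_nonneg_right _ hr.le
        linarith
      linarith
    have hκ2 : ε + 2 * d / r + 8 * r / R ≤ ε + 8 * d / r + 8 * r / R := by
      have h1 : 2 * d / r ≤ 8 * d / r := by
        apply div_le_div_of_nonneg_right _ hr.le
        linarith
      linarith
    have hcore := sx2_core hΩ hu (a := a) (b := b) (x₁ := x₁) (m := m) (z := z) (c := c) hr hd0
      hL hε0 (hsub4.trans hsub) hlip4 hR (hκ4.trans hκ) hab hzb hx₁n hmn hup hdn hzc hmax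
    refine ⟨?_, ?_⟩
    · refine le_trans (mul_le_mul_of_nonneg_left ?_ hL.le) hcore.1
      linarith
    · have h1 := sx2_sqrt_two hκ2 hκ0
      have h2 : ‖fderiv ℝ u z‖ * √(2 * (ε + 2 * d / r + 8 * r / R))
          ≤ ‖fderiv ℝ u z‖ * (3 / 2 * √(ε + 8 * d / r + 8 * r / R)) :=
        mul_le_mul_of_nonneg_left h1 hS0
      have h3 : 0 ≤ ‖fderiv ℝ u z‖ * √(ε + 8 * d / r + 8 * r / R) := mul_nonneg hS0 hs0
      have h4 : ‖fderiv ℝ u z‖ * (3 / 2 * √(ε + 8 * d / r + 8 * r / R))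
          = 3 / 2 * (‖fderiv ℝ u z‖ * √(ε + 8 * d / r + 8 * r / R)) := by ring
      have h5 : 5 * ‖fderiv ℝ u z‖ * √(ε + 8 * d / r + 8 * r / R)
          = 5 * (‖fderiv ℝ u z‖ * √(ε + 8 * d / r + 8 * r / R)) := by ring
      rw [h4] at h2
      rw [h5]
      linarith [hcore.2]
  · -- pit case
    have hlipneg : ∀ p ∈ ball a (4 * r), ∀ q ∈ ball a (4 * r), -u q - -u p ≤ L * ‖q - p‖ := by
      intro p hp q hq
      have h1 := hlip q (hsuba4 hq) p (hsuba4 hp)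
      rw [norm_sub_rev] at h1
      linarith
    have hκ2 : ε + 4 * (2 * d) / r + 8 * r / R ≤ 1 := by
      have e1 : 4 * (2 * d) / r = 8 * d / r := by ring
      rw [e1]
      exact hκ
    have hba2 : ‖b - a‖ < 2 * d := by rw [hba]; linarith
    have hza2 : ‖z - a‖ < 2 * d := by
      have e1 : z - a = (z - b) + (b - a) := by abel
      rw [e1]
      have h1 := norm_add_le (z - b) (b - a)
      rw [hba] at h1
      linarith
    have hupv : r * ((1 - ε) * L) ≤ -u m - -u a := by linarith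
    have hdnv : r * ((1 - ε) * L) ≤ -u b - -u x₁ := by linarith
    have hmaxv : ∀ w ∈ closedBall c R, -u w ≤ -u z := fun w hw => by
      have h1 := hmin w hw
      linarith
    have hcore := sx2_core hΩ hu.neg (a := b) (b := a) (x₁ := m) (m := x₁) (z := z) (c := c)
      (d := 2 * d) hr (by positivity) hL hε0 (hsuba4.trans hsub) hlipneg hR hκ2 hba2 hza2 hmn'
      hbx₁ hupv hdnv hzc hmaxv
    have hfd : ‖fderiv ℝ (fun x => -u x) z‖ = ‖fderiv ℝ u z‖ := by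
      have h1 : fderiv ℝ (fun x => -u x) z = -fderiv ℝ u z := fderiv_neg
      rw [h1, norm_neg]
    rw [sx_gradient_neg, hfd] at hcore
    refine ⟨?_, ?_⟩
    · refine le_trans (le_of_eq ?_) hcore.1
      ring
    · have hκ3 : ε + 2 * (2 * d) / r + 8 * r / R ≤ ε + 8 * d / r + 8 * r / R := by
        have h1 : 2 * (2 * d) / r ≤ 8 * d / r := by
          apply div_le_div_of_nonneg_right _ hr.le
          linarith
        linarith
      have h1 := sx2_sqrt_two hκ3 hκ0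
      have hc2 : ‖-gradient u z - ‖fderiv ℝ u z‖ • (1 / r) • (m - a)‖
          ≤ ‖fderiv ℝ u z‖ * (3 / 2 * √(ε + 8 * d / r + 8 * r / R)) :=
        hcore.2.trans (mul_le_mul_of_nonneg_left h1 hS0)
      have hε1 : ε + d / r ≤ 1 := by
        have h1 : d / r ≤ 8 * d / r := by
          apply div_le_div_of_nonneg_right _ hr.le
          linarith
        linarith
      have hanti := sx_antipodal (u := u) (a := a) (b := b) (x₁ := x₁) (m := m) hr hd0 hL hε0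
        hε1 (by linarith) hlip4 hab hx₁n hmn hup hdn
      have hle : ε + d / r ≤ ε + 8 * d / r + 8 * r / R := by
        have h1 : d / r ≤ 8 * d / r := by
          apply div_le_div_of_nonneg_right _ hr.le
          linarith
        linarith
      have h3 := sx_sqrt_eight hle hκ0
      have h2 : ‖(x₁ - b) - (a - m)‖ ≤ r * (3 * √(ε + 8 * d / r + 8 * r / R)) :=
        hanti.trans (mul_le_mul_of_nonneg_left h3 hr.le)
      exact sx2_pit_assemble hr hS0 hc2 h2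

end

end Vale.Agent.Lib.P080

namespace Vale.Agent.Lib.P080

open Filter Topology Set Metric

section

variable {E : Type*} [NormedAddCommGroup E] [InnerProductSpace ℝ E] [CompleteSpace E]
  [ProperSpace E]

/-- A pair of points of the next ball that nearly attains the Lipschitz constant `b₀` forces
every maximum or minimum point of touching balls in the next ball to have slope at least
`b₀ - w / 2 - 1284 M₀ / K`. -/
theorem sx2_iter_pair [Nontrivial E] {u : E → ℝ} {Ω : Set E} (hΩ : IsOpen Ω)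
    (hu : IsInfinityHarmonicOn u Ω)
    {y p q : E} {ρj M₀ R K b₀ w : ℝ} (hρj : 0 < ρj) (hK : 4096 ≤ K)
    (hsub : ball y ρj ⊆ Ω) (hρR : ρj * K ≤ R)
    (hb0 : 0 < b₀) (hbM : b₀ ≤ M₀) (hw0 : 0 ≤ w) (hwb : w ≤ b₀)
    (hlip : ∀ p ∈ ball y ρj, ∀ q ∈ ball y ρj, u q - u p ≤ b₀ * ‖q - p‖)
    (hp : p ∈ ball y (ρj / K)) (hq : q ∈ ball y (ρj / K))
    (hpq : (b₀ - w / 48) * ‖q - p‖ < u q - u p) :
    ∀ z ∈ ball y (ρj / K), ∀ c : E, ‖z - c‖ = R →
      ((∀ v ∈ closedBall c R, u v ≤ u z) ∨ (∀ v ∈ closedBall c R, u z ≤ u v)) →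
      b₀ - w / 2 - 1284 * M₀ / K ≤ ‖fderiv ℝ u z‖ := by
  have hK0 : 0 < K := by linarith
  have hR0 : 0 < R := lt_of_lt_of_le (by positivity) hρR
  have hne : q ≠ p := by
    intro h
    rw [h] at hpq
    simp at hpq
  have hpd : dist p y < ρj / K := mem_ball.mp hp
  have hqd : dist q y < ρj / K := mem_ball.mp hq
  have hhalf : ρj / K ≤ ρj / 2 :=
    div_le_div_of_nonneg_left hρj.le (by norm_num) (by linarith)
  have hsub1 : ball p (5 * (ρj / 10)) ⊆ ball y ρj := by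
    intro v hv
    rw [mem_ball] at hv ⊢
    have h3 : dist v y ≤ dist v p + dist p y := dist_triangle _ _ _
    linarith
  have hε0 : 0 ≤ w / (48 * b₀) := by positivity
  have hε1 : w / (48 * b₀) ≤ 1 / 48 := by
    rw [div_le_div_iff₀ (by positivity) (by norm_num)]
    linarith
  have e1 : 8 * (2 * (ρj / K)) / (ρj / 10) = 160 / K := by
    field_simp
    ring
  have e1' : 2 * (ρj / K) / (ρj / 10) = 20 / K := by
    field_simp
    ring
  have e2 : (ρj / 10) / R ≤ 1 / (10 * K) := by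
    rw [div_le_div_iff₀ hR0 (by positivity)]
    nlinarith
  have e2' : 8 * (ρj / 10) / R ≤ 1 / K := by
    rw [div_le_div_iff₀ hR0 hK0]
    nlinarith
  have hKinv : 1 / K ≤ 1 / 4096 :=
    div_le_div_of_nonneg_left (by norm_num) (by norm_num) hK
  have hκ1 : w / (48 * b₀) + 8 * (2 * (ρj / K)) / (ρj / 10) + 8 * (ρj / 10) / R ≤ 1 := by
    rw [e1]
    have h160 : 160 / K = 160 * (1 / K) := by ring
    linarith
  have hqp : ‖q - p‖ < 2 * (ρj / K) := by
    rw [← dist_eq_norm]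
    have h3 : dist q p ≤ dist q y + dist y p := dist_triangle _ _ _
    rw [dist_comm y p] at h3
    linarith
  have hpair : (1 - w / (48 * b₀)) * b₀ * ‖q - p‖ ≤ u q - u p := by
    have e : (1 - w / (48 * b₀)) * b₀ = b₀ - w / 48 := by
      field_simp
    rw [e]
    exact hpq.le
  have h8r : 8 * (ρj / 10) ≤ R := by
    have h1 : ρj * 4096 ≤ ρj * K := mul_le_mul_of_nonneg_left hK hρj.le
    linarith
  obtain ⟨e, -, hball⟩ := sx2_one_scale hΩ hu (a := q) (b := p) (r := ρj / 10)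
    (d := 2 * (ρj / K)) (L := b₀) (ε := w / (48 * b₀)) (R := R)
    (by positivity) (by positivity) hb0 hε0 (hsub1.trans hsub)
    (fun a ha b hb => hlip a (hsub1 ha) b (hsub1 hb)) h8r hκ1 hqp hne hpair
  intro z hz c hzc hext
  have hzb : z ∈ ball p (2 * (ρj / K)) := by
    rw [mem_ball] at hz ⊢
    have h3 : dist z p ≤ dist z y + dist y p := dist_triangle _ _ _
    rw [dist_comm y p] at h3
    linarith
  have g1 := (hball z hzb c hzc hext).1
  rw [e1'] at g1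
  have e3 : b₀ * (24 * (w / (48 * b₀))) = w / 2 := by
    field_simp
    ring
  have e4 : b₀ * (64 * (20 / K)) ≤ 1280 * M₀ / K := by
    have h1 : b₀ * (64 * (20 / K)) = 1280 * b₀ / K := by ring
    rw [h1]
    exact div_le_div_of_nonneg_right (by linarith) hK0.le
  have e5 : b₀ * (32 * ((ρj / 10) / R)) ≤ 4 * M₀ / K := by
    have h1 : b₀ * (32 * ((ρj / 10) / R)) ≤ b₀ * (32 * (1 / (10 * K))) :=
      mul_le_mul_of_nonneg_left (by linarith) hb0.le
    have h2 : b₀ * (32 * (1 / (10 * K))) = (16 / 5 * b₀) / K := by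
      field_simp
      ring
    have h3 : (16 / 5 * b₀) / K ≤ 4 * M₀ / K :=
      div_le_div_of_nonneg_right (by linarith) hK0.le
    linarith
  have e6 : 1284 * M₀ / K = 1280 * M₀ / K + 4 * M₀ / K := by ring
  have e7 : b₀ * (1 - 24 * (w / (48 * b₀)) - 64 * (20 / K) - 32 * ((ρj / 10) / R))
      = b₀ - b₀ * (24 * (w / (48 * b₀))) - b₀ * (64 * (20 / K))
        - b₀ * (32 * ((ρj / 10) / R)) := by ring
  rw [e7, e3] at g1
  linarith

/-- One step of the iteration: from the scale `ρj` to the scale `ρj / K`. -/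
theorem sx2_iter_step [Nontrivial E] {u : E → ℝ} {Ω : Set E} (hΩ : IsOpen Ω)
    (hu : IsInfinityHarmonicOn u Ω)
    {y : E} {ρj M₀ R K a₀ b₀ T : ℝ} (hρj : 0 < ρj) (hM₀ : 0 < M₀) (hK : 4096 ≤ K)
    (hsub : ball y ρj ⊆ Ω) (hρR : ρj * K ≤ R)
    (ha0 : 0 ≤ a₀) (hab : a₀ ≤ b₀) (hbM : b₀ ≤ M₀)
    (hlip : ∀ p ∈ ball y ρj, ∀ q ∈ ball y ρj, u q - u p ≤ b₀ * ‖q - p‖)
    (hext : ∀ z ∈ ball y ρj, ∀ c : E, ‖z - c‖ = R →
        ((∀ v ∈ closedBall c R, u v ≤ u z) ∨ (∀ v ∈ closedBall c R, u z ≤ u v)) →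
        a₀ ≤ ‖fderiv ℝ u z‖)
    (hT : 0 ≤ T) (hw : b₀ - a₀ ≤ T + 48 * (1284 * M₀ / K)) :
    ∃ a₁ b₁ : ℝ, 0 ≤ a₁ ∧ a₁ ≤ b₁ ∧ b₁ ≤ M₀ ∧
      (∀ p ∈ ball y (ρj / K), ∀ q ∈ ball y (ρj / K), u q - u p ≤ b₁ * ‖q - p‖) ∧
      (∀ z ∈ ball y (ρj / K), ∀ c : E, ‖z - c‖ = R →
        ((∀ v ∈ closedBall c R, u v ≤ u z) ∨ (∀ v ∈ closedBall c R, u z ≤ u v)) →
        a₁ ≤ ‖fderiv ℝ u z‖) ∧
      b₁ - a₁ ≤ 47 / 48 * T + 48 * (1284 * M₀ / K) := by
  have hK0 : 0 < K := by linarith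
  have hK1 : 1 ≤ K := by linarith
  have hF0 : 0 ≤ 1284 * M₀ / K := by positivity
  have hsmall : ρj / K ≤ ρj := div_le_self hρj.le hK1
  have hBsub : ball y (ρj / K) ⊆ ball y ρj := ball_subset_ball hsmall
  have hw0 : 0 ≤ b₀ - a₀ := by linarith
  have hT' : 0 ≤ 47 / 48 * T := by positivity
  by_cases hb0 : b₀ ≤ 0
  · refine ⟨a₀, b₀, ha0, hab, hbM, fun p hp q hq => hlip p (hBsub hp) q (hBsub hq),
      fun z hz c hzc he => hext z (hBsub hz) c hzc he, ?_⟩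
    linarith
  · have hb0' : 0 < b₀ := not_le.mp hb0
    by_cases hall : ∀ p ∈ ball y (ρj / K), ∀ q ∈ ball y (ρj / K),
        u q - u p ≤ (b₀ - (b₀ - a₀) / 48) * ‖q - p‖
    · refine ⟨a₀, b₀ - (b₀ - a₀) / 48, ha0, by linarith, by linarith, hall,
        fun z hz c hzc he => hext z (hBsub hz) c hzc he, ?_⟩
      linarith
    · push Not at hall
      obtain ⟨p, hp, q, hq, hpq⟩ := hall
      have hnew := sx2_iter_pair hΩ hu hρj hK hsub hρR hb0' hbM hw0 (by linarith) hlip hp hq hpq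
      refine ⟨max a₀ (b₀ - (b₀ - a₀) / 2 - 1284 * M₀ / K), b₀, le_max_of_le_left ha0,
        max_le hab (by linarith), hbM, fun p hp q hq => hlip p (hBsub hp) q (hBsub hq),
        fun z hz c hzc he => max_le (hext z (hBsub hz) c hzc he) (hnew z hz c hzc he), ?_⟩
      have h1 : b₀ - (b₀ - a₀) / 2 - 1284 * M₀ / K
          ≤ max a₀ (b₀ - (b₀ - a₀) / 2 - 1284 * M₀ / K) := le_max_right _ _
      linarith

/-- Geometric decay, over the scales `ρ₀ / K ^ j` and up to a floor of order `K⁻¹`, of the gap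
between the Lipschitz constant of `u` and the smallest slope at the maximum and minimum points
of touching balls of radius `R` (a Harnack type iteration). -/
theorem sx2_iter [Nontrivial E] {u : E → ℝ} {Ω : Set E} (hΩ : IsOpen Ω)
    (hu : IsInfinityHarmonicOn u Ω)
    {y : E} {ρ₀ M₀ R K : ℝ} (hρ₀ : 0 < ρ₀) (hM₀ : 0 < M₀) (hK : 4096 ≤ K)
    (hsub : ball y ρ₀ ⊆ Ω)
    (hlip : ∀ p ∈ ball y ρ₀, ∀ q ∈ ball y ρ₀, u q - u p ≤ M₀ * ‖q - p‖)
    (hρR : ρ₀ * K ≤ R) (j : ℕ) :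
    ∃ a₀ b₀ : ℝ, 0 ≤ a₀ ∧ a₀ ≤ b₀ ∧ b₀ ≤ M₀ ∧
      (∀ p ∈ ball y (ρ₀ / K ^ j), ∀ q ∈ ball y (ρ₀ / K ^ j), u q - u p ≤ b₀ * ‖q - p‖) ∧
      (∀ z ∈ ball y (ρ₀ / K ^ j), ∀ c : E, ‖z - c‖ = R →
        ((∀ w ∈ closedBall c R, u w ≤ u z) ∨ (∀ w ∈ closedBall c R, u z ≤ u w)) →
        a₀ ≤ ‖fderiv ℝ u z‖) ∧
      b₀ - a₀ ≤ (47 / 48 : ℝ) ^ j * M₀ + 48 * (1284 * M₀ / K) := by
  have hK0 : 0 < K := by linarith
  have hK1 : 1 ≤ K := by linarith
  have hF0 : 0 ≤ 1284 * M₀ / K := by positivity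
  induction j with
  | zero =>
    refine ⟨0, M₀, le_rfl, hM₀.le, le_rfl, ?_, ?_, ?_⟩
    · intro p hp q hq
      exact hlip p (by simpa using hp) q (by simpa using hq)
    · intro z _ c _ _
      exact norm_nonneg _
    · simp only [pow_zero, one_mul, sub_zero]
      linarith
  | succ j ih =>
    obtain ⟨a₀, b₀, ha0, hab, hbM, hl, he, hw⟩ := ih
    have hρj : 0 < ρ₀ / K ^ j := div_pos hρ₀ (pow_pos hK0 j)
    have hρle : ρ₀ / K ^ j ≤ ρ₀ := div_le_self hρ₀.le (one_le_pow₀ hK1)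
    have hsucc : ρ₀ / K ^ (j + 1) = ρ₀ / K ^ j / K := by rw [pow_succ, div_div]
    have hT : (47 / 48 : ℝ) ^ (j + 1) * M₀ = 47 / 48 * ((47 / 48 : ℝ) ^ j * M₀) := by
      rw [pow_succ]
      ring
    rw [hsucc, hT]
    exact sx2_iter_step hΩ hu hρj hM₀ hK ((ball_subset_ball hρle).trans hsub)
      ((mul_le_mul_of_nonneg_right hρle hK0.le).trans hρR) ha0 hab hbM hl he (by positivity) hw

end

end Vale.Agent.Lib.P080

namespace Vale.Agent.Lib.P080

open Filter Topology Set Metric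

section

variable {E : Type*} [NormedAddCommGroup E] [InnerProductSpace ℝ E] [CompleteSpace E]
  [ProperSpace E]

omit [ProperSpace E] in
/-- Along the gradient direction the function grows almost at the rate of the slope. -/
theorem sx2_local_ray {u : E → ℝ} {y : E} (hd : DifferentiableAt ℝ u y)
    (hS : 0 < ‖fderiv ℝ u y‖) {η δ : ℝ} (hη : 0 < η) (hδ : 0 < δ) :
    ∃ t : ℝ, 0 < t ∧ t < δ ∧
      t * (‖fderiv ℝ u y‖ - η) ≤ u (y + t • gdir u y) - u y := by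
  have hfd := hd.hasFDerivAt
  rw [hasFDerivAt_iff_isLittleO_nhds_zero] at hfd
  have hb := hfd.bound hη
  rw [Metric.eventually_nhds_iff] at hb
  obtain ⟨ε', hε', hball⟩ := hb
  have hmin : 0 < min ε' δ := lt_min hε' hδ
  have hml : min ε' δ ≤ ε' := min_le_left ε' δ
  have hmr : min ε' δ ≤ δ := min_le_right ε' δ
  have ht0 : 0 < min ε' δ / 2 := half_pos hmin
  have hνn : ‖gdir u y‖ = 1 := gdir_norm hS
  refine ⟨min ε' δ / 2, ht0, by linarith, ?_⟩
  have hh : dist ((min ε' δ / 2) • gdir u y) 0 < ε' := by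
    rw [dist_zero_right, norm_smul, hνn, mul_one, Real.norm_eq_abs, abs_of_pos ht0]
    linarith
  have h1 := hball hh
  rw [Real.norm_eq_abs, norm_smul, hνn, mul_one, Real.norm_eq_abs, abs_of_pos ht0] at h1
  have h2 : fderiv ℝ u y ((min ε' δ / 2) • gdir u y) = min ε' δ / 2 * ‖fderiv ℝ u y‖ := by
    rw [fderiv_eq_inner_gdir hS, inner_smul_right, real_inner_self_eq_norm_sq, hνn]
    ring
  rw [h2] at h1
  have h3 := (abs_le.mp h1).1
  linarith

/-- Arithmetic of the far case: the slope at the centre is well below the Lipschitz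
constant. -/
theorem sx2_local_far {a₀ b₀ sy M₀ W K : ℝ} (hK : 4096 ≤ K) (hb : 0 < b₀) (hbM : b₀ ≤ M₀)
    (hay : a₀ ≤ sy) (hw : b₀ - a₀ ≤ W)
    (hfar : 1 < (b₀ - sy) / b₀ + 1 / K + 162 / K) : 2 * b₀ ≤ 10 * √(2 * W * M₀) := by
  have hK0 : 0 < K := by linarith
  have h1 : 1 / K + 162 / K ≤ 1 / 2 := by
    rw [← add_div, div_le_iff₀ hK0]
    linarith
  have h2 : 1 / 2 < (b₀ - sy) / b₀ := by linarith
  rw [lt_div_iff₀ hb] at h2
  have hW : b₀ / 2 ≤ W := by linarith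
  have h3 : b₀ ^ 2 ≤ 2 * W * M₀ := by
    have h4 : b₀ / 2 * b₀ ≤ W * M₀ := mul_le_mul hW hbM hb.le (by linarith)
    nlinarith
  have h5 : b₀ ≤ √(2 * W * M₀) := by
    calc b₀ = √(b₀ ^ 2) := (Real.sqrt_sq hb.le).symm
      _ ≤ √(2 * W * M₀) := Real.sqrt_le_sqrt h3
  linarith

/-- Arithmetic of the near case. -/
theorem sx2_local_near {a₀ b₀ sy M₀ W K κ : ℝ} (hK : 4096 ≤ K) (hb : 0 < b₀)
    (hbM : b₀ ≤ M₀) (hay : a₀ ≤ sy) (hyb : sy ≤ b₀) (hw : b₀ - a₀ ≤ W)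
    (hκ : κ ≤ (b₀ - sy) / b₀ + 1 / K + 81 / K) :
    10 * b₀ * √κ + (b₀ - a₀) ≤ W + 10 * √(2 * W * M₀) + 130 * M₀ / √K := by
  have hW0 : 0 ≤ W := by linarith
  have hK0 : 0 < K := by linarith
  have hM0 : 0 < M₀ := lt_of_lt_of_le hb hbM
  have hq : 0 < √K := Real.sqrt_pos.mpr hK0
  have hq2 : √K ^ 2 = K := Real.sq_sqrt hK0.le
  have hs0 : 0 ≤ √(2 * W * M₀) := Real.sqrt_nonneg _
  have hs2 : √(2 * W * M₀) ^ 2 = 2 * W * M₀ := Real.sq_sqrt (by positivity)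
  have hT0 : 0 ≤ √(2 * W * M₀) + 13 * M₀ / √K := by positivity
  have h1 : b₀ ^ 2 * κ ≤ (√(2 * W * M₀) + 13 * M₀ / √K) ^ 2 := by
    have e : (√(2 * W * M₀) + 13 * M₀ / √K) ^ 2
        = √(2 * W * M₀) ^ 2 + 2 * √(2 * W * M₀) * (13 * M₀ / √K)
          + 169 * M₀ ^ 2 / √K ^ 2 := by
      rw [add_sq, div_pow]
      ring
    rw [e, hs2, hq2]
    have h2 : 0 ≤ 2 * √(2 * W * M₀) * (13 * M₀ / √K) := by positivity
    have h3 : b₀ ^ 2 * κ ≤ b₀ ^ 2 * ((b₀ - sy) / b₀ + 1 / K + 81 / K) :=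
      mul_le_mul_of_nonneg_left hκ (sq_nonneg _)
    have h4 : b₀ ^ 2 * ((b₀ - sy) / b₀ + 1 / K + 81 / K)
        = b₀ * (b₀ - sy) + 82 * b₀ ^ 2 / K := by
      field_simp
      ring
    have h5 : b₀ * (b₀ - sy) ≤ M₀ * W := mul_le_mul hbM (by linarith) (by linarith) hM0.le
    have h6 : 82 * b₀ ^ 2 / K ≤ 169 * M₀ ^ 2 / K := by
      have h7 : b₀ ^ 2 ≤ M₀ ^ 2 := pow_le_pow_left₀ hb.le hbM 2
      have h8 : 82 * b₀ ^ 2 ≤ 169 * M₀ ^ 2 := by nlinarith [sq_nonneg M₀]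
      exact div_le_div_of_nonneg_right h8 hK0.le
    have h9 : 0 ≤ W * M₀ := mul_nonneg hW0 hM0.le
    nlinarith
  have h7 : b₀ * √κ ≤ √(2 * W * M₀) + 13 * M₀ / √K := by
    have e1 : b₀ * √κ = √(b₀ ^ 2 * κ) := by
      rw [Real.sqrt_mul (sq_nonneg b₀), Real.sqrt_sq hb.le]
    rw [e1]
    calc √(b₀ ^ 2 * κ) ≤ √((√(2 * W * M₀) + 13 * M₀ / √K) ^ 2) := Real.sqrt_le_sqrt h1
      _ = √(2 * W * M₀) + 13 * M₀ / √K := Real.sqrt_sq hT0
  have e2 : 130 * M₀ / √K = 10 * (13 * M₀ / √K) := by ring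
  have e3 : 10 * b₀ * √κ = 10 * (b₀ * √κ) := by ring
  rw [e2, e3]
  linarith

omit [CompleteSpace E] [ProperSpace E] in
/-- Two gradients close to multiples of one unit vector. -/
theorem sx2_local_vec {gz gy e : E} {sz sy a₀ b₀ q : ℝ} (he : ‖e‖ = 1)
    (haz : a₀ ≤ sz) (hzb : sz ≤ b₀) (hay : a₀ ≤ sy) (hyb : sy ≤ b₀) (hq : 0 ≤ q)
    (hz : ‖gz - sz • e‖ ≤ 5 * sz * q) (hy : ‖gy - sy • e‖ ≤ 5 * sy * q) :
    ‖gz - gy‖ ≤ 10 * b₀ * q + (b₀ - a₀) := by
  have e1 : gz - gy = (gz - sz • e) + ((sz - sy) • e - (gy - sy • e)) := by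
    rw [sub_smul]
    abel
  have h1 : ‖(sz - sy) • e‖ ≤ b₀ - a₀ := by
    rw [norm_smul, he, mul_one, Real.norm_eq_abs, abs_le]
    constructor <;> linarith
  have h2 : 5 * sz * q ≤ 5 * b₀ * q :=
    mul_le_mul_of_nonneg_right (mul_le_mul_of_nonneg_left hzb (by norm_num)) hq
  have h3 : 5 * sy * q ≤ 5 * b₀ * q :=
    mul_le_mul_of_nonneg_right (mul_le_mul_of_nonneg_left hyb (by norm_num)) hq
  rw [e1]
  have h4 := norm_add_le (gz - sz • e) ((sz - sy) • e - (gy - sy • e))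
  have h5 := norm_sub_le ((sz - sy) • e) (gy - sy • e)
  linarith

/-- The local estimate at one scale, from the Lipschitz bound and the lower bound for the
slopes at that scale. -/
theorem sx2_local_core [Nontrivial E] {u : E → ℝ} {Ω : Set E} (hΩ : IsOpen Ω)
    (hu : IsInfinityHarmonicOn u Ω)
    {y z c cy : E} {ρ₀ ρ M₀ R K W a₀ b₀ : ℝ} (hρ : 0 < ρ) (hρle : ρ ≤ ρ₀)
    (hK : 4096 ≤ K) (hsub : ball y ρ₀ ⊆ Ω) (hρR : ρ₀ * K ≤ R)
    (ha0 : 0 ≤ a₀) (hab : a₀ ≤ b₀) (hbM : b₀ ≤ M₀)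
    (hlipj : ∀ p ∈ ball y ρ, ∀ q ∈ ball y ρ, u q - u p ≤ b₀ * ‖q - p‖)
    (hlow : ∀ z ∈ ball y ρ, ∀ c : E, ‖z - c‖ = R →
      ((∀ w ∈ closedBall c R, u w ≤ u z) ∨ (∀ w ∈ closedBall c R, u z ≤ u w)) →
      a₀ ≤ ‖fderiv ℝ u z‖)
    (hwidth : b₀ - a₀ ≤ W) (hz : z ∈ ball y (ρ / K)) (hzc : ‖z - c‖ = R)
    (hycy : ‖y - cy‖ = R)
    (hzext : (∀ w ∈ closedBall c R, u w ≤ u z) ∨ (∀ w ∈ closedBall c R, u z ≤ u w))
    (hyext : (∀ w ∈ closedBall cy R, u w ≤ u y) ∨ (∀ w ∈ closedBall cy R, u y ≤ u w)) :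
    ‖gradient u z - gradient u y‖ ≤ W + 10 * √(2 * W * M₀) + 130 * M₀ / √K := by
  have hK0 : 0 < K := by linarith
  have hK1 : 1 ≤ K := by linarith
  have hb0 : 0 ≤ b₀ := le_trans ha0 hab
  have hM0 : 0 ≤ M₀ := le_trans hb0 hbM
  have hzj : z ∈ ball y ρ := ball_subset_ball (div_le_self hρ.le hK1) hz
  have hyj : y ∈ ball y ρ := mem_ball_self hρ
  have hay := hlow y hyj cy hycy hyext
  have haz := hlow z hzj c hzc hzext
  have hyb := refined_grad_le_of_lip hb0 hlipj hyj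
  have hzb := refined_grad_le_of_lip hb0 hlipj hzj
  rw [gradient_norm] at hyb hzb
  have hW0 : 0 ≤ W := by linarith
  have hs0 : 0 ≤ √(2 * W * M₀) := Real.sqrt_nonneg _
  have hq : 0 < √K := Real.sqrt_pos.mpr hK0
  have hMK : 0 ≤ 130 * M₀ / √K := by positivity
  have htri : ‖gradient u z - gradient u y‖ ≤ ‖fderiv ℝ u z‖ + ‖fderiv ℝ u y‖ := by
    have h := norm_sub_le (gradient u z) (gradient u y)
    rwa [gradient_norm, gradient_norm] at h
  rcases (norm_nonneg (fderiv ℝ u y)).eq_or_lt with hy0 | hypos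
  · linarith
  · have hbpos : 0 < b₀ := lt_of_lt_of_le hypos hyb
    have hdy : DifferentiableAt ℝ u y := by
      by_contra hnd
      rw [fderiv_zero_of_not_differentiableAt hnd, norm_zero] at hypos
      exact lt_irrefl _ hypos
    obtain ⟨t, ht0, htd, hray⟩ :=
      sx2_local_ray hdy hypos (div_pos hbpos hK0) (div_pos hρ hK0)
    by_cases hε : (b₀ - ‖fderiv ℝ u y‖) / b₀ + 1 / K + 162 / K ≤ 1
    · have hε0 : 0 ≤ (b₀ - ‖fderiv ℝ u y‖) / b₀ + 1 / K :=
        add_nonneg (div_nonneg (by linarith) hbpos.le) (by positivity)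
      have hr : 0 < ρ / 10 := by positivity
      have hd0 : 0 < ρ / K := div_pos hρ hK0
      have hsub5 : ball y (5 * (ρ / 10)) ⊆ ball y ρ := ball_subset_ball (by linarith)
      have hsubρ : ball y ρ ⊆ ball y ρ₀ := ball_subset_ball hρle
      have hρ₀ : 0 < ρ₀ := lt_of_lt_of_le hρ hρle
      have hR0 : 0 < R := lt_of_lt_of_le (by positivity) hρR
      have hρ₀R : ρ₀ ≤ R := le_trans (by nlinarith) hρR
      have hR8 : 8 * (ρ / 10) ≤ R := by linarith
      have e1 : 8 * (ρ / K) / (ρ / 10) = 80 / K := by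
        field_simp
        ring
      have e2 : 8 * (ρ / 10) / R ≤ 1 / K := by
        rw [div_le_div_iff₀ hR0 hK0]
        nlinarith
      have e3 : (81 : ℝ) / K = 80 / K + 1 / K := by ring
      have e4 : (162 : ℝ) / K = 81 / K + 81 / K := by ring
      have h81 : 0 ≤ (81 : ℝ) / K := by positivity
      have hκle : (b₀ - ‖fderiv ℝ u y‖) / b₀ + 1 / K + 8 * (ρ / K) / (ρ / 10)
          + 8 * (ρ / 10) / R ≤ (b₀ - ‖fderiv ℝ u y‖) / b₀ + 1 / K + 81 / K := by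
        rw [e1, e3]
        linarith
      have hκ1 : (b₀ - ‖fderiv ℝ u y‖) / b₀ + 1 / K + 8 * (ρ / K) / (ρ / 10)
          + 8 * (ρ / 10) / R ≤ 1 := by
        rw [e4] at hε
        linarith
      have hab' : ‖y + t • gdir u y - y‖ = t := by
        rw [add_sub_cancel_left, norm_smul, gdir_norm hypos, mul_one, Real.norm_eq_abs,
          abs_of_pos ht0]
      have hne : y + t • gdir u y ≠ y := by
        intro h
        rw [h, sub_self, norm_zero] at hab'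
        linarith
      have hpair : (1 - ((b₀ - ‖fderiv ℝ u y‖) / b₀ + 1 / K)) * b₀ * ‖y + t • gdir u y - y‖
          ≤ u (y + t • gdir u y) - u y := by
        rw [hab']
        have e5 : (1 - ((b₀ - ‖fderiv ℝ u y‖) / b₀ + 1 / K)) * b₀ * t
            = t * (‖fderiv ℝ u y‖ - b₀ / K) := by
          field_simp
          ring
        rw [e5]
        exact hray
      obtain ⟨e, he, hall⟩ := sx2_one_scale hΩ hu hr hd0 hbpos hε0
        (hsub5.trans (hsubρ.trans hsub))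
        (fun p hp q hq => hlipj p (hsub5 hp) q (hsub5 hq)) hR8 hκ1
        (by rw [hab']; exact htd) hne hpair
      obtain ⟨-, hzg⟩ := hall z hz c hzc hzext
      obtain ⟨-, hyg⟩ := hall y (mem_ball_self hd0) cy hycy hyext
      exact (sx2_local_vec he haz hzb hay hyb (Real.sqrt_nonneg _) hzg hyg).trans
        (sx2_local_near hK hbpos hbM hay hyb hwidth hκle)
    · have hε' := not_le.mp hε
      have h2 := sx2_local_far hK hbpos hbM hay hwidth hε'
      linarith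

/-- Local estimate for the gradient at maximum and minimum points of touching balls of radius
`R`, from the decay of the gap between Lipschitz constant and slopes. -/
theorem sx2_local [Nontrivial E] {u : E → ℝ} {Ω : Set E} (hΩ : IsOpen Ω)
    (hu : IsInfinityHarmonicOn u Ω)
    {y : E} {ρ₀ M₀ R K W : ℝ} (hρ₀ : 0 < ρ₀) (hM₀ : 0 < M₀) (hK : 4096 ≤ K)
    (hsub : ball y ρ₀ ⊆ Ω)
    (hlip : ∀ p ∈ ball y ρ₀, ∀ q ∈ ball y ρ₀, u q - u p ≤ M₀ * ‖q - p‖)
    (hρR : ρ₀ * K ≤ R) (j : ℕ)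
    (hW : W = (47 / 48 : ℝ) ^ j * M₀ + 48 * (1284 * M₀ / K)) :
    ∀ z ∈ ball y (ρ₀ / K ^ (j + 1)), ∀ c cy : E, ‖z - c‖ = R → ‖y - cy‖ = R →
      ((∀ w ∈ closedBall c R, u w ≤ u z) ∨ (∀ w ∈ closedBall c R, u z ≤ u w)) →
      ((∀ w ∈ closedBall cy R, u w ≤ u y) ∨ (∀ w ∈ closedBall cy R, u y ≤ u w)) →
      ‖gradient u z - gradient u y‖ ≤ W + 10 * √(2 * W * M₀) + 130 * M₀ / √K := by
  intro z hz c cy hzc hycy hzext hyext
  have hK0 : 0 < K := by linarith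
  have hK1 : 1 ≤ K := by linarith
  obtain ⟨a₀, b₀, ha0, hab, hbM, hlipj, hlow, hwidth⟩ :=
    sx2_iter hΩ hu hρ₀ hM₀ hK hsub hlip hρR j
  rw [← hW] at hwidth
  have hρj : 0 < ρ₀ / K ^ j := div_pos hρ₀ (pow_pos hK0 j)
  have hρle : ρ₀ / K ^ j ≤ ρ₀ := div_le_self hρ₀.le (one_le_pow₀ hK1)
  have hsucc : ρ₀ / K ^ (j + 1) = ρ₀ / K ^ j / K := by rw [pow_succ, div_div]
  rw [hsucc] at hz
  exact sx2_local_core hΩ hu hρj hρle hK hsub hρR ha0 hab hbM hlipj hlow hwidth hz hzc hycy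
    hzext hyext

end

end Vale.Agent.Lib.P080

namespace Vale.Agent.Lib.P080

open Filter Topology Set Metric

/-- Numerical part of the normalised statement: with `K = 2 ^ (2 n + 16)` and `96 n` scales the
local estimate is at most `200 / 2 ^ n`. -/
theorem sx2_unit_arith {n : ℕ} (_hn : 0 < n) :
    ((47 / 48 : ℝ) ^ (96 * n) * 8 + 48 * (1284 * 8 / (2 : ℝ) ^ (2 * n + 16)))
      + 10 * √(2 * ((47 / 48 : ℝ) ^ (96 * n) * 8
          + 48 * (1284 * 8 / (2 : ℝ) ^ (2 * n + 16))) * 8)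
      + 130 * 8 / √((2 : ℝ) ^ (2 * n + 16)) ≤ 200 / 2 ^ n := by
  have hK : (2 : ℝ) ^ (2 * n + 16) = 65536 * ((2 : ℝ) ^ n) ^ 2 := by
    rw [pow_add, pow_mul']
    ring
  have h48 : (47 / 48 : ℝ) ^ (96 * n) ≤ 1 / ((2 : ℝ) ^ n) ^ 2 := by
    have h1 : (47 / 48 : ℝ) ^ 48 ≤ 1 / 2 := by norm_num
    have h2 : (47 / 48 : ℝ) ^ (96 * n) = ((47 / 48 : ℝ) ^ 48) ^ (2 * n) := by
      rw [← pow_mul]
      congr 1
      ring
    rw [h2]
    calc ((47 / 48 : ℝ) ^ 48) ^ (2 * n) ≤ (1 / 2 : ℝ) ^ (2 * n) :=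
          pow_le_pow_left₀ (by positivity) h1 _
      _ = 1 / ((2 : ℝ) ^ n) ^ 2 := by rw [one_div_pow, pow_mul']
  rw [hK]
  obtain ⟨T, hT⟩ : ∃ T : ℝ, T = (2 : ℝ) ^ n := ⟨_, rfl⟩
  rw [← hT] at h48 ⊢
  have hT1 : 1 ≤ T := by rw [hT]; exact one_le_pow₀ (by norm_num)
  have hTpos : 0 < T := by linarith
  obtain ⟨W, hWdef⟩ : ∃ W : ℝ,
      W = (47 / 48 : ℝ) ^ (96 * n) * 8 + 48 * (1284 * 8 / (65536 * T ^ 2)) := ⟨_, rfl⟩
  rw [← hWdef]
  have hW0 : 0 ≤ W := by rw [hWdef]; positivity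
  have hWle : W ≤ 16 / T ^ 2 := by
    have hs : 48 * (1284 * 8 / (65536 * T ^ 2)) = 493056 / 65536 * (1 / T ^ 2) := by
      field_simp
      norm_num
    have hs0 : 0 ≤ 1 / T ^ 2 := by positivity
    have e16 : 16 / T ^ 2 = 16 * (1 / T ^ 2) := by ring
    rw [hWdef, hs, e16]
    linarith
  have hsqrtK : √(65536 * T ^ 2) = 256 * T := by
    have e : (65536 : ℝ) * T ^ 2 = (256 * T) ^ 2 := by ring
    rw [e, Real.sqrt_sq (by positivity)]
  have hsqrtW : √(2 * W * 8) ≤ 16 / T := by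
    have h4 : 2 * W * 8 ≤ (16 / T) ^ 2 := by
      have e : (16 / T) ^ 2 = 16 * (16 / T ^ 2) := by
        rw [div_pow]
        ring
      rw [e]
      linarith
    calc √(2 * W * 8) ≤ √((16 / T) ^ 2) := Real.sqrt_le_sqrt h4
      _ = 16 / T := Real.sqrt_sq (by positivity)
  rw [hsqrtK]
  have h5 : 16 / T ^ 2 ≤ 16 / T := by
    apply div_le_div_of_nonneg_left (by norm_num) hTpos
    nlinarith
  have h6 : 130 * 8 / (256 * T) = (1040 / 256) / T := by
    field_simp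
    norm_num
  have h8 : 16 / T + 160 / T + (1040 / 256) / T ≤ 200 / T := by
    rw [← add_div, ← add_div]
    apply div_le_div_of_nonneg_right _ hTpos.le
    norm_num
  have h7 : 10 * (16 / T) = 160 / T := by ring
  rw [h6]
  linarith

section

variable {E : Type*} [NormedAddCommGroup E] [InnerProductSpace ℝ E] [CompleteSpace E]
  [ProperSpace E]

/-- Explicit interior modulus of continuity `200 / 2 ^ n` at distance `R 2 ^ (-2000 n²)` for
the derivative of any infinity-harmonic function on the unit ball with `|u| ≤ 1`, along the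
maximum and minimum points of touching balls of radius `R`. -/
theorem sx2_unit {u : E → ℝ} (hu : IsInfinityHarmonicOn u (ball 0 1))
    (hbd : ∀ x ∈ ball (0 : E) 1, |u x| ≤ 1) {R : ℝ} (hR : 0 < R) (hR4 : R < 1 / 4)
    {x y : E} (hx : ‖x‖ ≤ 1 / 2) (hy : ‖y‖ ≤ 1 / 2)
    (hex : IsSummit u (ball 0 1) R x ∨ IsPit u (ball 0 1) R x)
    (hey : IsSummit u (ball 0 1) R y ∨ IsPit u (ball 0 1) R y) :
    DifferentiableAt ℝ u x ∧ DifferentiableAt ℝ u y ∧
      ∀ n : ℕ, 0 < n → ‖x - y‖ * 2 ^ (2000 * n ^ 2) < R →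
        ‖fderiv ℝ u x - fderiv ℝ u y‖ ≤ 200 / 2 ^ n := by
  have hdx : DifferentiableAt ℝ u x := differentiableAt_of_summit_or_pit isOpen_ball hu hR hex
  have hdy : DifferentiableAt ℝ u y := differentiableAt_of_summit_or_pit isOpen_ball hu hR hey
  have hlip : ∀ p ∈ ball (0 : E) (3 / 4), ∀ q ∈ ball (0 : E) (3 / 4),
      u q - u p ≤ 8 * ‖q - p‖ := by
    intro p hp q hq
    have hq1 : q ∈ ball (0 : E) 1 := refined_closedBall_sub hq (mem_closedBall_self (by norm_num))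
    have h1 := refined_sub_le_of_bounded hu hbd (r := 1 / 4) (by norm_num) (refined_closedBall_sub hp) hq1
    have e : (2 : ℝ) / (1 / 4) = 8 := by norm_num
    rw [e] at h1
    exact h1
  refine ⟨hdx, hdy, ?_⟩
  intro n hn hsmall
  obtain ⟨c, hc, hmx⟩ := refined_centre hex
  obtain ⟨c', hc', hmy⟩ := refined_centre hey
  have hnt : Nontrivial E := by
    refine ⟨⟨x, c, ?_⟩⟩
    intro h
    rw [h, sub_self, norm_zero] at hc
    linarith
  have hKpos : (0 : ℝ) < 2 ^ (2 * n + 16) := by positivity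
  have hK4096 : (4096 : ℝ) ≤ 2 ^ (2 * n + 16) := by
    calc (4096 : ℝ) = 2 ^ 12 := by norm_num
      _ ≤ 2 ^ (2 * n + 16) := pow_le_pow_right₀ (by norm_num) (by omega)
  have hK1 : (1 : ℝ) ≤ 2 ^ (2 * n + 16) := by linarith
  have hρ0 : 0 < R / 2 ^ (2 * n + 16) := div_pos hR hKpos
  have hρ14 : R / 2 ^ (2 * n + 16) < 1 / 4 := by
    have h1 : R / 2 ^ (2 * n + 16) ≤ R := div_le_self hR.le hK1
    linarith
  have hball34 : ball y (R / 2 ^ (2 * n + 16)) ⊆ ball (0 : E) (3 / 4) := by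
    intro p hp
    rw [mem_ball, dist_eq_norm] at hp
    rw [mem_ball, dist_zero_right]
    have h1 : ‖p‖ ≤ ‖p - y‖ + ‖y‖ := by
      have h2 := norm_add_le (p - y) y
      rw [sub_add_cancel] at h2
      exact h2
    linarith
  have hball1 : ball y (R / 2 ^ (2 * n + 16)) ⊆ ball (0 : E) 1 := fun p hp =>
    refined_closedBall_sub (hball34 hp) (mem_closedBall_self (by norm_num))
  have hρR : R / 2 ^ (2 * n + 16) * 2 ^ (2 * n + 16) ≤ R := by
    rw [div_mul_cancel₀ _ hKpos.ne']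
  have key := sx2_local isOpen_ball hu (y := y) (ρ₀ := R / 2 ^ (2 * n + 16)) (M₀ := 8) (R := R)
    (K := 2 ^ (2 * n + 16)) hρ0 (by norm_num) hK4096 hball1
    (fun p hp q hq => hlip p (hball34 hp) q (hball34 hq)) hρR (96 * n) rfl
  have hxmem : x ∈ ball y (R / 2 ^ (2 * n + 16) / (2 ^ (2 * n + 16)) ^ (96 * n + 1)) := by
    rw [mem_ball, dist_eq_norm, div_div, lt_div_iff₀ (by positivity)]
    have hpow : (2 : ℝ) ^ (2 * n + 16) * (2 ^ (2 * n + 16)) ^ (96 * n + 1)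
        ≤ 2 ^ (2000 * n ^ 2) := by
      rw [← pow_succ', ← pow_mul]
      apply pow_le_pow_right₀ (by norm_num)
      have h1 : n ≤ n ^ 2 := by nlinarith
      nlinarith
    calc ‖x - y‖ * ((2 : ℝ) ^ (2 * n + 16) * (2 ^ (2 * n + 16)) ^ (96 * n + 1))
        ≤ ‖x - y‖ * 2 ^ (2000 * n ^ 2) := mul_le_mul_of_nonneg_left hpow (norm_nonneg _)
      _ < R := hsmall
  have h := key x hxmem c c' hc hc' hmx hmy
  have e1 : ‖fderiv ℝ u x - fderiv ℝ u y‖ = ‖gradient u x - gradient u y‖ := by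
    rw [fderiv_eq_toDual u x, fderiv_eq_toDual u y, ← map_sub,
      LinearIsometryEquiv.norm_map]
  rw [e1]
  exact h.trans (sx2_unit_arith hn)

end

end Vale.Agent.Lib.P080
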