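import Mathlib
import Vale.Agent.Lib.P080.RefinedQC
import Vale.Agent.Lib.P080.RefinedSx

namespace Vale.Agent.Lib.P080

/-- From the dyadic form of a modulus (`δ ≤ C / 2 ^ n` as soon as `s 2 ^ (k n²) < 1`) to the
closed form `δ ≤ 2 C 2 ^ (-√(log₂ (1 / s) / k))`. -/
theorem refined_closed_form {δ s C : ℝ} {k : ℕ} (hk : 0 < k) (hs : 0 < s) (hs1 : s < 1)
    (hC0 : 0 ≤ C) (hC : δ ≤ C)
    (hn : ∀ n : ℕ, 0 < n → s * 2 ^ (k * n ^ 2) < 1 → δ ≤ C / 2 ^ n) :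
    δ ≤ 2 * C * (2 : ℝ) ^ (-√(Real.logb 2 (1 / s) / k)) := by
  obtain ⟨L, hLdef⟩ : ∃ L : ℝ, L = Real.logb 2 (1 / s) := ⟨_, rfl⟩
  obtain ⟨X, hXdef⟩ : ∃ X : ℝ, X = √(L / k) := ⟨_, rfl⟩
  rw [← hLdef, ← hXdef]
  have hkR : (0:ℝ) < k := Nat.cast_pos.mpr hk
  have hX0 : 0 ≤ X := by
    rw [hXdef]
    exact Real.sqrt_nonneg _
  have h2pos : (0:ℝ) < 2 := by norm_num
  have hinv : 1 < 1 / s := by
    rw [lt_div_iff₀ hs]
    linarith
  have hL0 : 0 < L := by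
    rw [hLdef]
    exact Real.logb_pos (by norm_num) hinv
  have hXsq : X ^ 2 = L / k := by
    rw [hXdef]
    exact Real.sq_sqrt (div_nonneg hL0.le hkR.le)
  have h2L : (2:ℝ) ^ L = 1 / s := by
    rw [hLdef]
    exact Real.rpow_logb h2pos (by norm_num) (by positivity)
  rcases le_or_gt X 1 with hX1 | hX1
  · have h1 : (2:ℝ) ^ (-(1:ℝ)) ≤ (2:ℝ) ^ (-X) :=
      Real.rpow_le_rpow_of_exponent_le (by norm_num) (by linarith)
    have h2 : (2:ℝ) ^ (-(1:ℝ)) = 1 / 2 := by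
      rw [Real.rpow_neg_one]
      norm_num
    rw [h2] at h1
    have h3 := mul_le_mul_of_nonneg_left h1 hC0
    linarith
  · obtain ⟨n, hndef⟩ : ∃ n : ℕ, n = ⌈X⌉₊ - 1 := ⟨_, rfl⟩
    have hceil2 : 2 ≤ ⌈X⌉₊ := by
      have h3 : 1 < ⌈X⌉₊ := Nat.lt_ceil.mpr (by exact_mod_cast hX1)
      omega
    have hn1 : 0 < n := by omega
    have hn_add : n + 1 = ⌈X⌉₊ := by omega
    have hnX : (n : ℝ) < X := by
      have h3 := Nat.ceil_lt_add_one hX0
      rw [← hn_add] at h3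
      push_cast at h3
      linarith
    have hXn : X ≤ (n : ℝ) + 1 := by
      have h3 := Nat.le_ceil X
      rw [← hn_add] at h3
      push_cast at h3
      exact h3
    have hkn : ((k * n ^ 2 : ℕ) : ℝ) < L := by
      have h4 : (n:ℝ) ^ 2 < X ^ 2 := by
        have hn0 : (0:ℝ) ≤ n := Nat.cast_nonneg n
        nlinarith
      rw [hXsq, lt_div_iff₀ hkR] at h4
      push_cast
      linarith
    have hpow : s * 2 ^ (k * n ^ 2) < 1 := by
      have h5 : (2:ℝ) ^ ((k * n ^ 2 : ℕ) : ℝ) < (2:ℝ) ^ L :=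
        Real.rpow_lt_rpow_of_exponent_lt (by norm_num) hkn
      rw [Real.rpow_natCast, h2L] at h5
      have h6 := mul_lt_mul_of_pos_left h5 hs
      rw [mul_one_div_cancel hs.ne'] at h6
      exact h6
    have hδ := hn n hn1 hpow
    have h7 : (2:ℝ) ^ (-((n:ℝ) + 1)) ≤ (2:ℝ) ^ (-X) :=
      Real.rpow_le_rpow_of_exponent_le (by norm_num) (by linarith)
    have h8 : (2:ℝ) ^ (-((n:ℝ) + 1)) = 1 / (2 * 2 ^ n) := by
      rw [Real.rpow_neg h2pos.le, ← Nat.cast_add_one, Real.rpow_natCast, pow_succ, one_div,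
        mul_comm]
    rw [h8] at h7
    have h9 : C / 2 ^ n = 2 * C * (1 / (2 * 2 ^ n)) := by
      rw [mul_one_div, mul_div_mul_left _ _ (two_ne_zero)]
    calc δ ≤ C / 2 ^ n := hδ
      _ = 2 * C * (1 / (2 * 2 ^ n)) := h9
      _ ≤ 2 * C * (2:ℝ) ^ (-X) := mul_le_mul_of_nonneg_left h7 (by linarith)

end Vale.Agent.Lib.P080

namespace Vale.Agent.Lib.P080

open Filter Topology Set Metric

section

variable {E : Type*} [NormedAddCommGroup E] [InnerProductSpace ℝ E] [CompleteSpace E]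
  [ProperSpace E]

/-- Interior gradient bound on the ball of radius `1/2` for `|u| ≤ 1` on the unit ball. -/
theorem refined_fderiv_le {u : E → ℝ} (hu : IsInfinityHarmonicOn u (ball 0 1))
    (hbd : ∀ x ∈ ball (0 : E) 1, |u x| ≤ 1) {z : E} (hz : ‖z‖ ≤ 1 / 2) :
    ‖fderiv ℝ u z‖ ≤ 8 := by
  have hlip : ∀ p ∈ ball (0 : E) (3 / 4), ∀ q ∈ ball (0 : E) (3 / 4),
      u q - u p ≤ 8 * ‖q - p‖ := by
    intro p hp q hq
    have hq1 : q ∈ ball (0 : E) 1 := refined_closedBall_sub hq (mem_closedBall_self (by norm_num))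
    have h1 := refined_sub_le_of_bounded hu hbd (r := 1 / 4) (by norm_num) (refined_closedBall_sub hp) hq1
    have e : (2 : ℝ) / (1 / 4) = 8 := by norm_num
    rw [e] at h1
    exact h1
  have hz34 : z ∈ ball (0 : E) (3 / 4) := by
    rw [mem_ball, dist_zero_right]
    linarith
  by_cases hd : DifferentiableAt ℝ u z
  · exact sx_fderiv_le_of_lip (by norm_num) hz34 hlip hd.hasFDerivAt
  · rw [fderiv_zero_of_not_differentiableAt hd, norm_zero]
    norm_num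

/-- The difference of two derivatives in the ball of radius `1/2` is at most `16`. -/
theorem refined_fderiv_sub_le {u : E → ℝ} (hu : IsInfinityHarmonicOn u (ball 0 1))
    (hbd : ∀ x ∈ ball (0 : E) 1, |u x| ≤ 1) {x y : E} (hx : ‖x‖ ≤ 1 / 2) (hy : ‖y‖ ≤ 1 / 2) :
    ‖fderiv ℝ u x - fderiv ℝ u y‖ ≤ 16 := by
  have h1 := refined_fderiv_le hu hbd hx
  have h2 := refined_fderiv_le hu hbd hy
  have h3 := norm_sub_le (fderiv ℝ u x) (fderiv ℝ u y)
  linarith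

/-- Closed form of the refined modulus for quasi-concave or quasi-convex infinity-harmonic
functions on the unit ball. -/
theorem refined_qc {u : E → ℝ} (hu : IsInfinityHarmonicOn u (ball 0 1))
    (hbd : ∀ x ∈ ball (0 : E) 1, |u x| ≤ 1)
    (hq : QuasiconcaveOn ℝ (ball (0 : E) 1) u ∨ QuasiconvexOn ℝ (ball (0 : E) 1) u)
    {x y : E} (hx : ‖x‖ ≤ 1 / 2) (hy : ‖y‖ ≤ 1 / 2) :
    DifferentiableAt ℝ u x ∧ DifferentiableAt ℝ u y ∧
      (0 < ‖x - y‖ → ‖x - y‖ < 1 / 4 →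
        ‖fderiv ℝ u x - fderiv ℝ u y‖
          ≤ 160 * (2 : ℝ) ^ (-√(Real.logb 2 (1 / (4 * ‖x - y‖)) / 8000))) := by
  obtain ⟨hdx, hdy, h⟩ := dini_unit hu hbd hq hx hy
  refine ⟨hdx, hdy, ?_⟩
  intro hpos hlt
  have h16 := refined_fderiv_sub_le hu hbd hx hy
  have hn' : ∀ n : ℕ, 0 < n → 4 * ‖x - y‖ * 2 ^ (8000 * n ^ 2) < 1 →
      ‖fderiv ℝ u x - fderiv ℝ u y‖ ≤ 80 / 2 ^ n := by
    intro n hn hsm
    apply h n hn
    have e : ‖x - y‖ * (4 * 2 ^ (8000 * n ^ 2)) = 4 * ‖x - y‖ * 2 ^ (8000 * n ^ 2) := by ring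
    rw [e]
    exact hsm
  have hs0 : 0 < 4 * ‖x - y‖ := by positivity
  have hs1 : 4 * ‖x - y‖ < 1 := by linarith
  have hC : ‖fderiv ℝ u x - fderiv ℝ u y‖ ≤ 80 := by linarith
  have key := refined_closed_form (k := 8000) (by norm_num) hs0 hs1 (by norm_num) hC hn'
  have e2 : (2 : ℝ) * 80 = 160 := by norm_num
  rw [e2] at key
  have e3 : ((8000 : ℕ) : ℝ) = 8000 := by norm_num
  rw [e3] at key
  exact key

/-- Closed form of the refined modulus along the maximum and minimum points of touching balls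
of radius `R`, for every infinity-harmonic function on the unit ball. -/
theorem refined_sx {u : E → ℝ} (hu : IsInfinityHarmonicOn u (ball 0 1))
    (hbd : ∀ x ∈ ball (0 : E) 1, |u x| ≤ 1) {R : ℝ} (hR : 0 < R) (hR4 : R < 1 / 4)
    {x y : E} (hx : ‖x‖ ≤ 1 / 2) (hy : ‖y‖ ≤ 1 / 2)
    (hex : IsSummit u (ball 0 1) R x ∨ IsPit u (ball 0 1) R x)
    (hey : IsSummit u (ball 0 1) R y ∨ IsPit u (ball 0 1) R y) :
    DifferentiableAt ℝ u x ∧ DifferentiableAt ℝ u y ∧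
      (0 < ‖x - y‖ → ‖x - y‖ < R →
        ‖fderiv ℝ u x - fderiv ℝ u y‖
          ≤ 400 * (2 : ℝ) ^ (-√(Real.logb 2 (R / ‖x - y‖) / 2000))) := by
  obtain ⟨hdx, hdy, h⟩ := sx2_unit hu hbd hR hR4 hx hy hex hey
  refine ⟨hdx, hdy, ?_⟩
  intro hpos hlt
  have h16 := refined_fderiv_sub_le hu hbd hx hy
  have hn' : ∀ n : ℕ, 0 < n → ‖x - y‖ / R * 2 ^ (2000 * n ^ 2) < 1 →
      ‖fderiv ℝ u x - fderiv ℝ u y‖ ≤ 200 / 2 ^ n := by
    intro n hn hsm
    apply h n hn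
    rw [div_mul_eq_mul_div, div_lt_one hR] at hsm
    exact hsm
  have hs0 : 0 < ‖x - y‖ / R := div_pos hpos hR
  have hs1 : ‖x - y‖ / R < 1 := (div_lt_one hR).mpr hlt
  have hC : ‖fderiv ℝ u x - fderiv ℝ u y‖ ≤ 200 := by linarith
  have key := refined_closed_form (k := 2000) (by norm_num) hs0 hs1 (by norm_num) hC hn'
  have e2 : (2 : ℝ) * 200 = 400 := by norm_num
  rw [e2] at key
  have e3 : ((2000 : ℕ) : ℝ) = 2000 := by norm_num
  rw [e3] at key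
  have e4 : 1 / (‖x - y‖ / R) = R / ‖x - y‖ := one_div_div _ _
  rw [e4] at key
  exact key

end

end Vale.Agent.Lib.P080
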