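import Mathlib
import Vale.Agent.Lib.P080.Slope

namespace Vale.Agent.Lib.P080

open Filter Topology Set Metric

/-- The geometric-series factor of the dyadic chain. -/
noncomputable def chainFactor (β : ℝ) : ℝ := √((2 : ℝ) ^ β) / (√((2 : ℝ) ^ β) - 1)

theorem chainFactor_pos {β : ℝ} (hβ : 0 < β) : 0 < chainFactor β := by
  have hQ1 := two_rpow_sqrt_gt_one hβ
  have : 0 < √((2 : ℝ) ^ β) - 1 := by linarith
  unfold chainFactor
  positivity

/-- The constant of the gradient Hölder estimate. -/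
noncomputable def holderConst (β H L ρ : ℝ) : ℝ :=
  5 * (H * (ρ / 2) ^ β) + H * (ρ / 4) ^ β + 27 * chainFactor β * √(2 * (H * (ρ / 4) ^ β) * L)
    + 3 * √(32 * (H * (ρ / 2) ^ β) * L) + 12 * L

theorem holderConst_nonneg {β H L ρ : ℝ} (hβ : 0 < β) (hH : 0 ≤ H) (hL : 0 ≤ L) (hρ : 0 < ρ) :
    0 ≤ holderConst β H L ρ := by
  have h1 : 0 ≤ (ρ / 2) ^ β := Real.rpow_nonneg (by positivity) β
  have h2 : 0 ≤ (ρ / 4) ^ β := Real.rpow_nonneg (by positivity) β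
  have h3 := (chainFactor_pos hβ).le
  unfold holderConst
  positivity

theorem scale_choice {β T ρ : ℝ} (hβ : 0 < β) (hρ : 0 < ρ) (hT0 : 0 < T) (hT1 : T ≤ 1) :
    0 < ρ / 4 * T ^ (1 - β / (1 + β)) ∧ ρ / 4 * T ^ (1 - β / (1 + β)) ≤ ρ / 4 ∧
    ρ / 4 * T = ρ / 4 * T ^ (1 - β / (1 + β)) * T ^ (β / (1 + β)) ∧
    (ρ / 4 * T ^ (1 - β / (1 + β))) ^ β = (ρ / 4) ^ β * T ^ (β / (1 + β)) ∧
    (2 * (ρ / 4 * T ^ (1 - β / (1 + β)))) ^ β = (ρ / 2) ^ β * T ^ (β / (1 + β)) ∧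
    0 < T ^ (β / (1 + β)) ∧ T ^ (β / (1 + β)) ≤ 1 := by
  have h1β : 0 < 1 + β := by linarith
  set θ := β / (1 + β) with hθ
  have hθ0 : 0 < θ := div_pos hβ h1β
  have hθ1 : θ < 1 := by
    rw [hθ, div_lt_one h1β]; linarith
  have hp : 0 < T ^ (1 - θ) := Real.rpow_pos_of_pos hT0 _
  have hp1 : T ^ (1 - θ) ≤ 1 := Real.rpow_le_one hT0.le hT1 (by linarith)
  have hW : 0 < T ^ θ := Real.rpow_pos_of_pos hT0 _
  have hW1 : T ^ θ ≤ 1 := Real.rpow_le_one hT0.le hT1 hθ0.le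
  have hmul : T ^ (1 - θ) * T ^ θ = T := by
    rw [← Real.rpow_add hT0]
    have : 1 - θ + θ = 1 := by ring
    rw [this, Real.rpow_one]
  have hexp : (1 - θ) * β = θ := by
    rw [hθ]; field_simp; ring
  have hpow : (T ^ (1 - θ)) ^ β = T ^ θ := by
    rw [← Real.rpow_mul hT0.le, hexp]
  refine ⟨by positivity, ?_, ?_, ?_, ?_, hW, hW1⟩
  · have : ρ / 4 * T ^ (1 - θ) ≤ ρ / 4 * 1 := mul_le_mul_of_nonneg_left hp1 (by positivity)
    linarith
  · rw [mul_assoc, hmul]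
  · rw [Real.mul_rpow (by positivity) hp.le, hpow]
  · have e : 2 * (ρ / 4 * T ^ (1 - θ)) = ρ / 2 * T ^ (1 - θ) := by ring
    rw [e, Real.mul_rpow (by positivity) hp.le, hpow]

section

variable {E : Type*} [NormedAddCommGroup E] [InnerProductSpace ℝ E] [CompleteSpace E]
  [ProperSpace E]

/-- Estimate for the gradient difference of two nearby points in terms of an auxiliary
scale `r`. -/
theorem pair_estimate {u : E → ℝ} {Ω : Set E} (hu : IsInfinityHarmonicOn u Ω)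
    (hdiff : ∀ y ∈ Ω, DifferentiableAt ℝ u y) {x x' : E} {ρ' β H L r : ℝ}
    (hsub : ball x ρ' ⊆ Ω) (hβ : 0 < β) (hH0 : 0 ≤ H)
    (hH : ∀ y ∈ ball x ρ', ∀ z ∈ ball x ρ',
      |‖fderiv ℝ u y‖ - ‖fderiv ℝ u z‖| ≤ H * ‖y - z‖ ^ β)
    (hL : ∀ y ∈ ball x ρ', ‖fderiv ℝ u y‖ ≤ L)
    (hr : 0 < r) (hr1 : 2 * r < ρ') (hx1 : ‖x' - x‖ ≤ r) (hne : x' ≠ x) :
    ‖gradient u x' - gradient u x‖ ≤ 5 * (H * (2 * r) ^ β) + H * ‖x' - x‖ ^ β
      + 27 * chainFactor β * √(2 * (H * r ^ β) * L)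
      + 3 * √(32 * (H * (2 * r) ^ β) * L) + 12 * L * √(‖x' - x‖ / r) := by
  set s := ‖fderiv ℝ u x‖ with hs
  set s' := ‖fderiv ℝ u x'‖ with hs'
  set η := H * (2 * r) ^ β with hη
  set δ := ‖x' - x‖ with hδ
  set F := chainFactor β with hFdef
  have hF : 0 < F := chainFactor_pos hβ
  have hδpos : 0 < δ := norm_pos_iff.mpr (sub_ne_zero.mpr hne)
  have hxb : x ∈ ball x ρ' := mem_ball_self (by linarith)
  have hx'b : x' ∈ ball x ρ' := by
    rw [mem_ball, dist_eq_norm]; linarith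
  have hS := hH x' hx'b x hxb
  have h2r : 0 ≤ (2 * r) ^ β := Real.rpow_nonneg (by positivity) β
  have hrβ : 0 ≤ r ^ β := Real.rpow_nonneg hr.le β
  have hη0 : 0 ≤ η := by positivity
  have hδβ : H * δ ^ β ≤ η :=
    mul_le_mul_of_nonneg_left (Real.rpow_le_rpow (norm_nonneg _) (by linarith) hβ.le) hH0
  have hL0 : 0 ≤ L := (norm_nonneg _).trans (hL x hxb)
  have hδβ0 : 0 ≤ H * δ ^ β := mul_nonneg hH0 (Real.rpow_nonneg hδpos.le β)
  have t3 : 0 ≤ 27 * F * √(2 * (H * r ^ β) * L) := by positivity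
  have t4 : 0 ≤ 3 * √(32 * η * L) := by positivity
  have t5 : 0 ≤ 12 * L * √(δ / r) := by positivity
  by_cases hcase : s ≤ 2 * η
  · have h1 : ‖gradient u x' - gradient u x‖ ≤ s' + s := by
      calc ‖gradient u x' - gradient u x‖ ≤ ‖gradient u x'‖ + ‖gradient u x‖ := norm_sub_le _ _
        _ = s' + s := by rw [gradient_norm, gradient_norm]
    have h2 : s' ≤ s + η := by
      have := (abs_le.mp hS).2
      linarith
    linarith
  · rw [not_le] at hcase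
    have hpos : 0 < s := lt_of_le_of_lt (by positivity : 0 ≤ 2 * η) hcase
    set A := 9 * √(2 * (H * r ^ β) / s) * F with hA
    set B := √(32 * η / s) with hB
    set C := √(16 * δ / r) with hC
    set ε₁ := max A (max B C) with hε₁def
    have hCpos : 0 < C := Real.sqrt_pos.mpr (by positivity)
    have hA0 : 0 ≤ A := by positivity
    have hB0 : 0 ≤ B := Real.sqrt_nonneg _
    have hBε : B ≤ ε₁ := (le_max_left _ _).trans (le_max_right _ _)
    have hCε : C ≤ ε₁ := (le_max_right _ _).trans (le_max_right _ _)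
    have hε₁ : 0 < ε₁ := lt_of_lt_of_le hCpos hCε
    have hr2 : H * (2 * r) ^ β ≤ s / 2 := by linarith
    have hr3 : 9 * √(2 * (H * r ^ β) / s) * (√((2 : ℝ) ^ β) / (√((2 : ℝ) ^ β) - 1)) ≤ ε₁ :=
      le_max_left _ _
    have hr4 : 16 * (H * (2 * r) ^ β) / s ≤ ε₁ ^ 2 / 2 := by
      have h1 : B ^ 2 ≤ ε₁ ^ 2 := pow_le_pow_left₀ hB0 hBε 2
      have h2 : B ^ 2 = 32 * η / s := Real.sq_sqrt (by positivity)
      have h3 : 16 * η / s = 32 * η / s / 2 := by ring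
      rw [h3]; linarith
    have hx2 : 8 * δ / r ≤ ε₁ ^ 2 / 2 := by
      have h1 : C ^ 2 ≤ ε₁ ^ 2 := pow_le_pow_left₀ hCpos.le hCε 2
      have h2 : C ^ 2 = 16 * δ / r := Real.sq_sqrt (by positivity)
      have h3 : 8 * δ / r = 16 * δ / r / 2 := by ring
      rw [h3]; linarith
    obtain ⟨hposx', hclose⟩ := gdir_close hu hdiff hsub hβ hH0 hH hpos hr hr1 hr2 hr3 hr4 hε₁
      hx1 hx2
    have hεsum : ε₁ ≤ A + B + C :=
      max_le (by linarith) (max_le (by linarith) (by linarith))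
    have hsL : s ≤ L := hL x hxb
    have key : ∀ X : ℝ, 0 ≤ X → s * √(X / s) ≤ √(X * L) := by
      intro X hX
      have h2 : X * s = s ^ 2 * (X / s) := by field_simp
      have h1 : s * √(X / s) = √(X * s) := by
        rw [h2, Real.sqrt_mul (sq_nonneg s), Real.sqrt_sq hpos.le]
      rw [h1]
      exact Real.sqrt_le_sqrt (mul_le_mul_of_nonneg_left hsL hX)
    have hsA : s * A ≤ 9 * F * √(2 * (H * r ^ β) * L) := by
      have h1 := key (2 * (H * r ^ β)) (by positivity)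
      calc s * A = 9 * F * (s * √(2 * (H * r ^ β) / s)) := by rw [hA]; ring
        _ ≤ 9 * F * √(2 * (H * r ^ β) * L) := mul_le_mul_of_nonneg_left h1 (by positivity)
    have hsB : s * B ≤ √(32 * η * L) := key (32 * η) (by positivity)
    have hsC : s * C ≤ 4 * L * √(δ / r) := by
      have h1 : C = 4 * √(δ / r) := by
        have h2 : 16 * δ / r = 4 ^ 2 * (δ / r) := by ring
        rw [hC, h2, Real.sqrt_mul (by positivity), Real.sqrt_sq (by norm_num)]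
      rw [h1]
      have := Real.sqrt_nonneg (δ / r)
      nlinarith
    rw [gradient_eq_smul_gdir hposx', gradient_eq_smul_gdir hpos]
    have e : s' • gdir u x' - s • gdir u x
        = (s' - s) • gdir u x' + s • (gdir u x' - gdir u x) := by
      rw [sub_smul, smul_sub]; abel
    rw [e]
    have hn : ‖(s' - s) • gdir u x' + s • (gdir u x' - gdir u x)‖
        ≤ |s' - s| + s * ‖gdir u x' - gdir u x‖ := by
      calc ‖(s' - s) • gdir u x' + s • (gdir u x' - gdir u x)‖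
          ≤ ‖(s' - s) • gdir u x'‖ + ‖s • (gdir u x' - gdir u x)‖ := norm_add_le _ _
        _ = |s' - s| + s * ‖gdir u x' - gdir u x‖ := by
            rw [norm_smul, norm_smul, gdir_norm hposx', mul_one, Real.norm_eq_abs,
              Real.norm_eq_abs, abs_of_pos hpos]
    have hdir : s * ‖gdir u x' - gdir u x‖ ≤ s * (3 * (A + B + C)) :=
      mul_le_mul_of_nonneg_left (hclose.trans (by linarith)) hpos.le
    linarith

/-- Interior Hölder estimate for the gradient in terms of a Hölder bound for the slope. -/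
theorem grad_holder_est {u : E → ℝ} {Ω : Set E} (hu : IsInfinityHarmonicOn u Ω)
    (hdiff : ∀ y ∈ Ω, DifferentiableAt ℝ u y) {x₀ : E} {ρ β H L : ℝ} (hρ : 0 < ρ)
    (hβ : 0 < β) (hH0 : 0 ≤ H) (hsub : ball x₀ ρ ⊆ Ω)
    (hH : ∀ y ∈ ball x₀ ρ, ∀ z ∈ ball x₀ ρ,
      |‖fderiv ℝ u y‖ - ‖fderiv ℝ u z‖| ≤ H * ‖y - z‖ ^ β)
    (hL : ∀ y ∈ ball x₀ ρ, ‖fderiv ℝ u y‖ ≤ L)
    {x x' : E} (hx : x ∈ ball x₀ (ρ / 8)) (hx' : x' ∈ ball x₀ (ρ / 8)) :
    ‖gradient u x' - gradient u x‖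
      ≤ holderConst β H L ρ * (4 * ‖x' - x‖ / ρ) ^ (β / (2 * (1 + β))) := by
  have hL0 : 0 ≤ L := (norm_nonneg _).trans (hL x₀ (mem_ball_self hρ))
  have hC0 := holderConst_nonneg hβ hH0 hL0 hρ
  by_cases hne : x' = x
  · rw [hne, sub_self, norm_zero]
    exact mul_nonneg hC0 (Real.rpow_nonneg (by positivity) _)
  set δ := ‖x' - x‖ with hδ
  have hδpos : 0 < δ := norm_pos_iff.mpr (sub_ne_zero.mpr hne)
  rw [mem_ball, dist_eq_norm] at hx hx'
  have hδlt : δ < ρ / 4 := by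
    have e : x' - x = (x' - x₀) - (x - x₀) := by abel
    have := norm_sub_le (x' - x₀) (x - x₀)
    rw [← e] at this
    linarith
  set T := 4 * δ / ρ with hT
  have hT0 : 0 < T := by positivity
  have hT1 : T ≤ 1 := by
    rw [hT, div_le_one hρ]; linarith
  obtain ⟨hr, hrρ, hδr, hrβ, h2rβ, hW0, hW1⟩ := scale_choice hβ hρ hT0 hT1
  set r := ρ / 4 * T ^ (1 - β / (1 + β)) with hrdef
  set W := T ^ (β / (1 + β)) with hWdef
  have hδeq : δ = r * W := by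
    rw [← hδr, hT]; field_simp
  have hδr' : δ ≤ r := by
    rw [hδeq]
    have := mul_le_mul_of_nonneg_left hW1 hr.le
    linarith
  have hsub' : ball x (3 * ρ / 4) ⊆ Ω := by
    intro y hy
    apply hsub
    rw [mem_ball] at hy ⊢
    have := dist_triangle y x x₀
    rw [dist_eq_norm x x₀] at this
    linarith
  have hsubb : ball x (3 * ρ / 4) ⊆ ball x₀ ρ := by
    intro y hy
    rw [mem_ball] at hy ⊢
    have := dist_triangle y x x₀
    rw [dist_eq_norm x x₀] at this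
    linarith
  have hH' : ∀ y ∈ ball x (3 * ρ / 4), ∀ z ∈ ball x (3 * ρ / 4),
      |‖fderiv ℝ u y‖ - ‖fderiv ℝ u z‖| ≤ H * ‖y - z‖ ^ β :=
    fun y hy z hz => hH y (hsubb hy) z (hsubb hz)
  have hL' : ∀ y ∈ ball x (3 * ρ / 4), ‖fderiv ℝ u y‖ ≤ L := fun y hy => hL y (hsubb hy)
  have hpair := pair_estimate hu hdiff hsub' hβ hH0 hH' hL' hr (by linarith) hδr' hne
  rw [← hδ, hrβ, h2rβ] at hpair
  have hdr : δ / r = W := by
    rw [hδeq]; field_simp
  rw [hdr] at hpair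
  have hρ2 : 0 ≤ (ρ / 2) ^ β := Real.rpow_nonneg (by positivity) β
  have hρ4 : 0 ≤ (ρ / 4) ^ β := Real.rpow_nonneg (by positivity) β
  have hF := (chainFactor_pos hβ).le
  have hsW : W ≤ √W := by
    rw [Real.le_sqrt' hW0]
    nlinarith
  have hsW0 : 0 ≤ √W := Real.sqrt_nonneg _
  have hδβ : H * δ ^ β ≤ H * (ρ / 4) ^ β * √W := by
    have h1 : δ ^ β ≤ r ^ β := Real.rpow_le_rpow hδpos.le hδr' hβ.le
    rw [hrβ] at h1
    have h2 : H * δ ^ β ≤ H * ((ρ / 4) ^ β * W) := mul_le_mul_of_nonneg_left h1 hH0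
    have h3 : H * ((ρ / 4) ^ β * W) ≤ H * ((ρ / 4) ^ β * √W) :=
      mul_le_mul_of_nonneg_left (mul_le_mul_of_nonneg_left hsW hρ4) hH0
    linarith
  have e1 : √(2 * (H * ((ρ / 4) ^ β * W)) * L) = √(2 * (H * (ρ / 4) ^ β) * L) * √W := by
    rw [← Real.sqrt_mul (by positivity)]
    congr 1; ring
  have e2 : √(32 * (H * ((ρ / 2) ^ β * W)) * L) = √(32 * (H * (ρ / 2) ^ β) * L) * √W := by
    rw [← Real.sqrt_mul (by positivity)]
    congr 1; ring
  rw [e1, e2] at hpair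
  have e3 : 5 * (H * ((ρ / 2) ^ β * W)) ≤ 5 * (H * (ρ / 2) ^ β) * √W := by
    have : H * ((ρ / 2) ^ β * W) ≤ H * ((ρ / 2) ^ β * √W) :=
      mul_le_mul_of_nonneg_left (mul_le_mul_of_nonneg_left hsW hρ2) hH0
    linarith
  have e4 : (4 * δ / ρ) ^ (β / (2 * (1 + β))) = √W := by
    rw [Real.sqrt_eq_rpow, hWdef, ← Real.rpow_mul hT0.le]
    congr 1
    have : (1 : ℝ) + β ≠ 0 := by linarith
    field_simp
  rw [e4]
  unfold holderConst
  have expand : (5 * (H * (ρ / 2) ^ β) + H * (ρ / 4) ^ β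
      + 27 * chainFactor β * √(2 * (H * (ρ / 4) ^ β) * L)
      + 3 * √(32 * (H * (ρ / 2) ^ β) * L) + 12 * L) * √W
      = 5 * (H * (ρ / 2) ^ β) * √W + H * (ρ / 4) ^ β * √W
        + 27 * chainFactor β * (√(2 * (H * (ρ / 4) ^ β) * L) * √W)
        + 3 * (√(32 * (H * (ρ / 2) ^ β) * L) * √W) + 12 * L * √W := by ring
  rw [expand]
  linarith

omit [ProperSpace E] in
theorem IsInfinityHarmonicOn.mono {u : E → ℝ} {Ω Ω' : Set E} (hu : IsInfinityHarmonicOn u Ω)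
    (h : Ω' ⊆ Ω) : IsInfinityHarmonicOn u Ω' :=
  ⟨hu.1.mono h, fun φ z hz => hu.2.1 φ z (h hz), fun φ z hz => hu.2.2 φ z (h hz)⟩

theorem sqrt_mul_le_half_add {a b : ℝ} (ha : 0 ≤ a) (hb : 0 ≤ b) : √(a * b) ≤ (a + b) / 2 := by
  rw [Real.sqrt_le_iff]
  exact ⟨by positivity, by nlinarith [sq_nonneg (a - b)]⟩

theorem holderConst_le {β H L ρ : ℝ} (hβ : 0 < β) (hH : 0 ≤ H) (hL : 0 ≤ L) (hρ : 0 < ρ) :
    holderConst β H L ρ ≤ (54 + 27 * chainFactor β) * (H * ρ ^ β + L) := by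
  have hF := (chainFactor_pos hβ).le
  have h2 : (ρ / 2) ^ β ≤ ρ ^ β := Real.rpow_le_rpow (by positivity) (by linarith) hβ.le
  have h4 : (ρ / 4) ^ β ≤ ρ ^ β := Real.rpow_le_rpow (by positivity) (by linarith) hβ.le
  have h20 : 0 ≤ (ρ / 2) ^ β := Real.rpow_nonneg (by positivity) β
  have h40 : 0 ≤ (ρ / 4) ^ β := Real.rpow_nonneg (by positivity) β
  have hρβ : 0 ≤ ρ ^ β := Real.rpow_nonneg hρ.le β
  set m := H * ρ ^ β with hm
  set a := H * (ρ / 2) ^ β with ha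
  set b := H * (ρ / 4) ^ β with hb
  have ham : a ≤ m := mul_le_mul_of_nonneg_left h2 hH
  have hbm : b ≤ m := mul_le_mul_of_nonneg_left h4 hH
  have ha0 : 0 ≤ a := by positivity
  have hb0 : 0 ≤ b := by positivity
  have hm0 : 0 ≤ m := by positivity
  have e1 : √(2 * b * L) ≤ (2 * b + L) / 2 := sqrt_mul_le_half_add (by positivity) hL
  have e2 : √(32 * a * L) ≤ (32 * a + L) / 2 := sqrt_mul_le_half_add (by positivity) hL
  have e3 : 27 * chainFactor β * √(2 * b * L) ≤ 27 * chainFactor β * ((2 * b + L) / 2) :=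
    mul_le_mul_of_nonneg_left e1 (by positivity)
  have e4 : chainFactor β * b ≤ chainFactor β * m := mul_le_mul_of_nonneg_left hbm hF
  have e5 : 0 ≤ chainFactor β * L := by positivity
  unfold holderConst
  rw [← ha, ← hb]
  nlinarith

theorem four_rpow_le_two {α : ℝ} (hα : α ≤ 1 / 2) : (4 : ℝ) ^ α ≤ 2 := by
  have h1 : (4 : ℝ) ^ α ≤ (4 : ℝ) ^ ((1 : ℝ) / 2) :=
    Real.rpow_le_rpow_of_exponent_le (by norm_num) hα
  have h2 : (4 : ℝ) ^ ((1 : ℝ) / 2) = 2 := by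
    rw [← Real.sqrt_eq_rpow]
    have : (4 : ℝ) = 2 ^ 2 := by norm_num
    rw [this, Real.sqrt_sq (by norm_num)]
  linarith

/-- Interior `C^{1,α}` estimate from a Hölder bound on the slope, with an explicit constant
that does not depend on the dimension. -/
theorem interior_estimate {u : E → ℝ} {Ω : Set E} (hu : IsInfinityHarmonicOn u Ω)
    (hdiff : ∀ y ∈ Ω, DifferentiableAt ℝ u y) {x₀ : E} {ρ β H L : ℝ} (hρ : 0 < ρ)
    (hβ : 0 < β) (hH0 : 0 ≤ H) (hsub : ball x₀ ρ ⊆ Ω)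
    (hH : ∀ y ∈ ball x₀ ρ, ∀ z ∈ ball x₀ ρ,
      |‖fderiv ℝ u y‖ - ‖fderiv ℝ u z‖| ≤ H * ‖y - z‖ ^ β)
    (hL : ∀ y ∈ ball x₀ ρ, ‖fderiv ℝ u y‖ ≤ L) :
    ContDiffOn ℝ 1 u (ball x₀ ρ) ∧
    ∀ x ∈ ball x₀ (ρ / 8), ∀ y ∈ ball x₀ (ρ / 8),
      ‖gradient u x - gradient u y‖
        ≤ (108 + 54 * chainFactor β) * (H * ρ ^ β + L)
          * (‖x - y‖ / ρ) ^ (β / (2 * (1 + β))) := by
  have hL0 : 0 ≤ L := (norm_nonneg _).trans (hL x₀ (mem_ball_self hρ))
  refine ⟨?_, ?_⟩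
  · apply contDiffOn_of_holder_slope isOpen_ball (hu.mono hsub)
      (fun x hx => hdiff x (hsub hx))
    intro x₁ hx₁
    rw [mem_ball] at hx₁
    refine ⟨ρ - dist x₁ x₀, by linarith, β, hβ, H, fun x hx y hy => ?_⟩
    have hsubb : ball x₁ (ρ - dist x₁ x₀) ⊆ ball x₀ ρ := by
      intro z hz
      rw [mem_ball] at hz ⊢
      have := dist_triangle z x₁ x₀
      linarith
    exact hH x (hsubb hx) y (hsubb hy)
  · intro x hx y hy
    have h1 := grad_holder_est hu hdiff hρ hβ hH0 hsub hH hL hy hx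
    have h2 := holderConst_le hβ hH0 hL0 hρ
    have hρβ : 0 ≤ ρ ^ β := Real.rpow_nonneg hρ.le β
    have hF := (chainFactor_pos hβ).le
    set α := β / (2 * (1 + β)) with hα
    have hα0 : 0 < α := by
      rw [hα]; positivity
    have hα1 : α ≤ 1 / 2 := by
      rw [hα, div_le_div_iff₀ (by positivity) (by norm_num)]
      nlinarith
    have e1 : (4 * ‖x - y‖ / ρ) ^ α = (4 : ℝ) ^ α * (‖x - y‖ / ρ) ^ α := by
      rw [mul_div_assoc, Real.mul_rpow (by norm_num) (by positivity)]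
    have h3 := four_rpow_le_two hα1
    have hq : 0 ≤ (‖x - y‖ / ρ) ^ α := Real.rpow_nonneg (by positivity) α
    have h40 : 0 ≤ (4 : ℝ) ^ α := Real.rpow_nonneg (by norm_num) α
    have hK0 : 0 ≤ (54 + 27 * chainFactor β) * (H * ρ ^ β + L) := by positivity
    calc ‖gradient u x - gradient u y‖
        ≤ holderConst β H L ρ * (4 * ‖x - y‖ / ρ) ^ α := h1
      _ = holderConst β H L ρ * ((4 : ℝ) ^ α * (‖x - y‖ / ρ) ^ α) := by rw [e1]
      _ ≤ (54 + 27 * chainFactor β) * (H * ρ ^ β + L) * (2 * (‖x - y‖ / ρ) ^ α) :=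
          mul_le_mul h2 (mul_le_mul_of_nonneg_right h3 hq) (by positivity) hK0
      _ = (108 + 54 * chainFactor β) * (H * ρ ^ β + L) * (‖x - y‖ / ρ) ^ α := by ring

end

end Vale.Agent.Lib.P080
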