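import Mathlib
import Vale.Agent.Lib.P080.SxScale

namespace Vale.Agent.Lib.P080

open Filter Topology Set Metric

section

variable {E : Type*} [NormedAddCommGroup E] [InnerProductSpace ℝ E] [CompleteSpace E]
  [ProperSpace E]

omit [ProperSpace E] in
/-- The gradient at a point of a ball on which `u` is `L`-Lipschitz has norm at most `L`. -/
theorem sx_grad_le_of_lip {u : E → ℝ} {y z : E} {ρ L : ℝ} (hL : 0 ≤ L)
    (hlip : ∀ p ∈ ball y ρ, ∀ q ∈ ball y ρ, u q - u p ≤ L * ‖q - p‖) (hz : z ∈ ball y ρ) :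
    ‖gradient u z‖ ≤ L := by
  rw [gradient_norm]
  by_cases hd : DifferentiableAt ℝ u z
  · exact sx_fderiv_le_of_lip hL hz hlip hd.hasFDerivAt
  · rw [fderiv_zero_of_not_differentiableAt hd, norm_zero]
    exact hL

omit [InnerProductSpace ℝ E] [CompleteSpace E] [ProperSpace E] in
/-- `20 √3 ≤ 35`. -/
theorem sx_sqrt_three : 20 * √(3 : ℝ) ≤ 35 := by
  have h : √(3 : ℝ) ≤ 7 / 4 := by
    rw [show (7 / 4 : ℝ) = √((7 / 4) ^ 2) from (Real.sqrt_sq (by norm_num)).symm]
    exact Real.sqrt_le_sqrt (by norm_num)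
  linarith

/-- One step of the induction: at a scale where the Lipschitz constant `L` is nearly attained
on the next ball, the gradients at ball-extremal points of the next ball nearly agree. -/
theorem sx_step [Nontrivial E] {u : E → ℝ} {Ω : Set E} (hΩ : IsOpen Ω)
    (hu : IsInfinityHarmonicOn u Ω)
    {y p q : E} {ρk Kc L R N : ℝ} (hρk : 0 < ρk) (hL : 0 < L) (hN : 2 ≤ N)
    (hKc : Kc = 160 * N ^ 2) (hsub : ball y ρk ⊆ Ω)
    (hlip : ∀ p ∈ ball y ρk, ∀ q ∈ ball y ρk, u q - u p ≤ L * ‖q - p‖)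
    (hρR : ρk * N ^ 2 ≤ R)
    (hp : p ∈ ball y (ρk / Kc)) (hq : q ∈ ball y (ρk / Kc)) (hne : q ≠ p)
    (hpair : (1 - 1 / N ^ 2) * L * ‖q - p‖ ≤ u q - u p) :
    ∀ z ∈ ball y (ρk / Kc), ∀ z' ∈ ball y (ρk / Kc),
      ∀ c c' : E, ‖z - c‖ = R → ‖z' - c'‖ = R →
      ((∀ w ∈ closedBall c R, u w ≤ u z) ∨ (∀ w ∈ closedBall c R, u z ≤ u w)) →
      ((∀ w ∈ closedBall c' R, u w ≤ u z') ∨ (∀ w ∈ closedBall c' R, u z' ≤ u w)) →
      ‖gradient u z - gradient u z'‖ ≤ 35 * L / N := by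
  have hN0 : 0 < N := by linarith
  have hN2 : 4 ≤ N ^ 2 := by nlinarith
  have hKc0 : 0 < Kc := by rw [hKc]; positivity
  have hKc2 : 2 ≤ Kc := by rw [hKc]; nlinarith
  have hR0 : 0 < R := lt_of_lt_of_le (by positivity) hρR
  have hρkR : ρk ≤ R / N ^ 2 := by
    rw [le_div_iff₀ (by positivity)]
    exact hρR
  have hρkR' : ρk ≤ R := by nlinarith
  have hpd : dist p y < ρk / Kc := mem_ball.mp hp
  have hqd : dist q y < ρk / Kc := mem_ball.mp hq
  have hhalf : ρk / Kc ≤ ρk / 2 := div_le_div_of_nonneg_left hρk.le (by norm_num) hKc2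
  have hsub1 : ball p (5 * (ρk / 10)) ⊆ ball y ρk := by
    intro w hw
    rw [mem_ball] at hw ⊢
    have h3 : dist w y ≤ dist w p + dist p y := dist_triangle _ _ _
    linarith
  have hκe : 1 / N ^ 2 + 8 * (2 * (ρk / Kc)) / (ρk / 10) + 8 * (ρk / 10) / R
      ≤ 3 / N ^ 2 := by
    have e1 : 8 * (2 * (ρk / Kc)) / (ρk / 10) = 1 / N ^ 2 := by
      rw [hKc]
      field_simp
      ring
    have e2 : 8 * (ρk / 10) / R ≤ 1 / N ^ 2 := by
      rw [div_le_div_iff₀ hR0 (by positivity)]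
      nlinarith
    rw [e1]
    have e3 : (3 : ℝ) / N ^ 2 = 1 / N ^ 2 + 1 / N ^ 2 + 1 / N ^ 2 := by ring
    linarith
  have hκ1 : 1 / N ^ 2 + 8 * (2 * (ρk / Kc)) / (ρk / 10) + 8 * (ρk / 10) / R ≤ 1 := by
    refine hκe.trans ?_
    rw [div_le_one (by positivity)]
    linarith
  have hκ0 : 0 ≤ 1 / N ^ 2 + 8 * (2 * (ρk / Kc)) / (ρk / 10) + 8 * (ρk / 10) / R := by
    positivity
  have hqp : ‖q - p‖ < 2 * (ρk / Kc) := by
    rw [← dist_eq_norm]
    have h3 : dist q p ≤ dist q y + dist y p := dist_triangle _ _ _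
    rw [dist_comm y p] at h3
    linarith
  obtain ⟨e, he, hball⟩ := sx_one_scale hΩ hu (a := q) (b := p) (r := ρk / 10)
    (d := 2 * (ρk / Kc)) (L := L) (ε := 1 / N ^ 2) (R := R)
    (by positivity) (by positivity) hL (by positivity) (hsub1.trans hsub)
    (fun a ha b hb => hlip a (hsub1 ha) b (hsub1 hb)) (by linarith) hκ1 hqp hne hpair
  have hsq : √(1 / N ^ 2 + 8 * (2 * (ρk / Kc)) / (ρk / 10) + 8 * (ρk / 10) / R)
      ≤ √3 / N := by
    have h1 : √(3 / N ^ 2) = √3 / N := by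
      rw [Real.sqrt_div (by norm_num), Real.sqrt_sq hN0.le]
    rw [← h1]
    exact Real.sqrt_le_sqrt hκe
  intro z hz z' hz' c c' hzc hzc' hext hext'
  have hzb : ∀ w ∈ ball y (ρk / Kc), w ∈ ball p (2 * (ρk / Kc)) := by
    intro w hw
    rw [mem_ball] at hw ⊢
    have h3 : dist w p ≤ dist w y + dist y p := dist_triangle _ _ _
    rw [dist_comm y p] at h3
    linarith
  have g1 := hball z (hzb z hz) c hzc hext
  have g2 := hball z' (hzb z' hz') c' hzc' hext'
  have e2 : ‖gradient u z - gradient u z'‖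
      ≤ ‖gradient u z - L • e‖ + ‖gradient u z' - L • e‖ := by
    have e0 : gradient u z - gradient u z'
        = (gradient u z - L • e) - (gradient u z' - L • e) := by abel
    rw [e0]
    exact norm_sub_le _ _
  have h3 := sx_sqrt_three
  have h4 : 10 * L * √(1 / N ^ 2 + 8 * (2 * (ρk / Kc)) / (ρk / 10) + 8 * (ρk / 10) / R)
      ≤ 10 * L * (√3 / N) := mul_le_mul_of_nonneg_left hsq (by positivity)
  have h5 : 10 * L * (√3 / N) + 10 * L * (√3 / N) ≤ 35 * L / N := by
    have e0 : 10 * L * (√3 / N) + 10 * L * (√3 / N) = (20 * √3) * L / N := by ring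
    rw [e0]
    apply div_le_div_of_nonneg_right _ hN0.le
    nlinarith
  linarith

/-- Explicit local modulus of continuity of the gradient along the maximum and minimum points
of touching balls of radius `R`, for every infinity-harmonic function: descending induction
over the scales `ρ₀ / (160 n²) ^ k`. -/
theorem sx_local [Nontrivial E] {u : E → ℝ} {Ω : Set E} (hΩ : IsOpen Ω)
    (hu : IsInfinityHarmonicOn u Ω)
    {y : E} {ρ₀ M₀ R : ℝ} (hρ₀ : 0 < ρ₀) (hM₀ : 0 < M₀) (hsub : ball y ρ₀ ⊆ Ω)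
    (hlip : ∀ p ∈ ball y ρ₀, ∀ q ∈ ball y ρ₀, u q - u p ≤ M₀ * ‖q - p‖)
    {n : ℕ} (hn : 2 ≤ n) (hρR : ρ₀ * (n : ℝ) ^ 2 ≤ R) :
    ∀ z ∈ ball y (ρ₀ / (160 * (n : ℝ) ^ 2) ^ (n ^ 3)),
      ∀ z' ∈ ball y (ρ₀ / (160 * (n : ℝ) ^ 2) ^ (n ^ 3)),
      ∀ c c' : E, ‖z - c‖ = R → ‖z' - c'‖ = R →
      ((∀ w ∈ closedBall c R, u w ≤ u z) ∨ (∀ w ∈ closedBall c R, u z ≤ u w)) →
      ((∀ w ∈ closedBall c' R, u w ≤ u z') ∨ (∀ w ∈ closedBall c' R, u z' ≤ u w)) →
      ‖gradient u z - gradient u z'‖ ≤ 35 * M₀ / n := by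
  have hn0 : (0 : ℝ) < n := by exact_mod_cast (by omega : 0 < n)
  have hn2 : (2 : ℝ) ≤ n := by exact_mod_cast hn
  have hn3 : (0 : ℝ) < (n : ℝ) ^ 3 := by positivity
  obtain ⟨Kc, hKc⟩ : ∃ Kc : ℝ, Kc = 160 * (n : ℝ) ^ 2 := ⟨_, rfl⟩
  rw [← hKc]
  have hKc1 : 1 ≤ Kc := by rw [hKc]; nlinarith
  have hKc0 : 0 < Kc := by linarith
  have hρpos : ∀ k : ℕ, 0 < ρ₀ / Kc ^ k := fun k => div_pos hρ₀ (pow_pos hKc0 k)
  have hρmono : ∀ k l : ℕ, k ≤ l → ρ₀ / Kc ^ l ≤ ρ₀ / Kc ^ k := by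
    intro k l hkl
    exact div_le_div_of_nonneg_left hρ₀.le (pow_pos hKc0 k) (pow_le_pow_right₀ hKc1 hkl)
  have hρsucc : ∀ k : ℕ, ρ₀ / Kc ^ (k + 1) = ρ₀ / Kc ^ k / Kc := by
    intro k
    rw [pow_succ, div_div]
  have key : ∀ k : ℕ, k ≤ n ^ 3 →
      (∀ p ∈ ball y (ρ₀ / Kc ^ k), ∀ q ∈ ball y (ρ₀ / Kc ^ k),
        u q - u p ≤ M₀ * (1 - (k : ℝ) / (n : ℝ) ^ 3) * ‖q - p‖) ∨
      (∀ z ∈ ball y (ρ₀ / Kc ^ (n ^ 3)), ∀ z' ∈ ball y (ρ₀ / Kc ^ (n ^ 3)),
        ∀ c c' : E, ‖z - c‖ = R → ‖z' - c'‖ = R →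
        ((∀ w ∈ closedBall c R, u w ≤ u z) ∨ (∀ w ∈ closedBall c R, u z ≤ u w)) →
        ((∀ w ∈ closedBall c' R, u w ≤ u z') ∨ (∀ w ∈ closedBall c' R, u z' ≤ u w)) →
        ‖gradient u z - gradient u z'‖ ≤ 35 * M₀ / n) := by
    intro k
    induction k with
    | zero =>
      intro _
      left
      intro p hp q hq
      have h := hlip p (by simpa using hp) q (by simpa using hq)
      simpa using h
    | succ k ih =>
      intro hk
      rcases ih (by omega) with h1 | h2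
      · obtain ⟨L, hL⟩ : ∃ L : ℝ, L = M₀ * (1 - (k : ℝ) / (n : ℝ) ^ 3) := ⟨_, rfl⟩
        rw [← hL] at h1
        have hkN : (k : ℝ) + 1 ≤ (n : ℝ) ^ 3 := by exact_mod_cast hk
        have hLpos : 0 < L := by
          rw [hL]
          apply mul_pos hM₀
          rw [sub_pos, div_lt_one hn3]
          linarith
        have hLM : L ≤ M₀ := by
          rw [hL]
          have h0 : 0 ≤ (k : ℝ) / (n : ℝ) ^ 3 := by positivity
          nlinarith
        have hlast : ball y (ρ₀ / Kc ^ (n ^ 3)) ⊆ ball y (ρ₀ / Kc ^ (k + 1)) :=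
          ball_subset_ball (hρmono _ _ hk)
        have hk1k : ball y (ρ₀ / Kc ^ (k + 1)) ⊆ ball y (ρ₀ / Kc ^ k) :=
          ball_subset_ball (hρmono _ _ (Nat.le_succ k))
        by_cases hcase : L < M₀ / n
        · right
          intro z hz z' hz' c c' _ _ _ _
          have a1 := sx_grad_le_of_lip hLpos.le h1 (hk1k (hlast hz))
          have a2 := sx_grad_le_of_lip hLpos.le h1 (hk1k (hlast hz'))
          have a3 : ‖gradient u z - gradient u z'‖ ≤ ‖gradient u z‖ + ‖gradient u z'‖ :=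
            norm_sub_le _ _
          have a4 : 2 * (M₀ / n) ≤ 35 * M₀ / n := by
            rw [mul_div_assoc]
            have h0 : 0 ≤ M₀ / n := by positivity
            linarith
          linarith
        · have hcase' : M₀ / n ≤ L := not_lt.mp hcase
          by_cases hall : ∀ p ∈ ball y (ρ₀ / Kc ^ (k + 1)), ∀ q ∈ ball y (ρ₀ / Kc ^ (k + 1)),
              u q - u p ≤ M₀ * (1 - ((k + 1 : ℕ) : ℝ) / (n : ℝ) ^ 3) * ‖q - p‖
          · left
            exact hall
          · right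
            push Not at hall
            obtain ⟨p, hp, q, hq, hpq⟩ := hall
            have hne : q ≠ p := by
              intro h
              rw [h] at hpq
              simp at hpq
            have hqp0 : 0 < ‖q - p‖ := norm_pos_iff.mpr (sub_ne_zero.mpr hne)
            have hlow : (1 - 1 / (n : ℝ) ^ 2) * L * ‖q - p‖ ≤ u q - u p := by
              have e1 : M₀ * (1 - ((k + 1 : ℕ) : ℝ) / (n : ℝ) ^ 3)
                  = L - M₀ / (n : ℝ) ^ 3 := by
                rw [hL]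
                push_cast
                field_simp
                ring
              have e2 : M₀ / (n : ℝ) ^ 3 ≤ L / (n : ℝ) ^ 2 := by
                have e : M₀ / (n : ℝ) ^ 3 = (M₀ / n) / (n : ℝ) ^ 2 := by
                  field_simp
                rw [e]
                exact div_le_div_of_nonneg_right hcase' (by positivity)
              have e3 : (1 - 1 / (n : ℝ) ^ 2) * L = L - L / (n : ℝ) ^ 2 := by ring
              have e4 : (1 - 1 / (n : ℝ) ^ 2) * L
                  ≤ M₀ * (1 - ((k + 1 : ℕ) : ℝ) / (n : ℝ) ^ 3) := by linarith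
              have e5 := mul_le_mul_of_nonneg_right e4 hqp0.le
              linarith
            obtain ⟨ρk, hρk⟩ : ∃ ρk : ℝ, ρk = ρ₀ / Kc ^ k := ⟨_, rfl⟩
            have hρk0 : 0 < ρk := by rw [hρk]; exact hρpos k
            have hρk1 : ρ₀ / Kc ^ (k + 1) = ρk / Kc := by rw [hρk]; exact hρsucc k
            have hρkle : ρk ≤ ρ₀ := by
              rw [hρk]
              simpa using hρmono 0 k (Nat.zero_le k)
            rw [hρk1] at hp hq hlast
            rw [← hρk] at h1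
            have hsub0 : ball y ρk ⊆ ball y ρ₀ := ball_subset_ball hρkle
            have hρR' : ρk * (n : ℝ) ^ 2 ≤ R :=
              (mul_le_mul_of_nonneg_right hρkle (by positivity)).trans hρR
            have hstep := sx_step hΩ hu hρk0 hLpos hn2 hKc (hsub0.trans hsub) h1 hρR'
              hp hq hne hlow
            intro z hz z' hz' c c' hzc hzc' hext hext'
            have g := hstep z (hlast hz) z' (hlast hz') c c' hzc hzc' hext hext'
            have g2 : 35 * L / n ≤ 35 * M₀ / n :=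
              div_le_div_of_nonneg_right (by linarith) hn0.le
            linarith
      · right
        exact h2
  rcases key (n ^ 3) le_rfl with h1 | h2
  · intro z hz z' hz' c c' _ _ _ _
    have e : M₀ * (1 - ((n ^ 3 : ℕ) : ℝ) / (n : ℝ) ^ 3) = 0 := by
      push_cast
      rw [div_self hn3.ne']
      ring
    rw [e] at h1
    have hz0 := sx_grad_le_of_lip le_rfl h1 hz
    have hz0' := sx_grad_le_of_lip le_rfl h1 hz'
    have a3 : ‖gradient u z - gradient u z'‖ ≤ ‖gradient u z‖ + ‖gradient u z'‖ :=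
      norm_sub_le _ _
    have a4 : 0 ≤ 35 * M₀ / n := by positivity
    linarith
  · exact h2

end

end Vale.Agent.Lib.P080
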