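import Mathlib
import Vale.Agent.Lib.P080.SxIter
import Vale.Agent.Lib.P080.Uniform

namespace Vale.Agent.Lib.P080

open Filter Topology Set Metric

section

variable {E : Type*} [NormedAddCommGroup E] [InnerProductSpace ℝ E] [CompleteSpace E]
  [ProperSpace E]

omit [InnerProductSpace ℝ E] [CompleteSpace E] [ProperSpace E] in
lemma sx_closedBall_sub {w : E} (hw : w ∈ ball (0 : E) (3 / 4)) :
    closedBall w (1 / 4) ⊆ ball (0 : E) 1 := by
  intro p hp
  rw [mem_closedBall, dist_eq_norm] at hp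
  rw [mem_ball, dist_zero_right] at hw ⊢
  have h1 : ‖p‖ ≤ ‖p - w‖ + ‖w‖ := by
    have h2 := norm_add_le (p - w) w
    rw [sub_add_cancel] at h2
    exact h2
  linarith

omit [InnerProductSpace ℝ E] [CompleteSpace E] [ProperSpace E] in
/-- The centre and the extremality of a touching ball. -/
lemma sx_centre {u : E → ℝ} {Ω : Set E} {R : ℝ} {x : E}
    (hex : IsSummit u Ω R x ∨ IsPit u Ω R x) :
    ∃ c : E, ‖x - c‖ = R ∧
      ((∀ w ∈ closedBall c R, u w ≤ u x) ∨ (∀ w ∈ closedBall c R, u x ≤ u w)) := by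
  rcases hex with hs | hs
  · obtain ⟨c, hd, -, hm⟩ := hs
    refine ⟨c, ?_, Or.inl hm⟩
    rw [← dist_eq_norm]
    exact hd
  · obtain ⟨c, hd, -, hm⟩ := hs
    refine ⟨c, ?_, Or.inr hm⟩
    rw [← dist_eq_norm]
    exact hd

/-- Explicit interior modulus of continuity of the derivative of any infinity-harmonic
function on the unit ball with `|u| ≤ 1`, along the maximum and minimum points of touching
balls of radius `R`. -/
theorem sx_unit {u : E → ℝ} (hu : IsInfinityHarmonicOn u (ball 0 1))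
    (hbd : ∀ x ∈ ball (0 : E) 1, |u x| ≤ 1) {R : ℝ} (hR : 0 < R) (hR4 : R < 1 / 4)
    {x y : E} (hx : ‖x‖ ≤ 1 / 2) (hy : ‖y‖ ≤ 1 / 2)
    (hex : IsSummit u (ball 0 1) R x ∨ IsPit u (ball 0 1) R x)
    (hey : IsSummit u (ball 0 1) R y ∨ IsPit u (ball 0 1) R y) :
    DifferentiableAt ℝ u x ∧ DifferentiableAt ℝ u y ∧
      ∀ n : ℕ, 0 < n → ‖x - y‖ * ((n : ℝ) ^ 2 * (160 * (n : ℝ) ^ 2) ^ (n ^ 3)) < R →
        ‖fderiv ℝ u x - fderiv ℝ u y‖ ≤ 280 / n := by
  have hdx : DifferentiableAt ℝ u x := differentiableAt_of_summit_or_pit isOpen_ball hu hR hex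
  have hdy : DifferentiableAt ℝ u y := differentiableAt_of_summit_or_pit isOpen_ball hu hR hey
  have hlip : ∀ p ∈ ball (0 : E) (3 / 4), ∀ q ∈ ball (0 : E) (3 / 4),
      u q - u p ≤ 8 * ‖q - p‖ := by
    intro p hp q hq
    have hq1 : q ∈ ball (0 : E) 1 := sx_closedBall_sub hq (mem_closedBall_self (by norm_num))
    have h1 := sub_le_of_bounded hu hbd (r := 1 / 4) (by norm_num) (sx_closedBall_sub hp) hq1
    have e : (2 : ℝ) / (1 / 4) = 8 := by norm_num
    rw [e] at h1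
    exact h1
  have hgrad : ∀ z ∈ ball (0 : E) (3 / 4), DifferentiableAt ℝ u z → ‖fderiv ℝ u z‖ ≤ 8 := by
    intro z hz hdz
    apply hdz.hasFDerivAt.le_of_lip' (by norm_num)
    filter_upwards [isOpen_ball.mem_nhds hz] with w hw
    have h1 := hlip z hz w hw
    have h2 := hlip w hw z hz
    rw [norm_sub_rev z w] at h2
    rw [Real.norm_eq_abs, abs_le]
    constructor <;> linarith
  have hx34 : x ∈ ball (0 : E) (3 / 4) := by
    rw [mem_ball, dist_zero_right]
    linarith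
  have hy34 : y ∈ ball (0 : E) (3 / 4) := by
    rw [mem_ball, dist_zero_right]
    linarith
  refine ⟨hdx, hdy, ?_⟩
  intro n hn hsmall
  rcases Nat.lt_or_ge n 2 with hlt | hge
  · have hn1 : n = 1 := by omega
    subst hn1
    have h1 := hgrad x hx34 hdx
    have h2 := hgrad y hy34 hdy
    have h3 := norm_sub_le (fderiv ℝ u x) (fderiv ℝ u y)
    norm_num
    linarith
  · obtain ⟨c, hc, hmx⟩ := sx_centre hex
    obtain ⟨c', hc', hmy⟩ := sx_centre hey
    have hnt : Nontrivial E := by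
      refine ⟨⟨x, c, ?_⟩⟩
      intro h
      rw [h, sub_self, norm_zero] at hc
      linarith
    have hn2 : (2 : ℝ) ≤ (n : ℝ) := by exact_mod_cast hge
    have hn2pos : (0 : ℝ) < (n : ℝ) ^ 2 := by positivity
    have hn21 : (1 : ℝ) ≤ (n : ℝ) ^ 2 := by nlinarith
    have hρ0 : 0 < R / (n : ℝ) ^ 2 := div_pos hR hn2pos
    have hρ14 : R / (n : ℝ) ^ 2 < 1 / 4 := by
      have h1 : R / (n : ℝ) ^ 2 ≤ R := div_le_self hR.le hn21
      linarith
    have hball34 : ball y (R / (n : ℝ) ^ 2) ⊆ ball (0 : E) (3 / 4) := by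
      intro p hp
      rw [mem_ball, dist_eq_norm] at hp
      rw [mem_ball, dist_zero_right]
      have h1 : ‖p‖ ≤ ‖p - y‖ + ‖y‖ := by
        have h2 := norm_add_le (p - y) y
        rw [sub_add_cancel] at h2
        exact h2
      linarith
    have hball1 : ball y (R / (n : ℝ) ^ 2) ⊆ ball (0 : E) 1 := fun p hp =>
      sx_closedBall_sub (hball34 hp) (mem_closedBall_self (by norm_num))
    have hP : (0 : ℝ) < (160 * (n : ℝ) ^ 2) ^ (n ^ 3) := by positivity
    have hρR : R / (n : ℝ) ^ 2 * (n : ℝ) ^ 2 ≤ R := by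
      rw [div_mul_cancel₀ _ hn2pos.ne']
    have key := sx_local isOpen_ball hu (y := y) (ρ₀ := R / (n : ℝ) ^ 2) (M₀ := 8) (R := R)
      hρ0 (by norm_num) hball1
      (fun p hp q hq => hlip p (hball34 hp) q (hball34 hq)) hge hρR
    have hxmem : x ∈ ball y (R / (n : ℝ) ^ 2 / (160 * (n : ℝ) ^ 2) ^ (n ^ 3)) := by
      rw [mem_ball, dist_eq_norm, div_div, lt_div_iff₀ (mul_pos hn2pos hP)]
      exact hsmall
    have hymem : y ∈ ball y (R / (n : ℝ) ^ 2 / (160 * (n : ℝ) ^ 2) ^ (n ^ 3)) :=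
      mem_ball_self (div_pos hρ0 hP)
    have h := key x hxmem y hymem c c' hc hc' hmx hmy
    have e1 : ‖fderiv ℝ u x - fderiv ℝ u y‖ = ‖gradient u x - gradient u y‖ := by
      rw [fderiv_eq_toDual u x, fderiv_eq_toDual u y, ← map_sub,
        LinearIsometryEquiv.norm_map]
    have e : (35 : ℝ) * 8 / n = 280 / n := by norm_num
    rw [e] at h
    rw [e1]
    exact h

end

end Vale.Agent.Lib.P080
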