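import Mathlib
import Vale.Agent.Lib.P080.Uniform
import Vale.Agent.Lib.P080.IsoInv

namespace Vale.Agent.Lib.P080

open Filter Topology Set Metric

section transport

variable {E F : Type*} [NormedAddCommGroup E] [NormedSpace ℝ E] [NormedAddCommGroup F]
  [NormedSpace ℝ F]

theorem mem_closedBall_map_isometry (Φ : F ≃ₗᵢ[ℝ] E) {c : E} {R : ℝ} {y : F}
    (hy : y ∈ closedBall (Φ.symm c) R) : Φ y ∈ closedBall c R := by
  rw [mem_closedBall] at hy ⊢
  have e : dist (Φ y) c = dist y (Φ.symm c) := by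
    rw [← Φ.symm.dist_map, Φ.symm_apply_apply]
  rw [e]
  exact hy

/-- Maximum points of touching balls are preserved by linear isometries. -/
theorem isSummit_comp_isometry (Φ : F ≃ₗᵢ[ℝ] E) {u : E → ℝ} {Ω : Set E} {R : ℝ} {x : E}
    (h : IsSummit u Ω R x) : IsSummit (fun y => u (Φ y)) (Φ ⁻¹' Ω) R (Φ.symm x) := by
  obtain ⟨c, hc, hball, hmax⟩ := h
  refine ⟨Φ.symm c, ?_, ?_, ?_⟩
  · rw [Φ.symm.dist_map]
    exact hc
  · intro y hy
    exact hball (mem_closedBall_map_isometry Φ hy)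
  · intro y hy
    have h1 := hmax (Φ y) (mem_closedBall_map_isometry Φ hy)
    show u (Φ y) ≤ u (Φ (Φ.symm x))
    rw [Φ.apply_symm_apply]
    exact h1

/-- Minimum points of touching balls are preserved by linear isometries. -/
theorem isPit_comp_isometry (Φ : F ≃ₗᵢ[ℝ] E) {u : E → ℝ} {Ω : Set E} {R : ℝ} {x : E}
    (h : IsPit u Ω R x) : IsPit (fun y => u (Φ y)) (Φ ⁻¹' Ω) R (Φ.symm x) := by
  obtain ⟨c, hc, hball, hmin⟩ := h
  refine ⟨Φ.symm c, ?_, ?_, ?_⟩
  · rw [Φ.symm.dist_map]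
    exact hc
  · intro y hy
    exact hball (mem_closedBall_map_isometry Φ hy)
  · intro y hy
    have h1 := hmin (Φ y) (mem_closedBall_map_isometry Φ hy)
    show u (Φ (Φ.symm x)) ≤ u (Φ y)
    rw [Φ.apply_symm_apply]
    exact h1

/-- The derivative of `u` in terms of the derivative of `u ∘ Φ`. -/
theorem hasFDerivAt_of_comp_isometry (Φ : F ≃ₗᵢ[ℝ] E) {u : E → ℝ} {x : E}
    (hd : DifferentiableAt ℝ (fun y => u (Φ y)) (Φ.symm x)) :
    HasFDerivAt u ((fderiv ℝ (fun y => u (Φ y)) (Φ.symm x)).comp (Φ.symm : E →L[ℝ] F)) x := by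
  have h1 : HasFDerivAt (fun y => u (Φ y)) (fderiv ℝ (fun y => u (Φ y)) (Φ.symm x))
      ((Φ.symm : E →L[ℝ] F) x) := hd.hasFDerivAt
  have h2 : HasFDerivAt (fun z : E => (Φ.symm : E →L[ℝ] F) z) (Φ.symm : E →L[ℝ] F) x :=
    (Φ.symm : E →L[ℝ] F).hasFDerivAt
  have h3 := h1.comp x h2
  have e : ((fun y => u (Φ y)) ∘ fun z : E => (Φ.symm : E →L[ℝ] F) z) = u := by
    funext z
    show u (Φ (Φ.symm z)) = u z
    rw [Φ.apply_symm_apply]
  rwa [e] at h3

end transport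

/-- The uniform estimate with a modulus depending only on the dimension: the same `δ` works
for every real inner product space of dimension `d`. -/
theorem uniform_endpoint_estimate_dim (d : ℕ) {R : ℝ} (hR : 0 < R) (hR4 : R < 1 / 4) {ε : ℝ}
    (hε : 0 < ε) :
    ∃ δ > 0, ∀ (E : Type) [NormedAddCommGroup E] [InnerProductSpace ℝ E] [CompleteSpace E]
      [FiniteDimensional ℝ E], Module.finrank ℝ E = d → ∀ u : E → ℝ,
      IsInfinityHarmonicOn u (ball 0 1) → (∀ x ∈ ball (0 : E) 1, |u x| ≤ 1) →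
      ∀ x y : E, ‖x‖ ≤ 1 / 2 → ‖y‖ ≤ 1 / 2 →
      (IsSummit u (ball 0 1) R x ∨ IsPit u (ball 0 1) R x) →
      (IsSummit u (ball 0 1) R y ∨ IsPit u (ball 0 1) R y) →
      ‖x - y‖ < δ → ‖fderiv ℝ u x - fderiv ℝ u y‖ < ε := by
  obtain ⟨δ, hδ, h⟩ := uniform_endpoint_estimate (E := EuclideanSpace ℝ (Fin d)) hR hR4 hε
  refine ⟨δ, hδ, ?_⟩
  intro E _ _ _ _ hE u hu hbd x y hx hy hex hey hxy
  obtain ⟨Φ⟩ : Nonempty (EuclideanSpace ℝ (Fin d) ≃ₗᵢ[ℝ] E) :=
    ⟨((stdOrthonormalBasis ℝ E).reindex (finCongr hE)).repr.symm⟩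
  have hpre : Φ ⁻¹' ball (0 : E) 1 = ball 0 1 := by
    ext p
    simp only [mem_preimage, mem_ball, dist_zero_right, Φ.norm_map]
  have hv : IsInfinityHarmonicOn (fun p => u (Φ p)) (ball 0 1) := by
    have h1 := isInfinityHarmonicOn_comp_isometry Φ hu
    rwa [hpre] at h1
  have hvbd : ∀ p ∈ ball (0 : EuclideanSpace ℝ (Fin d)) 1, |u (Φ p)| ≤ 1 := by
    intro p hp
    rw [← hpre] at hp
    exact hbd (Φ p) hp
  have hend : ∀ z : E, (IsSummit u (ball 0 1) R z ∨ IsPit u (ball 0 1) R z) →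
      (IsSummit (fun p => u (Φ p)) (ball 0 1) R (Φ.symm z) ∨
        IsPit (fun p => u (Φ p)) (ball 0 1) R (Φ.symm z)) := by
    intro z hz
    rcases hz with hz | hz
    · left
      have h1 := isSummit_comp_isometry Φ hz
      rwa [hpre] at h1
    · right
      have h1 := isPit_comp_isometry Φ hz
      rwa [hpre] at h1
  have hnx : ‖Φ.symm x‖ ≤ 1 / 2 := by rw [Φ.symm.norm_map]; exact hx
  have hny : ‖Φ.symm y‖ ≤ 1 / 2 := by rw [Φ.symm.norm_map]; exact hy
  have hxy' : ‖Φ.symm x - Φ.symm y‖ < δ := by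
    rw [← map_sub, Φ.symm.norm_map]
    exact hxy
  have hmain := h (fun p => u (Φ p)) hv hvbd (Φ.symm x) (Φ.symm y) hnx hny (hend x hex)
    (hend y hey) hxy'
  have hdx : DifferentiableAt ℝ (fun p => u (Φ p)) (Φ.symm x) :=
    differentiableAt_of_summit_or_pit isOpen_ball hv hR (hend x hex)
  have hdy : DifferentiableAt ℝ (fun p => u (Φ p)) (Φ.symm y) :=
    differentiableAt_of_summit_or_pit isOpen_ball hv hR (hend y hey)
  rw [(hasFDerivAt_of_comp_isometry Φ hdx).fderiv, (hasFDerivAt_of_comp_isometry Φ hdy).fderiv,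
    ← ContinuousLinearMap.sub_comp, ContinuousLinearMap.opNorm_comp_linearIsometryEquiv]
  exact hmain

end Vale.Agent.Lib.P080
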